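import Vale.Agent.P372.H625.Split

open Matrix Kronecker
open scoped ComplexOrder MatrixOrder

set_option linter.unusedSectionVars false

namespace Vale.Agent.P372

namespace H625

variable {A B C D E I F : Type} [Fintype A] [DecidableEq A] [Fintype B] [DecidableEq B]
  [Fintype C] [DecidableEq C] [Fintype D] [DecidableEq D] [Fintype E] [DecidableEq E]
  [Fintype I] [DecidableEq I] [Fintype F] [DecidableEq F]

/-- Cauchy-Schwarz for the Fisher information, in the eigenbasis of the state. -/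
theorem comm_le {l : I → ℝ} (hl : ∀ i, 0 ≤ l i) {G H : Matrix I I ℂ}
    (hH : H.IsHermitian) :
    ‖(diagonal (fun i => (l i : ℂ)) * (G * H - H * G)).trace‖ ^ 2 ≤
      qd l G * (diagonal (fun i => (l i : ℂ)) * (H * H)).trace.re := by
  have h1 : (diagonal (fun i => (l i : ℂ)) * (G * H - H * G)).trace =
      ∑ i, ∑ j, ((l i - l j : ℝ) : ℂ) * (G i j * H j i) := by
    rw [trace_diag_mul]
    have e1 : ∀ i, (l i : ℂ) * (G * H - H * G) i i =
        ∑ j, (l i : ℂ) * (G i j * H j i) - ∑ j, (l i : ℂ) * (G j i * H i j) := by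
      intro i
      rw [Matrix.sub_apply, mul_apply, mul_apply, mul_sub, Finset.mul_sum, Finset.mul_sum]
      congr 1
      refine Finset.sum_congr rfl fun j _ => ?_
      ring
    simp only [e1]
    rw [Finset.sum_sub_distrib]
    have e2 : ∑ i, ∑ j, (l i : ℂ) * (G j i * H i j) = ∑ i, ∑ j, (l j : ℂ) * (G i j * H j i) :=
      Finset.sum_comm
    rw [e2, ← Finset.sum_sub_distrib]
    refine Finset.sum_congr rfl fun i _ => ?_
    rw [← Finset.sum_sub_distrib]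
    refine Finset.sum_congr rfl fun j _ => ?_
    push_cast
    ring
  have h2 : (diagonal (fun i => (l i : ℂ)) * (H * H)).trace.re =
      ∑ i, ∑ j, l i * ‖H i j‖ ^ 2 := by
    rw [← trace_left]
    have : (Hᴴ * diagonal (fun i => (l i : ℂ)) * H).trace =
        (diagonal (fun i => (l i : ℂ)) * (H * H)).trace := by
      rw [hH.eq, Matrix.mul_assoc, trace_mul_comm, Matrix.mul_assoc]
    rw [this]
  have h3 := sum_symm l (fun i j => ‖H i j‖ ^ 2) (fun i j => by rw [norm_swap hH i j])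
  -- the two square sums
  have h4 : ‖(diagonal (fun i => (l i : ℂ)) * (G * H - H * G)).trace‖ ≤
      ∑ p : I × I, (√((l p.1 - l p.2) ^ 2 / (l p.1 + l p.2)) * ‖G p.1 p.2‖) *
        (√(l p.1 + l p.2) * ‖H p.1 p.2‖) := by
    rw [h1, Fintype.sum_prod_type]
    refine (norm_sum_le _ _).trans (Finset.sum_le_sum fun i _ => ?_)
    refine (norm_sum_le _ _).trans (Finset.sum_le_sum fun j _ => ?_)
    rw [norm_mul, norm_mul, Complex.norm_real, Real.norm_eq_abs, ← norm_swap hH i j]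
    have h0 : 0 ≤ l i + l j := add_nonneg (hl i) (hl j)
    have h5 : |l i - l j| ≤ √((l i - l j) ^ 2 / (l i + l j)) * √(l i + l j) := by
      rcases h0.eq_or_lt with h | h
      · have hi : l i = 0 := by linarith [hl i, hl j]
        have hj : l j = 0 := by linarith [hl i, hl j]
        rw [hi, hj]
        simp
      · rw [← Real.sqrt_mul (by positivity), div_mul_cancel₀ _ h.ne', Real.sqrt_sq_eq_abs]
    calc |l i - l j| * (‖G i j‖ * ‖H i j‖) ≤
        (√((l i - l j) ^ 2 / (l i + l j)) * √(l i + l j)) * (‖G i j‖ * ‖H i j‖) :=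
          mul_le_mul_of_nonneg_right h5 (by positivity)
      _ = _ := by ring
  have h6 := Finset.sum_mul_sq_le_sq_mul_sq (Finset.univ : Finset (I × I))
    (fun p => √((l p.1 - l p.2) ^ 2 / (l p.1 + l p.2)) * ‖G p.1 p.2‖)
    (fun p => √(l p.1 + l p.2) * ‖H p.1 p.2‖)
  have h7 : ∑ p : I × I, (√((l p.1 - l p.2) ^ 2 / (l p.1 + l p.2)) * ‖G p.1 p.2‖) ^ 2 =
      qd l G / 2 := by
    rw [Fintype.sum_prod_type, qd, Finset.sum_div]
    refine Finset.sum_congr rfl fun i _ => ?_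
    rw [Finset.sum_div]
    refine Finset.sum_congr rfl fun j _ => ?_
    have h0 : 0 ≤ l i + l j := add_nonneg (hl i) (hl j)
    rw [mul_pow, Real.sq_sqrt (div_nonneg (sq_nonneg _) h0)]
    ring
  have h8 : ∑ p : I × I, (√(l p.1 + l p.2) * ‖H p.1 p.2‖) ^ 2 =
      2 * ∑ i, ∑ j, l i * ‖H i j‖ ^ 2 := by
    rw [h3, Fintype.sum_prod_type]
    refine Finset.sum_congr rfl fun i _ => Finset.sum_congr rfl fun j _ => ?_
    rw [mul_pow, Real.sq_sqrt (add_nonneg (hl i) (hl j))]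
  rw [h7, h8] at h6
  rw [h2]
  calc _ ≤ (∑ p : I × I, (√((l p.1 - l p.2) ^ 2 / (l p.1 + l p.2)) * ‖G p.1 p.2‖) *
        (√(l p.1 + l p.2) * ‖H p.1 p.2‖)) ^ 2 := pow_le_pow_left₀ (norm_nonneg _) h4 2
    _ ≤ _ := h6
    _ = _ := by ring

section transport

variable {σ : Matrix I I ℂ} (hσ : σ.PosSemidef)

include hσ

theorem tr_conj (M : Matrix I I ℂ) : (σ * M).trace =
    (diagonal (fun i => (hσ.1.eigenvalues i : ℂ)) * ((hσ.1.eigenvectorUnitary : Matrix I I ℂ)ᴴ *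
      M * (hσ.1.eigenvectorUnitary : Matrix I I ℂ))).trace := by
  conv_lhs => rw [spectral_eq hσ.1]
  rw [Matrix.mul_assoc, Matrix.mul_assoc, trace_mul_comm]
  congr 1
  simp only [Matrix.mul_assoc]

theorem conj_mul (M N : Matrix I I ℂ) : (hσ.1.eigenvectorUnitary : Matrix I I ℂ)ᴴ *
      (M * N) * (hσ.1.eigenvectorUnitary : Matrix I I ℂ) =
    ((hσ.1.eigenvectorUnitary : Matrix I I ℂ)ᴴ * M * (hσ.1.eigenvectorUnitary : Matrix I I ℂ)) *
    ((hσ.1.eigenvectorUnitary : Matrix I I ℂ)ᴴ * N *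
      (hσ.1.eigenvectorUnitary : Matrix I I ℂ)) := by
  have h := eigU_mul hσ.1
  calc _ = (hσ.1.eigenvectorUnitary : Matrix I I ℂ)ᴴ * M * 1 * N *
      (hσ.1.eigenvectorUnitary : Matrix I I ℂ) := by
        rw [Matrix.mul_one]; simp only [Matrix.mul_assoc]
    _ = _ := by rw [← h]; simp only [Matrix.mul_assoc]

theorem conj_left (M : Matrix I I ℂ) : (Mᴴ * σ * M).trace =
    (((hσ.1.eigenvectorUnitary : Matrix I I ℂ)ᴴ * M *
      (hσ.1.eigenvectorUnitary : Matrix I I ℂ))ᴴ *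
      diagonal (fun i => (hσ.1.eigenvalues i : ℂ)) *
      ((hσ.1.eigenvectorUnitary : Matrix I I ℂ)ᴴ * M *
        (hσ.1.eigenvectorUnitary : Matrix I I ℂ))).trace := by
  have key : ∀ (X N : Matrix I I ℂ), (Nᴴ * X * N).trace = (X * (N * Nᴴ)).trace := by
    intro X N
    rw [Matrix.mul_assoc, trace_mul_comm, Matrix.mul_assoc]
  rw [key, key, tr_conj hσ, conj_mul hσ]
  congr 3
  rw [conjTranspose_mul, conjTranspose_mul, conjTranspose_conjTranspose]
  simp only [Matrix.mul_assoc]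

theorem conj_right (M : Matrix I I ℂ) : (M * σ * Mᴴ).trace =
    (((hσ.1.eigenvectorUnitary : Matrix I I ℂ)ᴴ * M *
      (hσ.1.eigenvectorUnitary : Matrix I I ℂ)) *
      diagonal (fun i => (hσ.1.eigenvalues i : ℂ)) *
      ((hσ.1.eigenvectorUnitary : Matrix I I ℂ)ᴴ * M *
        (hσ.1.eigenvectorUnitary : Matrix I I ℂ))ᴴ).trace := by
  have h := conj_left hσ Mᴴ
  rw [conjTranspose_conjTranspose] at h
  rw [h]
  have e : ((hσ.1.eigenvectorUnitary : Matrix I I ℂ)ᴴ * Mᴴ *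
      (hσ.1.eigenvectorUnitary : Matrix I I ℂ)) =
      ((hσ.1.eigenvectorUnitary : Matrix I I ℂ)ᴴ * M *
      (hσ.1.eigenvectorUnitary : Matrix I I ℂ))ᴴ := by
    rw [conjTranspose_mul, conjTranspose_mul, conjTranspose_conjTranspose]
    simp only [Matrix.mul_assoc]
  rw [e, conjTranspose_conjTranspose]

theorem conj_herm {M : Matrix I I ℂ} (hM : M.IsHermitian) :
    ((hσ.1.eigenvectorUnitary : Matrix I I ℂ)ᴴ * M *
      (hσ.1.eigenvectorUnitary : Matrix I I ℂ)).IsHermitian :=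
  isHermitian_conjTranspose_mul_mul _ hM

/-- A good splitting of the generator gives a good observable. -/
theorem exists_obs {G G₁ G₂ : Matrix I I ℂ} (hG : G.IsHermitian) (h : G₁ + G₂ = G) {v : ℝ}
    (hv : 0 ≤ v) (hlt : 4 * v < 4 * (σ * (G * G)).trace.re -
      8 * ((G₁ᴴ * σ * G₁).trace.re + (G₂ * σ * G₂ᴴ).trace.re)) :
    ∃ H : Matrix I I ℂ, H.IsHermitian ∧
      4 * (σ * (H * H)).trace.re * v < ‖(σ * (G * H - H * G)).trace‖ ^ 2 := by
  obtain ⟨U, hU⟩ : ∃ U, U = (hσ.1.eigenvectorUnitary : Matrix I I ℂ) := ⟨_, rfl⟩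
  obtain ⟨l, hl⟩ : ∃ l, l = hσ.1.eigenvalues := ⟨_, rfl⟩
  have hl0 : ∀ i, 0 ≤ l i := fun i => hl ▸ hσ.eigenvalues_nonneg i
  have hUU : U * Uᴴ = 1 := hU ▸ eigU_mul hσ.1
  have hUU' : Uᴴ * U = 1 := hU ▸ eigU_mul' hσ.1
  have htr : ∀ M : Matrix I I ℂ, (σ * M).trace =
      (diagonal (fun i => (l i : ℂ)) * (Uᴴ * M * U)).trace := by
    intro M
    rw [hU, hl]
    exact tr_conj hσ M
  have hmul : ∀ M N : Matrix I I ℂ, Uᴴ * (M * N) * U = (Uᴴ * M * U) * (Uᴴ * N * U) := by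
    intro M N
    rw [hU]
    exact conj_mul hσ M N
  have hGh : (Uᴴ * G * U).IsHermitian := isHermitian_conjTranspose_mul_mul _ hG
  obtain ⟨H', hH'⟩ : ∃ H', H' = hopt l (Uᴴ * G * U) := ⟨_, rfl⟩
  have hH'h : H'.IsHermitian := hH' ▸ hopt_herm l hGh
  have hback : Uᴴ * (U * H' * Uᴴ) * U = H' := by
    calc _ = (Uᴴ * U) * H' * (Uᴴ * U) := by simp only [Matrix.mul_assoc]
      _ = _ := by rw [hUU', Matrix.one_mul, Matrix.mul_one]
  refine ⟨U * H' * Uᴴ, ?_, ?_⟩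
  · have := isHermitian_conjTranspose_mul_mul Uᴴ hH'h
    rwa [conjTranspose_conjTranspose] at this
  have e1 : (σ * ((U * H' * Uᴴ) * (U * H' * Uᴴ))).trace.re = qd l (Uᴴ * G * U) := by
    rw [htr, hmul, hback, hH', trace_hopt_sq l hGh]
  have e2 : (σ * (G * (U * H' * Uᴴ) - (U * H' * Uᴴ) * G)).trace =
      -(Complex.I * (qd l (Uᴴ * G * U) : ℂ)) := by
    rw [htr, Matrix.mul_sub, Matrix.sub_mul, hmul G, hmul _ G, hback, hH', trace_hopt_comm l hGh]
  have hsum : Uᴴ * G₁ * U + Uᴴ * G₂ * U = Uᴴ * G * U := by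
    rw [← Matrix.add_mul, ← Matrix.mul_add, h]
  have h3 := split_diag hl0 hGh _ _ hsum
  have e3 : (G₁ᴴ * σ * G₁).trace = ((Uᴴ * G₁ * U)ᴴ * diagonal (fun i => (l i : ℂ)) *
      (Uᴴ * G₁ * U)).trace := by
    rw [hU, hl]
    exact conj_left hσ G₁
  have e4 : (G₂ * σ * G₂ᴴ).trace = ((Uᴴ * G₂ * U) * diagonal (fun i => (l i : ℂ)) *
      (Uᴴ * G₂ * U)ᴴ).trace := by
    rw [hU, hl]
    exact conj_right hσ G₂
  rw [← e3, ← e4, ← hmul, ← htr] at h3
  have hq : 4 * v < qd l (Uᴴ * G * U) := lt_of_lt_of_le hlt h3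
  rw [e1, e2, norm_neg, norm_mul, Complex.norm_I, one_mul, Complex.norm_real, Real.norm_eq_abs,
    sq_abs]
  nlinarith

/-- A good observable gives a good splitting of the generator. -/
theorem exists_split {G H : Matrix I I ℂ} (hG : G.IsHermitian) (hH : H.IsHermitian) {v : ℝ}
    (hlt : 4 * (σ * (H * H)).trace.re * v < ‖(σ * (G * H - H * G)).trace‖ ^ 2) :
    ∃ G₁ G₂ : Matrix I I ℂ, G₁ + G₂ = G ∧ 4 * v < 4 * (σ * (G * G)).trace.re -
      8 * ((G₁ᴴ * σ * G₁).trace.re + (G₂ * σ * G₂ᴴ).trace.re) := by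
  obtain ⟨U, hU⟩ : ∃ U, U = (hσ.1.eigenvectorUnitary : Matrix I I ℂ) := ⟨_, rfl⟩
  obtain ⟨l, hl⟩ : ∃ l, l = hσ.1.eigenvalues := ⟨_, rfl⟩
  have hl0 : ∀ i, 0 ≤ l i := fun i => hl ▸ hσ.eigenvalues_nonneg i
  have hUU : U * Uᴴ = 1 := hU ▸ eigU_mul hσ.1
  have hUU' : Uᴴ * U = 1 := hU ▸ eigU_mul' hσ.1
  have htr : ∀ M : Matrix I I ℂ, (σ * M).trace =
      (diagonal (fun i => (l i : ℂ)) * (Uᴴ * M * U)).trace := by
    intro M
    rw [hU, hl]
    exact tr_conj hσ M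
  have hmul : ∀ M N : Matrix I I ℂ, Uᴴ * (M * N) * U = (Uᴴ * M * U) * (Uᴴ * N * U) := by
    intro M N
    rw [hU]
    exact conj_mul hσ M N
  have hGh : (Uᴴ * G * U).IsHermitian := isHermitian_conjTranspose_mul_mul _ hG
  have hHh : (Uᴴ * H * U).IsHermitian := isHermitian_conjTranspose_mul_mul _ hH
  have h1 := comm_le (G := Uᴴ * G * U) hl0 hHh
  rw [← hmul, ← hmul, ← Matrix.sub_mul, ← Matrix.mul_sub, ← htr, ← hmul, ← htr] at h1
  obtain ⟨P₁, P₂, hP, hq⟩ := split_opt hl0 hGh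
  have hback : ∀ M : Matrix I I ℂ, Uᴴ * (U * M * Uᴴ) * U = M := by
    intro M
    calc _ = (Uᴴ * U) * M * (Uᴴ * U) := by simp only [Matrix.mul_assoc]
      _ = _ := by rw [hUU', Matrix.one_mul, Matrix.mul_one]
  refine ⟨U * P₁ * Uᴴ, U * P₂ * Uᴴ, ?_, ?_⟩
  · rw [← Matrix.add_mul, ← Matrix.mul_add, hP]
    calc _ = (U * Uᴴ) * G * (U * Uᴴ) := by simp only [Matrix.mul_assoc]
      _ = _ := by rw [hUU, Matrix.one_mul, Matrix.mul_one]
  have e3 : ((U * P₁ * Uᴴ)ᴴ * σ * (U * P₁ * Uᴴ)).trace =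
      (P₁ᴴ * diagonal (fun i => (l i : ℂ)) * P₁).trace := by
    have := conj_left hσ (U * P₁ * Uᴴ)
    rw [← hU, ← hl, hback] at this
    exact this
  have e4 : ((U * P₂ * Uᴴ) * σ * (U * P₂ * Uᴴ)ᴴ).trace =
      (P₂ * diagonal (fun i => (l i : ℂ)) * P₂ᴴ).trace := by
    have := conj_right hσ (U * P₂ * Uᴴ)
    rw [← hU, ← hl, hback] at this
    exact this
  rw [e3, e4]
  have e5 : (σ * (G * G)).trace.re =
      (diagonal (fun i => (l i : ℂ)) * ((Uᴴ * G * U) * (Uᴴ * G * U))).trace.re := by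
    rw [htr, hmul]
  rw [e5, ← hq]
  have hT0 : 0 ≤ (σ * (H * H)).trace.re := by
    have h5 := (hσ.mul_mul_conjTranspose_same H).trace_nonneg
    rw [hH.eq, Matrix.mul_assoc, trace_mul_comm, Matrix.mul_assoc] at h5
    exact (Complex.le_def.mp h5).1
  by_contra hcon
  rw [not_lt] at hcon
  have h6 := mul_le_mul_of_nonneg_right hcon hT0
  linarith

end transport

/-- **The splitting criterion.** -/
theorem split_iff (Ψ : Matrix (A × B) E ℂ) (hΨ : (Ψ * Ψᴴ).trace = 1) :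
    0 < distillableKey Ψ ↔ ∃ (n : ℕ) (C D : Type) (_ : Fintype C) (_ : DecidableEq C)
      (_ : Fintype D) (_ : DecidableEq D) (X : Matrix C (Fin n → A) ℂ)
      (Y : Matrix D (Fin n → B) ℂ) (a : Matrix C C ℂ) (b : Matrix D D ℂ)
      (G₁ G₂ : Matrix (C × D) (C × D) ℂ), 1 ≤ n ∧ a.IsHermitian ∧ b.IsHermitian ∧
      G₁ + G₂ = a ⊗ₖ 1 + 1 ⊗ₖ b ∧
      (G₁ᴴ * filtered n (Ψ * Ψᴴ) X Y * G₁).trace.re +
        (G₂ * filtered n (Ψ * Ψᴴ) X Y * G₂ᴴ).trace.re <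
        (filtered n (Ψ * Ψᴴ) X Y * (a ⊗ₖ b)).trace.re := by
  have hpsd : ∀ {C D : Type} [Fintype C] [DecidableEq C] [Fintype D] [DecidableEq D] (n : ℕ)
      (X : Matrix C (Fin n → A) ℂ) (Y : Matrix D (Fin n → B) ℂ),
      (filtered n (Ψ * Ψᴴ) X Y).PosSemidef := by
    intro C D _ _ _ _ n X Y
    rw [Metro.filtered_eq]
    exact posSemidef_self_mul_conjTranspose _
  have h5 : ∀ {C D : Type} [Fintype C] [DecidableEq C] [Fintype D] [DecidableEq D]
      (σ : Matrix (C × D) (C × D) ℂ) (a : Matrix C C ℂ) (b : Matrix D D ℂ),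
      (σ * ((a ⊗ₖ 1 + 1 ⊗ₖ b) * (a ⊗ₖ 1 + 1 ⊗ₖ b))).trace.re =
        (σ * ((a * a) ⊗ₖ 1)).trace.re + (σ * (1 ⊗ₖ (b * b))).trace.re +
        2 * (σ * (a ⊗ₖ b)).trace.re := by
    intro C D _ _ _ _ σ a b
    rw [Metro.kron_sq, Matrix.mul_add, Matrix.mul_add, Matrix.mul_add, trace_add, trace_add,
      trace_add, Complex.add_re, Complex.add_re, Complex.add_re]
    ring
  have h0 : ∀ {C D : Type} [Fintype C] [DecidableEq C] [Fintype D] [DecidableEq D]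
      {σ : Matrix (C × D) (C × D) ℂ}, σ.PosSemidef → ∀ {a : Matrix C C ℂ} {b : Matrix D D ℂ},
      a.IsHermitian → b.IsHermitian →
      0 ≤ (σ * ((a * a) ⊗ₖ 1)).trace.re + (σ * (1 ⊗ₖ (b * b))).trace.re := by
    intro C D _ _ _ _ σ hσ a b ha hb
    have hsq : ∀ H : Matrix (C × D) (C × D) ℂ, H.IsHermitian → 0 ≤ (σ * (H * H)).trace.re := by
      intro H hH
      have h5 := (hσ.mul_mul_conjTranspose_same H).trace_nonneg
      rw [hH.eq, Matrix.mul_assoc, trace_mul_comm, Matrix.mul_assoc] at h5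
      exact (Complex.le_def.mp h5).1
    have hA := hsq (a ⊗ₖ 1) (by
      rw [IsHermitian, conjTranspose_kronecker, ha.eq, conjTranspose_one])
    have hB := hsq (1 ⊗ₖ b) (by
      rw [IsHermitian, conjTranspose_kronecker, hb.eq, conjTranspose_one])
    rw [← mul_kronecker_mul, Matrix.one_mul] at hA hB
    exact add_nonneg hA hB
  constructor
  · intro h
    rw [Metro.cov_iff Ψ hΨ (c := 1 / 2) (by norm_num) le_rfl] at h
    obtain ⟨n, C, D, _, _, _, _, X, Y, a, b, hn, ha, hb, h⟩ := h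
    obtain ⟨σ, hσ'⟩ : ∃ σ, σ = filtered n (Ψ * Ψᴴ) X Y := ⟨_, rfl⟩
    have hσ : σ.PosSemidef := hσ' ▸ hpsd n X Y
    rw [← hσ'] at h
    have hv := h0 hσ ha hb
    have hG := Metro.kron_herm ha hb
    have hsplit : (σ * ((a ⊗ₖ 1 + 1 ⊗ₖ b) * (a ⊗ₖ 1 + 1 ⊗ₖ b) -
        (4 * (1 / 2 : ℝ) : ℂ) • (a ⊗ₖ b))).trace.re =
        (σ * ((a * a) ⊗ₖ 1)).trace.re + (σ * (1 ⊗ₖ (b * b))).trace.re := by
      rw [Matrix.mul_sub, trace_sub, Matrix.mul_smul, trace_smul, Complex.sub_re, h5, smul_eq_mul]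
      have : (4 * (1 / 2 : ℝ) : ℂ) = ((2 : ℝ) : ℂ) := by push_cast; norm_num
      rw [this, Complex.re_ofReal_mul]
      ring
    rw [hsplit] at h
    have hsq : ∀ H : Matrix (C × D) (C × D) ℂ, H.IsHermitian → 0 ≤ (σ * (H * H)).trace.re := by
      intro H hH
      have h5 := (hσ.mul_mul_conjTranspose_same H).trace_nonneg
      rw [hH.eq, Matrix.mul_assoc, trace_mul_comm, Matrix.mul_assoc] at h5
      exact (Complex.le_def.mp h5).1
    obtain ⟨H, hH, hlt⟩ := Metro.exists_of_lt_qfi hv hsq h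
    obtain ⟨G₁, G₂, hs, hlt2⟩ := exists_split hσ hG hH hlt
    refine ⟨n, C, D, inferInstance, inferInstance, inferInstance, inferInstance, X, Y, a, b,
      G₁, G₂, hn, ha, hb, hs, ?_⟩
    rw [← hσ']
    rw [h5] at hlt2
    linarith
  · rintro ⟨n, C, D, _, _, _, _, X, Y, a, b, G₁, G₂, hn, ha, hb, hs, hlt⟩
    obtain ⟨σ, hσ'⟩ : ∃ σ, σ = filtered n (Ψ * Ψᴴ) X Y := ⟨_, rfl⟩
    have hσ : σ.PosSemidef := hσ' ▸ hpsd n X Y
    rw [← hσ'] at hlt
    have hv := h0 hσ ha hb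
    have hG := Metro.kron_herm ha hb
    obtain ⟨H, hH, h⟩ := exists_obs hσ hG hs hv (by rw [h5]; linarith)
    rw [hσ'] at h
    exact Metro.local_pos Ψ hΨ hn X Y ha hb hH h

end H625

end Vale.Agent.P372
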