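import Vale.Agent.P372.Lim.Sep
import Vale.Agent.P372.H625.Crit
import Mathlib.Analysis.Convex.Caratheodory
import Mathlib.LinearAlgebra.AffineSpace.FiniteDimensional

open Matrix Kronecker
open scoped ComplexOrder MatrixOrder

set_option linter.unusedSectionVars false

namespace Vale.Agent.P372

namespace H625

variable {A B : Type} [Fintype A] [DecidableEq A] [Fintype B] [DecidableEq B]

/-- the operators `R` with `tr R* R = 1` -/
def US (A : Type) [Fintype A] : Set (Matrix A A ℂ) := {R | (Rᴴ * R).trace = 1}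

theorem trace_sq (R : Matrix A A ℂ) :
    (Rᴴ * R).trace = ((∑ p : A × A, ‖R p.1 p.2‖ ^ 2 : ℝ) : ℂ) := by
  rw [Fintype.sum_prod_type, Finset.sum_comm, trace]
  push_cast
  refine Finset.sum_congr rfl fun i _ => ?_
  rw [diag_apply, mul_apply]
  refine Finset.sum_congr rfl fun j _ => ?_
  rw [conjTranspose_apply, RCLike.star_def, Complex.conj_mul']

theorem us_compact : IsCompact (US A) := by
  have h1 : IsCompact (Set.pi Set.univ fun _ : A => Set.pi Set.univ fun _ : A =>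
      Metric.closedBall (0 : ℂ) 1) :=
    isCompact_univ_pi fun _ => isCompact_univ_pi fun _ => isCompact_closedBall _ _
  refine h1.of_isClosed_subset ?_ ?_
  · exact isClosed_eq (continuous_id.matrix_conjTranspose.matrix_mul continuous_id).matrix_trace
      continuous_const
  · rintro (R : Matrix A A ℂ) hR
    have h2 : (Rᴴ * R).trace = 1 := hR
    rw [trace_sq] at h2
    have h3 : ∑ p : A × A, ‖R p.1 p.2‖ ^ 2 = 1 := by exact_mod_cast h2
    refine Set.mem_univ_pi.mpr fun i => Set.mem_univ_pi.mpr fun k => ?_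
    rw [mem_closedBall_zero_iff]
    have h4 : ‖R i k‖ ^ 2 ≤ 1 := by
      rw [← h3]
      exact Finset.single_le_sum (f := fun p : A × A => ‖R p.1 p.2‖ ^ 2)
        (fun _ _ => by positivity) (Finset.mem_univ (i, k))
    exact (sq_le_one_iff₀ (norm_nonneg _)).mp h4

/-- mixtures of `N` product states -/
noncomputable def mixMap (N : ℕ)
    (x : (Fin N → ℝ) × (Fin N → Matrix A A ℂ) × (Fin N → Matrix B B ℂ)) :
    Matrix (A × B) (A × B) ℂ :=
  ∑ i, (x.1 i : ℂ) • (((x.2.1 i)ᴴ * x.2.1 i) ⊗ₖ ((x.2.2 i)ᴴ * x.2.2 i))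

theorem mixMap_continuous (N : ℕ) : Continuous (mixMap (A := A) (B := B) N) := by
  refine continuous_finsetSum _ fun i _ => ?_
  have h0 : Continuous fun x : (Fin N → ℝ) × (Fin N → Matrix A A ℂ) ×
      (Fin N → Matrix B B ℂ) => (x.1 i : ℂ) :=
    Complex.continuous_ofReal.comp ((continuous_apply i).comp continuous_fst)
  have h1 : Continuous fun x : (Fin N → ℝ) × (Fin N → Matrix A A ℂ) ×
      (Fin N → Matrix B B ℂ) => (x.2.1 i)ᴴ * x.2.1 i := by
    have : Continuous fun x : (Fin N → ℝ) × (Fin N → Matrix A A ℂ) ×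
        (Fin N → Matrix B B ℂ) => x.2.1 i :=
      (continuous_apply i).comp (continuous_fst.comp continuous_snd)
    exact this.matrix_conjTranspose.matrix_mul this
  have h2 : Continuous fun x : (Fin N → ℝ) × (Fin N → Matrix A A ℂ) ×
      (Fin N → Matrix B B ℂ) => (x.2.2 i)ᴴ * x.2.2 i := by
    have : Continuous fun x : (Fin N → ℝ) × (Fin N → Matrix A A ℂ) ×
        (Fin N → Matrix B B ℂ) => x.2.2 i :=
      (continuous_apply i).comp (continuous_snd.comp continuous_snd)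
    exact this.matrix_conjTranspose.matrix_mul this
  refine continuous_matrix fun p q => ?_
  simp only [Matrix.smul_apply, kroneckerMap_apply, smul_eq_mul]
  exact h0.mul ((h1.matrix_elem _ _).mul (h2.matrix_elem _ _))

/-- the set of mixtures of `N` product states -/
def mixSet (A B : Type) [Fintype A] [DecidableEq A] [Fintype B] [DecidableEq B] (N : ℕ) :
    Set (Matrix (A × B) (A × B) ℂ) :=
  mixMap N '' (stdSimplex ℝ (Fin N) ×ˢ ((Set.pi Set.univ fun _ => US A) ×ˢ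
    (Set.pi Set.univ fun _ => US B)))

theorem mixSet_closed (N : ℕ) : IsClosed (mixSet A B N) := by
  refine (IsCompact.image ?_ (mixMap_continuous N)).isClosed
  exact (isCompact_stdSimplex ℝ _).prod ((isCompact_univ_pi fun _ => us_compact).prod
    (isCompact_univ_pi fun _ => us_compact))

theorem mixSet_sep {N : ℕ} {ρ : Matrix (A × B) (A × B) ℂ} (h : ρ ∈ mixSet A B N) : IsSep ρ := by
  obtain ⟨x, ⟨hx1, -⟩, rfl⟩ := h
  refine ⟨N, fun i => (x.1 i : ℂ) • ((x.2.1 i)ᴴ * x.2.1 i), fun i => (x.2.2 i)ᴴ * x.2.2 i,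
    fun i => ?_, fun i => posSemidef_conjTranspose_mul_self _, ?_⟩
  · refine (posSemidef_conjTranspose_mul_self _).smul ?_
    exact_mod_cast hx1.1 i
  · rw [mixMap]
    exact Finset.sum_congr rfl fun i _ => (smul_kronecker _ _ _).symm

/-- the product states -/
def prodSet (A B : Type) [Fintype A] [Fintype B] : Set (Matrix (A × B) (A × B) ℂ) :=
  {σ | ∃ R ∈ US A, ∃ S ∈ US B, σ = (Rᴴ * R) ⊗ₖ (Sᴴ * S)}

theorem exists_us {M : Matrix A A ℂ} (hM : M.PosSemidef) (h : M.trace ≠ 0) :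
    ∃ R ∈ US A, M = (M.trace.re : ℂ) • (Rᴴ * R) := by
  obtain ⟨S, rfl⟩ := exists_eq_conjTranspose_mul_self hM
  obtain ⟨t, ht⟩ : ∃ t, t = ∑ p : A × A, ‖S p.1 p.2‖ ^ 2 := ⟨_, rfl⟩
  have h1 : (Sᴴ * S).trace = (t : ℂ) := by rw [trace_sq, ht]
  have h0 : 0 ≤ t := by
    rw [ht]
    positivity
  have h2 : t ≠ 0 := by
    intro h3
    apply h
    rw [h1, h3]
    rfl
  have h3 : 0 < t := lt_of_le_of_ne h0 (Ne.symm h2)
  have h4 : (((√t)⁻¹ : ℝ) : ℂ) * (((√t)⁻¹ : ℝ) : ℂ) = ((t⁻¹ : ℝ) : ℂ) := by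
    rw [← Complex.ofReal_mul, ← mul_inv, Real.mul_self_sqrt h0]
  have h5 : ((((√t)⁻¹ : ℝ) : ℂ) • S)ᴴ * ((((√t)⁻¹ : ℝ) : ℂ) • S) =
      ((t⁻¹ : ℝ) : ℂ) • (Sᴴ * S) := by
    rw [conjTranspose_smul, Matrix.smul_mul, Matrix.mul_smul, smul_smul, RCLike.star_def,
      Complex.conj_ofReal, h4]
  refine ⟨(((√t)⁻¹ : ℝ) : ℂ) • S, ?_, ?_⟩
  · change (((((√t)⁻¹ : ℝ) : ℂ) • S)ᴴ * ((((√t)⁻¹ : ℝ) : ℂ) • S)).trace = 1
    rw [h5, trace_smul, h1, smul_eq_mul, ← Complex.ofReal_mul, inv_mul_cancel₀ h2]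
    rfl
  · rw [h5, h1, Complex.ofReal_re, smul_smul, ← Complex.ofReal_mul, mul_inv_cancel₀ h2,
      Complex.ofReal_one, one_smul]

theorem us_nonempty (h : Nonempty A) : (US A).Nonempty := by
  obtain ⟨a⟩ := h
  refine ⟨Matrix.single a a 1, ?_⟩
  change ((Matrix.single a a (1 : ℂ))ᴴ * Matrix.single a a 1).trace = 1
  rw [conjTranspose_single, star_one, single_mul_single_same, mul_one, trace_single_eq_same]

theorem sep_mem_convexHull {ρ : Matrix (A × B) (A × B) ℂ} (h : IsSep ρ) (h1 : ρ.trace = 1) :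
    ρ ∈ convexHull ℝ (prodSet A B) := by
  obtain ⟨n, M, N, hM, hN, hρ⟩ := h
  have hA : Nonempty (A × B) := by
    by_contra hc
    rw [not_nonempty_iff] at hc
    rw [Matrix.trace_eq_zero_of_isEmpty] at h1
    exact zero_ne_one h1
  obtain ⟨p⟩ := hA
  obtain ⟨R₀, hR₀⟩ := us_nonempty ⟨p.1⟩
  obtain ⟨S₀, hS₀⟩ := us_nonempty ⟨p.2⟩
  have hex : ∀ k, ∃ z ∈ prodSet A B,
      M k ⊗ₖ N k = (((M k).trace.re * (N k).trace.re : ℝ) : ℂ) • z := by
    intro k
    by_cases hMk : (M k).trace = 0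
    · refine ⟨_, ⟨R₀, hR₀, S₀, hS₀, rfl⟩, ?_⟩
      rw [hMk, (hM k).trace_eq_zero_iff.mp hMk]
      simp
    by_cases hNk : (N k).trace = 0
    · refine ⟨_, ⟨R₀, hR₀, S₀, hS₀, rfl⟩, ?_⟩
      rw [hNk, (hN k).trace_eq_zero_iff.mp hNk]
      simp
    obtain ⟨R, hR, hR'⟩ := exists_us (hM k) hMk
    obtain ⟨S, hS, hS'⟩ := exists_us (hN k) hNk
    refine ⟨_, ⟨R, hR, S, hS, rfl⟩, ?_⟩
    conv_lhs => rw [hR', hS']
    rw [smul_kronecker, kronecker_smul, smul_smul, Complex.ofReal_mul]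
  choose z hz hz' using hex
  have hw0 : ∀ k, 0 ≤ (M k).trace.re * (N k).trace.re := fun k =>
    mul_nonneg (Complex.le_def.mp (hM k).trace_nonneg).1 (Complex.le_def.mp (hN k).trace_nonneg).1
  have hzt : ∀ k, (z k).trace = 1 := by
    intro k
    obtain ⟨R, hR, S, hS, hRS⟩ := hz k
    have h2 : (Rᴴ * R).trace = 1 := hR
    have h3 : (Sᴴ * S).trace = 1 := hS
    rw [hRS, trace_kronecker, h2, h3, mul_one]
  have hsum : ∑ k, (M k).trace.re * (N k).trace.re = 1 := by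
    have h2 : ρ.trace = ((∑ k, (M k).trace.re * (N k).trace.re : ℝ) : ℂ) := by
      rw [hρ, trace_sum, Complex.ofReal_sum]
      refine Finset.sum_congr rfl fun k _ => ?_
      rw [hz' k, trace_smul, hzt k, smul_eq_mul, mul_one]
    rw [h1] at h2
    exact_mod_cast h2.symm
  have hρ' : ρ = ∑ k, ((M k).trace.re * (N k).trace.re) • z k := by
    rw [hρ]
    refine Finset.sum_congr rfl fun k _ => ?_
    rw [hz' k]
    ext p q
    rw [Matrix.smul_apply, Matrix.smul_apply, smul_eq_mul, Complex.real_smul]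
  rw [hρ']
  exact (convex_convexHull ℝ _).sum_mem (fun k _ => hw0 k) hsum
    fun k _ => subset_convexHull ℝ _ (hz k)

/-- the number of product states that suffice -/
noncomputable def mixNum (A B : Type) [Fintype A] [Fintype B] : ℕ :=
  Module.finrank ℝ (Matrix (A × B) (A × B) ℂ) + 1

theorem sep_mem_mixSet {ρ : Matrix (A × B) (A × B) ℂ} (h : IsSep ρ) (h1 : ρ.trace = 1) :
    ρ ∈ mixSet A B (mixNum A B) := by
  obtain ⟨ι, _, z, w, hz, hai, hw, hw1, hsum⟩ :=
    eq_pos_convex_span_of_mem_convexHull (sep_mem_convexHull h h1)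
  have hcard : Fintype.card ι ≤ mixNum A B := by
    refine hai.card_le_finrank_succ.trans ?_
    exact Nat.add_le_add_right (Submodule.finrank_le _) 1
  classical
  have hex : ∀ i, ∃ RS : Matrix A A ℂ × Matrix B B ℂ, RS.1 ∈ US A ∧ RS.2 ∈ US B ∧
      z i = (RS.1ᴴ * RS.1) ⊗ₖ (RS.2ᴴ * RS.2) := by
    intro i
    obtain ⟨R, hR, S, hS, hRS⟩ := hz (Set.mem_range_self i)
    exact ⟨(R, S), hR, hS, hRS⟩
  choose g hg1 hg2 hg3 using hex
  have hne : Nonempty ι := by
    by_contra hc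
    rw [not_nonempty_iff] at hc
    rw [Fintype.sum_empty] at hw1
    exact zero_ne_one hw1
  obtain ⟨f⟩ : Nonempty (ι ↪ Fin (mixNum A B)) := by
    refine Function.Embedding.nonempty_of_card_le ?_
    rwa [Fintype.card_fin]
  -- extend by zero weights
  obtain ⟨inv, hinv⟩ : ∃ inv : Fin (mixNum A B) → ι, ∀ i, inv (f i) = i :=
    ⟨Function.invFun f, fun i => Function.leftInverse_invFun f.injective i⟩
  obtain ⟨v, hv⟩ : ∃ v : Fin (mixNum A B) → ℝ,
      v = fun j => if f (inv j) = j then w (inv j) else 0 := ⟨_, rfl⟩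
  have hsumv : ∀ {V : Type} [AddCommMonoid V] (F : Fin (mixNum A B) → V),
      (∀ j, f (inv j) ≠ j → F j = 0) → ∑ j, F j = ∑ i, F (f i) := by
    intro V _ F hF
    rw [← Finset.sum_map Finset.univ f F]
    symm
    refine Finset.sum_subset (Finset.subset_univ _) fun j _ hj => hF j fun hc => hj ?_
    rw [Finset.mem_map]
    exact ⟨inv j, Finset.mem_univ _, hc⟩
  refine ⟨(v, fun j => (g (inv j)).1, fun j => (g (inv j)).2), ⟨⟨fun j => ?_, ?_⟩, ?_, ?_⟩, ?_⟩
  · rw [hv]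
    dsimp only
    split_ifs
    · exact (hw _).le
    · exact le_rfl
  · change ∑ j, v j = 1
    rw [hsumv v (fun j hj => by rw [hv]; exact if_neg hj), ← hw1]
    refine Finset.sum_congr rfl fun i _ => ?_
    rw [hv]
    dsimp only
    rw [hinv, if_pos rfl]
  · exact Set.mem_univ_pi.mpr fun j => hg1 _
  · exact Set.mem_univ_pi.mpr fun j => hg2 _
  · rw [mixMap]
    dsimp only
    rw [hsumv _ (fun j hj => by
      rw [hv]
      dsimp only
      rw [if_neg hj, Complex.ofReal_zero, zero_smul]), ← hsum]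
    refine Finset.sum_congr rfl fun i _ => ?_
    rw [hinv, ← hg3, hv]
    dsimp only
    rw [hinv, if_pos rfl]
    ext p q
    rw [Matrix.smul_apply, Matrix.smul_apply, smul_eq_mul, Complex.real_smul]

/-- **The entangled states form an open set.** -/
theorem not_sep_open {ρ : Matrix (A × B) (A × B) ℂ} (h : ¬ IsSep ρ) :
    ∃ δ : ℝ, 0 < δ ∧ ∀ ρ' : Matrix (A × B) (A × B) ℂ, ρ'.trace = 1 →
      (∀ p q, ‖ρ' p q - ρ p q‖ < δ) → ¬ IsSep ρ' := by
  have h1 : ρ ∉ mixSet A B (mixNum A B) := fun hc => h (mixSet_sep hc)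
  have ho : IsOpen (mixSet A B (mixNum A B))ᶜ := (mixSet_closed _).isOpen_compl
  have ho' : IsOpen (X := (A × B) → (A × B) → ℂ) (mixSet A B (mixNum A B))ᶜ := ho
  rw [Metric.isOpen_iff] at ho'
  obtain ⟨δ, hδ, hball⟩ := ho' ρ h1
  refine ⟨δ, hδ, fun ρ' h1' hd hs => ?_⟩
  have hmem : @dist ((A × B) → (A × B) → ℂ) _ ρ' ρ < δ := by
    refine (dist_pi_lt_iff hδ).mpr fun p => (dist_pi_lt_iff hδ).mpr fun q => ?_
    rw [dist_eq_norm]
    exact hd p q
  exact hball hmem (sep_mem_mixSet hs h1')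

end H625

end Vale.Agent.P372
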