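import Vale.Agent.P372.H625.SepOp
import Vale.Agent.P372.H625.Closed

open Matrix Kronecker
open scoped ComplexOrder MatrixOrder

set_option linter.unusedSectionVars false

namespace Vale.Agent.P372

namespace H625

variable {A B : Type} [Fintype A] [DecidableEq A] [Fintype B] [DecidableEq B]

theorem sep_smul {R : Matrix (A × B) (A × B) ℂ} (hR : IsSep R) {c : ℝ} (hc : 0 ≤ c) :
    IsSep ((c : ℂ) • R) := by
  obtain ⟨n, M, N, hM, hN, rfl⟩ := hR
  refine ⟨n, fun k => (c : ℂ) • M k, N, fun k => (hM k).smul (by exact_mod_cast hc), hN, ?_⟩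
  rw [Finset.smul_sum]
  exact Finset.sum_congr rfl fun k _ => (smul_kronecker _ _ _).symm

/-- `2 + u E + u* E*` for a matrix unit `E` and a number `u` of modulus one -/
noncomputable def pw (i j : A) (u : ℂ) : Matrix A A ℂ :=
  (2 : ℂ) • 1 + (u • Matrix.single i j 1 + star u • Matrix.single j i 1)

theorem pw_psd (i j : A) {u : ℂ} (hu : u * star u = 1) : (pw i j u).PosSemidef := by
  have h1 : pw i j u = ((1 : Matrix A A ℂ) + u • Matrix.single i j 1)ᴴ *
      (1 + u • Matrix.single i j 1) + (1 - Matrix.single j j 1) := by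
    have e1 : (star u • Matrix.single j i (1 : ℂ) : Matrix A A ℂ) * (u • Matrix.single i j 1) =
        Matrix.single j j 1 := by
      rw [Matrix.smul_mul, Matrix.mul_smul, smul_smul, single_mul_single_same, mul_one,
        mul_comm (star u), hu, one_smul]
    rw [conjTranspose_add, conjTranspose_one, conjTranspose_smul, conjTranspose_single, star_one,
      Matrix.add_mul, Matrix.one_mul, Matrix.mul_add, Matrix.mul_one, e1, pw, two_smul]
    abel
  rw [h1]
  refine (posSemidef_conjTranspose_mul_self _).add ?_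
  have h2 : (1 : Matrix A A ℂ) - Matrix.single j j 1 =
      diagonal fun k => if k = j then (0 : ℂ) else 1 := by
    ext k l
    rw [Matrix.sub_apply, one_apply, diagonal_apply, single_apply]
    by_cases hkl : k = l
    · subst hkl
      by_cases hk : k = j
      · subst hk
        simp
      · simp [hk, Ne.symm hk]
    · rw [if_neg hkl, if_neg hkl, if_neg, sub_zero]
      rintro ⟨rfl, rfl⟩
      exact hkl rfl
  rw [h2, posSemidef_diagonal_iff]
  intro k
  split_ifs
  · exact le_rfl
  · exact zero_le_one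

/-- `4 + w E ⊗ F + (w E ⊗ F)*` is separable -/
theorem unit_sep (i j : A) (k l : B) {w : ℂ} (hw : w * star w = 1) :
    IsSep ((4 : ℂ) • (1 : Matrix (A × B) (A × B) ℂ) +
      (w • (Matrix.single i j (1 : ℂ) ⊗ₖ Matrix.single k l (1 : ℂ)) +
        star w • (Matrix.single j i (1 : ℂ) ⊗ₖ Matrix.single l k (1 : ℂ)))) := by
  have hI : Complex.I * star Complex.I = 1 := by
    rw [RCLike.star_def, Complex.conj_I, mul_neg, Complex.I_mul_I, neg_neg]
  have hp : ∀ u v : ℂ, u * star u = 1 → v * star v = 1 →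
      IsSep (pw i j u ⊗ₖ pw k l v) := fun u v hu hv => Lim.isSep_kron (pw_psd i j hu) (pw_psd k l hv)
  have hm : ∀ u v : ℂ, u * star u = 1 → v * star v = 1 → (u * v) * star (u * v) = 1 := by
    intro u v hu hv
    rw [star_mul']
    calc _ = (u * star u) * (v * star v) := by ring
      _ = 1 := by rw [hu, hv, one_mul]
  have hn : ∀ u : ℂ, u * star u = 1 → (-u) * star (-u) = 1 := by
    intro u hu
    rw [star_neg, neg_mul_neg, hu]
  have h1 := Lim.IsSep.add (Lim.IsSep.add (hp 1 w (by simp) hw)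
    (hp Complex.I (-Complex.I * w) hI (hm _ _ (hn _ hI) hw)))
    (Lim.IsSep.add (hp (-1) (-w) (by simp) (hn _ hw))
      (hp (-Complex.I) (Complex.I * w) (hn _ hI) (hm _ _ hI hw)))
  have h2 := sep_smul h1 (by norm_num : (0 : ℝ) ≤ 1 / 4)
  refine (congrArg IsSep ?_).mp h2
  have hone : (1 : Matrix (A × B) (A × B) ℂ) = (1 : Matrix A A ℂ) ⊗ₖ (1 : Matrix B B ℂ) :=
    one_kronecker_one.symm
  rw [hone]
  ext ⟨a, b⟩ ⟨a', b'⟩
  simp only [Matrix.smul_apply, Matrix.add_apply, kroneckerMap_apply, pw, smul_eq_mul, star_mul',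
    star_neg, star_one]
  have hI2 : star Complex.I = -Complex.I := Complex.conj_I
  rw [hI2]
  push_cast
  linear_combination (1 / 4 : ℂ) * (
    (-2 : ℂ) * w * Matrix.single i j (1 : ℂ) a a' * Matrix.single k l (1 : ℂ) b b'
    - 2 * star w * Matrix.single j i (1 : ℂ) a a' * Matrix.single l k (1 : ℂ) b b'
    + 2 * star w * Matrix.single i j (1 : ℂ) a a' * Matrix.single l k (1 : ℂ) b b'
    + 2 * w * Matrix.single j i (1 : ℂ) a a' * Matrix.single k l (1 : ℂ) b b') * Complex.I_sq

theorem single_kron (i j : A) (k l : B) :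
    Matrix.single i j (1 : ℂ) ⊗ₖ Matrix.single k l (1 : ℂ) = Matrix.single (i, k) (j, l) 1 := by
  rw [single_kronecker_single, mul_one]

theorem one_sep : IsSep (1 : Matrix (A × B) (A × B) ℂ) := by
  have := Lim.isSep_kron (PosSemidef.one (n := A) (R := ℂ)) (PosSemidef.one (n := B) (R := ℂ))
  rwa [one_kronecker_one] at this

/-- **A neighbourhood of the identity is separable.** -/
theorem near_one_sep {H : Matrix (A × B) (A × B) ℂ} (hH : H.IsHermitian)
    (hs : ∑ x : (A × B) × (A × B), ‖H x.1 x.2‖ ≤ 1 / 2) : IsSep (1 + H) := by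
  have h1 : ∀ x : (A × B) × (A × B), IsSep (((4 * ‖H x.1 x.2‖ : ℝ) : ℂ) • 1 +
      (Matrix.single x.1 x.2 (H x.1 x.2) + Matrix.single x.2 x.1 (star (H x.1 x.2)))) := by
    intro x
    obtain ⟨z, hz⟩ : ∃ z, z = H x.1 x.2 := ⟨_, rfl⟩
    rw [← hz]
    by_cases h0 : z = 0
    · rw [h0]
      simp only [norm_zero, mul_zero, Complex.ofReal_zero, zero_smul, star_zero, single_zero,
        add_zero]
      exact Lim.isSep_zero
    · have hn : (‖z‖ : ℂ) ≠ 0 := by
        rw [Ne, Complex.ofReal_eq_zero, norm_eq_zero]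
        exact h0
      have hw : (z / (‖z‖ : ℂ)) * star (z / (‖z‖ : ℂ)) = 1 := by
        rw [RCLike.star_def, Complex.mul_conj']
        rw [norm_div, Complex.norm_real, norm_norm, div_self (norm_ne_zero_iff.mpr h0)]
        simp
      have h2 := sep_smul (unit_sep x.1.1 x.2.1 x.1.2 x.2.2 hw) (norm_nonneg z)
      refine (congrArg IsSep ?_).mp h2
      rw [single_kron, single_kron, smul_add, smul_add, smul_smul, smul_single, smul_single,
        smul_single, smul_single]
      have e1 : (‖z‖ : ℂ) • ((z / (‖z‖ : ℂ)) • (1 : ℂ)) = z := by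
        rw [smul_eq_mul, smul_eq_mul, mul_one, mul_div_cancel₀ _ hn]
      have e2 : (‖z‖ : ℂ) • (star (z / (‖z‖ : ℂ)) • (1 : ℂ)) = star z := by
        rw [smul_eq_mul, smul_eq_mul, mul_one, star_div₀, RCLike.star_def,
          Complex.conj_ofReal, mul_div_cancel₀ _ hn]
      rw [e1, e2]
      push_cast
      rw [mul_comm (4 : ℂ)]
  have h3 := Lim.IsSep.sum Finset.univ _ h1
  obtain ⟨S, hS⟩ : ∃ S, S = ∑ x : (A × B) × (A × B), ‖H x.1 x.2‖ := ⟨_, rfl⟩
  have h4 : ∑ x : (A × B) × (A × B), (((4 * ‖H x.1 x.2‖ : ℝ) : ℂ) • (1 : Matrix (A × B) (A × B) ℂ) +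
      (Matrix.single x.1 x.2 (H x.1 x.2) + Matrix.single x.2 x.1 (star (H x.1 x.2)))) =
      ((4 * S : ℝ) : ℂ) • 1 + (H + H) := by
    rw [Finset.sum_add_distrib, Finset.sum_add_distrib, ← Finset.sum_smul]
    congr 1
    · rw [hS, ← Complex.ofReal_sum, ← Finset.mul_sum]
    · congr 1
      · rw [Fintype.sum_prod_type]
        exact (matrix_eq_sum_single H).symm
      · rw [Fintype.sum_prod_type, Finset.sum_comm]
        have h5 : ∀ p q, star (H q p) = H p q := by
          intro p q
          have := congrFun (congrFun hH.eq p) q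
          rwa [conjTranspose_apply] at this
        simp only [h5]
        exact (matrix_eq_sum_single H).symm
  rw [h4] at h3
  have h6 := Lim.IsSep.add (sep_smul h3 (by norm_num : (0 : ℝ) ≤ 1 / 2))
    (sep_smul (one_sep (A := A) (B := B)) (by linarith : (0 : ℝ) ≤ 1 - 2 * S))
  refine (congrArg IsSep ?_).mp h6
  ext p q
  simp only [Matrix.smul_apply, Matrix.add_apply, smul_eq_mul]
  push_cast
  ring

end H625

end Vale.Agent.P372
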