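import Vale.Agent.P372.H625.Local

open Matrix Kronecker Filter Topology
open scoped ComplexOrder MatrixOrder

set_option linter.unusedSectionVars false

namespace Vale.Agent.P372

namespace H625

variable {A B : Type} [Fintype A] [DecidableEq A] [Fintype B] [DecidableEq B]

theorem continuous_mixN (ρ : Matrix (A × B) (A × B) ℂ) : Continuous (mixN ρ) := by
  refine continuous_matrix fun p q => ?_
  simp only [mixN, Matrix.add_apply, Matrix.smul_apply, smul_eq_mul]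
  refine Continuous.add ?_ ?_
  · exact (Complex.continuous_ofReal.comp (continuous_const.sub continuous_id)).mul
      continuous_const
  · exact (Complex.continuous_ofReal.comp (continuous_id.div_const _)).mul continuous_const

/-- **A zero-key entangled state gives a separable state of full rank at the boundary of the
separable states, near which no state has key.** -/
theorem exists_crossing {ρ : Matrix (A × B) (A × B) ℂ} (hρ : ρ.PosSemidef) (h1 : ρ.trace = 1)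
    (hs : ¬ IsSep ρ) (hk : ¬ KeyPos ρ) :
    ∃ t : ℝ, 0 < t ∧ t ≤ 1 ∧ IsSep (mixN ρ t) ∧ (∀ s : ℝ, 0 ≤ s → s < t → ¬ IsSep (mixN ρ s)) ∧
      (mixN ρ t).PosDef ∧ ((pTrans ρ).PosSemidef → (pTrans (mixN ρ t)).PosDef) ∧
      ∀ᶠ ρ' in 𝓝 (mixN ρ t), ρ'.PosSemidef → ρ'.trace = 1 → ¬ KeyPos ρ' := by
  have hT : IsCompact (Set.Icc (0 : ℝ) 1 ∩ mixN ρ ⁻¹' mixSet A B (mixNum A B)) :=
    isCompact_Icc.inter_right ((mixSet_closed _).preimage (continuous_mixN ρ))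
  obtain ⟨t, ⟨ht, hts⟩, hleast⟩ := hT.exists_isLeast
    ⟨1, ⟨zero_le_one, le_refl _⟩, sep_mem_mixSet (mixN_one ρ) (mixN_trace h1 1)⟩
  have hsep : IsSep (mixN ρ t) := mixSet_sep hts
  have ht0 : 0 < t := by
    refine lt_of_le_of_ne ht.1 fun h => hs ?_
    rw [← h, mixN_zero] at hsep
    exact hsep
  obtain ⟨δ, hδ, H⟩ := mixN_ball hρ h1 hk ht0 ht.2
  have hself := H _ (mixN_psd hρ ht0.le ht.2).1 (mixN_trace h1 t) fun p q => by
    rw [sub_self, norm_zero]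
    exact hδ
  refine ⟨t, ht0, ht.2, hsep, fun s hs0 hst hsep' => ?_, hself.1, hself.2.2, ?_⟩
  · have h2 := hleast ⟨⟨hs0, hst.le.trans ht.2⟩, sep_mem_mixSet hsep' (mixN_trace h1 s)⟩
    exact absurd h2 (not_le.mpr hst)
  · filter_upwards [near_nhds (mixN ρ t) hδ] with ρ' hρ' hp htr
    exact (H ρ' hp.1 htr hρ').2.1

theorem crossing_closure {ρ : Matrix (A × B) (A × B) ℂ} {t : ℝ} (ht0 : 0 < t)
    {P : Matrix (A × B) (A × B) ℂ → Prop} (h : ∀ s : ℝ, 0 ≤ s → s < t → P (mixN ρ s)) :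
    mixN ρ t ∈ closure {ρ' | P ρ'} := by
  have h1 : t ∈ closure (Set.Ico 0 t) := by
    rw [closure_Ico ht0.ne]
    exact ⟨ht0.le, le_refl _⟩
  exact map_mem_closure (continuous_mixN ρ) h1 fun s hs => h s hs.1 hs.2

/-- **`Q1` is a question about the boundary of the separable states.** -/
theorem boundary_iff :
    ((∀ σ : Matrix (A × B) (A × B) ℂ, IsSep σ → σ.trace = 1 → σ.PosDef → MaxMixed σ →
        σ ∈ closure {ρ | ρ.PosSemidef ∧ ρ.trace = 1 ∧ ¬ IsSep ρ} →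
        σ ∈ closure {ρ | ρ.PosSemidef ∧ ρ.trace = 1 ∧ KeyPos ρ}) ↔
      ∀ ρ : Matrix (A × B) (A × B) ℂ, ρ.PosSemidef → ρ.trace = 1 → ¬ IsSep ρ → KeyPos ρ) ∧
    ((∀ σ : Matrix (A × B) (A × B) ℂ, IsSep σ → σ.trace = 1 → σ.PosDef → (pTrans σ).PosDef →
        MaxMixed σ →
        σ ∈ closure {ρ | ρ.PosSemidef ∧ (pTrans ρ).PosSemidef ∧ ρ.trace = 1 ∧ ¬ IsSep ρ} →
        σ ∈ closure {ρ | ρ.PosSemidef ∧ (pTrans ρ).PosSemidef ∧ ρ.trace = 1 ∧ KeyPos ρ}) ↔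
      ∀ ρ : Matrix (A × B) (A × B) ℂ, ρ.PosSemidef → (pTrans ρ).PosSemidef → ρ.trace = 1 →
        ¬ IsSep ρ → KeyPos ρ) := by
  refine ⟨⟨fun H ρ₁ hρ₁ h1₁ hs₁ => ?_, fun H σ _ _ _ _ h => closure_mono ?_ h⟩,
    ⟨fun H ρ₁ hρ₁ hp₁ h1₁ hs₁ => ?_, fun H σ _ _ _ _ _ h => closure_mono ?_ h⟩⟩
  · by_contra hk₁
    obtain ⟨ρ, hρ, h1, hm, hs, hk, -⟩ := exists_mixed hρ₁ h1₁ hs₁ hk₁
    obtain ⟨t, ht0, ht1, h2, h3, h4, -, h5⟩ := exists_crossing hρ h1 hs hk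
    have h6 := H _ h2 (mixN_trace h1 t) h4 (maxMixed_mixN hm h1 t)
      (crossing_closure ht0 fun s hs0 hst =>
        ⟨mixN_psd hρ hs0 (hst.le.trans ht1), mixN_trace h1 s, h3 s hs0 hst⟩)
    obtain ⟨ρ', h7, h8, h9, h10⟩ := mem_closure_iff_nhds.mp h6 _ h5
    exact h7 h8 h9 h10
  · rintro ρ ⟨h1, h2, h3⟩
    exact ⟨h1, h2, H ρ h1 h2 h3⟩
  · by_contra hk₁
    obtain ⟨ρ, hρ, h1, hm, hs, hk, hpt⟩ := exists_mixed hρ₁ h1₁ hs₁ hk₁
    obtain ⟨t, ht0, ht1, h2, h3, h4, h4', h5⟩ := exists_crossing hρ h1 hs hk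
    have h6 := H _ h2 (mixN_trace h1 t) h4 (h4' (hpt hp₁)) (maxMixed_mixN hm h1 t)
      (crossing_closure ht0 fun s hs0 hst =>
        ⟨mixN_psd hρ hs0 (hst.le.trans ht1), pTrans_mixN (hpt hp₁) hs0 (hst.le.trans ht1),
          mixN_trace h1 s, h3 s hs0 hst⟩)
    obtain ⟨ρ', h7, h8, -, h9, h10⟩ := mem_closure_iff_nhds.mp h6 _ h5
    exact h7 h8 h9 h10
  · rintro ρ ⟨h1, h2, h3, h4⟩
    exact ⟨h1, h2, h3, H ρ h1 h2 h3 h4⟩

end H625

end Vale.Agent.P372
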