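import Vale.Agent.P372.H625.CompactDefs
import Vale.Agent.P372.H625.Closed
import Vale.Agent.P372.R2.helper492.ProtoB

open Matrix Kronecker Filter Topology
open scoped ComplexOrder MatrixOrder

set_option linter.unusedSectionVars false

namespace Vale.Agent.P372

namespace H625

variable {A B E : Type} [Fintype A] [DecidableEq A] [Fintype B] [DecidableEq B]
  [Fintype E] [DecidableEq E]

theorem continuous_copies (n : ℕ) :
    Continuous fun Φ : Matrix (A × B) E ℂ => copies n Φ := by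
  refine continuous_matrix fun p e => ?_
  simp only [copies]
  exact continuous_finsetProd _ fun i _ => continuous_id.matrix_elem _ _

theorem continuous_eve_vec (M : Matrix A A ℂ) (N : Matrix B B ℂ) :
    Continuous fun Φ : Matrix (A × B) E ℂ => eve Φ M N := by
  refine continuous_matrix fun e e' => ?_
  simp only [eve]
  refine continuous_finsetSum _ fun p _ => continuous_finsetSum _ fun q _ => ?_
  refine continuous_const.mul ((continuous_id.matrix_elem _ _).mul ?_)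
  exact (continuous_id.matrix_elem _ _).star

/-- A protocol with small error. -/
theorem exists_proto {Ψ : Matrix (A × B) E ℂ} (h : 0 < distillableKey Ψ) {δ : ℝ}
    (hδ : 0 < δ) : ∃ (n ℓ : ℕ) (_ : 0 < ℓ) (T : Type) (_ : Fintype T)
      (f : T → (Fin ℓ → Bool) → Matrix (Fin n → A) (Fin n → A) ℂ)
      (g : T → (Fin ℓ → Bool) → Matrix (Fin n → B) (Fin n → B) ℂ) (ε : ℝ), ε < δ ∧
      LOCC (Fin ℓ → Bool) (Fin n → A) (Fin n → B) T f g ∧ KeyError f g (copies n Ψ) ε := by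
  rw [distillableKey] at h
  obtain ⟨r, ⟨ℓ, ε, hp, hε, hr⟩, hr0⟩ := lt_sSup_iff.mp h
  rw [hr] at hr0
  have h1 := Filter.eventually_lt_of_lt_liminf hr0
  have h2 := hε.eventually_lt_const hδ
  obtain ⟨n, hn1, hn2⟩ := (h1.and h2).exists
  have hn : 0 < ℓ n := by
    rcases Nat.eq_zero_or_pos (ℓ n) with h0 | h0
    · rw [h0] at hn1
      simp at hn1
    · exact h0
  obtain ⟨T, iT, f, g, hL, hK⟩ := hp n
  exact ⟨n, ℓ n, hn, T, iT, f, g, ε n, hn2, hL, hK⟩

/-- A vector with key has a neighbourhood served by one protocol. -/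
theorem eventually_works {Ψ : Matrix (A × B) E ℂ} (h : 0 < distillableKey Ψ) {ε : ℝ}
    (hε : 0 < ε) : ∃ π : Proto A B, ∀ᶠ Φ in 𝓝 Ψ, π.Works ε Φ := by
  obtain ⟨n, ℓ, hℓ, T, iT, f, g, ε', hε', hL, σ, hσ, hσ1, hsum⟩ := exists_proto h hε
  refine ⟨⟨n, ℓ, T, iT, f, g⟩, ?_⟩
  have hcont : Continuous fun Φ : Matrix (A × B) E ℂ =>
      ∑ t, ∑ k, ∑ l, traceNorm (eve (copies n Φ) (f t k) (g t l) -
        if k = l then ((Fintype.card (Fin ℓ → Bool) : ℂ)⁻¹) • σ t else 0) := by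
    refine continuous_finsetSum _ fun t _ => continuous_finsetSum _ fun k _ =>
      continuous_finsetSum _ fun l _ => continuous_traceNorm.comp ?_
    exact ((continuous_eve_vec _ _).comp (continuous_copies n)).sub continuous_const
  have hlt := hcont.continuousAt.eventually_lt_const (hsum.trans_lt hε')
  filter_upwards [hlt] with Φ hΦ
  exact ⟨hℓ, hL, σ, hσ, hσ1, hΦ.le⟩

theorem us_compact' : IsCompact {Ψ : Matrix (A × B) (A × B) ℂ | (Ψ * Ψᴴ).trace = 1} := by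
  have h : {Ψ : Matrix (A × B) (A × B) ℂ | (Ψ * Ψᴴ).trace = 1} = US (A × B) := by
    ext Ψ
    change (Ψ * Ψᴴ).trace = 1 ↔ (Ψᴴ * Ψ).trace = 1
    rw [trace_mul_comm]
  rw [h]
  exact us_compact

theorem far_closed (δ : ℝ) : IsClosed {ρ : Matrix (A × B) (A × B) ℂ | FarFromSep δ ρ} := by
  simp only [FarFromSep, Set.ofPred_forall]
  refine isClosed_iInter fun σ => isClosed_iInter fun _ => isClosed_iInter fun _ => ?_
  simp only [Set.ofPred_exists]
  refine isClosed_iUnion_of_finite fun p => isClosed_iUnion_of_finite fun q => ?_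
  exact isClosed_le continuous_const
    (((continuous_id.matrix_elem p q).sub continuous_const).norm)

/-- **Exchange of quantifiers.** -/
theorem uniform_iff {ε : ℝ} (hε : 0 < ε) (hε' : ε ≤ 1 / 64)
    {S : Set (Matrix (A × B) (A × B) ℂ)} (hS : IsClosed S) {C : ℕ → Set (Proto A B)}
    (hC : Monotone C) (hC' : ∀ π, ∃ N, π ∈ C N) :
    (∀ ρ ∈ S, ρ.PosSemidef → ρ.trace = 1 → ¬ IsSep ρ → KeyPos ρ) ↔
      ∀ δ : ℝ, 0 < δ → ∃ N : ℕ, ∀ Ψ : Matrix (A × B) (A × B) ℂ, Ψ * Ψᴴ ∈ S →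
        (Ψ * Ψᴴ).trace = 1 → FarFromSep δ (Ψ * Ψᴴ) → ∃ π ∈ C N, π.Works ε Ψ := by
  constructor
  · intro H δ hδ
    have hsq : Continuous fun Ψ : Matrix (A × B) (A × B) ℂ => Ψ * Ψᴴ :=
      continuous_id.matrix_mul continuous_id.matrix_conjTranspose
    have hK : IsCompact ({Ψ : Matrix (A × B) (A × B) ℂ | (Ψ * Ψᴴ).trace = 1} ∩
        ((fun Ψ => Ψ * Ψᴴ) ⁻¹' (S ∩ {ρ | FarFromSep δ ρ}))) :=
      us_compact'.inter_right ((hS.inter (far_closed δ)).preimage hsq)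
    have key := hK.induction_on
      (p := fun U => ∃ N : ℕ, ∀ Ψ ∈ U, ∃ π ∈ C N, π.Works ε Ψ) ⟨0, fun _ h => h.elim⟩
      (fun s t hst ⟨N, hN⟩ => ⟨N, fun Ψ hΨ => hN Ψ (hst hΨ)⟩)
      (fun s t ⟨N, hN⟩ ⟨M, hM⟩ => ⟨max N M, fun Ψ hΨ => hΨ.elim
        (fun h => by
          obtain ⟨π, h1, h2⟩ := hN Ψ h
          exact ⟨π, hC (le_max_left _ _) h1, h2⟩)
        fun h => by
          obtain ⟨π, h1, h2⟩ := hM Ψ h
          exact ⟨π, hC (le_max_right _ _) h1, h2⟩⟩) ?_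
    · obtain ⟨N, hN⟩ := key
      exact ⟨N, fun Ψ h1 h2 h3 => hN Ψ ⟨h2, h1, h3⟩⟩
    · rintro Ψ ⟨h1, h2, h3⟩
      have hns : ¬ IsSep (Ψ * Ψᴴ) := by
        intro hs
        obtain ⟨p, q, hpq⟩ := h3 _ hs h1
        simp only [sub_self, norm_zero] at hpq
        linarith
      have hpos := H _ h2 (posSemidef_self_mul_conjTranspose Ψ) h1 hns _ Ψ rfl
      obtain ⟨π, hπ⟩ := eventually_works hpos hε
      obtain ⟨N, hN⟩ := hC' π
      exact ⟨{Φ | π.Works ε Φ}, mem_nhdsWithin_of_mem_nhds hπ, N, fun _ h => ⟨π, hN, h⟩⟩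
  · intro H ρ hρS hρ h1 hs
    obtain ⟨δ, hδ, hball⟩ := not_sep_open hs
    obtain ⟨R, hR⟩ := exists_eq_conjTranspose_mul_self hρ
    have hR' : Rᴴ * Rᴴᴴ = ρ := by rw [conjTranspose_conjTranspose, ← hR]
    obtain ⟨N, hN⟩ := H δ hδ
    obtain ⟨⟨n, ℓ, T, iT, f, g⟩, -, hℓ, hL, σ, hσ, hσ1, herr⟩ := hN Rᴴ (by rwa [hR'])
      (by rwa [hR']) (by
        rw [hR']
        intro σ hσ hσ1
        by_contra hc
        push Not at hc
        exact hball σ hσ1 (fun p q => by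
          rw [norm_sub_rev]
          exact hc p q) hσ)
    obtain ⟨hf, hg⟩ := PC.locc_psd hL
    obtain ⟨τ, X, Y, -, -, hlt⟩ := PC.test_of_keyError (copies n Rᴴ) ⟨0, hℓ⟩ f g hf hg
      ⟨σ, hσ, hσ1, herr.trans hε'⟩
    rw [PC.copies_mul, hR'] at hlt
    intro E' _ _ Ψ hΨ
    subst hΨ
    exact (keyPos_iff A B E' Ψ h1).mpr
      ⟨n, X false, Set.mem_univ _, X true, Set.mem_univ _, Y false, Y true, hlt⟩

end H625

end Vale.Agent.P372
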