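import Vale.Agent.P372.TestDefs

open Matrix Kronecker
open scoped ComplexOrder

namespace Vale.Agent.P372

namespace H625

/-- Every separable state differs from `ρ` by at least `δ` in some matrix entry. -/
def FarFromSep {A B : Type} [Fintype A] [Fintype B] (δ : ℝ) (ρ : Matrix (A × B) (A × B) ℂ) :
    Prop :=
  ∀ σ : Matrix (A × B) (A × B) ℂ, IsSep σ → σ.trace = 1 → ∃ p q, δ ≤ ‖ρ p q - σ p q‖

/-- The data of a protocol on `n` copies for `ℓ` key bits: a finite set `T` of transcripts and the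
effects `f`, `g` of Alice and Bob. -/
structure Proto (A B : Type) where
  n : ℕ
  ℓ : ℕ
  T : Type
  fin : Fintype T
  f : T → (Fin ℓ → Bool) → Matrix (Fin n → A) (Fin n → A) ℂ
  g : T → (Fin ℓ → Bool) → Matrix (Fin n → B) (Fin n → B) ℂ

/-- `π` is an LOCC protocol which produces at least one key bit from copies of `Ψ`, with error at
most `ε`. -/
def Proto.Works {A B E : Type} [Fintype A] [Fintype B] [Fintype E] [DecidableEq E]
    (π : Proto A B) (ε : ℝ) (Ψ : Matrix (A × B) E ℂ) : Prop :=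
  1 ≤ π.ℓ ∧ LOCC (Fin π.ℓ → Bool) (Fin π.n → A) (Fin π.n → B) π.T π.f π.g ∧
    @KeyError (Fin π.n → A) (Fin π.n → B) (Fin π.n → E) _ _ _ (Fin π.ℓ → Bool) π.T _ _ π.fin _
      π.f π.g (copies π.n Ψ) ε

end H625

end Vale.Agent.P372
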