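import Vale.Agent.P372.H625.Spec

open Matrix Kronecker
open scoped ComplexOrder MatrixOrder

set_option linter.unusedSectionVars false

namespace Vale.Agent.P372

namespace H625

variable {A B C D E I F : Type} [Fintype A] [DecidableEq A] [Fintype B] [DecidableEq B]
  [Fintype C] [DecidableEq C] [Fintype D] [DecidableEq D] [Fintype E] [DecidableEq E]
  [Fintype I] [DecidableEq I] [Fintype F] [DecidableEq F]

/-! ### The end points of the exponents -/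

theorem expCost_zero {σ W : Matrix I I ℂ} {l : I → ℝ} (hW : W * Wᴴ = 1)
    (hσ : σ = W * diagonal (fun i => (l i : ℂ)) * Wᴴ) (Z : Matrix I I ℂ) :
    expCost l W 0 Z = (Zᴴ * σ * Z).trace.re := by
  have h1 : expCost l W 0 Z = ∑ i, ∑ j, l i * ‖(Wᴴ * Z * W) i j‖ ^ 2 := by
    rw [expCost]
    refine Finset.sum_congr rfl fun i _ => Finset.sum_congr rfl fun j _ => ?_
    rw [sub_zero, Real.rpow_one, Real.rpow_zero, mul_one]
  rw [h1, ← trace_left, hσ]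
  have h2 : (Wᴴ * Z * W)ᴴ * diagonal (fun i => (l i : ℂ)) * (Wᴴ * Z * W) =
      Wᴴ * (Zᴴ * (W * diagonal (fun i => (l i : ℂ)) * Wᴴ) * Z) * W := by
    rw [conjTranspose_mul, conjTranspose_mul, conjTranspose_conjTranspose]
    simp only [Matrix.mul_assoc]
  rw [h2, trace_mul_comm, ← Matrix.mul_assoc, hW, Matrix.one_mul]

theorem expCost_one {σ W : Matrix I I ℂ} {l : I → ℝ} (hW : W * Wᴴ = 1)
    (hσ : σ = W * diagonal (fun i => (l i : ℂ)) * Wᴴ) (Z : Matrix I I ℂ) :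
    expCost l W 1 Z = (Z * σ * Zᴴ).trace.re := by
  have h1 : expCost l W 1 Z = ∑ i, ∑ j, l j * ‖(Wᴴ * Z * W) i j‖ ^ 2 := by
    rw [expCost]
    refine Finset.sum_congr rfl fun i _ => Finset.sum_congr rfl fun j _ => ?_
    rw [sub_self, Real.rpow_one, Real.rpow_zero, one_mul]
  rw [h1, ← trace_right, hσ]
  have h2 : (Wᴴ * Z * W) * diagonal (fun i => (l i : ℂ)) * (Wᴴ * Z * W)ᴴ =
      Wᴴ * (Z * (W * diagonal (fun i => (l i : ℂ)) * Wᴴ) * Zᴴ) * W := by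
    rw [conjTranspose_mul, conjTranspose_mul, conjTranspose_conjTranspose]
    simp only [Matrix.mul_assoc]
  rw [h2, trace_mul_comm, ← Matrix.mul_assoc, hW, Matrix.one_mul]

/-- Cauchy-Schwarz: the test never holds at `(0, 1)`. -/
theorem cs_mixed {σ : Matrix I I ℂ} (hσ : σ.PosSemidef) (M N : Matrix I I ℂ) :
    ‖(σ * (M * N)).trace‖ ^ 2 ≤ (Mᴴ * σ * M).trace.re * (N * σ * Nᴴ).trace.re := by
  obtain ⟨R, rfl⟩ := exists_eq_conjTranspose_mul_self hσ
  have h1 : (Rᴴ * R * (M * N)).trace = ∑ p : I × I, (R * M) p.1 p.2 * (N * Rᴴ) p.2 p.1 := by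
    have : (Rᴴ * R * (M * N)).trace = ((R * M) * (N * Rᴴ)).trace := by
      rw [Matrix.mul_assoc, trace_mul_comm]
      simp only [Matrix.mul_assoc]
    rw [this, Fintype.sum_prod_type, trace]
    refine Finset.sum_congr rfl fun i _ => ?_
    rw [diag_apply, mul_apply]
  have h2 : (Mᴴ * (Rᴴ * R) * M).trace.re = ∑ p : I × I, ‖(R * M) p.1 p.2‖ ^ 2 := by
    have e : Mᴴ * (Rᴴ * R) * M = (R * M)ᴴ * (R * M) := by
      rw [conjTranspose_mul]
      simp only [Matrix.mul_assoc]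
    have : ((R * M)ᴴ * (R * M)).trace = ((∑ p : I × I, ‖(R * M) p.1 p.2‖ ^ 2 : ℝ) : ℂ) := by
      rw [Fintype.sum_prod_type, Finset.sum_comm, trace]
      push_cast
      refine Finset.sum_congr rfl fun i _ => ?_
      rw [diag_apply, mul_apply]
      refine Finset.sum_congr rfl fun j _ => ?_
      rw [conjTranspose_apply, RCLike.star_def, Complex.conj_mul']
    rw [e, this, Complex.ofReal_re]
  have h3 : (N * (Rᴴ * R) * Nᴴ).trace.re = ∑ p : I × I, ‖(N * Rᴴ) p.2 p.1‖ ^ 2 := by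
    have e : N * (Rᴴ * R) * Nᴴ = (N * Rᴴ) * (N * Rᴴ)ᴴ := by
      rw [conjTranspose_mul, conjTranspose_conjTranspose]
      simp only [Matrix.mul_assoc]
    have : ((N * Rᴴ) * (N * Rᴴ)ᴴ).trace = ((∑ p : I × I, ‖(N * Rᴴ) p.2 p.1‖ ^ 2 : ℝ) : ℂ) := by
      rw [Fintype.sum_prod_type, Finset.sum_comm, trace]
      push_cast
      refine Finset.sum_congr rfl fun i _ => ?_
      rw [diag_apply, mul_apply]
      refine Finset.sum_congr rfl fun j _ => ?_
      rw [conjTranspose_apply, RCLike.star_def, Complex.mul_conj']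
    rw [e, this, Complex.ofReal_re]
  rw [h1, h2, h3]
  have h4 : ‖∑ p : I × I, (R * M) p.1 p.2 * (N * Rᴴ) p.2 p.1‖ ≤
      ∑ p : I × I, ‖(R * M) p.1 p.2‖ * ‖(N * Rᴴ) p.2 p.1‖ := by
    refine (norm_sum_le _ _).trans (Finset.sum_le_sum fun p _ => ?_)
    rw [norm_mul]
  refine (pow_le_pow_left₀ (norm_nonneg _) h4 2).trans ?_
  exact Finset.sum_mul_sq_le_sq_mul_sq _ _ _

theorem psd_of_spec {σ W : Matrix I I ℂ} {l : I → ℝ} (hl : ∀ i, 0 ≤ l i)
    (hσ : σ = W * diagonal (fun i => (l i : ℂ)) * Wᴴ) : σ.PosSemidef := by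
  rw [hσ]
  refine PosSemidef.mul_mul_conjTranspose_same ?_ W
  rw [posSemidef_diagonal_iff]
  intro i
  exact_mod_cast hl i

theorem not_test_zero_one (ρ : Matrix (A × B) (A × B) ℂ) : ¬ ExpTest ρ 0 1 := by
  rintro ⟨n, C, D, _, _, _, _, X, Y, S, T, l, W, hn, hW, hl, hσ, h⟩
  have hW' : W * Wᴴ = 1 := mul_eq_one_comm.mp hW
  rw [expCost_zero hW' hσ, expCost_one hW' hσ] at h
  have h2 := cs_mixed (psd_of_spec hl hσ) (S ⊗ₖ (1 : Matrix D D ℂ)) ((1 : Matrix C C ℂ) ⊗ₖ T)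
  rw [← mul_kronecker_mul, Matrix.mul_one, Matrix.one_mul] at h2
  linarith

theorem not_test_one_zero (ρ : Matrix (A × B) (A × B) ℂ) : ¬ ExpTest ρ 1 0 := by
  rintro ⟨n, C, D, _, _, _, _, X, Y, S, T, l, W, hn, hW, hl, hσ, h⟩
  have hW' : W * Wᴴ = 1 := mul_eq_one_comm.mp hW
  rw [expCost_zero hW' hσ, expCost_one hW' hσ] at h
  have h2 := cs_mixed (psd_of_spec hl hσ) ((1 : Matrix C C ℂ) ⊗ₖ T) (S ⊗ₖ (1 : Matrix D D ℂ))
  rw [← mul_kronecker_mul, Matrix.mul_one, Matrix.one_mul, mul_comm] at h2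
  linarith

/-- The adjoints exchange the corners. -/
theorem test_zero_one_iff (ρ : Matrix (A × B) (A × B) ℂ) : ExpTest ρ 1 1 ↔ ExpTest ρ 0 0 := by
  have key : ∀ {C D : Type} [Fintype C] [DecidableEq C] [Fintype D] [DecidableEq D]
      {σ : Matrix (C × D) (C × D) ℂ} (_ : σ.IsHermitian) (S : Matrix C C ℂ) (T : Matrix D D ℂ),
      ‖(σ * (Sᴴ ⊗ₖ Tᴴ)).trace‖ = ‖(σ * (S ⊗ₖ T)).trace‖ := by
    intro C D _ _ _ _ σ hσ S T
    rw [← conjTranspose_kronecker, tr_star hσ, norm_star]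
  constructor
  · rintro ⟨n, C, D, _, _, _, _, X, Y, S, T, l, W, hn, hW, hl, hσ, h⟩
    have hW' : W * Wᴴ = 1 := mul_eq_one_comm.mp hW
    refine ⟨n, C, D, inferInstance, inferInstance, inferInstance, inferInstance, X, Y, Sᴴ, Tᴴ, l,
      W, hn, hW, hl, hσ, ?_⟩
    rw [expCost_one hW' hσ, expCost_one hW' hσ] at h
    rw [expCost_zero hW' hσ, expCost_zero hW' hσ, key (psd_of_spec hl hσ).1]
    have e1 : (Sᴴ ⊗ₖ (1 : Matrix D D ℂ)) = (S ⊗ₖ (1 : Matrix D D ℂ))ᴴ := by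
      rw [conjTranspose_kronecker, conjTranspose_one]
    have e2 : ((1 : Matrix C C ℂ) ⊗ₖ Tᴴ) = ((1 : Matrix C C ℂ) ⊗ₖ T)ᴴ := by
      rw [conjTranspose_kronecker, conjTranspose_one]
    rw [e1, e2, conjTranspose_conjTranspose, conjTranspose_conjTranspose]
    exact h
  · rintro ⟨n, C, D, _, _, _, _, X, Y, S, T, l, W, hn, hW, hl, hσ, h⟩
    have hW' : W * Wᴴ = 1 := mul_eq_one_comm.mp hW
    refine ⟨n, C, D, inferInstance, inferInstance, inferInstance, inferInstance, X, Y, Sᴴ, Tᴴ, l,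
      W, hn, hW, hl, hσ, ?_⟩
    rw [expCost_zero hW' hσ, expCost_zero hW' hσ] at h
    rw [expCost_one hW' hσ, expCost_one hW' hσ, key (psd_of_spec hl hσ).1]
    have e1 : (Sᴴ ⊗ₖ (1 : Matrix D D ℂ)) = (S ⊗ₖ (1 : Matrix D D ℂ))ᴴ := by
      rw [conjTranspose_kronecker, conjTranspose_one]
    have e2 : ((1 : Matrix C C ℂ) ⊗ₖ Tᴴ) = ((1 : Matrix C C ℂ) ⊗ₖ T)ᴴ := by
      rw [conjTranspose_kronecker, conjTranspose_one]
    rw [e1, e2, conjTranspose_conjTranspose, conjTranspose_conjTranspose]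
    exact h

end H625

end Vale.Agent.P372
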