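import Vale.Agent.P372.Metro.Defs
import Vale.Agent.P372.R2.helper492.LetterDefs

open Matrix Kronecker
open scoped ComplexOrder

namespace Vale.Agent.P372

namespace H625

/-- For a spectral decomposition `σ = W diag(l) Wᴴ`, the number `tr (Zᴴ σ^(1-θ) Z σ^θ)`
(with `0 ^ 0 = 1`), written in the eigenbasis. -/
noncomputable def expCost {I : Type} [Fintype I] [DecidableEq I] (l : I → ℝ) (W : Matrix I I ℂ)
    (θ : ℝ) (Z : Matrix I I ℂ) : ℝ :=
  ∑ i, ∑ j, l i ^ (1 - θ) * l j ^ θ * ‖(Wᴴ * Z * W) i j‖ ^ 2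

/-- The test with the exponents `θ` and `θ'`: for some number `n ≥ 1` of copies, some local filters
`X` and `Y` and some operators `S` and `T`, not necessarily Hermitian, the covariance
`|tr σ(S ⊗ T)|²` of the filtered state `σ` is larger than the product
`tr ((S ⊗ 1)ᴴ σ^(1-θ) (S ⊗ 1) σ^θ) * tr ((1 ⊗ T)ᴴ σ^(1-θ') (1 ⊗ T) σ^θ')`. -/
def ExpTest {A B : Type} [Fintype A] [Fintype B] (ρ : Matrix (A × B) (A × B) ℂ) (θ θ' : ℝ) :
    Prop :=
  ∃ (n : ℕ) (C D : Type) (_ : Fintype C) (_ : DecidableEq C) (_ : Fintype D)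
    (_ : DecidableEq D) (X : Matrix C (Fin n → A) ℂ) (Y : Matrix D (Fin n → B) ℂ)
    (S : Matrix C C ℂ) (T : Matrix D D ℂ) (l : C × D → ℝ) (W : Matrix (C × D) (C × D) ℂ),
    1 ≤ n ∧ Wᴴ * W = 1 ∧ (∀ i, 0 ≤ l i) ∧
    filtered n ρ X Y = W * diagonal (fun i => (l i : ℂ)) * Wᴴ ∧
    expCost l W θ (S ⊗ₖ 1) * expCost l W θ' (1 ⊗ₖ T) <
      ‖(filtered n ρ X Y * (S ⊗ₖ T)).trace‖ ^ 2

/-- Some vector `x ⊗ y + x' ⊗ y'` of `A^n ⊗ B^n`, `n ≥ 1`, has a negative expectation in the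
`n`-fold tensor power of the partial transpose of `ρ`. -/
def RankTwoNeg {A B : Type} [Fintype A] [Fintype B] (ρ : Matrix (A × B) (A × B) ℂ) : Prop :=
  ∃ (n : ℕ) (x x' : (Fin n → A) → ℂ) (y y' : (Fin n → B) → ℂ), 1 ≤ n ∧
    (sprod (prodVec x y + prodVec x' y')
      (tpow n (pTrans ρ) *ᵥ (prodVec x y + prodVec x' y'))).re < 0

/-- Both marginals of `ρ` are maximally mixed: `tr_B ρ = 1 / d_A` and `tr_A ρ = 1 / d_B`. -/
def MaxMixed {A B : Type} [Fintype A] [DecidableEq A] [Fintype B] [DecidableEq B]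
    (ρ : Matrix (A × B) (A × B) ℂ) : Prop :=
  (∀ a a', ∑ b, ρ (a, b) (a', b) = if a = a' then (Fintype.card A : ℂ)⁻¹ else 0) ∧
    ∀ b b', ∑ a, ρ (a, b) (a, b') = if b = b' then (Fintype.card B : ℂ)⁻¹ else 0

end H625

end Vale.Agent.P372
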