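import Vale.Agent.P372.H625.Normal3

open Matrix Kronecker
open scoped ComplexOrder MatrixOrder

set_option linter.unusedSectionVars false

namespace Vale.Agent.P372

namespace H625

variable {A B : Type} [Fintype A] [DecidableEq A] [Fintype B] [DecidableEq B]

/-- **An entangled state without key is a limit of open sets of such states.** -/
theorem exists_open {ρ : Matrix (A × B) (A × B) ℂ} (hρ : ρ.PosSemidef) (h1 : ρ.trace = 1)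
    (hs : ¬ IsSep ρ) (hk : ¬ KeyPos ρ) {ε : ℝ} (hε : 0 < ε) :
    ∃ ρ₀ : Matrix (A × B) (A × B) ℂ, ρ₀.PosDef ∧ ρ₀.trace = 1 ∧ (MaxMixed ρ → MaxMixed ρ₀) ∧
      (∀ p q, ‖ρ₀ p q - ρ p q‖ < ε) ∧ ∃ δ : ℝ, 0 < δ ∧ ∀ ρ' : Matrix (A × B) (A × B) ℂ, ρ'.IsHermitian → ρ'.trace = 1 →
        (∀ p q, ‖ρ' p q - ρ₀ p q‖ < δ) →
        ρ'.PosDef ∧ ¬ IsSep ρ' ∧ ¬ KeyPos ρ' ∧ ((pTrans ρ).PosSemidef → (pTrans ρ').PosDef) := by
  obtain ⟨δ₁, hδ₁, H₁⟩ := not_sep_open hs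
  have hL := lip_pos ρ
  obtain ⟨t, ht⟩ : ∃ t : ℝ, t = min 1 (min ε δ₁ / (2 * lip ρ)) := ⟨_, rfl⟩
  have ht0 : 0 < t := by
    rw [ht]
    exact lt_min one_pos (div_pos (lt_min hε hδ₁) (by positivity))
  have ht1 : t ≤ 1 := ht ▸ min_le_left _ _
  have htl : t * lip ρ < min ε δ₁ := by
    have h2 : t ≤ min ε δ₁ / (2 * lip ρ) := ht ▸ min_le_right _ _
    have h3 : t * lip ρ ≤ min ε δ₁ / (2 * lip ρ) * lip ρ := mul_le_mul_of_nonneg_right h2 hL.le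
    have h4 : min ε δ₁ / (2 * lip ρ) * lip ρ = min ε δ₁ / 2 := by
      field_simp
    have h5 := lt_min hε hδ₁
    linarith
  have hd : ∀ p q, ‖mixN ρ t p q - ρ p q‖ < min ε δ₁ := by
    intro p q
    have h2 := mixN_dist h1 t 0 p q
    rw [mixN_zero, sub_zero, abs_of_pos ht0] at h2
    exact h2.trans_lt htl
  have hs' : ¬ IsSep (mixN ρ t) :=
    H₁ _ (mixN_trace h1 t) fun p q => (hd p q).trans_le (min_le_right _ _)
  obtain ⟨δ₂, hδ₂, H₂⟩ := not_sep_open hs'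
  obtain ⟨δ₃, hδ₃, H₃⟩ := mixN_ball hρ h1 hk ht0 ht1
  refine ⟨mixN ρ t, ?_, mixN_trace h1 t, fun hm => maxMixed_mixN hm h1 t,
    fun p q => (hd p q).trans_le (min_le_left _ _),
    min δ₂ δ₃, lt_min hδ₂ hδ₃, fun ρ' hH' h1' hd' => ?_⟩
  · exact (H₃ _ (mixN_psd hρ ht0.le ht1).1 (mixN_trace h1 t) (fun p q => by
      rw [sub_self, norm_zero]
      exact hδ₃)).1
  · obtain ⟨h2, h3, h4⟩ := H₃ ρ' hH' h1' fun p q => (hd' p q).trans_le (min_le_right _ _)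
    exact ⟨h2, H₂ ρ' h1' (fun p q => (hd' p q).trans_le (min_le_left _ _)), h3, h4⟩

theorem pTrans_mixN {ρ : Matrix (A × B) (A × B) ℂ} (hρ : (pTrans ρ).PosSemidef) {t : ℝ}
    (h0 : 0 ≤ t) (h1 : t ≤ 1) : (pTrans (mixN ρ t)).PosSemidef := by
  rw [mixN, pTrans_add, pTrans_smul, pTrans_smul, pTrans_one]
  refine (hρ.smul ?_).add (PosSemidef.one.smul ?_)
  · have : 0 ≤ 1 - t := by linarith
    exact_mod_cast this
  · have : 0 ≤ t / (Fintype.card (A × B) : ℝ) := by positivity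
    exact_mod_cast this

theorem exists_step {P : ℕ → Prop} (h0 : ¬ P 0) {n : ℕ} (hn : P n) :
    ∃ j < n, ¬ P j ∧ P (j + 1) := by
  induction n with
  | zero => exact absurd hn h0
  | succ n ih =>
    by_cases h : P n
    · obtain ⟨j, hj, h1, h2⟩ := ih h
      exact ⟨j, by omega, h1, h2⟩
    · exact ⟨n, by omega, h, hn⟩

/-- **... and they can be found arbitrarily near the separable states.** -/
theorem exists_near {ρ : Matrix (A × B) (A × B) ℂ} (hρ : ρ.PosSemidef) (h1 : ρ.trace = 1)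
    (hs : ¬ IsSep ρ) (hk : ¬ KeyPos ρ) {ε : ℝ} (hε : 0 < ε) :
    ∃ ρ₀ σ : Matrix (A × B) (A × B) ℂ, ρ₀.PosDef ∧ ρ₀.trace = 1 ∧ IsSep σ ∧ σ.trace = 1 ∧
      (MaxMixed ρ → MaxMixed ρ₀ ∧ MaxMixed σ) ∧ (∀ p q, ‖ρ₀ p q - σ p q‖ < ε) ∧
      ∃ δ : ℝ, 0 < δ ∧ ∀ ρ' : Matrix (A × B) (A × B) ℂ, ρ'.IsHermitian → ρ'.trace = 1 →
        (∀ p q, ‖ρ' p q - ρ₀ p q‖ < δ) →
        ρ'.PosDef ∧ ¬ IsSep ρ' ∧ ¬ KeyPos ρ' ∧ ((pTrans ρ).PosSemidef → (pTrans ρ').PosDef) := by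
  obtain ⟨n, hn⟩ := exists_nat_gt (2 * lip ρ / ε)
  have hL := lip_pos ρ
  have hn0 : 0 < (n : ℝ) := lt_trans (by positivity) hn
  have hnl : lip ρ / n < ε / 2 := by
    rw [div_lt_iff₀ hε] at hn
    rw [div_lt_iff₀ hn0]
    linarith
  obtain ⟨j, hj, hj0, hj1⟩ := exists_step (P := fun j => IsSep (mixN ρ ((j : ℝ) / n))) (n := n)
    (by
      rw [Nat.cast_zero, zero_div, mixN_zero]
      exact hs)
    (by
      rw [div_self hn0.ne']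
      exact mixN_one ρ)
  have ht0 : 0 ≤ (j : ℝ) / n := by positivity
  have ht1 : (j : ℝ) / n ≤ 1 := by
    rw [div_le_one hn0]
    exact_mod_cast hj.le
  obtain ⟨ρ₀, h2, h3, h10, h4, δ, hδ, h5⟩ := exists_open (mixN_psd hρ ht0 ht1) (mixN_trace h1 _) hj0
    (fun h => hk (mixN_key hρ h1 ht0 ht1 h)) (half_pos hε)
  refine ⟨ρ₀, mixN ρ (((j + 1 : ℕ) : ℝ) / n), h2, h3, hj1, mixN_trace h1 _,
    fun hm => ⟨h10 (maxMixed_mixN hm h1 _), maxMixed_mixN hm h1 _⟩, fun p q => ?_, δ, hδ,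
    fun ρ' hH' h1' hd' => ?_⟩
  · have h6 := mixN_dist h1 ((j : ℝ) / n) (((j + 1 : ℕ) : ℝ) / n) p q
    have h7 : (j : ℝ) / n - ((j + 1 : ℕ) : ℝ) / n = -(1 / n) := by
      push_cast
      field_simp
      ring
    rw [h7, abs_neg, abs_of_pos (by positivity), one_div_mul_eq_div] at h6
    calc ‖ρ₀ p q - mixN ρ (((j + 1 : ℕ) : ℝ) / n) p q‖ ≤
          ‖ρ₀ p q - mixN ρ ((j : ℝ) / n) p q‖ +
            ‖mixN ρ ((j : ℝ) / n) p q - mixN ρ (((j + 1 : ℕ) : ℝ) / n) p q‖ :=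
          norm_sub_le_norm_sub_add_norm_sub _ _ _
      _ < ε := by linarith [h4 p q]
  · obtain ⟨h6, h7, h8, h9⟩ := h5 ρ' hH' h1' hd'
    exact ⟨h6, h7, h8, fun hp => h9 (pTrans_mixN hp ht0 ht1)⟩

/-- A zero-key entangled state gives one in normal form. -/
theorem exists_mixed {ρ : Matrix (A × B) (A × B) ℂ} (hρ : ρ.PosSemidef) (h1 : ρ.trace = 1)
    (hs : ¬ IsSep ρ) (hk : ¬ KeyPos ρ) :
    ∃ ρ' : Matrix (A × B) (A × B) ℂ, ρ'.PosSemidef ∧ ρ'.trace = 1 ∧ MaxMixed ρ' ∧ ¬ IsSep ρ' ∧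
      ¬ KeyPos ρ' ∧ ((pTrans ρ).PosSemidef → (pTrans ρ').PosSemidef) := by
  obtain ⟨ρ₀, h2, h3, -, -, δ, hδ, h5⟩ := exists_open hρ h1 hs hk one_pos
  obtain ⟨h6, h7, h8, h9⟩ := h5 ρ₀ h2.1 h3 fun p q => by
    rw [sub_self, norm_zero]
    exact hδ
  obtain ⟨X, Y, hX, hY, h10, h11, h12⟩ := exists_normal h2 h3
  exact ⟨_, h10.posSemidef, h11, h12, fun h => h7 (sep_of_filter hX hY h),
    fun h => h8 (keyPos_filter h2.posSemidef h3 X Y h11 h),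
    fun hp => ppt_filter (h9 hp).posSemidef X Y⟩

end H625

end Vale.Agent.P372
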