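import Vale.Agent.P372.H625.WernerThm

open Matrix Kronecker Filter Topology
open scoped ComplexOrder MatrixOrder

set_option linter.unusedSectionVars false

namespace Vale.Agent.P372

namespace H625

variable {A B A' B' : Type} [Fintype A] [DecidableEq A] [Fintype B] [DecidableEq B]
  [Fintype A'] [DecidableEq A'] [Fintype B'] [DecidableEq B']

theorem keyPos_detect_filt {σ W : Matrix (A × B) (A × B) ℂ} (hσ : IsSep σ)
    (hW : OnlyWitness W σ)
    (hlim : σ ∈ closure {ρ | ρ.PosSemidef ∧ ρ.trace = 1 ∧ KeyPos ρ})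
    (n : ℕ) {ω : Matrix (A' × B') (A' × B') ℂ} (hω : ω.PosSemidef) (h1 : ω.trace = 1)
    (X : Matrix A (Fin n → A') ℂ) (Y : Matrix B (Fin n → B') ℂ)
    (hneg : (W * filtered n ω X Y).trace.re < 0) : KeyPos ω := by
  obtain ⟨τ, hτ⟩ : ∃ τ, τ = filtered n ω X Y := ⟨_, rfl⟩
  have hτp : τ.PosSemidef := by rw [hτ]; exact filtered_psd hω n X Y
  obtain ⟨c, hc⟩ : ∃ c : ℝ, c = τ.trace.re := ⟨_, rfl⟩
  have hc1 : τ.trace = (c : ℂ) := by rw [hc]; exact trace_herm hτp.1
  have hc0 : 0 ≤ c := by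
    have h2 := hτp.trace_nonneg
    rw [hc1, Complex.zero_le_real] at h2
    exact h2
  have hcne : c ≠ 0 := by
    intro h0
    have h2 := trace_zero_psd hτp (hc ▸ h0)
    rw [← hτ, h2, Matrix.mul_zero, trace_zero, Complex.zero_re] at hneg
    exact lt_irrefl _ hneg
  have hcpos : 0 < c := lt_of_le_of_ne hc0 (Ne.symm hcne)
  have htr : (((c⁻¹ : ℝ) : ℂ) • τ).trace = 1 := by
    rw [trace_smul, hc1, smul_eq_mul, ← Complex.ofReal_mul, inv_mul_cancel₀ hcne,
      Complex.ofReal_one]
  have hpsd : (((c⁻¹ : ℝ) : ℂ) • τ).PosSemidef :=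
    hτp.smul (Complex.zero_le_real.mpr (inv_nonneg.mpr hc0))
  have hk : KeyPos (((c⁻¹ : ℝ) : ℂ) • τ) := by
    refine keyPos_detect hσ hW hlim hpsd htr ?_
    rw [Matrix.mul_smul, trace_smul, smul_eq_mul, Complex.re_ofReal_mul]
    rw [← hτ] at hneg
    exact mul_neg_of_pos_of_neg (inv_pos.mpr hcpos) hneg
  refine keyPos_sepOp (K := Unit) hω h1 htr (fun _ => n)
    (fun _ => ((√(c⁻¹) : ℝ) : ℂ) • X) (fun _ => Y) ?_ hk
  rw [Fintype.sum_unique, hτ, filtered, filtered, smul_kronecker, conjTranspose_smul,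
    RCLike.star_def, Complex.conj_ofReal]
  simp only [Matrix.smul_mul, Matrix.mul_smul, smul_smul]
  rw [← Complex.ofReal_mul, Real.mul_self_sqrt (inv_nonneg.mpr hc0)]

/-- **A full-rank separable state with only one witness `W` is a limit of states with key if and
only if key can be distilled from all states that some filter brings to a state detected
by `W`.** -/
theorem detect_iff {σ W : Matrix (A × B) (A × B) ℂ} (hσ : IsSep σ) (hpd : σ.PosDef)
    (h1 : σ.trace = 1) (hW : OnlyWitness W σ) :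
    σ ∈ closure {ρ | ρ.PosSemidef ∧ ρ.trace = 1 ∧ KeyPos ρ} ↔
      ∀ (A' B' : Type) [Fintype A'] [DecidableEq A'] [Fintype B'] [DecidableEq B'] (n : ℕ)
        (ω : Matrix (A' × B') (A' × B') ℂ) (X : Matrix A (Fin n → A') ℂ)
        (Y : Matrix B (Fin n → B') ℂ), ω.PosSemidef → ω.trace = 1 →
        (W * filtered n ω X Y).trace.re < 0 → KeyPos ω := by
  constructor
  · intro hlim A' B' _ _ _ _ n ω X Y hω h1' hneg
    exact keyPos_detect_filt hσ hW hlim n hω h1' X Y hneg
  · intro H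
    have hne : Nonempty (A × B) := by
      by_contra hc
      rw [not_nonempty_iff] at hc
      rw [Matrix.trace_eq_zero_of_isEmpty] at h1
      exact zero_ne_one h1
    obtain ⟨hW0, ⟨hWH, hWs, hWσ⟩, -⟩ := hW
    have hWW : 0 < (W * W).trace.re := by
      rw [← ipr_herm hWH]
      exact lt_of_le_of_ne (ipr_nonneg _) fun hc => hW0 (eq_zero_of_ipr hc.symm)
    obtain ⟨w, hw⟩ : ∃ w : ℝ, w = W.trace.re := ⟨_, rfl⟩
    have hw1 : W.trace = (w : ℂ) := by rw [hw]; exact trace_herm hWH
    obtain ⟨f, hf⟩ : ∃ f : ℝ → Matrix (A × B) (A × B) ℂ,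
        f = fun t : ℝ => σ - (t : ℂ) • (W - (w : ℂ) • σ) := ⟨_, rfl⟩
    have hcont : Continuous f := by
      rw [hf]
      fun_prop
    have hf0 : f 0 = σ := by
      rw [hf]
      beta_reduce
      rw [Complex.ofReal_zero, zero_smul, sub_zero]
    have h2 : Tendsto f (𝓝[>] 0) (𝓝 σ) := by
      have h3 := (hcont.tendsto 0).mono_left (nhdsWithin_le_nhds (s := Set.Ioi (0 : ℝ)))
      rwa [hf0] at h3
    refine mem_closure_of_tendsto h2 ?_
    filter_upwards [h2.eventually (posDef_eventually hpd), self_mem_nhdsWithin] with t ht ht0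
    have ht0' : 0 < t := ht0
    have hH : (f t).IsHermitian := by
      rw [hf, IsHermitian, conjTranspose_sub, conjTranspose_smul, conjTranspose_sub,
        conjTranspose_smul, hpd.1.eq, hWH.eq, RCLike.star_def, Complex.conj_ofReal,
        Complex.conj_ofReal]
    have htr : (f t).trace = 1 := by
      rw [hf]
      beta_reduce
      rw [trace_sub, trace_smul, trace_sub, trace_smul, h1, hw1, smul_eq_mul, smul_eq_mul,
        mul_one, sub_self, mul_zero, sub_zero]
    refine ⟨ht hH, htr, ?_⟩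
    refine H A B 1 (f t) (idF A ((√(1 : ℝ) : ℝ) : ℂ)) (idF B 1) (ht hH) htr ?_
    rw [filtered_idF _ zero_le_one, Complex.ofReal_one, one_smul, hf]
    beta_reduce
    rw [Matrix.mul_sub, Matrix.mul_smul, Matrix.mul_sub, Matrix.mul_smul, trace_sub, trace_smul,
      trace_sub, trace_smul, smul_eq_mul, smul_eq_mul, Complex.sub_re, Complex.re_ofReal_mul,
      Complex.sub_re, Complex.re_ofReal_mul, hWσ, mul_zero, sub_zero, zero_sub]
    linarith [mul_pos ht0' hWW]

end H625

end Vale.Agent.P372
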