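import Vale.Agent.P372.H625.Corner

open Matrix Kronecker
open scoped ComplexOrder MatrixOrder

set_option linter.unusedSectionVars false

namespace Vale.Agent.P372

namespace H625

variable {A B C D E I F : Type} [Fintype A] [DecidableEq A] [Fintype B] [DecidableEq B]
  [Fintype C] [DecidableEq C] [Fintype D] [DecidableEq D] [Fintype E] [DecidableEq E]
  [Fintype I] [DecidableEq I] [Fintype F] [DecidableEq F]

/-- The form of the partial transpose on product vectors. -/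
noncomputable def bf (τ : Matrix (A × B) (A × B) ℂ) (u : A → ℂ) (v : B → ℂ) (u' : A → ℂ)
    (v' : B → ℂ) : ℂ :=
  ∑ a, ∑ b, ∑ a', ∑ b', star (u a) * star (v b) * τ (a, b') (a', b) * (u' a' * v' b')

theorem sprod_bf (τ : Matrix (A × B) (A × B) ℂ) (u u' : A → ℂ) (v v' : B → ℂ) :
    sprod (prodVec u v) (pTrans τ *ᵥ prodVec u' v') = bf τ u v u' v' := by
  rw [sprod, bf, Fintype.sum_prod_type]
  refine Finset.sum_congr rfl fun a _ => Finset.sum_congr rfl fun b _ => ?_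
  rw [mulVec, dotProduct, Fintype.sum_prod_type, Finset.mul_sum]
  refine Finset.sum_congr rfl fun a' _ => ?_
  rw [Finset.mul_sum]
  refine Finset.sum_congr rfl fun b' _ => ?_
  simp only [prodVec, pTrans, star_mul']
  ring

theorem sprod_add_left (v v' w : A → ℂ) : sprod (v + v') w = sprod v w + sprod v' w := by
  simp only [sprod, Pi.add_apply, star_add, add_mul, Finset.sum_add_distrib]

theorem sprod_add_right (v w w' : A → ℂ) : sprod v (w + w') = sprod v w + sprod v w' := by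
  simp only [sprod, Pi.add_apply, mul_add, Finset.sum_add_distrib]

theorem filt_apply (τ : Matrix (A × B) (A × B) ℂ) (X : Matrix C A ℂ) (Y : Matrix D B ℂ)
    (i i' : C) (j j' : D) :
    ((X ⊗ₖ Y) * τ * (X ⊗ₖ Y)ᴴ) (i, j) (i', j') =
      ∑ a, ∑ b, ∑ a', ∑ b', X i a * Y j b * τ (a, b) (a', b') *
        (star (X i' a') * star (Y j' b')) := by
  rw [mul_apply, Fintype.sum_prod_type]
  have h : ∀ a' b', ((X ⊗ₖ Y) * τ) (i, j) (a', b') * (X ⊗ₖ Y)ᴴ (a', b') (i', j') =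
      ∑ a, ∑ b, X i a * Y j b * τ (a, b) (a', b') * (star (X i' a') * star (Y j' b')) := by
    intro a' b'
    rw [mul_apply, Fintype.sum_prod_type, Finset.sum_mul]
    refine Finset.sum_congr rfl fun a _ => ?_
    rw [Finset.sum_mul]
    refine Finset.sum_congr rfl fun b _ => ?_
    rw [kroneckerMap_apply, conjTranspose_apply, kroneckerMap_apply, star_mul']
  simp only [h]
  calc _ = ∑ a', ∑ a, ∑ b', ∑ b, X i a * Y j b * τ (a, b) (a', b') *
        (star (X i' a') * star (Y j' b')) := by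
        refine Finset.sum_congr rfl fun a' _ => ?_
        rw [Finset.sum_comm]
    _ = ∑ a, ∑ a', ∑ b, ∑ b', X i a * Y j b * τ (a, b) (a', b') *
        (star (X i' a') * star (Y j' b')) := by
        rw [Finset.sum_comm]
        refine Finset.sum_congr rfl fun a _ => Finset.sum_congr rfl fun a' _ => ?_
        rw [Finset.sum_comm]
    _ = _ := by
        refine Finset.sum_congr rfl fun a _ => ?_
        rw [Finset.sum_comm]

/-- An entry of a filtered operator as a value of the form. -/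
theorem filt_bf (τ : Matrix (A × B) (A × B) ℂ) (u : C → A → ℂ) (v : D → B → ℂ)
    (i i' : C) (j j' : D) :
    (((Matrix.of fun i a => star (u i a)) ⊗ₖ (Matrix.of fun j b => v j b)) * τ *
      ((Matrix.of fun i a => star (u i a)) ⊗ₖ (Matrix.of fun j b => v j b))ᴴ) (i, j) (i', j') =
      bf τ (u i) (v j') (u i') (v j) := by
  rw [filt_apply, bf]
  refine Finset.sum_congr rfl fun a _ => ?_
  rw [Finset.sum_comm]
  have : ∀ a' : A, ∑ b, ∑ b', (Matrix.of fun i a => star (u i a)) i a *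
      (Matrix.of fun j b => v j b) j b * τ (a, b) (a', b') *
      (star ((Matrix.of fun i a => star (u i a)) i' a') *
        star ((Matrix.of fun j b => v j b) j' b')) =
      ∑ b, ∑ b', star (u i a) * star (v j' b) * τ (a, b') (a', b) * (u i' a' * v j b') := by
    intro a'
    rw [Finset.sum_comm]
    refine Finset.sum_congr rfl fun b _ => Finset.sum_congr rfl fun b' _ => ?_
    simp only [of_apply, star_star]
    ring
  simp only [this]
  rw [Finset.sum_comm]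

theorem tpow_pTrans (n : ℕ) (ρ : Matrix (A × B) (A × B) ℂ) :
    tpow n (pTrans ρ) = pTrans (tpow n ρ) := rfl

/-- The two by two situation. -/
theorem two_test {σ : Matrix (Fin 2 × Fin 2) (Fin 2 × Fin 2) ℂ} (hσ : σ.PosSemidef)
    (h : (σ (0, 0) (0, 0) + σ (1, 1) (1, 1) + (σ (0, 1) (1, 0) + σ (1, 0) (0, 1))).re < 0) :
    ∃ s : ℝ, 0 < s ∧ ((σ (0, 0) (0, 0)).re + s ^ 2 * (σ (0, 1) (0, 1)).re) *
      ((σ (1, 1) (1, 1)).re + s ^ 2 * (σ (0, 1) (0, 1)).re) < ‖σ (1, 0) (0, 1)‖ ^ 2 := by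
  have p0 : 0 ≤ (σ (0, 0) (0, 0)).re := (Complex.le_def.mp hσ.diag_nonneg).1
  have p1 : 0 ≤ (σ (1, 1) (1, 1)).re := (Complex.le_def.mp hσ.diag_nonneg).1
  have hs : σ (0, 1) (1, 0) = star (σ (1, 0) (0, 1)) := herm_apply hσ.1 _ _
  rw [Complex.add_re, Complex.add_re, Complex.add_re, hs, RCLike.star_def, Complex.conj_re] at h
  have h1 := (abs_le.mp (Complex.abs_re_le_norm (σ (1, 0) (0, 1)))).1
  have h2 : (σ (0, 0) (0, 0)).re * (σ (1, 1) (1, 1)).re < ‖σ (1, 0) (0, 1)‖ ^ 2 := by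
    nlinarith [sq_nonneg ((σ (0, 0) (0, 0)).re - (σ (1, 1) (1, 1)).re)]
  have hc : Continuous fun s : ℝ => ((σ (0, 0) (0, 0)).re + s ^ 2 * (σ (0, 1) (0, 1)).re) *
      ((σ (1, 1) (1, 1)).re + s ^ 2 * (σ (0, 1) (0, 1)).re) := by fun_prop
  have h3 : ∀ᶠ s in nhds (0 : ℝ), ((σ (0, 0) (0, 0)).re + s ^ 2 * (σ (0, 1) (0, 1)).re) *
      ((σ (1, 1) (1, 1)).re + s ^ 2 * (σ (0, 1) (0, 1)).re) < ‖σ (1, 0) (0, 1)‖ ^ 2 := by
    refine (hc.tendsto 0).eventually_lt_const ?_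
    simpa using h2
  obtain ⟨s, h4, h5⟩ := ((h3.filter_mono nhdsWithin_le_nhds).and
    (self_mem_nhdsWithin : Set.Ioi (0 : ℝ) ∈ nhdsWithin 0 (Set.Ioi 0))).exists
  exact ⟨s, h5, h4⟩

theorem tr_left_two (σ : Matrix (Fin 2 × Fin 2) (Fin 2 × Fin 2) ℂ) :
    (((Matrix.single (0 : Fin 2) (1 : Fin 2) (1 : ℂ)) ⊗ₖ (1 : Matrix (Fin 2) (Fin 2) ℂ))ᴴ * σ *
      ((Matrix.single (0 : Fin 2) (1 : Fin 2) (1 : ℂ)) ⊗ₖ (1 : Matrix (Fin 2) (Fin 2) ℂ))).trace =
      σ (0, 0) (0, 0) + σ (0, 1) (0, 1) := by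
  simp [trace, mul_apply, Fintype.sum_prod_type, Fin.sum_univ_two, single_apply, one_apply]

theorem tr_right_two (σ : Matrix (Fin 2 × Fin 2) (Fin 2 × Fin 2) ℂ) :
    (((1 : Matrix (Fin 2) (Fin 2) ℂ) ⊗ₖ (Matrix.single (1 : Fin 2) (0 : Fin 2) (1 : ℂ)))ᴴ * σ *
      ((1 : Matrix (Fin 2) (Fin 2) ℂ) ⊗ₖ (Matrix.single (1 : Fin 2) (0 : Fin 2) (1 : ℂ)))).trace =
      σ (0, 1) (0, 1) + σ (1, 1) (1, 1) := by
  simp [trace, mul_apply, Fintype.sum_prod_type, Fin.sum_univ_two, single_apply, one_apply]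

theorem tr_two (σ : Matrix (Fin 2 × Fin 2) (Fin 2 × Fin 2) ℂ) :
    (σ * ((Matrix.single (0 : Fin 2) (1 : Fin 2) (1 : ℂ)) ⊗ₖ
      (Matrix.single (1 : Fin 2) (0 : Fin 2) (1 : ℂ)))).trace = σ (1, 0) (0, 1) := by
  rw [single_kronecker_single, mul_one]
  simp [trace, mul_apply, Fintype.sum_prod_type, Fin.sum_univ_two, single_apply]

/-- the two scalings -/
noncomputable def sx (s : ℝ) : Fin 2 → ℝ := ![1, s⁻¹]

/-- the two scalings -/
noncomputable def sy (s : ℝ) : Fin 2 → ℝ := ![1, s]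

theorem test_of_rankTwo {ρ : Matrix (A × B) (A × B) ℂ} (hρ : ρ.PosSemidef) (h : RankTwoNeg ρ) :
    ExpTest ρ 0 0 := by
  obtain ⟨n, x, x', y, y', hn, h⟩ := h
  obtain ⟨u, hu⟩ : ∃ u : Fin 2 → (Fin n → A) → ℂ, u = ![x, x'] := ⟨_, rfl⟩
  obtain ⟨v, hv⟩ : ∃ v : Fin 2 → (Fin n → B) → ℂ, v = ![y, y'] := ⟨_, rfl⟩
  have hτ : (tpow n ρ).PosSemidef := by
    rw [tpow_tf]
    exact (piT_posSemidef fun _ => hρ).submatrix _
  obtain ⟨X, hX⟩ : ∃ X : Matrix (Fin 2) (Fin n → A) ℂ, X = Matrix.of fun i a => star (u i a) :=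
    ⟨_, rfl⟩
  obtain ⟨Y, hY⟩ : ∃ Y : Matrix (Fin 2) (Fin n → B) ℂ, Y = Matrix.of fun j b => v j b := ⟨_, rfl⟩
  obtain ⟨σ, hσ⟩ : ∃ σ, σ = (X ⊗ₖ Y) * tpow n ρ * (X ⊗ₖ Y)ᴴ := ⟨_, rfl⟩
  have hσp : σ.PosSemidef := hσ ▸ hτ.mul_mul_conjTranspose_same _
  have hent : ∀ i i' j j', σ (i, j) (i', j') = bf (tpow n ρ) (u i) (v j') (u i') (v j) := by
    intro i i' j j'
    rw [hσ, hX, hY]
    exact filt_bf (tpow n ρ) u v i i' j j'
  have hval : sprod (prodVec x y + prodVec x' y')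
      (tpow n (pTrans ρ) *ᵥ (prodVec x y + prodVec x' y')) =
      σ (0, 0) (0, 0) + σ (1, 1) (1, 1) + (σ (0, 1) (1, 0) + σ (1, 0) (0, 1)) := by
    rw [hent, hent, hent, hent, tpow_pTrans, mulVec_add, sprod_add_left, sprod_add_right,
      sprod_add_right, sprod_bf, sprod_bf, sprod_bf, sprod_bf, hu, hv]
    simp only [cons_val_zero, cons_val_one]
    ring
  rw [hval] at h
  obtain ⟨s, hs, hlt⟩ := two_test hσp h
  obtain ⟨P, hP⟩ : ∃ P : Matrix (Fin 2) (Fin 2) ℂ, P = diagonal fun i => (sx s i : ℂ) :=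
    ⟨_, rfl⟩
  obtain ⟨Q, hQ⟩ : ∃ Q : Matrix (Fin 2) (Fin 2) ℂ, Q = diagonal fun i => (sy s i : ℂ) :=
    ⟨_, rfl⟩
  have hf : filtered n ρ (P * X) (Q * Y) = (P ⊗ₖ Q) * σ * (P ⊗ₖ Q)ᴴ := by
    rw [filtered, mul_kronecker_mul, conjTranspose_mul, hσ]
    simp only [Matrix.mul_assoc]
  have hfp : (filtered n ρ (P * X) (Q * Y)).PosSemidef := hf ▸ hσp.mul_mul_conjTranspose_same _
  have hfe : ∀ p q, filtered n ρ (P * X) (Q * Y) p q =
      ((sx s p.1 * sy s p.2 * (sx s q.1 * sy s q.2) : ℝ) : ℂ) * σ p q := by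
    intro p q
    have e : P ⊗ₖ Q = diagonal fun p : Fin 2 × Fin 2 => ((sx s p.1 * sy s p.2 : ℝ) : ℂ) := by
      rw [hP, hQ, diagonal_kronecker_diagonal]
      congr 1
      ext p
      push_cast
      rfl
    rw [hf, e, diagonal_conjTranspose, mul_diagonal, diagonal_mul, Pi.star_apply,
      RCLike.star_def, Complex.conj_ofReal]
    push_cast
    ring
  have hU := eigU_mul hfp.1
  refine ⟨n, Fin 2, Fin 2, inferInstance, inferInstance, inferInstance, inferInstance, P * X,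
    Q * Y, Matrix.single 0 1 1, Matrix.single 1 0 1, hfp.1.eigenvalues,
    (hfp.1.eigenvectorUnitary : Matrix (Fin 2 × Fin 2) (Fin 2 × Fin 2) ℂ), hn, eigU_mul' hfp.1,
    fun i => hfp.eigenvalues_nonneg i, spectral_eq hfp.1, ?_⟩
  rw [expCost_zero hU (spectral_eq hfp.1), expCost_zero hU (spectral_eq hfp.1), tr_left_two,
    tr_right_two, tr_two, hfe, hfe, hfe, hfe]
  have e1 : (((sx s (0 : Fin 2) * sy s (0 : Fin 2) * (sx s 0 * sy s 0) : ℝ) : ℂ) *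
      σ (0, 0) (0, 0) + ((sx s (0 : Fin 2) * sy s (1 : Fin 2) * (sx s 0 * sy s 1) : ℝ) : ℂ) *
      σ (0, 1) (0, 1)).re = (σ (0, 0) (0, 0)).re + s ^ 2 * (σ (0, 1) (0, 1)).re := by
    rw [Complex.add_re, Complex.re_ofReal_mul, Complex.re_ofReal_mul]
    simp only [sx, sy, cons_val_zero, cons_val_one]
    ring
  have e2 : (((sx s (0 : Fin 2) * sy s (1 : Fin 2) * (sx s 0 * sy s 1) : ℝ) : ℂ) *
      σ (0, 1) (0, 1) + ((sx s (1 : Fin 2) * sy s (1 : Fin 2) * (sx s 1 * sy s 1) : ℝ) : ℂ) *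
      σ (1, 1) (1, 1)).re = (σ (1, 1) (1, 1)).re + s ^ 2 * (σ (0, 1) (0, 1)).re := by
    rw [Complex.add_re, Complex.re_ofReal_mul, Complex.re_ofReal_mul]
    simp only [sx, sy, cons_val_zero, cons_val_one]
    rw [inv_mul_cancel₀ hs.ne']
    ring
  have e3 : ((sx s (1 : Fin 2) * sy s (0 : Fin 2) * (sx s 0 * sy s 1) : ℝ) : ℂ) = 1 := by
    simp only [sx, sy, cons_val_zero, cons_val_one]
    rw [mul_one, one_mul, inv_mul_cancel₀ hs.ne', Complex.ofReal_one]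
  rw [e1, e2, e3, one_mul]
  exact hlt

theorem trace_pTrans_kron (σ : Matrix (A × B) (A × B) ℂ) (K : Matrix A A ℂ)
    (L : Matrix B B ℂ) : (pTrans σ * (K ⊗ₖ L)).trace = (σ * (K ⊗ₖ Lᵀ)).trace := by
  simp only [trace, diag_apply, mul_apply, Fintype.sum_prod_type, kroneckerMap_apply, pTrans,
    transpose_apply]
  refine Finset.sum_congr rfl fun a _ => ?_
  calc ∑ b, ∑ a', ∑ b', σ (a, b') (a', b) * (K a' a * L b' b) =
        ∑ a', ∑ b, ∑ b', σ (a, b') (a', b) * (K a' a * L b' b) := Finset.sum_comm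
    _ = ∑ a', ∑ b', ∑ b, σ (a, b') (a', b) * (K a' a * L b' b) := by
        refine Finset.sum_congr rfl fun a' _ => Finset.sum_comm
    _ = _ := Finset.sum_comm

theorem pTrans_filt (τ : Matrix (A × B) (A × B) ℂ) (X : Matrix C A ℂ) (Y : Matrix D B ℂ) :
    pTrans ((X ⊗ₖ Y) * τ * (X ⊗ₖ Y)ᴴ) =
      (X ⊗ₖ Y.map star) * pTrans τ * (X ⊗ₖ Y.map star)ᴴ := by
  ext ⟨i, j⟩ ⟨i', j'⟩
  rw [pTrans, filt_apply, filt_apply]
  refine Finset.sum_congr rfl fun a _ => ?_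
  calc ∑ b, ∑ a', ∑ b', X i a * Y j' b * τ (a, b) (a', b') * (star (X i' a') * star (Y j b')) =
        ∑ a', ∑ b, ∑ b', X i a * Y j' b * τ (a, b) (a', b') *
          (star (X i' a') * star (Y j b')) := Finset.sum_comm
    _ = ∑ a', ∑ b', ∑ b, X i a * Y j' b * τ (a, b) (a', b') *
          (star (X i' a') * star (Y j b')) := by
        refine Finset.sum_congr rfl fun a' _ => Finset.sum_comm
    _ = ∑ b', ∑ a', ∑ b, X i a * Y j' b * τ (a, b) (a', b') *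
          (star (X i' a') * star (Y j b')) := Finset.sum_comm
    _ = _ := by
        refine Finset.sum_congr rfl fun b' _ => Finset.sum_congr rfl fun a' _ =>
          Finset.sum_congr rfl fun b _ => ?_
        simp only [map_apply, pTrans, star_star]
        ring

theorem kron_prodVec (X : Matrix C A ℂ) (Y : Matrix D B ℂ) (u : A → ℂ) (v : B → ℂ) :
    (X ⊗ₖ Y) *ᵥ prodVec u v = prodVec (X *ᵥ u) (Y *ᵥ v) := by
  ext ⟨i, j⟩
  rw [mulVec, dotProduct, Fintype.sum_prod_type, prodVec, mulVec, mulVec, dotProduct, dotProduct,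
    Finset.sum_mul]
  refine Finset.sum_congr rfl fun a _ => ?_
  rw [Finset.mul_sum]
  refine Finset.sum_congr rfl fun b _ => ?_
  rw [kroneckerMap_apply, prodVec]
  ring

theorem sprod_mulVec (N : Matrix A B ℂ) (w : A → ℂ) (x : B → ℂ) :
    sprod w (N *ᵥ x) = sprod (Nᴴ *ᵥ w) x := by
  have h1 : sprod w (N *ᵥ x) = star w ⬝ᵥ (N *ᵥ x) := rfl
  have h2 : sprod (Nᴴ *ᵥ w) x = star (Nᴴ *ᵥ w) ⬝ᵥ x := rfl
  rw [h1, h2, star_mulVec, conjTranspose_conjTranspose, dotProduct_mulVec]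

/-- pulling back through the filters -/
theorem sprod_filt (τ : Matrix (A × B) (A × B) ℂ) (X : Matrix C A ℂ) (Y : Matrix D B ℂ)
    (u u' : C → ℂ) (v v' : D → ℂ) :
    sprod (prodVec u v + prodVec u' v') (pTrans ((X ⊗ₖ Y) * τ * (X ⊗ₖ Y)ᴴ) *ᵥ
      (prodVec u v + prodVec u' v')) =
    sprod (prodVec (Xᴴ *ᵥ u) ((Y.map star)ᴴ *ᵥ v) + prodVec (Xᴴ *ᵥ u') ((Y.map star)ᴴ *ᵥ v'))
      (pTrans τ *ᵥ (prodVec (Xᴴ *ᵥ u) ((Y.map star)ᴴ *ᵥ v) +
        prodVec (Xᴴ *ᵥ u') ((Y.map star)ᴴ *ᵥ v'))) := by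
  rw [pTrans_filt, ← mulVec_mulVec, ← mulVec_mulVec, sprod_mulVec, conjTranspose_kronecker,
    mulVec_add, kron_prodVec, kron_prodVec]

/-- A quadratic form with negative discriminant. -/
theorem exists_neg {P R : ℝ} {z : ℂ} (hP : 0 ≤ P) (hR : 0 ≤ R) (h : P * R < ‖z‖ ^ 2) :
    ∃ t : ℝ, t ^ 2 * P + ‖z‖ ^ 2 * R - 2 * t * ‖z‖ ^ 2 < 0 := by
  have hm : 0 < ‖z‖ ^ 2 := lt_of_le_of_lt (mul_nonneg hP hR) h
  rcases hP.eq_or_lt with h0 | h0
  · refine ⟨R + 1, ?_⟩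
    rw [← h0]
    nlinarith
  · refine ⟨‖z‖ ^ 2 / P, ?_⟩
    have e : (‖z‖ ^ 2 / P) ^ 2 * P + ‖z‖ ^ 2 * R - 2 * (‖z‖ ^ 2 / P) * ‖z‖ ^ 2 =
        ‖z‖ ^ 2 / P * (P * R - ‖z‖ ^ 2) := by
      field_simp
      ring
    rw [e]
    exact mul_neg_of_pos_of_neg (div_pos hm h0) (by linarith)

theorem rankTwo_of_test {ρ : Matrix (A × B) (A × B) ℂ} (h : ExpTest ρ 0 0) : RankTwoNeg ρ := by
  obtain ⟨n, C, D, _, _, _, _, X, Y, S, T, l, W, hn, hW, hl, hσ, h⟩ := h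
  have hW' : W * Wᴴ = 1 := mul_eq_one_comm.mp hW
  rw [expCost_zero hW' hσ, expCost_zero hW' hσ] at h
  have hσp := psd_of_spec hl hσ
  obtain ⟨σ, hσ'⟩ : ∃ σ, σ = filtered n ρ X Y := ⟨_, rfl⟩
  rw [← hσ'] at h hσp
  obtain ⟨z, hz⟩ : ∃ z, z = (σ * (S ⊗ₖ T)).trace := ⟨_, rfl⟩
  rw [← hz] at h
  have hP : 0 ≤ ((S ⊗ₖ (1 : Matrix D D ℂ))ᴴ * σ * (S ⊗ₖ (1 : Matrix D D ℂ))).trace.re :=
    (Complex.le_def.mp (hσp.conjTranspose_mul_mul_same _).trace_nonneg).1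
  have hR : 0 ≤ (((1 : Matrix C C ℂ) ⊗ₖ T)ᴴ * σ * ((1 : Matrix C C ℂ) ⊗ₖ T)).trace.re :=
    (Complex.le_def.mp (hσp.conjTranspose_mul_mul_same _).trace_nonneg).1
  obtain ⟨t, ht⟩ := exists_neg hP hR h
  obtain ⟨M, hM⟩ : ∃ M : Matrix (C × D) (C × D) ℂ,
      M = (t : ℂ) • (S ⊗ₖ 1) + (-z) • (1 ⊗ₖ T.map star) := ⟨_, rfl⟩
  -- the trace of the form
  have htr : (Mᴴ * pTrans σ * M).trace.re =
      t ^ 2 * ((S ⊗ₖ (1 : Matrix D D ℂ))ᴴ * σ * (S ⊗ₖ (1 : Matrix D D ℂ))).trace.re +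
      ‖z‖ ^ 2 * (((1 : Matrix C C ℂ) ⊗ₖ T)ᴴ * σ * ((1 : Matrix C C ℂ) ⊗ₖ T)).trace.re -
      2 * t * ‖z‖ ^ 2 := by
    have hMM : M * Mᴴ = ((t ^ 2 : ℝ) : ℂ) • ((S * Sᴴ) ⊗ₖ 1) +
        ((‖z‖ ^ 2 : ℝ) : ℂ) • (1 ⊗ₖ (T.map star * Tᵀ)) +
        ((-(t : ℂ) * star z) • (S ⊗ₖ Tᵀ) + (-(t : ℂ) * z) • (Sᴴ ⊗ₖ T.map star)) := by
      have e1 : (T.map star)ᴴ = Tᵀ := by
        ext i j
        simp
      have e2 : z * star z = ((‖z‖ ^ 2 : ℝ) : ℂ) := by
        rw [RCLike.star_def, Complex.mul_conj']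
        push_cast
        rfl
      rw [hM, conjTranspose_add, conjTranspose_smul, conjTranspose_smul, conjTranspose_kronecker,
        conjTranspose_kronecker, conjTranspose_one, conjTranspose_one, e1, Matrix.add_mul,
        Matrix.mul_add, Matrix.mul_add, Matrix.smul_mul, Matrix.smul_mul, Matrix.smul_mul,
        Matrix.smul_mul, Matrix.mul_smul, Matrix.mul_smul, Matrix.mul_smul, Matrix.mul_smul,
        smul_smul, smul_smul, smul_smul, smul_smul, ← mul_kronecker_mul, ← mul_kronecker_mul,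
        ← mul_kronecker_mul, ← mul_kronecker_mul, Matrix.mul_one, Matrix.one_mul, Matrix.mul_one,
        Matrix.one_mul, Matrix.one_mul, Matrix.mul_one, star_neg, neg_mul_neg, e2,
        RCLike.star_def, Complex.conj_ofReal]
      have e3 : (t : ℂ) * (t : ℂ) = ((t ^ 2 : ℝ) : ℂ) := by
        push_cast
        ring
      have e4 : (t : ℂ) * -(starRingEnd ℂ) z = -(t : ℂ) * (starRingEnd ℂ) z := by ring
      have e5 : -z * (t : ℂ) = -(t : ℂ) * z := by ring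
      rw [e3, e4, e5]
      abel
    have hT1 : (T.map star * Tᵀ)ᵀ = T * Tᴴ := by
      rw [transpose_mul, transpose_transpose]
      rfl
    have hT2 : (T.map star)ᵀ = Tᴴ := rfl
    have c1 : (S ⊗ₖ (1 : Matrix D D ℂ)) * (S ⊗ₖ (1 : Matrix D D ℂ))ᴴ = (S * Sᴴ) ⊗ₖ 1 := by
      rw [conjTranspose_kronecker, conjTranspose_one, ← mul_kronecker_mul, Matrix.mul_one]
    have c2 : ((1 : Matrix C C ℂ) ⊗ₖ T) * ((1 : Matrix C C ℂ) ⊗ₖ T)ᴴ = 1 ⊗ₖ (T * Tᴴ) := by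
      rw [conjTranspose_kronecker, conjTranspose_one, ← mul_kronecker_mul, Matrix.mul_one]
    have cyc : ∀ (G N : Matrix (C × D) (C × D) ℂ), (Nᴴ * G * N).trace = (G * (N * Nᴴ)).trace := by
      intro G N
      rw [Matrix.mul_assoc, trace_mul_comm, Matrix.mul_assoc]
    have c3 : (σ * (Sᴴ ⊗ₖ Tᴴ)).trace = star z := by
      rw [← conjTranspose_kronecker, tr_star hσp.1, hz]
    rw [cyc, cyc, cyc, hMM, c1, c2, Matrix.mul_add, Matrix.mul_add, Matrix.mul_add,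
      Matrix.mul_smul, Matrix.mul_smul, Matrix.mul_smul, Matrix.mul_smul, trace_add, trace_add,
      trace_add, trace_smul, trace_smul, trace_smul, trace_smul, trace_pTrans_kron,
      trace_pTrans_kron, trace_pTrans_kron, trace_pTrans_kron, transpose_one, hT1, hT2,
      transpose_transpose, c3, ← hz, Complex.add_re, Complex.add_re, Complex.add_re,
      smul_eq_mul, smul_eq_mul, smul_eq_mul, smul_eq_mul, Complex.re_ofReal_mul,
      Complex.re_ofReal_mul]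
    have e6 : (-(t : ℂ) * star z * z).re = -t * ‖z‖ ^ 2 := by
      have : -(t : ℂ) * star z * z = ((-t * ‖z‖ ^ 2 : ℝ) : ℂ) := by
        rw [mul_assoc, RCLike.star_def, Complex.conj_mul']
        push_cast
        ring
      rw [this, Complex.ofReal_re]
    have e7 : (-(t : ℂ) * z * star z).re = -t * ‖z‖ ^ 2 := by
      have : -(t : ℂ) * z * star z = ((-t * ‖z‖ ^ 2 : ℝ) : ℂ) := by
        rw [mul_assoc, RCLike.star_def, Complex.mul_conj']
        push_cast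
        ring
      rw [this, Complex.ofReal_re]
    rw [e6, e7]
    ring
  rw [← htr, trace, Complex.re_sum] at ht
  obtain ⟨⟨i, j⟩, -, hij⟩ := Finset.exists_lt_of_sum_lt (f := fun p => ((Mᴴ * pTrans σ * M).diag
    p).re) (g := fun _ => (0 : ℝ)) (s := Finset.univ) (by simpa using ht)
  have hcol : (fun q => M q (i, j)) = prodVec (fun a => (t : ℂ) * S a i) (Pi.single j 1) +
      prodVec (Pi.single i 1) (fun b => -z * star (T b j)) := by
    ext ⟨a, b⟩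
    rw [hM, Matrix.add_apply, Matrix.smul_apply, Matrix.smul_apply, kroneckerMap_apply,
      kroneckerMap_apply, Pi.add_apply, prodVec, prodVec, one_apply, one_apply, Pi.single_apply,
      Pi.single_apply, map_apply, smul_eq_mul, smul_eq_mul]
    ring
  have hval : (Mᴴ * pTrans σ * M).diag (i, j) =
      sprod (fun q => M q (i, j)) (pTrans σ *ᵥ fun q => M q (i, j)) := by
    rw [diag_apply, Matrix.mul_assoc, mul_apply, sprod]
    refine Finset.sum_congr rfl fun q _ => ?_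
    rw [conjTranspose_apply, mul_apply]
    rfl
  rw [hval, hcol, hσ', filtered, sprod_filt] at hij
  exact ⟨n, _, _, _, _, hn, hij⟩

theorem corner_iff {ρ : Matrix (A × B) (A × B) ℂ} (hρ : ρ.PosSemidef) :
    ExpTest ρ 0 0 ↔ RankTwoNeg ρ :=
  ⟨rankTwo_of_test, test_of_rankTwo hρ⟩

end H625

end Vale.Agent.P372
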