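import Vale.Agent.P372.TestDefs

open Matrix Kronecker
open scoped ComplexOrder

namespace Vale.Agent.P372

namespace H625

/-- The weights of `famOp`: `1` at `(i, i)`, `e` at `(i + 1, i)`, `g` at `(i + 2, i)`. -/
def famW (e g : ℝ) (p : Fin 3 × Fin 3) : ℝ :=
  if p.1 = p.2 then 1 else if p.1 = p.2 + 1 then e else g

/-- The operator on `ℂ^3 ⊗ ℂ^3` with weight `1` on `|i, i⟩`, weight `e` on `|i + 1, i⟩`, weight `g` on
`|i + 2, i⟩` and the coherences `k e` between the vectors `|i + 1, i⟩`. -/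
def famOp (k e g : ℝ) : Matrix (Fin 3 × Fin 3) (Fin 3 × Fin 3) ℂ := fun p q =>
  if p = q then (famW e g p : ℂ)
  else if p.1 = p.2 + 1 ∧ q.1 = q.2 + 1 then ((k * e : ℝ) : ℂ) else 0

/-- The state proportional to `famOp`. -/
noncomputable def famState (k e g : ℝ) : Matrix (Fin 3 × Fin 3) (Fin 3 × Fin 3) ℂ :=
  (((3 * (1 + e + g))⁻¹ : ℝ) : ℂ) • famOp k e g

end H625

end Vale.Agent.P372
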