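import Vale.Agent.P372.H625.Four
import Vale.Agent.P372.H625.FamDefs

open Matrix Kronecker
open scoped ComplexOrder MatrixOrder

set_option linter.unusedSectionVars false
set_option linter.unusedSimpArgs false

namespace Vale.Agent.P372

namespace H625

variable {E : Type} [Fintype E] [DecidableEq E]

/-- the diagonal filter -/
noncomputable def dg (y : ℝ) : Fin 3 → ℝ := ![1, 1, y]

/-- the filter as a matrix -/
noncomputable def dgM (y : ℝ) : Matrix (Fin 3) (Fin 3) ℂ := diagonal fun i => (dg y i : ℂ)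

theorem dgM_kron (y : ℝ) : dgM y ⊗ₖ dgM y =
    diagonal fun p : Fin 3 × Fin 3 => ((dg y p.1 * dg y p.2 : ℝ) : ℂ) := by
  rw [dgM, diagonal_kronecker_diagonal]
  congr 1
  ext p
  push_cast
  rfl

/-- the filtered operator -/
noncomputable def fs (k e g y : ℝ) : Matrix (Fin 3 × Fin 3) (Fin 3 × Fin 3) ℂ :=
  (dgM y ⊗ₖ dgM y) * famOp k e g * (dgM y ⊗ₖ dgM y)ᴴ

theorem fs_apply (k e g y : ℝ) (p q : Fin 3 × Fin 3) :
    fs k e g y p q = ((dg y p.1 * dg y p.2 * (dg y q.1 * dg y q.2) : ℝ) : ℂ) *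
      famOp k e g p q := by
  rw [fs, dgM_kron, diagonal_conjTranspose, mul_diagonal, diagonal_mul, Pi.star_apply,
    RCLike.star_def, Complex.conj_ofReal]
  push_cast
  ring

/-- Alice's operator -/
def opS : Matrix (Fin 3) (Fin 3) ℂ := ro (kt 0) (kt 2)

/-- Bob's operator -/
def opT : Matrix (Fin 3) (Fin 3) ℂ := ro (kt 2) (kt 1)

theorem ro_kt {I : Type} [Fintype I] [DecidableEq I] (i j : I) :
    ro (kt i) (kt j) = Matrix.single i j (1 : ℂ) := by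
  ext p q
  rw [ro, vecMulVec_apply, Pi.star_apply, kt_apply, kt_apply, single_apply]
  by_cases h1 : i = p
  · by_cases h2 : j = q
    · simp [h1, h2]
    · simp [h1, h2, Ne.symm h2]
  · simp [h1, Ne.symm h1]

theorem kron_single_one (i j : Fin 3) : (Matrix.single i j (1 : ℂ)) ⊗ₖ
    (1 : Matrix (Fin 3) (Fin 3) ℂ) = ∑ k : Fin 3, Matrix.single (i, k) (j, k) (1 : ℂ) := by
  ext ⟨a, b⟩ ⟨c, d⟩
  rw [kroneckerMap_apply, Matrix.sum_apply, Finset.sum_eq_single b]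
  · simp only [single_apply, one_apply, Prod.mk.injEq, and_true]
    by_cases h1 : i = a <;> by_cases h2 : j = c <;> by_cases h3 : b = d <;> simp [h1, h2, h3]
  · intro k _ hk
    rw [single_apply_of_ne]
    intro h
    rw [Prod.mk.injEq] at h
    exact hk h.1.2
  · intro h; exact absurd (Finset.mem_univ _) h

theorem one_kron_single (i j : Fin 3) : (1 : Matrix (Fin 3) (Fin 3) ℂ) ⊗ₖ
    (Matrix.single i j (1 : ℂ)) = ∑ k : Fin 3, Matrix.single (k, i) (k, j) (1 : ℂ) := by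
  ext ⟨a, b⟩ ⟨c, d⟩
  rw [kroneckerMap_apply, Matrix.sum_apply, Finset.sum_eq_single a]
  · simp only [single_apply, one_apply, Prod.mk.injEq, true_and]
    by_cases h1 : i = b <;> by_cases h2 : j = d <;> by_cases h3 : a = c <;> simp [h1, h2, h3]
  · intro k _ hk
    rw [single_apply_of_ne]
    intro h
    rw [Prod.mk.injEq] at h
    exact hk h.1.1
  · intro h; exact absurd (Finset.mem_univ _) h

theorem sumS (x : ℝ) : ∑ j, fp (I := Fin 3 × Fin 3) (0, 1) (1, 0) (2, 1) (0, 0) (2, 0) (0, 2)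
    (2, 2) x j = opS ⊗ₖ 1 := by
  rw [fp_sum, opS, ro_kt, ro_kt, ro_kt, ro_kt, kron_single_one, Fin.sum_univ_three]
  abel

theorem sumT (x : ℝ) : ∑ j, (fp (I := Fin 3 × Fin 3) (0, 1) (1, 0) (0, 2) (1, 1) (1, 2) (2, 1)
    (2, 2) x j)ᴴ = 1 ⊗ₖ opT := by
  rw [← conjTranspose_sum, fp_sum, opT, ro_kt, ro_kt, ro_kt, ro_kt, one_kron_single,
    Fin.sum_univ_three, conjTranspose_add, conjTranspose_add, conjTranspose_single,
    conjTranspose_single, conjTranspose_single, star_one]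

theorem trST (k e g y : ℝ) : (fs k e g y * (opS ⊗ₖ opT)).trace = ((k * e * y ^ 2 : ℝ) : ℂ) := by
  have h : opS ⊗ₖ opT = Matrix.single ((0 : Fin 3), (2 : Fin 3)) ((2 : Fin 3), (1 : Fin 3))
      (1 : ℂ) := by
    rw [opS, opT, ro_kt, ro_kt, single_kronecker_single, mul_one]
  rw [h, ← ro_kt, ro, mul_vecMulVec, trace_vecMulVec, dotProduct_comm, kt_dot, mulVec_kt,
    fs_apply]
  simp [dg, famOp]
  ring

theorem rpow_mix' {x y z θ : ℝ} (hx : 0 ≤ x) (hy : 0 ≤ y) (hz : 0 ≤ z) (h0 : 0 ≤ θ)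
    (h1 : θ ≤ 1) : (x * z) ^ (1 - θ) * (y * z) ^ θ = x ^ (1 - θ) * y ^ θ * z := by
  rw [Real.mul_rpow hx hz, Real.mul_rpow hy hz]
  have e : z ^ (1 - θ) * z ^ θ = z := by
    rw [← Real.rpow_add_of_nonneg hz (by linarith) h0]
    simp
  calc _ = x ^ (1 - θ) * y ^ θ * (z ^ (1 - θ) * z ^ θ) := by ring
    _ = _ := by rw [e]

/-- the costs which are exact -/
noncomputable def rr (k e g y : ℝ) : Fin 4 → ℝ :=
  ![(k * y) ^ 2 * e, y ^ 2 * e - (k * y) ^ 2 * e, g * y ^ 2, y ^ 4]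

/-- the costs which are bounded up to a factor -/
noncomputable def ll (k e g y : ℝ) : Fin 4 → ℝ :=
  ![4 * (g * (k * y) ^ 2), 4 * (g * (1 + (k * y) ^ 2)), 4 * 1, 4 * (y ^ 2 * e)]

theorem fs_psd {k e g y : ℝ} {Ψ : Matrix (Fin 3 × Fin 3) E ℂ} {X Y : Matrix (Fin 3) (Fin 3) ℂ}
    (h : fs k e g y = ((X ⊗ₖ Y) * Ψ) * ((X ⊗ₖ Y) * Ψ)ᴴ) : (fs k e g y).PosSemidef :=
  h ▸ posSemidef_self_mul_conjTranspose _

theorem rightS {k e g y : ℝ} :
    (diagonal (fun j => ((rr k e g y j : ℝ) : ℂ)) - gram (fs k e g y) (fun j =>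
      (fp (I := Fin 3 × Fin 3) (0, 1) (1, 0) (2, 1) (0, 0) (2, 0) (0, 2) (2, 2) (k * y) j)ᴴ)
      ).PosSemidef := by
  have h : gram (fs k e g y) (fun j =>
      (fp (I := Fin 3 × Fin 3) (0, 1) (1, 0) (2, 1) (0, 0) (2, 0) (0, 2) (2, 2) (k * y) j)ᴴ) =
      diagonal fun j => ((![(k * y) ^ 2 * e, y ^ 2 * e - (k * y) ^ 2 * e, g * y ^ 2,
        y ^ 4] j : ℝ) : ℂ) := by
    refine fp_right (by decide) (by decide) (by decide) ?_ ?_ ?_ ?_ ?_ ?_ <;> rw [fs_apply] <;>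
      simp [dg, famOp, famW] <;> first | ring1 | (left; ring1)
  rw [h, rr, sub_self]
  exact PosSemidef.zero

theorem rightT {k e g y : ℝ} :
    (diagonal (fun j => ((rr k e g y j : ℝ) : ℂ)) - gram (fs k e g y) (fun j =>
      (fp (I := Fin 3 × Fin 3) (0, 1) (1, 0) (0, 2) (1, 1) (1, 2) (2, 1) (2, 2) (k * y) j)ᴴ)
      ).PosSemidef := by
  have h : gram (fs k e g y) (fun j =>
      (fp (I := Fin 3 × Fin 3) (0, 1) (1, 0) (0, 2) (1, 1) (1, 2) (2, 1) (2, 2) (k * y) j)ᴴ) =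
      diagonal fun j => ((![(k * y) ^ 2 * e, y ^ 2 * e - (k * y) ^ 2 * e, g * y ^ 2,
        y ^ 4] j : ℝ) : ℂ) := by
    refine fp_right (by decide) (by decide) (by decide) ?_ ?_ ?_ ?_ ?_ ?_ <;> rw [fs_apply] <;>
      simp [dg, famOp, famW] <;> first | ring1 | (left; ring1)
  rw [h, rr, sub_self]
  exact PosSemidef.zero

theorem leftS {k e g y : ℝ} (hσ : (fs k e g y).PosSemidef) :
    (diagonal (fun j => ((ll k e g y j : ℝ) : ℂ)) - gram (fs k e g y)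
      (fp (I := Fin 3 × Fin 3) (0, 1) (1, 0) (2, 1) (0, 0) (2, 0) (0, 2) (2, 2) (k * y))
      ).PosSemidef := by
  refine gram_four hσ _ fun j => ?_
  rw [fp_left (p := g) (u := 1) (t := y ^ 2 * e) (by decide)]
  · fin_cases j <;> simp [ll]
  all_goals
    rw [fs_apply]
    simp [dg, famOp, famW]
  first | ring1 | (left; ring1)

theorem leftT {k e g y : ℝ} (hσ : (fs k e g y).PosSemidef) :
    (diagonal (fun j => ((ll k e g y j : ℝ) : ℂ)) - gram (fs k e g y)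
      (fp (I := Fin 3 × Fin 3) (0, 1) (1, 0) (0, 2) (1, 1) (1, 2) (2, 1) (2, 2) (k * y))
      ).PosSemidef := by
  refine gram_four hσ _ fun j => ?_
  rw [fp_left (p := g) (u := 1) (t := y ^ 2 * e) (by decide)]
  · fin_cases j <;> simp [ll]
  all_goals
    rw [fs_apply]
    simp [dg, famOp, famW]
  first | ring1 | (left; ring1)

/-- The free exponent criterion for the family. -/
theorem fam_key (Ψ : Matrix (Fin 3 × Fin 3) E ℂ) (hΨ : (Ψ * Ψᴴ).trace = 1)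
    {k e g y c θ : ℝ} (hc : 0 < c) (hρ : Ψ * Ψᴴ = (c : ℂ) • famOp k e g) (he : 0 ≤ e)
    (hg : 0 ≤ g) (hk : k ^ 2 ≤ 1) (h0 : 0 ≤ θ) (h1 : θ ≤ 1) (hk0 : 0 < k * e * y ^ 2)
    (h : ∑ j, ll k e g y j ^ (1 - θ) * rr k e g y j ^ θ < k * e * y ^ 2) :
    0 < distillableKey Ψ := by
  have hσ' : fs k e g y = ((((((√c)⁻¹ : ℝ) : ℂ) • dgM y) ⊗ₖ dgM y) * Ψ) *
      ((((((√c)⁻¹ : ℝ) : ℂ) • dgM y) ⊗ₖ dgM y) * Ψ)ᴴ := by
    have e1 : (((√c)⁻¹ : ℝ) : ℂ) * ((((√c)⁻¹ : ℝ) : ℂ) * (c : ℂ)) = 1 := by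
      rw [← Complex.ofReal_mul, ← Complex.ofReal_mul, ← mul_assoc, ← mul_inv,
        Real.mul_self_sqrt hc.le, inv_mul_cancel₀ hc.ne', Complex.ofReal_one]
    rw [conjTranspose_mul, Matrix.mul_assoc, ← Matrix.mul_assoc Ψ, hρ, smul_kronecker,
      conjTranspose_smul, RCLike.star_def, Complex.conj_ofReal, Matrix.smul_mul,
      Matrix.smul_mul, Matrix.mul_smul, Matrix.mul_smul, Matrix.mul_smul, smul_smul, smul_smul,
      mul_assoc, mul_comm (c : ℂ), e1, one_smul, fs, Matrix.mul_assoc]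
  have hσ := fs_psd hσ'
  have hll : ∀ j, 0 ≤ ll k e g y j := by
    intro j
    fin_cases j <;> simp [ll] <;> positivity
  have hrr : ∀ j, 0 ≤ rr k e g y j := by
    intro j
    fin_cases j
    · simp [rr]
      positivity
    · simp [rr]
      have : (k * y) ^ 2 * e = k ^ 2 * (y ^ 2 * e) := by ring
      rw [this]
      nlinarith [mul_nonneg (sq_nonneg y) he]
    · simp [rr]
      positivity
    · simp [rr]
      positivity
  have hs : ‖(fs k e g y * (opS ⊗ₖ opT)).trace‖ = k * e * y ^ 2 := by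
    rw [trST, Complex.norm_real, Real.norm_of_nonneg hk0.le]
  have hE : ∑ j, rr k e g y j ^ (1 - (1 - θ)) * ll k e g y j ^ (1 - θ) =
      ∑ j, ll k e g y j ^ (1 - θ) * rr k e g y j ^ θ := by
    refine Finset.sum_congr rfl fun j _ => ?_
    rw [sub_sub_cancel, mul_comm]
  have hE0 : 0 ≤ ∑ j, ll k e g y j ^ (1 - θ) * rr k e g y j ^ θ :=
    Finset.sum_nonneg fun j _ => mul_nonneg (Real.rpow_nonneg (hll j) _)
      (Real.rpow_nonneg (hrr j) _)
  refine power_pos_one Ψ hΨ _ _ hσ' opS opT (sumS (k * y)) (sumT (k * y)) hll hrr hrr hll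
    (leftS hσ) rightS rightT ?_ h0 h1 (by linarith : 0 ≤ 1 - θ) (by linarith) ?_
  · have := leftT hσ
    simp only [conjTranspose_conjTranspose]
    exact this
  · rw [hE, hs, sq]
    exact mul_lt_mul'' h h hE0 hE0

open Filter Topology in
/-- the choice of the exponent -/
theorem exists_theta {k C : ℝ} (hk0 : 0 < k) (hk1 : k < 1) (hg : 1 - k ^ 2 < k) (hC : 0 < C) :
    ∃ z θ : ℝ, 0 < z ∧ 2 / 3 < θ ∧ θ < 1 ∧
      (4 * C / z) ^ (1 - θ) * (1 - k ^ 2) ^ θ + 4 ^ (1 - θ) * z ^ θ < k := by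
  have hk2 : 0 < 1 - k ^ 2 := by nlinarith
  obtain ⟨z, hz⟩ : ∃ z : ℝ, z = (k - (1 - k ^ 2)) / 2 := ⟨_, rfl⟩
  have hz0 : 0 < z := by
    rw [hz]
    linarith
  have hcz : 0 < 4 * C / z := by positivity
  have hc : Continuous fun θ : ℝ => (4 * C / z) ^ (1 - θ) * (1 - k ^ 2) ^ θ +
      (4 : ℝ) ^ (1 - θ) * z ^ θ := by
    have c1 : Continuous fun θ : ℝ => (4 * C / z) ^ (1 - θ) :=
      (Real.continuous_const_rpow hcz.ne').comp (by fun_prop)
    have c2 : Continuous fun θ : ℝ => (1 - k ^ 2) ^ θ := Real.continuous_const_rpow hk2.ne'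
    have c3 : Continuous fun θ : ℝ => (4 : ℝ) ^ (1 - θ) :=
      (Real.continuous_const_rpow (by norm_num)).comp (by fun_prop)
    have c4 : Continuous fun θ : ℝ => z ^ θ := Real.continuous_const_rpow hz0.ne'
    exact (c1.mul c2).add (c3.mul c4)
  have h1 : (4 * C / z) ^ (1 - (1 : ℝ)) * (1 - k ^ 2) ^ (1 : ℝ) +
      (4 : ℝ) ^ (1 - (1 : ℝ)) * z ^ (1 : ℝ) < k := by
    rw [sub_self, Real.rpow_zero, Real.rpow_zero, Real.rpow_one, Real.rpow_one, one_mul, one_mul,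
      hz]
    linarith
  have h2 : ∀ᶠ θ in 𝓝[<] (1 : ℝ), (4 * C / z) ^ (1 - θ) * (1 - k ^ 2) ^ θ +
      (4 : ℝ) ^ (1 - θ) * z ^ θ < k :=
    ((hc.tendsto 1).eventually_lt_const h1).filter_mono nhdsWithin_le_nhds
  have h3 : ∀ᶠ θ in 𝓝[<] (1 : ℝ), θ ∈ Set.Ioo (2 / 3 : ℝ) 1 :=
    Ioo_mem_nhdsLT (by norm_num)
  obtain ⟨θ, h4, h5⟩ := (h2.and h3).exists
  exact ⟨z, θ, hz0, h5.1, h5.2, h4⟩

open Filter Topology in
/-- the choice of the small weight -/
theorem exists_small {k C z θ : ℝ} (h1 : 2 / 3 < θ) (h2 : θ < 1)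
    (h : (4 * C / z) ^ (1 - θ) * (1 - k ^ 2) ^ θ + 4 ^ (1 - θ) * z ^ θ < k) :
    ∃ e₀ : ℝ, 0 < e₀ ∧ ∀ e : ℝ, 0 < e → e < e₀ →
      (4 * k ^ 2 * C * e) ^ (1 - θ) * (k ^ 2) ^ θ +
      (4 * C * (1 + k ^ 2 * z * e) / z) ^ (1 - θ) * (1 - k ^ 2) ^ θ +
      4 ^ (1 - θ) * ((C * z) ^ θ * z⁻¹ * e ^ (3 * θ - 2)) + 4 ^ (1 - θ) * z ^ θ < k := by
  have p1 : 0 ≤ 1 - θ := by linarith
  have p2 : 0 ≤ 3 * θ - 2 := by linarith
  have hc : Continuous fun e : ℝ => (4 * k ^ 2 * C * e) ^ (1 - θ) * (k ^ 2) ^ θ +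
      (4 * C * (1 + k ^ 2 * z * e) / z) ^ (1 - θ) * (1 - k ^ 2) ^ θ +
      4 ^ (1 - θ) * ((C * z) ^ θ * z⁻¹ * e ^ (3 * θ - 2)) + 4 ^ (1 - θ) * z ^ θ := by
    have c1 : Continuous fun e : ℝ => (4 * k ^ 2 * C * e) ^ (1 - θ) :=
      (Real.continuous_rpow_const p1).comp (by fun_prop)
    have c2 : Continuous fun e : ℝ => (4 * C * (1 + k ^ 2 * z * e) / z) ^ (1 - θ) :=
      (Real.continuous_rpow_const p1).comp (by fun_prop)
    have c3 : Continuous fun e : ℝ => e ^ (3 * θ - 2) := Real.continuous_rpow_const p2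
    exact (((c1.mul continuous_const).add (c2.mul continuous_const)).add
      (continuous_const.mul (continuous_const.mul c3))).add continuous_const
  have h3 : (4 * k ^ 2 * C * 0) ^ (1 - θ) * (k ^ 2) ^ θ +
      (4 * C * (1 + k ^ 2 * z * 0) / z) ^ (1 - θ) * (1 - k ^ 2) ^ θ +
      4 ^ (1 - θ) * ((C * z) ^ θ * z⁻¹ * (0 : ℝ) ^ (3 * θ - 2)) + 4 ^ (1 - θ) * z ^ θ < k := by
    rw [mul_zero, Real.zero_rpow (by linarith), Real.zero_rpow (by linarith), mul_zero,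
      mul_zero, mul_zero, add_zero, zero_mul, zero_add, add_zero, mul_one]
    exact h
  have h4 := (hc.tendsto 0).eventually_lt_const h3
  rw [Metric.eventually_nhds_iff] at h4
  obtain ⟨δ, hδ, h5⟩ := h4
  refine ⟨δ, hδ, fun e he he' => h5 ?_⟩
  rw [Real.dist_eq, sub_zero, abs_of_pos he]
  exact he'

/-- The bound of the sum of the costs. -/
theorem sum_bound {k C z θ e g y : ℝ} (hz : 0 < z) (h1 : 2 / 3 < θ) (h2 : θ < 1) (he : 0 < e)
    (hg : 0 ≤ g) (hgC : g ≤ C * e ^ 2) (hy : y ^ 2 = z * e) (hk : k ^ 2 ≤ 1) :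
    ∑ j, ll k e g y j ^ (1 - θ) * rr k e g y j ^ θ ≤
      ((4 * k ^ 2 * C * e) ^ (1 - θ) * (k ^ 2) ^ θ +
      (4 * C * (1 + k ^ 2 * z * e) / z) ^ (1 - θ) * (1 - k ^ 2) ^ θ +
      4 ^ (1 - θ) * ((C * z) ^ θ * z⁻¹ * e ^ (3 * θ - 2)) + 4 ^ (1 - θ) * z ^ θ) *
        (z * e ^ 2) := by
  have p1 : 0 ≤ 1 - θ := by linarith
  have p0 : 0 ≤ θ := by linarith
  have hC : 0 ≤ C := by
    by_contra hcon
    have : C * e ^ 2 < 0 := mul_neg_of_neg_of_pos (not_le.mp hcon) (by positivity)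
    linarith
  have hw : 0 ≤ z * e ^ 2 := by positivity
  have hk1 : 0 ≤ 1 - k ^ 2 := by linarith
  have hky : (k * y) ^ 2 = k ^ 2 * (z * e) := by rw [mul_pow, hy]
  rw [Fin.sum_univ_four, add_mul, add_mul, add_mul]
  refine add_le_add (add_le_add (add_le_add ?_ ?_) ?_) ?_
  · have e1 : ll k e g y 0 ≤ (4 * k ^ 2 * C * e) * (z * e ^ 2) := by
      simp only [ll, Matrix.cons_val_zero]
      rw [hky]
      have := mul_le_mul_of_nonneg_right hgC (by positivity : 0 ≤ 4 * (k ^ 2 * (z * e)))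
      nlinarith
    have e2 : rr k e g y 0 = k ^ 2 * (z * e ^ 2) := by
      simp only [rr, Matrix.cons_val_zero]
      rw [hky]
      ring
    have e3 : 0 ≤ ll k e g y 0 := by
      simp only [ll, Matrix.cons_val_zero]
      positivity
    rw [e2, ← rpow_mix' (by positivity) (sq_nonneg k) hw p0 h2.le]
    exact mul_le_mul_of_nonneg_right (Real.rpow_le_rpow e3 e1 p1)
      (Real.rpow_nonneg (by positivity) _)
  · have e1 : ll k e g y 1 ≤ (4 * C * (1 + k ^ 2 * z * e) / z) * (z * e ^ 2) := by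
      simp only [ll, Matrix.cons_val_one, Matrix.cons_val_zero]
      rw [hky]
      have h3 : 4 * C * (1 + k ^ 2 * z * e) / z * (z * e ^ 2) =
          4 * (C * e ^ 2 * (1 + k ^ 2 * (z * e))) := by
        field_simp
      rw [h3]
      have := mul_le_mul_of_nonneg_right hgC (by positivity : 0 ≤ 1 + k ^ 2 * (z * e))
      linarith
    have e2 : rr k e g y 1 = (1 - k ^ 2) * (z * e ^ 2) := by
      simp only [rr, Matrix.cons_val_one, Matrix.cons_val_zero]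
      rw [hky, hy]
      ring
    have e3 : 0 ≤ ll k e g y 1 := by
      simp only [ll, Matrix.cons_val_one, Matrix.cons_val_zero]
      positivity
    rw [e2, ← rpow_mix' (by positivity) hk1 hw p0 h2.le]
    exact mul_le_mul_of_nonneg_right (Real.rpow_le_rpow e3 e1 p1)
      (Real.rpow_nonneg (mul_nonneg hk1 hw) _)
  · have e1 : ll k e g y 2 = 4 := by
      simp only [ll, Matrix.cons_val]
      norm_num
    have e2 : rr k e g y 2 ≤ (C * z) * e ^ 3 := by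
      simp only [rr, Matrix.cons_val]
      rw [hy]
      have := mul_le_mul_of_nonneg_right hgC (by positivity : 0 ≤ z * e)
      nlinarith
    have e3 : 0 ≤ rr k e g y 2 := by
      simp only [rr, Matrix.cons_val]
      positivity
    have e4 := Real.rpow_le_rpow e3 e2 p0
    have e5 : ((C * z) * e ^ 3) ^ θ = (C * z) ^ θ * z⁻¹ * e ^ (3 * θ - 2) * (z * e ^ 2) := by
      rw [Real.mul_rpow (by positivity) (by positivity), ← Real.rpow_natCast e 3,
        ← Real.rpow_mul he.le]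
      have e6 : e ^ (((3 : ℕ) : ℝ) * θ) = e ^ (3 * θ - 2) * e ^ 2 := by
        rw [← Real.rpow_natCast e 2, ← Real.rpow_add he]
        congr 1
        push_cast
        ring
      rw [e6]
      field_simp
    rw [e1]
    rw [e5] at e4
    calc (4 : ℝ) ^ (1 - θ) * rr k e g y 2 ^ θ ≤ 4 ^ (1 - θ) *
          ((C * z) ^ θ * z⁻¹ * e ^ (3 * θ - 2) * (z * e ^ 2)) :=
          mul_le_mul_of_nonneg_left e4 (Real.rpow_nonneg (by norm_num) _)
      _ = _ := by ring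
  · have e1 : ll k e g y 3 = 4 * (z * e ^ 2) := by
      simp only [ll, Matrix.cons_val]
      rw [hy]
      ring
    have e2 : rr k e g y 3 = z * (z * e ^ 2) := by
      simp only [rr, Matrix.cons_val]
      have : y ^ 4 = (y ^ 2) ^ 2 := by ring
      rw [this, hy]
      ring
    rw [e1, e2, ← rpow_mix' (by norm_num) hz.le hw p0 h2.le]

/-- The family has positive distillable key when `k > (√5 - 1) / 2` and `e` is small. -/
theorem fam_pos {k C : ℝ} (hk0 : 0 < k) (hk1 : k < 1) (hg : 1 - k ^ 2 < k) (hC : 0 < C) :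
    ∃ e₀ : ℝ, 0 < e₀ ∧ ∀ e g c : ℝ, 0 < e → e < e₀ → 0 ≤ g → g ≤ C * e ^ 2 → 0 < c →
      ∀ {E : Type} [Fintype E] [DecidableEq E] (Ψ : Matrix (Fin 3 × Fin 3) E ℂ),
      (Ψ * Ψᴴ).trace = 1 → Ψ * Ψᴴ = (c : ℂ) • famOp k e g → 0 < distillableKey Ψ := by
  obtain ⟨z, θ, hz, h1, h2, h3⟩ := exists_theta hk0 hk1 hg hC
  obtain ⟨e₀, he₀, h4⟩ := exists_small h1 h2 h3
  refine ⟨e₀, he₀, ?_⟩
  intro e g c he hee hg0 hgC hc E _ _ Ψ hΨ hρ
  have hk2 : k ^ 2 ≤ 1 := by nlinarith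
  obtain ⟨y, hy⟩ : ∃ y, y = √(z * e) := ⟨_, rfl⟩
  have hy2 : y ^ 2 = z * e := by rw [hy, Real.sq_sqrt (by positivity)]
  have hw : 0 < z * e ^ 2 := by positivity
  have h5 := sum_bound (g := g) (y := y) hz h1 h2 he hg0 hgC hy2 hk2
  have h6 := mul_lt_mul_of_pos_right (h4 e he hee) hw
  have h7 : k * e * y ^ 2 = k * (z * e ^ 2) := by
    rw [hy2]
    ring
  refine fam_key (y := y) (θ := θ) Ψ hΨ hc hρ he.le hg0 hk2 (by linarith) h2.le ?_ ?_
  · rw [h7]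
    positivity
  · rw [h7]
    exact lt_of_le_of_lt h5 h6

end H625

end Vale.Agent.P372
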