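import Vale.Agent.P372.H625.FamDefs
import Vale.Agent.P372.R2.helper492.LetterDefs

open Matrix Kronecker
open scoped ComplexOrder MatrixOrder

set_option linter.unusedSectionVars false
set_option linter.unusedSimpArgs false

namespace Vale.Agent.P372

namespace H625

/-- the coherent vector -/
def cohV (p : Fin 3 × Fin 3) : ℂ := if p.1 = p.2 + 1 then 1 else 0

theorem famOp_eq (k e g : ℝ) : famOp k e g =
    diagonal (fun p : Fin 3 × Fin 3 => ((famW ((1 - k) * e) g p : ℝ) : ℂ)) +
      ((k * e : ℝ) : ℂ) • vecMulVec cohV (star cohV) := by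
  ext p q
  rw [Matrix.add_apply, Matrix.smul_apply, vecMulVec_apply, Pi.star_apply]
  by_cases h : p = q
  · subst h
    rw [diagonal_apply_eq, famOp, if_pos rfl]
    by_cases h1 : p.1 = p.2
    · have h2 : ¬ p.1 = p.2 + 1 := by
        rw [h1]
        generalize p.2 = j
        revert j
        decide
      simp [famW, h1, cohV]
    · by_cases h2 : p.1 = p.2 + 1
      · rw [famW, famW, if_neg h1, if_pos h2, if_neg h1, if_pos h2, cohV, if_pos h2, star_one,
          mul_one, smul_eq_mul, mul_one, ← Complex.ofReal_add]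
        congr 1
        ring
      · simp [famW, h1, h2, cohV]
  · rw [diagonal_apply_ne _ h, famOp, if_neg h, zero_add]
    by_cases h1 : p.1 = p.2 + 1 <;> by_cases h2 : q.1 = q.2 + 1 <;> simp [cohV, h1, h2]

theorem famW_pos {e g : ℝ} (he : 0 < e) (hg : 0 < g) (p : Fin 3 × Fin 3) : 0 < famW e g p := by
  rw [famW]
  split_ifs
  · exact one_pos
  · exact he
  · exact hg

theorem famOp_posDef {k e g : ℝ} (hk0 : 0 ≤ k) (hk1 : k < 1) (he : 0 < e) (hg : 0 < g) :
    (famOp k e g).PosDef := by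
  rw [famOp_eq]
  refine PosDef.add_posSemidef ?_ ?_
  · rw [posDef_diagonal_iff]
    intro p
    have : 0 < (1 - k) * e := mul_pos (by linarith) he
    exact_mod_cast famW_pos this hg p
  · refine PosSemidef.smul (posSemidef_vecMulVec_self_star cohV) ?_
    exact_mod_cast mul_nonneg hk0 he.le

/-- the vectors of the partial transpose -/
noncomputable def ptV (u : ℝ) (a : Fin 3) (p : Fin 3 × Fin 3) : ℂ :=
  if p = (a, a) then 1 else if p = (a + 1, a + 2) then (u : ℂ) else 0

/-- the diagonal part of the partial transpose -/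
noncomputable def ptD (e x y : ℝ) (p : Fin 3 × Fin 3) : ℝ :=
  if p.1 = p.2 then x else if p.1 = p.2 + 1 then e else y

theorem pTrans_famOp {k e g t : ℝ} (ht : t ≠ 0) : pTrans (famOp k e g) =
    diagonal (fun p : Fin 3 × Fin 3 => ((ptD e (1 - t) (g - (k * e) ^ 2 / t) p : ℝ) : ℂ)) +
      (t : ℂ) • ∑ a, vecMulVec (ptV (k * e / t) a) (star (ptV (k * e / t) a)) := by
  have ht' : (t : ℂ) ≠ 0 := by exact_mod_cast ht
  ext ⟨i, j⟩ ⟨i', j'⟩
  rw [Matrix.add_apply, Matrix.smul_apply, Matrix.sum_apply, Fin.sum_univ_three]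
  simp only [vecMulVec_apply, Pi.star_apply, pTrans]
  fin_cases i <;> fin_cases j <;> fin_cases i' <;> fin_cases j' <;>
    simp [famOp, famW, ptV, ptD, diagonal] <;> field_simp <;> ring

theorem pTrans_posDef {k e g : ℝ} (hk : k ≠ 0) (he : 0 < e) (hg : (k * e) ^ 2 < g) :
    (pTrans (famOp k e g)).PosDef := by
  have hke : 0 < (k * e) ^ 2 := by positivity
  have hg0 : 0 < g := hke.trans hg
  obtain ⟨t, ht⟩ : ∃ t : ℝ, t = ((k * e) ^ 2 / g + 1) / 2 := ⟨_, rfl⟩
  have h1 : (k * e) ^ 2 / g < 1 := (div_lt_one hg0).mpr hg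
  have h0 : 0 < (k * e) ^ 2 / g := div_pos hke hg0
  have ht0 : 0 < t := by
    rw [ht]
    linarith
  have ht1 : t < 1 := by
    rw [ht]
    linarith
  have ht2 : (k * e) ^ 2 / g < t := by
    rw [ht]
    linarith
  have ht3 : (k * e) ^ 2 / t < g := by
    rw [div_lt_iff₀ ht0]
    rw [div_lt_iff₀ hg0] at ht2
    linarith
  rw [pTrans_famOp ht0.ne']
  refine PosDef.add_posSemidef ?_ ?_
  · rw [posDef_diagonal_iff]
    intro p
    have : 0 < ptD e (1 - t) (g - (k * e) ^ 2 / t) p := by
      rw [ptD]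
      split_ifs
      · linarith
      · exact he
      · linarith
    exact_mod_cast this
  · refine PosSemidef.smul (posSemidef_sum _ fun a _ => posSemidef_vecMulVec_self_star _) ?_
    exact_mod_cast ht0.le

theorem famOp_trace (k e g : ℝ) : (famOp k e g).trace = ((3 * (1 + e + g) : ℝ) : ℂ) := by
  rw [trace, Fintype.sum_prod_type]
  simp only [diag_apply, Fin.sum_univ_three]
  simp [famOp, famW]
  ring

theorem famState_props {k e g : ℝ} (hk0 : 0 < k) (hk1 : k < 1) (he : 0 < e)
    (hg : (k * e) ^ 2 < g) : (famState k e g).PosDef ∧ (pTrans (famState k e g)).PosDef ∧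
      (famState k e g).trace = 1 := by
  have hg0 : 0 < g := (sq_nonneg _).trans_lt hg
  have hc : 0 < (3 * (1 + e + g))⁻¹ := by positivity
  have hc' : (0 : ℂ) < (((3 * (1 + e + g))⁻¹ : ℝ) : ℂ) := by exact_mod_cast hc
  refine ⟨(famOp_posDef hk0.le hk1 he hg0).smul hc', ?_, ?_⟩
  · have h : pTrans (famState k e g) =
        (((3 * (1 + e + g))⁻¹ : ℝ) : ℂ) • pTrans (famOp k e g) := rfl
    rw [h]
    exact (pTrans_posDef hk0.ne' he hg).smul hc'
  · rw [famState, trace_smul, famOp_trace, smul_eq_mul, ← Complex.ofReal_mul,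
      inv_mul_cancel₀ (by positivity), Complex.ofReal_one]

end H625

end Vale.Agent.P372
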