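import Vale.Agent.P372.H625.Main

open Matrix Kronecker
open scoped ComplexOrder MatrixOrder

set_option linter.unusedSectionVars false
set_option linter.unusedSimpArgs false

namespace Vale.Agent.P372

namespace H625

variable {A B C D E I F : Type} [Fintype A] [DecidableEq A] [Fintype B] [DecidableEq B]
  [Fintype C] [DecidableEq C] [Fintype D] [DecidableEq D] [Fintype E] [DecidableEq E]
  [Fintype I] [DecidableEq I] [Fintype F] [DecidableEq F]

/-- Four pieces: the Gram matrix is at most four times its diagonal. -/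
theorem gram_four {σ : Matrix I I ℂ} (hσ : σ.PosSemidef) (U : Fin 4 → Matrix I I ℂ)
    {l : Fin 4 → ℝ} (hl : ∀ j, 4 * qc σ (U j) ≤ l j) :
    (diagonal (fun j => (l j : ℂ)) - gram σ U).PosSemidef := by
  refine PosSemidef.of_dotProduct_mulVec_nonneg ?_ fun c => ?_
  · refine IsHermitian.sub ?_ (gram_herm hσ.1 U)
    rw [isHermitian_diagonal_iff]
    intro j
    rw [isSelfAdjoint_iff, RCLike.star_def, Complex.conj_ofReal]
  rw [sub_mulVec, dotProduct_sub, gram_quad]
  have h1 : star c ⬝ᵥ ((diagonal fun j => (l j : ℂ)) *ᵥ c) = ((∑ j, l j * ‖c j‖ ^ 2 : ℝ) : ℂ) := by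
    rw [dotProduct, Complex.ofReal_sum]
    refine Finset.sum_congr rfl fun j _ => ?_
    rw [mulVec_diagonal, Pi.star_apply, RCLike.star_def]
    have := Complex.conj_mul' (c j)
    calc _ = (l j : ℂ) * ((starRingEnd ℂ) (c j) * c j) := by ring
      _ = _ := by
        rw [this]
        push_cast
        rfl
  have h2 : ((∑ j, c j • U j)ᴴ * σ * ∑ j, c j • U j).trace =
      ((qc σ (∑ j, c j • U j) : ℝ) : ℂ) := by
    rw [qc]
    exact (Complex.ext rfl (by
      have := (hσ.conjTranspose_mul_mul_same (∑ j, c j • U j)).trace_nonneg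
      rw [Complex.ofReal_im]
      exact (Complex.le_def.mp this).2.symm))
  rw [h1, h2, ← Complex.ofReal_sub, ← Complex.ofReal_zero, Complex.real_le_real]
  have h3 : qc σ (∑ j, c j • U j) ≤ 4 * ∑ j, ‖c j‖ ^ 2 * qc σ (U j) := by
    have h4 := qc_four hσ (c 0 • U 0) (c 1 • U 1) (c 2 • U 2) (c 3 • U 3)
    rw [qc_smul, qc_smul, qc_smul, qc_smul] at h4
    rw [Fin.sum_univ_four, Fin.sum_univ_four]
    refine le_trans (le_of_eq ?_) (h4.trans (le_of_eq ?_))
    · congr 1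
      abel
    · ring
  have h5 : 4 * ∑ j, ‖c j‖ ^ 2 * qc σ (U j) ≤ ∑ j, l j * ‖c j‖ ^ 2 := by
    rw [Finset.mul_sum]
    refine Finset.sum_le_sum fun j _ => ?_
    have := mul_le_mul_of_nonneg_right (hl j) (sq_nonneg ‖c j‖)
    linarith
  linarith

/-- The rank one operator `|u⟩⟨v|`. -/
def ro (u v : I → ℂ) : Matrix I I ℂ := vecMulVec u (star v)

theorem ro_star (u v : I → ℂ) : (ro u v)ᴴ = ro v u := by
  rw [ro, ro, conjTranspose_vecMulVec, star_star]

theorem gram_ro (σ : Matrix I I ℂ) (u v u' v' : I → ℂ) :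
    ((ro u v)ᴴ * σ * ro u' v').trace = (star u ⬝ᵥ (σ *ᵥ u')) * (star v' ⬝ᵥ v) := by
  rw [ro_star, ro, ro, Matrix.mul_assoc, mul_vecMulVec, vecMulVec_mul_vecMulVec, trace_vecMulVec,
    dotProduct_smul, smul_eq_mul, dotProduct_comm v]

theorem qc_ro (σ : Matrix I I ℂ) (u v : I → ℂ) :
    qc σ (ro u v) = ((star u ⬝ᵥ (σ *ᵥ u)) * (star v ⬝ᵥ v)).re := by
  rw [qc, gram_ro]

/-- a basis vector -/
def kt (i : I) : I → ℂ := Pi.single i 1

theorem kt_dot (i : I) (v : I → ℂ) : star (kt i) ⬝ᵥ v = v i := by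
  rw [kt, ← Pi.single_star, star_one, single_dotProduct, one_mul]

theorem mulVec_kt (σ : Matrix I I ℂ) (i j : I) : (σ *ᵥ kt j) i = σ i j := by
  rw [kt, mulVec_single_one]
  rfl

theorem kt_apply (i j : I) : kt i j = if j = i then 1 else 0 := by
  rw [kt, Pi.single_apply]

/-- the left vectors of the four pieces -/
def lv (a d f : I) : Fin 4 → I → ℂ := ![kt a, kt a, kt d, kt f]

/-- the right vectors of the four pieces -/
def rv (b c e g : I) (x : ℝ) : Fin 4 → I → ℂ :=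
  ![(x : ℂ) • kt b, kt c - (x : ℂ) • kt b, kt e, kt g]

/-- the four pieces -/
def fp (a b c d e f g : I) (x : ℝ) (j : Fin 4) : Matrix I I ℂ :=
  ro (lv a d f j) (rv b c e g x j)

theorem fp_right {σ : Matrix I I ℂ} {a b c d e f g : I} {x h w s q : ℝ} (had : a ≠ d)
    (haf : a ≠ f) (hdf : d ≠ f) (hbb : σ b b = (h : ℂ)) (hbc : σ b c = ((x * h : ℝ) : ℂ))
    (hcb : σ c b = ((x * h : ℝ) : ℂ)) (hcc : σ c c = (w : ℂ)) (hee : σ e e = (s : ℂ))
    (hgg : σ g g = (q : ℂ)) :
    gram σ (fun j => (fp a b c d e f g x j)ᴴ) =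
      diagonal fun j => ((![x ^ 2 * h, w - x ^ 2 * h, s, q] j : ℝ) : ℂ) := by
  have hb : ∀ v : I → ℂ, star ((x : ℂ) • kt b) ⬝ᵥ v = (x : ℂ) * v b := by
    intro v
    rw [star_smul, smul_dotProduct, kt_dot, RCLike.star_def, Complex.conj_ofReal, smul_eq_mul]
  have hc : ∀ v : I → ℂ, star (kt c - (x : ℂ) • kt b) ⬝ᵥ v = v c - (x : ℂ) * v b := by
    intro v
    rw [star_sub, sub_dotProduct, kt_dot, hb]
  ext i j
  rw [gram, of_apply]
  simp only [fp]
  rw [ro_star (lv a d f i), ro_star (lv a d f j), gram_ro]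
  fin_cases i <;> fin_cases j <;>
    simp [lv, rv, kt_dot, hb, hc, mulVec_sub, mulVec_smul, mulVec_kt, kt_apply, had, haf, hdf,
      had.symm, haf.symm, hdf.symm, hbb, hbc, hcb, hcc, hee, hgg]
  · ring
  · ring

theorem fp_left {σ : Matrix I I ℂ} {a b c d e f g : I} {x p u t : ℝ} (hbc : b ≠ c)
    (haa : σ a a = (p : ℂ)) (hdd : σ d d = (u : ℂ)) (hff : σ f f = (t : ℂ)) (j : Fin 4) :
    qc σ (fp a b c d e f g x j) = ![p * x ^ 2, p * (1 + x ^ 2), u, t] j := by
  have hb : ∀ v : I → ℂ, star ((x : ℂ) • kt b) ⬝ᵥ v = (x : ℂ) * v b := by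
    intro v
    rw [star_smul, smul_dotProduct, kt_dot, RCLike.star_def, Complex.conj_ofReal, smul_eq_mul]
  have hc : ∀ v : I → ℂ, star (kt c - (x : ℂ) • kt b) ⬝ᵥ v = v c - (x : ℂ) * v b := by
    intro v
    rw [star_sub, sub_dotProduct, kt_dot, hb]
  have key : qc σ (fp a b c d e f g x j) =
      (((![p * x ^ 2, p * (1 + x ^ 2), u, t] j : ℝ) : ℂ)).re := by
    rw [fp, qc_ro]
    congr 1
    fin_cases j <;>
      simp [lv, rv, kt_dot, hb, hc, mulVec_sub, mulVec_smul, mulVec_kt, kt_apply, hbc, hbc.symm,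
        haa, hdd, hff]
    · left
      ring
    · left
      ring
  rw [key, Complex.ofReal_re]

theorem fp_sum (a b c d e f g : I) (x : ℝ) :
    ∑ j, fp a b c d e f g x j = ro (kt a) (kt c) + ro (kt d) (kt e) + ro (kt f) (kt g) := by
  rw [Fin.sum_univ_four]
  simp only [fp, lv, rv, ro, Matrix.cons_val_zero, Matrix.cons_val_one, Matrix.cons_val]
  ext i j
  simp only [Matrix.add_apply, vecMulVec_apply, Pi.star_apply, Pi.sub_apply, Pi.smul_apply,
    star_sub]
  ring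

end H625

end Vale.Agent.P372
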