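import Vale.Agent.P372.H625.Shadow

open Matrix Kronecker Filter Topology
open scoped ComplexOrder MatrixOrder

set_option linter.unusedSectionVars false

namespace Vale.Agent.P372

namespace H625

section frob

variable {I : Type} [Fintype I] [DecidableEq I]

/-- the real inner product -/
noncomputable def ipr (X Y : Matrix I I ℂ) : ℝ := (Xᴴ * Y).trace.re

theorem ipr_comm (X Y : Matrix I I ℂ) : ipr X Y = ipr Y X := by
  rw [ipr, ipr, ← Complex.conj_re, ← RCLike.star_def, ← trace_conjTranspose,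
    conjTranspose_mul, conjTranspose_conjTranspose]

theorem ipr_add (X Y Z : Matrix I I ℂ) : ipr X (Y + Z) = ipr X Y + ipr X Z := by
  rw [ipr, Matrix.mul_add, trace_add, Complex.add_re, ipr, ipr]

theorem ipr_sub (X Y Z : Matrix I I ℂ) : ipr X (Y - Z) = ipr X Y - ipr X Z := by
  rw [ipr, Matrix.mul_sub, trace_sub, Complex.sub_re, ipr, ipr]

theorem ipr_smul (X Y : Matrix I I ℂ) (s : ℝ) : ipr X ((s : ℂ) • Y) = s * ipr X Y := by
  rw [ipr, Matrix.mul_smul, trace_smul, smul_eq_mul, Complex.re_ofReal_mul, ipr]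

theorem ipr_herm {X : Matrix I I ℂ} (hX : X.IsHermitian) (Y : Matrix I I ℂ) :
    ipr X Y = (X * Y).trace.re := by
  rw [ipr, hX.eq]

theorem ipr_self (X : Matrix I I ℂ) : ipr X X = ∑ p : I × I, ‖X p.1 p.2‖ ^ 2 := by
  rw [ipr, trace_sq, Complex.ofReal_re]

theorem ipr_nonneg (X : Matrix I I ℂ) : 0 ≤ ipr X X := by
  rw [ipr_self]
  exact Finset.sum_nonneg fun _ _ => by positivity

theorem entry_le (X : Matrix I I ℂ) (i j : I) : ‖X i j‖ ^ 2 ≤ ipr X X := by
  rw [ipr_self]
  exact Finset.single_le_sum (f := fun p : I × I => ‖X p.1 p.2‖ ^ 2)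
    (fun _ _ => by positivity) (Finset.mem_univ (i, j))

theorem eq_zero_of_ipr {X : Matrix I I ℂ} (h : ipr X X = 0) : X = 0 := by
  ext i j
  have h1 := entry_le X i j
  rw [h] at h1
  have h2 : ‖X i j‖ ^ 2 = 0 := le_antisymm h1 (by positivity)
  have h3 : ‖X i j‖ = 0 := by
    rwa [sq_eq_zero_iff] at h2
  rw [Matrix.zero_apply]
  exact norm_eq_zero.mp h3

theorem ipr_expand (X Y : Matrix I I ℂ) (s : ℝ) :
    ipr (X + (s : ℂ) • Y) (X + (s : ℂ) • Y) = ipr X X + 2 * s * ipr X Y + s ^ 2 * ipr Y Y := by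
  rw [ipr_add, ipr_smul, ipr_comm _ X, ipr_comm _ Y, ipr_add, ipr_add, ipr_smul, ipr_smul,
    ipr_comm Y X]
  ring

theorem continuous_ipr (Z : Matrix I I ℂ) :
    Continuous fun X : Matrix I I ℂ => ipr (X - Z) (X - Z) := by
  simp only [ipr]
  exact Complex.continuous_re.comp (((continuous_id.sub
    continuous_const).matrix_conjTranspose.matrix_mul
      (continuous_id.sub continuous_const)).matrix_trace)

end frob

end H625

end Vale.Agent.P372
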