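import Vale.Agent.P372.H625.Smooth2
import Mathlib.Analysis.LocallyConvex.Separation

open Matrix Kronecker Filter Topology
open scoped ComplexOrder MatrixOrder

set_option linter.unusedSectionVars false

namespace Vale.Agent.P372

namespace H625

variable {A B : Type} [Fintype A] [DecidableEq A] [Fintype B] [DecidableEq B]

/-- the operators whose Hermitian part is an interior point of the separable cone -/
def coneS (A B : Type) [Fintype A] [DecidableEq A] [Fintype B] [DecidableEq B] :
    Set (Matrix (A × B) (A × B) ℂ) :=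
  {X | ∃ ε : ℝ, 0 < ε ∧ IsSep (X + Xᴴ - (ε : ℂ) • 1)}

theorem sep_near {X : Matrix (A × B) (A × B) ℂ} {ε : ℝ} (hε : 0 < ε)
    (h : IsSep (X - (ε : ℂ) • 1)) : ∃ δ : ℝ, 0 < δ ∧ ∀ Y : Matrix (A × B) (A × B) ℂ,
      (Y - X).IsHermitian → (∀ p q, ‖Y p q - X p q‖ < δ) → IsSep (Y - ((ε / 2 : ℝ) : ℂ) • 1) := by
  obtain ⟨K, hK⟩ : ∃ K : ℝ, K = Fintype.card ((A × B) × (A × B)) + 1 := ⟨_, rfl⟩
  have hK0 : 0 < K := by
    rw [hK]
    positivity
  refine ⟨ε / (4 * K), by positivity, fun Y hY hd => ?_⟩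
  obtain ⟨H, hH⟩ : ∃ H : Matrix (A × B) (A × B) ℂ, H = ((2 / ε : ℝ) : ℂ) • (Y - X) := ⟨_, rfl⟩
  have h1 : IsSep (1 + H) := by
    refine near_one_sep ?_ ?_
    · rw [hH, IsHermitian, conjTranspose_smul, hY.eq, RCLike.star_def, Complex.conj_ofReal]
    · calc ∑ x : (A × B) × (A × B), ‖H x.1 x.2‖ ≤
            ∑ _x : (A × B) × (A × B), (2 / ε) * (ε / (4 * K)) := by
            refine Finset.sum_le_sum fun x _ => ?_
            rw [hH, Matrix.smul_apply, smul_eq_mul, norm_mul, Complex.norm_real, Real.norm_eq_abs,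
              abs_of_pos (by positivity), Matrix.sub_apply]
            exact mul_le_mul_of_nonneg_left (hd _ _).le (by positivity)
        _ = Fintype.card ((A × B) × (A × B)) * (1 / (2 * K)) := by
            rw [Finset.sum_const, Finset.card_univ, nsmul_eq_mul]
            congr 1
            field_simp
            ring
        _ ≤ K * (1 / (2 * K)) := by
            refine mul_le_mul_of_nonneg_right ?_ (by positivity)
            rw [hK]
            linarith
        _ = 1 / 2 := by field_simp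
  have e : Y - ((ε / 2 : ℝ) : ℂ) • 1 = (X - (ε : ℂ) • 1) + ((ε / 2 : ℝ) : ℂ) • (1 + H) := by
    have h2 : ((ε / 2 : ℝ) : ℂ) • H = Y - X := by
      rw [hH, smul_smul, ← Complex.ofReal_mul]
      have : ε / 2 * (2 / ε) = 1 := by field_simp
      rw [this, Complex.ofReal_one, one_smul]
    rw [smul_add, h2]
    ext p q
    simp only [Matrix.sub_apply, Matrix.add_apply, Matrix.smul_apply, smul_eq_mul]
    push_cast
    ring
  rw [e]
  exact Lim.IsSep.add h (sep_smul h1 (by positivity))

theorem coneS_open : IsOpen (coneS A B) := by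
  rw [isOpen_iff_mem_nhds]
  rintro X ⟨ε, hε, hX⟩
  obtain ⟨δ, hδ, H⟩ := sep_near hε hX
  filter_upwards [near_nhds X (half_pos hδ)] with Y hY
  refine ⟨ε / 2, half_pos hε, H (Y + Yᴴ) ?_ fun p q => ?_⟩
  · rw [IsHermitian, conjTranspose_sub, conjTranspose_add, conjTranspose_add,
      conjTranspose_conjTranspose, conjTranspose_conjTranspose, add_comm Yᴴ, add_comm Xᴴ]
  · have h1 : (Y + Yᴴ) p q - (X + Xᴴ) p q = (Y p q - X p q) + star (Y q p - X q p) := by
      rw [Matrix.add_apply, Matrix.add_apply, conjTranspose_apply, conjTranspose_apply, star_sub]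
      ring
    rw [h1]
    calc ‖(Y p q - X p q) + star (Y q p - X q p)‖ ≤ ‖Y p q - X p q‖ + ‖star (Y q p - X q p)‖ :=
          norm_add_le _ _
      _ = ‖Y p q - X p q‖ + ‖Y q p - X q p‖ := by rw [norm_star]
      _ < δ := by linarith [hY p q, hY q p]

theorem coneS_convex : Convex ℝ (coneS A B) := by
  rintro X ⟨ε, hε, hX⟩ Y ⟨ε', hε', hY⟩ a b ha hb hab
  refine ⟨a * ε + b * ε', ?_, ?_⟩
  · rcases ha.eq_or_lt with h | h
    · rw [← h, zero_add] at hab
      rw [← h, hab]
      linarith
    · have : 0 ≤ b * ε' := by positivity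
      have : 0 < a * ε := by positivity
      linarith
  · have e : (a • X + b • Y) + (a • X + b • Y)ᴴ - ((a * ε + b * ε' : ℝ) : ℂ) • 1 =
        (a : ℂ) • (X + Xᴴ - (ε : ℂ) • 1) + (b : ℂ) • (Y + Yᴴ - (ε' : ℂ) • 1) := by
      ext p q
      simp only [Matrix.sub_apply, Matrix.add_apply, Matrix.smul_apply, conjTranspose_apply,
        smul_eq_mul, Complex.real_smul, star_add, star_mul', RCLike.star_def, Complex.conj_ofReal]
      push_cast
      ring
    rw [e]
    exact Lim.IsSep.add (sep_smul hX ha) (sep_smul hY hb)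

theorem coneS_smul {X : Matrix (A × B) (A × B) ℂ} (hX : X ∈ coneS A B) {a : ℝ} (ha : 0 < a) :
    a • X ∈ coneS A B := by
  obtain ⟨ε, hε, hX⟩ := hX
  refine ⟨a * ε, by positivity, ?_⟩
  have e : (a • X) + (a • X)ᴴ - ((a * ε : ℝ) : ℂ) • 1 = (a : ℂ) • (X + Xᴴ - (ε : ℂ) • 1) := by
    ext p q
    simp only [Matrix.sub_apply, Matrix.add_apply, Matrix.smul_apply, conjTranspose_apply,
      smul_eq_mul, Complex.real_smul, star_mul', RCLike.star_def, Complex.conj_ofReal]
    push_cast
    ring
  rw [e]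
  exact sep_smul hX ha.le

/-- the matrix of a real functional -/
noncomputable def riesz (f : Matrix (A × B) (A × B) ℂ →ₗ[ℝ] ℝ) : Matrix (A × B) (A × B) ℂ :=
  of fun p q => (f (Matrix.single q p 1) : ℂ) - Complex.I * (f (Matrix.single q p Complex.I) : ℂ)

theorem riesz_spec (f : Matrix (A × B) (A × B) ℂ →ₗ[ℝ] ℝ) (X : Matrix (A × B) (A × B) ℂ) :
    (riesz f * X).trace.re = f X := by
  have h1 : ∀ (i j : A × B) (z : ℂ), f (Matrix.single i j z) =
      z.re * f (Matrix.single i j 1) + z.im * f (Matrix.single i j Complex.I) := by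
    intro i j z
    have e : Matrix.single i j z = z.re • Matrix.single i j (1 : ℂ) +
        z.im • Matrix.single i j Complex.I := by
      rw [smul_single, smul_single, ← single_add]
      congr 1
      rw [Complex.real_smul, Complex.real_smul, mul_one]
      exact (Complex.re_add_im z).symm
    rw [e, map_add, map_smul, map_smul, smul_eq_mul, smul_eq_mul]
  have h2 : f X = ∑ i, ∑ j, ((X i j).re * f (Matrix.single i j 1) +
      (X i j).im * f (Matrix.single i j Complex.I)) := by
    conv_lhs => rw [matrix_eq_sum_single X]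
    rw [map_sum]
    refine Finset.sum_congr rfl fun i _ => ?_
    rw [map_sum]
    exact Finset.sum_congr rfl fun j _ => h1 i j _
  rw [h2, Finset.sum_comm, trace, Complex.re_sum]
  refine Finset.sum_congr rfl fun i _ => ?_
  rw [diag_apply, mul_apply, Complex.re_sum]
  refine Finset.sum_congr rfl fun j _ => ?_
  rw [riesz, of_apply]
  simp only [Complex.mul_re, Complex.sub_re, Complex.sub_im, Complex.ofReal_re, Complex.ofReal_im,
    Complex.mul_im, Complex.I_re, Complex.I_im]
  ring

/-- **If a separable state with only one witness is a limit of states with key, then all states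
detected by this witness have key.** -/
theorem keyPos_detect {σ W ω : Matrix (A × B) (A × B) ℂ} (hσ : IsSep σ)
    (hW : OnlyWitness W σ)
    (hlim : σ ∈ closure {ρ | ρ.PosSemidef ∧ ρ.trace = 1 ∧ KeyPos ρ})
    (hω : ω.PosSemidef) (h1 : ω.trace = 1) (hneg : (W * ω).trace.re < 0) : KeyPos ω := by
  by_contra hk
  obtain ⟨hW0, -, honly⟩ := hW
  have hσH := (sep_psd hσ).1
  obtain ⟨t, ht⟩ : ∃ t : Set (Matrix (A × B) (A × B) ℂ),
      t = {x | ∃ η : ℝ, 0 < η ∧ x = σ + (η : ℂ) • (σ - ω)} := ⟨_, rfl⟩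
  have htc : Convex ℝ t := by
    rw [ht]
    rintro X ⟨η, hη, hX⟩ Y ⟨η', hη', hY⟩ a b ha hb hab
    refine ⟨a * η + b * η', ?_, ?_⟩
    · rcases ha.eq_or_lt with h | h
      · rw [← h, zero_add] at hab
        rw [← h, hab]
        linarith
      · have : 0 ≤ b * η' := by positivity
        have : 0 < a * η := by positivity
        linarith
    · rw [hX, hY]
      have hab' : (a : ℂ) + b = 1 := by exact_mod_cast hab
      ext p q
      simp only [Matrix.sub_apply, Matrix.add_apply, Matrix.smul_apply, smul_eq_mul,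
        Complex.real_smul]
      push_cast
      calc _ = ((a : ℂ) + b) * σ p q + (a * η + b * η') * (σ p q - ω p q) := by ring
        _ = _ := by rw [hab', one_mul]
  have hdis : Disjoint (coneS A B) t := by
    rw [Set.disjoint_left, ht]
    rintro X ⟨ε, hε, hX⟩ ⟨η, hη, hXe⟩
    apply hk
    have hXH : X.IsHermitian := by
      rw [hXe, IsHermitian, conjTranspose_add, conjTranspose_smul, conjTranspose_sub, hσH.eq,
        hω.1.eq, RCLike.star_def, Complex.conj_ofReal]
    obtain ⟨δ, hδ, H⟩ := sep_near hε hX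
    refine keyPos_shadow hω h1 hlim hη (half_pos hδ) fun τ hτ _ hd => ?_
    have e1 : ((1 + η : ℝ) : ℂ) • σ - (η : ℂ) • ω = X := by
      rw [hXe]
      ext p q
      simp only [Matrix.sub_apply, Matrix.add_apply, Matrix.smul_apply, smul_eq_mul]
      push_cast
      ring
    rw [e1] at hd
    have h2 := H (τ + τ) (by
      rw [IsHermitian, conjTranspose_sub, conjTranspose_add, conjTranspose_add,
        conjTranspose_conjTranspose, hτ.eq, add_comm Xᴴ]) fun p q => by
        have e2 : (τ + τ) p q - (X + Xᴴ) p q = (τ p q - X p q) + (τ p q - X p q) := by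
          rw [hXH.eq, Matrix.add_apply, Matrix.add_apply]
          ring
        rw [e2]
        calc _ ≤ ‖τ p q - X p q‖ + ‖τ p q - X p q‖ := norm_add_le _ _
          _ < δ := by linarith [hd p q]
    have h3 : IsSep (τ + τ) := by
      have h4 := Lim.IsSep.add h2 (sep_smul (one_sep (A := A) (B := B)) (half_pos hε).le)
      rwa [sub_add_cancel] at h4
    have h5 := sep_smul h3 (by norm_num : (0 : ℝ) ≤ 1 / 2)
    refine (congrArg IsSep ?_).mp h5
    ext p q
    simp only [Matrix.add_apply, Matrix.smul_apply, smul_eq_mul]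
    push_cast
    ring
  obtain ⟨f, u, hf1, hf2⟩ := geometric_hahn_banach_open coneS_convex coneS_open htc hdis
  have hsepcone : ∀ τ : Matrix (A × B) (A × B) ℂ, IsSep τ → ∀ ε : ℝ, 0 < ε →
      τ + (ε : ℂ) • 1 ∈ coneS A B := by
    intro τ hτ ε hε
    refine ⟨ε, hε, ?_⟩
    have e : (τ + (ε : ℂ) • 1) + (τ + (ε : ℂ) • (1 : Matrix (A × B) (A × B) ℂ))ᴴ -
        (ε : ℂ) • 1 = (τ + τ) + (ε : ℂ) • 1 := by
      rw [conjTranspose_add, conjTranspose_smul, conjTranspose_one, (sep_psd hτ).1.eq,
        RCLike.star_def, Complex.conj_ofReal]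
      abel
    rw [e]
    exact Lim.IsSep.add (Lim.IsSep.add hτ hτ) (sep_smul one_sep hε.le)
  have hone : (1 : Matrix (A × B) (A × B) ℂ) ∈ coneS A B := by
    have h2 := hsepcone 0 Lim.isSep_zero 1 one_pos
    rwa [Complex.ofReal_one, one_smul, zero_add] at h2
  have hu0 : 0 ≤ u := by
    by_contra hu
    rw [not_le] at hu
    obtain ⟨s, hs⟩ : ∃ s : ℝ, s = -u / (2 * (|f 1| + 1)) := ⟨_, rfl⟩
    have hs0 : 0 < s := by
      rw [hs]
      exact div_pos (by linarith) (by positivity)
    have h2 := hf1 _ (coneS_smul hone hs0)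
    rw [map_smul, smul_eq_mul] at h2
    have h3 : s * |f 1| ≤ -u / 2 := by
      calc s * |f 1| ≤ s * (|f 1| + 1) := mul_le_mul_of_nonneg_left (by linarith) hs0.le
        _ = -u / 2 := by
          rw [hs]
          field_simp
    have h4 : - (s * |f 1|) ≤ s * f 1 := by
      have := mul_le_mul_of_nonneg_left (neg_abs_le (f 1)) hs0.le
      linarith
    linarith
  have hfc : ∀ X ∈ coneS A B, f X ≤ 0 := by
    intro X hX
    by_contra hc
    rw [not_le] at hc
    have h2 := hf1 _ (coneS_smul hX (div_pos (by linarith : 0 < u + 1) hc))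
    rw [map_smul, smul_eq_mul, div_mul_cancel₀ _ hc.ne'] at h2
    linarith
  have hfs : ∀ τ : Matrix (A × B) (A × B) ℂ, IsSep τ → f τ ≤ 0 := by
    intro τ hτ
    by_contra hc
    rw [not_le] at hc
    obtain ⟨s, hs⟩ : ∃ s : ℝ, s = f τ / (2 * (|f 1| + 1)) := ⟨_, rfl⟩
    have hs0 : 0 < s := by
      rw [hs]
      positivity
    have h2 := hfc _ (hsepcone τ hτ s hs0)
    have e : ((s : ℂ) • (1 : Matrix (A × B) (A × B) ℂ)) =
        s • (1 : Matrix (A × B) (A × B) ℂ) := rfl
    rw [e, map_add, map_smul, smul_eq_mul] at h2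
    have h3 : s * |f 1| ≤ f τ / 2 := by
      calc s * |f 1| ≤ s * (|f 1| + 1) := mul_le_mul_of_nonneg_left (by linarith) hs0.le
        _ = f τ / 2 := by
          rw [hs]
          field_simp
    have h4 : - (s * |f 1|) ≤ s * f 1 := by
      have := mul_le_mul_of_nonneg_left (neg_abs_le (f 1)) hs0.le
      linarith
    linarith
  have hray : ∀ η : ℝ, 0 < η → u ≤ f σ + η * (f σ - f ω) := by
    intro η hη
    have h2 := hf2 (σ + (η : ℂ) • (σ - ω)) (by
      rw [ht]
      exact ⟨η, hη, rfl⟩)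
    have e : ((η : ℂ) • (σ - ω)) = η • (σ - ω) := rfl
    rwa [e, map_add, map_smul, smul_eq_mul, map_sub] at h2
  have hfσ : f σ = 0 := by
    refine le_antisymm (hfs σ hσ) ?_
    by_contra hc
    rw [not_le] at hc
    obtain ⟨s, hs⟩ : ∃ s : ℝ, s = -f σ / (2 * (|f σ - f ω| + 1)) := ⟨_, rfl⟩
    have hs0 : 0 < s := by
      rw [hs]
      exact div_pos (by linarith) (by positivity)
    have h2 := hray s hs0
    have h3 : s * |f σ - f ω| ≤ -f σ / 2 := by
      calc s * |f σ - f ω| ≤ s * (|f σ - f ω| + 1) :=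
            mul_le_mul_of_nonneg_left (by linarith) hs0.le
        _ = -f σ / 2 := by
          rw [hs]
          field_simp
    have h4 : s * (f σ - f ω) ≤ s * |f σ - f ω| :=
      mul_le_mul_of_nonneg_left (le_abs_self _) hs0.le
    linarith
  have hfω : f ω ≤ 0 := by
    have h2 := hray 1 one_pos
    rw [hfσ] at h2
    linarith
  -- the operator of `- f`
  obtain ⟨G, hG⟩ : ∃ G, G = riesz (f : Matrix (A × B) (A × B) ℂ →ₗ[ℝ] ℝ) := ⟨_, rfl⟩
  have hGX : ∀ X : Matrix (A × B) (A × B) ℂ, (G * X).trace.re = f X := by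
    intro X
    rw [hG, riesz_spec]
    rfl
  obtain ⟨W', hW'⟩ : ∃ W' : Matrix (A × B) (A × B) ℂ, W' = ((-1 / 2 : ℝ) : ℂ) • (G + Gᴴ) :=
    ⟨_, rfl⟩
  have hW'H : W'.IsHermitian := by
    rw [hW', IsHermitian, conjTranspose_smul, conjTranspose_add, conjTranspose_conjTranspose,
      RCLike.star_def, Complex.conj_ofReal, add_comm]
  have hW'X : ∀ X : Matrix (A × B) (A × B) ℂ, X.IsHermitian → (W' * X).trace.re = - f X := by
    intro X hX
    have h2 : (Gᴴ * X).trace.re = f X := by
      have e : Gᴴ * X = (X * G)ᴴ := by rw [conjTranspose_mul, hX.eq]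
      rw [e, trace_conjTranspose, RCLike.star_def, Complex.conj_re, trace_mul_comm, hGX]
    rw [hW', Matrix.smul_mul, Matrix.add_mul, trace_smul, trace_add, smul_eq_mul,
      Complex.re_ofReal_mul, Complex.add_re, h2, hGX]
    ring
  obtain ⟨c, hc0, hc⟩ := honly W' ⟨hW'H, fun τ hτ => by
    rw [hW'X τ (sep_psd hτ).1]
    linarith [hfs τ hτ], by rw [hW'X σ hσH, hfσ, neg_zero]⟩
  have h2 := hW'X ω hω.1
  rw [hc, Matrix.smul_mul, trace_smul, smul_eq_mul, Complex.re_ofReal_mul] at h2
  have hc1 : c = 0 := by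
    refine le_antisymm ?_ hc0
    by_contra hcc
    rw [not_le] at hcc
    have := mul_neg_of_pos_of_neg hcc hneg
    linarith
  have h3 := hW'X 1 isHermitian_one
  rw [hc, hc1, Complex.ofReal_zero, zero_smul, Matrix.zero_mul, trace_zero, Complex.zero_re] at h3
  have h4 := hf1 1 hone
  have h5 := hray 1 one_pos
  have h6 := hW'X ω hω.1
  rw [hc, hc1, Complex.ofReal_zero, zero_smul, Matrix.zero_mul, trace_zero, Complex.zero_re] at h6
  rw [hfσ] at h5
  linarith

end H625

end Vale.Agent.P372
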