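import Vale.Agent.P372.H625.Dense

open Matrix Kronecker Filter Topology
open scoped ComplexOrder MatrixOrder

set_option linter.unusedSectionVars false

namespace Vale.Agent.P372

namespace H625

variable {A B : Type} [Fintype A] [DecidableEq A] [Fintype B] [DecidableEq B]

/-- the separable states with maximally mixed marginals -/
def sepMM (A B : Type) [Fintype A] [DecidableEq A] [Fintype B] [DecidableEq B] :
    Set (Matrix (A × B) (A × B) ℂ) :=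
  {σ | IsSep σ ∧ σ.trace = 1 ∧ MaxMixed σ}

theorem mixSet_compact (N : ℕ) : IsCompact (mixSet A B N) := by
  refine IsCompact.image ?_ (mixMap_continuous N)
  exact (isCompact_stdSimplex ℝ _).prod ((isCompact_univ_pi fun _ => us_compact).prod
    (isCompact_univ_pi fun _ => us_compact))

theorem sepMM_compact : IsCompact (sepMM A B) := by
  have h : sepMM A B = mixSet A B (mixNum A B) ∩ {σ | σ.trace = 1 ∧ MaxMixed σ} := by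
    ext σ
    constructor
    · rintro ⟨h1, h2, h3⟩
      exact ⟨sep_mem_mixSet h1 h2, h2, h3⟩
    · rintro ⟨h1, h2, h3⟩
      exact ⟨mixSet_sep h1, h2, h3⟩
  rw [h]
  refine (mixSet_compact _).inter_right ?_
  refine (isClosed_eq continuous_id.matrix_trace continuous_const).inter ?_
  have e : {σ : Matrix (A × B) (A × B) ℂ | MaxMixed σ} =
      (⋂ a, ⋂ a', {σ : Matrix (A × B) (A × B) ℂ |
        ∑ b, σ (a, b) (a', b) = if a = a' then (Fintype.card A : ℂ)⁻¹ else 0}) ∩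
      ⋂ b, ⋂ b', {σ : Matrix (A × B) (A × B) ℂ |
        ∑ a, σ (a, b) (a, b') = if b = b' then (Fintype.card B : ℂ)⁻¹ else 0} := by
    ext σ
    simp only [Set.mem_inter_iff, Set.mem_iInter]
    exact Iff.rfl
  change IsClosed {σ : Matrix (A × B) (A × B) ℂ | MaxMixed σ}
  rw [e]
  refine IsClosed.inter ?_ ?_
  · refine isClosed_iInter fun a => isClosed_iInter fun a' => ?_
    exact isClosed_eq (continuous_finsetSum _ fun b _ => continuous_id.matrix_elem _ _)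
      continuous_const
  · refine isClosed_iInter fun b => isClosed_iInter fun b' => ?_
    exact isClosed_eq (continuous_finsetSum _ fun a _ => continuous_id.matrix_elem _ _)
      continuous_const

theorem near_nhds (σ₀ : Matrix (A × B) (A × B) ℂ) {ε : ℝ} (hε : 0 < ε) :
    ∀ᶠ σ in 𝓝 σ₀, ∀ p q, ‖σ p q - σ₀ p q‖ < ε := by
  refine Filter.eventually_all.mpr fun p => Filter.eventually_all.mpr fun q => ?_
  have hc : Continuous fun σ : Matrix (A × B) (A × B) ℂ => ‖σ p q - σ₀ p q‖ :=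
    ((continuous_id.matrix_elem p q).sub continuous_const).norm
  have h0 : ‖σ₀ p q - σ₀ p q‖ < ε := by
    rw [sub_self, norm_zero]
    exact hε
  exact hc.continuousAt.eventually_lt_const h0

/-- Local conditions at the separable states give a uniform one. -/
theorem tube_of_local {P : Matrix (A × B) (A × B) ℂ → Prop}
    (h : ∀ σ : Matrix (A × B) (A × B) ℂ, IsSep σ → σ.trace = 1 → MaxMixed σ → ∃ ε : ℝ, 0 < ε ∧
      ∀ ρ, P ρ → (∀ p q, ‖ρ p q - σ p q‖ < ε) → KeyPos ρ) :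
    ∃ ε : ℝ, 0 < ε ∧ ∀ ρ, P ρ → ∀ σ ∈ sepMM A B, (∀ p q, ‖ρ p q - σ p q‖ < ε) →
      KeyPos ρ := by
  refine (sepMM_compact (A := A) (B := B)).induction_on
    (p := fun U => ∃ ε : ℝ, 0 < ε ∧ ∀ ρ, P ρ → ∀ σ ∈ U, (∀ p q, ‖ρ p q - σ p q‖ < ε) →
      KeyPos ρ) ⟨1, one_pos, fun _ _ _ h => h.elim⟩
    (fun s t hst ⟨ε, hε, H⟩ => ⟨ε, hε, fun ρ hρ σ hσ => H ρ hρ σ (hst hσ)⟩)
    (fun s t ⟨ε, hε, H⟩ ⟨ε', hε', H'⟩ => ⟨min ε ε', lt_min hε hε', fun ρ hρ σ hσ hd =>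
      hσ.elim (fun h => H ρ hρ σ h fun p q => (hd p q).trans_le (min_le_left _ _))
        fun h => H' ρ hρ σ h fun p q => (hd p q).trans_le (min_le_right _ _)⟩) ?_
  rintro σ₀ ⟨h1, h2, h3⟩
  obtain ⟨ε, hε, H⟩ := h σ₀ h1 h2 h3
  refine ⟨{σ | ∀ p q, ‖σ p q - σ₀ p q‖ < ε / 2}, mem_nhdsWithin_of_mem_nhds
    (near_nhds σ₀ (half_pos hε)), ε / 2, half_pos hε, fun ρ hρ σ hσ hd => ?_⟩
  refine H ρ hρ fun p q => ?_
  calc ‖ρ p q - σ₀ p q‖ ≤ ‖ρ p q - σ p q‖ + ‖σ p q - σ₀ p q‖ :=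
        norm_sub_le_norm_sub_add_norm_sub _ _ _
    _ < ε := by
      have h4 : ‖σ p q - σ₀ p q‖ < ε / 2 := hσ p q
      linarith [hd p q]

/-- A zero-key entangled state gives one in the dense set, near the separable states. -/
theorem exists_dense_near {S : Set (Matrix (A × B) (A × B) ℂ)}
    (hS : ∀ ρ : Matrix (A × B) (A × B) ℂ, ρ.PosSemidef → ρ.trace = 1 → MaxMixed ρ →
      ∀ δ : ℝ, 0 < δ → ∃ ρ' ∈ S, ρ'.PosSemidef ∧ ρ'.trace = 1 ∧ MaxMixed ρ' ∧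
        ∀ p q, ‖ρ' p q - ρ p q‖ < δ)
    {ρ₁ : Matrix (A × B) (A × B) ℂ} (hρ₁ : ρ₁.PosSemidef) (h1₁ : ρ₁.trace = 1)
    (hs₁ : ¬ IsSep ρ₁) (hk₁ : ¬ KeyPos ρ₁) {ε : ℝ} (hε : 0 < ε) :
    ∃ ρ' ∈ S, ρ'.PosDef ∧ ρ'.trace = 1 ∧ MaxMixed ρ' ∧ ¬ IsSep ρ' ∧
      ((pTrans ρ₁).PosSemidef → (pTrans ρ').PosDef) ∧ ¬ KeyPos ρ' ∧
      ∃ σ ∈ sepMM A B, ∀ p q, ‖ρ' p q - σ p q‖ < ε := by
  obtain ⟨ρ, hρ, h1, hm, hs, hk, hpt⟩ := exists_mixed hρ₁ h1₁ hs₁ hk₁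
  obtain ⟨ρ₀, σ, h2, h3, h4, h5, h17, h6, δ, hδ, h7⟩ := exists_near hρ h1 hs hk (half_pos hε)
  obtain ⟨h18, h19⟩ := h17 hm
  obtain ⟨ρ', h8, h9, h10, h20, h11⟩ := hS ρ₀ h2.posSemidef h3 h18 (min δ (ε / 2))
    (lt_min hδ (half_pos hε))
  obtain ⟨h12, h13, h14, h15⟩ := h7 ρ' h9.1 h10 fun p q =>
    (h11 p q).trans_le (min_le_left _ _)
  refine ⟨ρ', h8, h12, h10, h20, h13, fun hp => h15 (hpt hp), h14, σ, ⟨h4, h5, h19⟩,
    fun p q => ?_⟩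
  have h16 := (h11 p q).trans_le (min_le_right _ _)
  calc ‖ρ' p q - σ p q‖ ≤ ‖ρ' p q - ρ₀ p q‖ + ‖ρ₀ p q - σ p q‖ :=
        norm_sub_le_norm_sub_add_norm_sub _ _ _
    _ < ε := by linarith [h6 p q]

/-- **`Q1` is local at the separable states with maximally mixed marginals.** -/
theorem local_iff {S : Set (Matrix (A × B) (A × B) ℂ)}
    (hS : ∀ ρ : Matrix (A × B) (A × B) ℂ, ρ.PosSemidef → ρ.trace = 1 → MaxMixed ρ →
      ∀ δ : ℝ, 0 < δ → ∃ ρ' ∈ S, ρ'.PosSemidef ∧ ρ'.trace = 1 ∧ MaxMixed ρ' ∧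
        ∀ p q, ‖ρ' p q - ρ p q‖ < δ) :
    ((∀ σ : Matrix (A × B) (A × B) ℂ, IsSep σ → σ.trace = 1 → MaxMixed σ → ∃ ε : ℝ, 0 < ε ∧
        ∀ ρ ∈ S, ρ.PosDef → ρ.trace = 1 → MaxMixed ρ → ¬ IsSep ρ →
          (∀ p q, ‖ρ p q - σ p q‖ < ε) → KeyPos ρ) ↔
      ∀ ρ : Matrix (A × B) (A × B) ℂ, ρ.PosSemidef → ρ.trace = 1 → ¬ IsSep ρ → KeyPos ρ) ∧
    ((∀ σ : Matrix (A × B) (A × B) ℂ, IsSep σ → σ.trace = 1 → MaxMixed σ → ∃ ε : ℝ, 0 < ε ∧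
        ∀ ρ ∈ S, ρ.PosDef → (pTrans ρ).PosDef → ρ.trace = 1 → MaxMixed ρ → ¬ IsSep ρ →
          (∀ p q, ‖ρ p q - σ p q‖ < ε) → KeyPos ρ) ↔
      ∀ ρ : Matrix (A × B) (A × B) ℂ, ρ.PosSemidef → (pTrans ρ).PosSemidef → ρ.trace = 1 →
        ¬ IsSep ρ → KeyPos ρ) := by
  refine ⟨⟨fun H ρ hρ h1 hs => ?_, fun H σ _ _ _ => ⟨1, one_pos, fun ρ _ hρ h1 _ hs _ =>
    H ρ hρ.posSemidef h1 hs⟩⟩, ⟨fun H ρ hρ hp h1 hs => ?_, fun H σ _ _ _ =>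
      ⟨1, one_pos, fun ρ _ hρ hp h1 _ hs _ => H ρ hρ.posSemidef hp.posSemidef h1 hs⟩⟩⟩
  · by_contra hk
    obtain ⟨ε, hε, H'⟩ := tube_of_local (P := fun ρ => ρ ∈ S ∧ ρ.PosDef ∧ ρ.trace = 1 ∧
      MaxMixed ρ ∧ ¬ IsSep ρ) fun σ h1 h2 h3 => by
        obtain ⟨ε, hε, h4⟩ := H σ h1 h2 h3
        exact ⟨ε, hε, fun ρ ⟨a, b, c, d, e⟩ => h4 ρ a b c d e⟩
    obtain ⟨ρ', h2, h3, h4, h5, h6, -, h7, σ, h8, h9⟩ := exists_dense_near hS hρ h1 hs hk hε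
    exact h7 (H' ρ' ⟨h2, h3, h4, h5, h6⟩ σ h8 h9)
  · by_contra hk
    obtain ⟨ε, hε, H'⟩ := tube_of_local (P := fun ρ => ρ ∈ S ∧ ρ.PosDef ∧ (pTrans ρ).PosDef ∧
      ρ.trace = 1 ∧ MaxMixed ρ ∧ ¬ IsSep ρ) fun σ h1 h2 h3 => by
        obtain ⟨ε, hε, h4⟩ := H σ h1 h2 h3
        exact ⟨ε, hε, fun ρ ⟨a, b, c, d, e, f⟩ => h4 ρ a b c d e f⟩
    obtain ⟨ρ', h2, h3, h4, h5, h6, h10, h7, σ, h8, h9⟩ := exists_dense_near hS hρ h1 hs hk hε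
    exact h7 (H' ρ' ⟨h2, h3, h10 hp, h4, h5, h6⟩ σ h8 h9)

end H625

end Vale.Agent.P372
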