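import Vale.Agent.P372.H625.Power

open Matrix Kronecker
open scoped ComplexOrder MatrixOrder

set_option linter.unusedSectionVars false

namespace Vale.Agent.P372

namespace H625

variable {A B C D E I F J K : Type} [Fintype A] [DecidableEq A] [Fintype B] [DecidableEq B]
  [Fintype C] [DecidableEq C] [Fintype D] [DecidableEq D] [Fintype E] [DecidableEq E]
  [Fintype I] [DecidableEq I] [Fintype F] [DecidableEq F] [Fintype J] [DecidableEq J]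
  [Fintype K] [DecidableEq K]

/-- the quadratic form of the costs -/
noncomputable def qc (σ M : Matrix I I ℂ) : ℝ := (Mᴴ * σ * M).trace.re

theorem qc_nonneg {σ : Matrix I I ℂ} (hσ : σ.PosSemidef) (M : Matrix I I ℂ) : 0 ≤ qc σ M :=
  (Complex.le_def.mp (hσ.conjTranspose_mul_mul_same M).trace_nonneg).1

theorem qc_add {σ : Matrix I I ℂ} (hσ : σ.PosSemidef) (M N : Matrix I I ℂ) :
    qc σ (M + N) ≤ 2 * qc σ M + 2 * qc σ N := by
  have h := qc_nonneg hσ (M - N)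
  have e : qc σ (M + N) + qc σ (M - N) = 2 * qc σ M + 2 * qc σ N := by
    simp only [qc]
    rw [← Complex.add_re, ← trace_add]
    have : (M + N)ᴴ * σ * (M + N) + (M - N)ᴴ * σ * (M - N) =
        (Mᴴ * σ * M + Mᴴ * σ * M) + (Nᴴ * σ * N + Nᴴ * σ * N) := by
      rw [conjTranspose_add, conjTranspose_sub]
      noncomm_ring
    rw [this, trace_add, trace_add, trace_add, Complex.add_re, Complex.add_re, Complex.add_re]
    ring
  linarith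

theorem qc_smul (σ M : Matrix I I ℂ) (c : ℂ) : qc σ (c • M) = ‖c‖ ^ 2 * qc σ M := by
  rw [qc, conjTranspose_smul, Matrix.smul_mul, Matrix.smul_mul, Matrix.mul_smul, smul_smul,
    trace_smul, smul_eq_mul, RCLike.star_def, Complex.conj_mul', qc]
  have : ((‖c‖ : ℂ) ^ 2) = ((‖c‖ ^ 2 : ℝ) : ℂ) := by push_cast; rfl
  rw [this, Complex.re_ofReal_mul]

theorem qc_four {σ : Matrix I I ℂ} (hσ : σ.PosSemidef) (M N P Q : Matrix I I ℂ) :
    qc σ (M + N + (P + Q)) ≤ 4 * (qc σ M + qc σ N + (qc σ P + qc σ Q)) := by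
  have h1 := qc_add hσ (M + N) (P + Q)
  have h2 := qc_add hσ M N
  have h3 := qc_add hσ P Q
  linarith

theorem kron_tf_right {n : ℕ} (u : Fin n → Matrix D D ℂ) :
    (1 : Matrix (Fin n → C) (Fin n → C) ℂ) ⊗ₖ piT u =
      Half.tf (fun k => (1 : Matrix C C ℂ) ⊗ₖ u k) := by
  rw [← piT_one]
  ext p q
  rw [kroneckerMap_apply, Half.tf, submatrix_apply]
  simp only [piT_apply, kroneckerMap_apply, Finset.prod_mul_distrib]

theorem kron_tf_both {n : ℕ} (u : Fin n → Matrix C C ℂ) (v : Fin n → Matrix D D ℂ) :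
    piT u ⊗ₖ piT v = Half.tf (fun k => u k ⊗ₖ v k) := by
  ext p q
  rw [kroneckerMap_apply, Half.tf, submatrix_apply]
  simp only [piT_apply, kroneckerMap_apply, Finset.prod_mul_distrib]

theorem trace_prod {n : ℕ} (σ : Matrix (C × D) (C × D) ℂ) (S : Matrix C C ℂ)
    (T : Matrix D D ℂ) :
    (tpow n σ * (piT (fun _ : Fin n => S) ⊗ₖ piT (fun _ : Fin n => T))).trace =
      (σ * (S ⊗ₖ T)).trace ^ n := by
  rw [kron_tf_both, tpow_tf, Half.tf_mul, trace_tf, Finset.prod_const, Finset.card_univ,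
    Fintype.card_fin]

theorem tr_star {σ : Matrix I I ℂ} (hσ : σ.IsHermitian) (M : Matrix I I ℂ) :
    (σ * Mᴴ).trace = star (σ * M).trace := by
  rw [← trace_conjTranspose, conjTranspose_mul, hσ.eq, trace_mul_comm]

/-- the choice of the phases -/
theorem exists_phases (u v : ℂ) (hu : u ≠ 0) : ∃ ζ η : ℂ, ‖ζ‖ = 1 ∧ ‖η‖ = 1 ∧
    ‖u‖ ≤ (ζ * η * u).re + (ζ * star η * v).re := by
  have hun : (‖u‖ : ℂ) ≠ 0 := by exact_mod_cast norm_ne_zero_iff.mpr hu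
  have hz : ∀ η : ℂ, ‖η‖ = 1 → ‖star η * star u / (‖u‖ : ℂ)‖ = 1 := by
    intro η hη
    rw [norm_div, norm_mul, norm_star, norm_star, hη, Complex.norm_real, norm_norm, one_mul]
    exact div_self (norm_ne_zero_iff.mpr hu)
  have he : ∀ η : ℂ, ‖η‖ = 1 → (star η * star u / (‖u‖ : ℂ)) * η * u = (‖u‖ : ℂ) := by
    intro η hη
    have e1 : star η * η = 1 := by
      rw [RCLike.star_def, Complex.conj_mul', hη]
      norm_num
    have e2 : star u * u = (‖u‖ : ℂ) ^ 2 := by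
      rw [RCLike.star_def, Complex.conj_mul']
    calc _ = (star η * η) * (star u * u) / (‖u‖ : ℂ) := by ring
      _ = _ := by
        rw [e1, e2]
        field_simp
  rcases le_total 0 (star u / (‖u‖ : ℂ) * v).re with h | h
  · refine ⟨star 1 * star u / (‖u‖ : ℂ), 1, hz 1 (by simp), by simp, ?_⟩
    rw [he 1 (by simp), Complex.ofReal_re]
    have : star (1 : ℂ) * star u / (‖u‖ : ℂ) * star (1 : ℂ) * v = star u / (‖u‖ : ℂ) * v := by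
      simp
    rw [this]
    linarith
  · refine ⟨star Complex.I * star u / (‖u‖ : ℂ), Complex.I, hz _ (by simp), by simp, ?_⟩
    rw [he _ (by simp), Complex.ofReal_re]
    have : star Complex.I * star u / (‖u‖ : ℂ) * star Complex.I * v =
        -(star u / (‖u‖ : ℂ) * v) := by
      have h2 : star Complex.I * star Complex.I = -1 := by simp
      calc _ = (star Complex.I * star Complex.I) * (star u / (‖u‖ : ℂ) * v) := by ring
        _ = _ := by rw [h2]; ring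
    rw [this, Complex.neg_re]
    linarith

/-- The estimates for `n` copies. -/
theorem tensor_split {n : ℕ} {σ : Matrix (C × D) (C × D) ℂ} (hσ : σ.PosSemidef)
    (S : Matrix C C ℂ) (T : Matrix D D ℂ)
    {U : J → Matrix (C × D) (C × D) ℂ} {V : K → Matrix (C × D) (C × D) ℂ}
    (hU : ∑ j, U j = S ⊗ₖ 1) (hV : ∑ k, V k = 1 ⊗ₖ T)
    {l r : J → ℝ} {l' r' : K → ℝ} (hl0 : ∀ j, 0 ≤ l j) (hr0 : ∀ j, 0 ≤ r j)
    (hl0' : ∀ k, 0 ≤ l' k) (hr0' : ∀ k, 0 ≤ r' k)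
    (hl : (diagonal (fun j => (l j : ℂ)) - gram σ U).PosSemidef)
    (hr : (diagonal (fun j => (r j : ℂ)) - gram σ fun j => (U j)ᴴ).PosSemidef)
    (hl' : (diagonal (fun k => (l' k : ℂ)) - gram σ V).PosSemidef)
    (hr' : (diagonal (fun k => (r' k : ℂ)) - gram σ fun k => (V k)ᴴ).PosSemidef)
    {θ θ' : ℝ} (h0 : 0 ≤ θ) (h1 : θ ≤ 1) (h0' : 0 ≤ θ') (h1' : θ' ≤ 1)
    (hp : (σ * (S ⊗ₖ T)).trace ≠ 0) {τ : ℝ} (hτ : 0 < τ) :
    ∃ (a : Matrix (Fin n → C) (Fin n → C) ℂ) (b : Matrix (Fin n → D) (Fin n → D) ℂ)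
      (G₁ G₂ : Matrix ((Fin n → C) × (Fin n → D)) ((Fin n → C) × (Fin n → D)) ℂ),
      a.IsHermitian ∧ b.IsHermitian ∧ G₁ + G₂ = a ⊗ₖ 1 + 1 ⊗ₖ b ∧
      (G₁ᴴ * tpow n σ * G₁).trace.re + (G₂ * tpow n σ * G₂ᴴ).trace.re ≤
        8 * ((τ ^ 2 * ∑ j, l j ^ (1 - θ) * r j ^ θ) ^ n +
          ((τ ^ 2)⁻¹ * ∑ k, l' k ^ (1 - θ') * r' k ^ θ') ^ n) ∧
      2 * ‖(σ * (S ⊗ₖ T)).trace‖ ^ n ≤ (tpow n σ * (a ⊗ₖ b)).trace.re := by
  obtain ⟨P₁, P₂, hP, hPc⟩ := exists_parts n hσ U hl0 hr0 hl hr h0 h1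
  obtain ⟨Q₁, Q₂, hQ, hQc⟩ := exists_parts n hσ V hl0' hr0' hl' hr' h0' h1'
  obtain ⟨N, hN⟩ : ∃ N, N = tpow n σ := ⟨_, rfl⟩
  have hNp : N.PosSemidef := by
    rw [hN, tpow_tf]
    exact (piT_posSemidef fun _ => hσ).submatrix _
  obtain ⟨u, hu⟩ : ∃ u, u = (σ * (S ⊗ₖ T)).trace ^ n := ⟨_, rfl⟩
  have hu0 : u ≠ 0 := hu ▸ pow_ne_zero n hp
  obtain ⟨Sn, hSn⟩ : ∃ Sn, Sn = piT (fun _ : Fin n => S) := ⟨_, rfl⟩
  obtain ⟨Tn, hTn⟩ : ∃ Tn, Tn = piT (fun _ : Fin n => T) := ⟨_, rfl⟩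
  obtain ⟨v, hv⟩ : ∃ v, v = (N * (Sn ⊗ₖ Tnᴴ)).trace := ⟨_, rfl⟩
  have hu' : (N * (Sn ⊗ₖ Tn)).trace = u := by rw [hN, hSn, hTn, trace_prod, hu]
  obtain ⟨ζ, η, hζ, hη, huv⟩ := exists_phases u v hu0
  obtain ⟨t, ht⟩ : ∃ t : ℝ, t = τ ^ n := ⟨_, rfl⟩
  obtain ⟨s, hs⟩ : ∃ s : ℝ, s = (τ⁻¹) ^ n := ⟨_, rfl⟩
  have hts : t * s = 1 := by
    rw [ht, hs, ← mul_pow, mul_inv_cancel₀ hτ.ne', one_pow]
  have ht0 : 0 < t := ht ▸ pow_pos hτ n
  have hs0 : 0 < s := hs ▸ pow_pos (inv_pos.mpr hτ) n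
  obtain ⟨α, hα⟩ : ∃ α : ℂ, α = (t : ℂ) * ζ := ⟨_, rfl⟩
  obtain ⟨β, hβ⟩ : ∃ β : ℂ, β = (s : ℂ) * η := ⟨_, rfl⟩
  have hαn : ‖α‖ ^ 2 = t ^ 2 := by
    rw [hα, norm_mul, hζ, Complex.norm_real, Real.norm_eq_abs, mul_one, sq_abs]
  have hβn : ‖β‖ ^ 2 = s ^ 2 := by
    rw [hβ, norm_mul, hη, Complex.norm_real, Real.norm_eq_abs, mul_one, sq_abs]
  refine ⟨α • Sn + (α • Sn)ᴴ, β • Tn + (β • Tn)ᴴ,
    (α • P₁ + (α • P₂)ᴴ) + (β • Q₁ + (β • Q₂)ᴴ),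
    (α • P₂ + (α • P₁)ᴴ) + (β • Q₂ + (β • Q₁)ᴴ), ?_, ?_, ?_, ?_, ?_⟩
  · rw [IsHermitian, conjTranspose_add, conjTranspose_conjTranspose, add_comm]
  · rw [IsHermitian, conjTranspose_add, conjTranspose_conjTranspose, add_comm]
  · have e1 : Sn ⊗ₖ (1 : Matrix (Fin n → D) (Fin n → D) ℂ) = P₁ + P₂ := by
      rw [hP, hU, hSn, Half.kron_tf]
    have e2 : (1 : Matrix (Fin n → C) (Fin n → C) ℂ) ⊗ₖ Tn = Q₁ + Q₂ := by
      rw [hQ, hV, hTn, kron_tf_right]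
    have e3 : (α • Sn + (α • Sn)ᴴ) ⊗ₖ (1 : Matrix (Fin n → D) (Fin n → D) ℂ) =
        α • (P₁ + P₂) + (α • (P₁ + P₂))ᴴ := by
      rw [← e1, add_kronecker, smul_kronecker, conjTranspose_smul, conjTranspose_smul,
        conjTranspose_kronecker, conjTranspose_one, smul_kronecker]
    have e4 : (1 : Matrix (Fin n → C) (Fin n → C) ℂ) ⊗ₖ (β • Tn + (β • Tn)ᴴ) =
        β • (Q₁ + Q₂) + (β • (Q₁ + Q₂))ᴴ := by
      rw [← e2, kronecker_add, kronecker_smul, conjTranspose_smul, conjTranspose_smul,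
        conjTranspose_kronecker, conjTranspose_one, kronecker_smul]
    rw [e3, e4, smul_add, smul_add, conjTranspose_add, conjTranspose_add]
    abel
  · rw [← hN] at hPc hQc ⊢
    have e5 : (α • P₂ + (α • P₁)ᴴ) + (β • Q₂ + (β • Q₁)ᴴ) =
        ((α • P₁ + (α • P₂)ᴴ) + (β • Q₁ + (β • Q₂)ᴴ))ᴴ := by
      simp only [conjTranspose_add, conjTranspose_conjTranspose]
      abel
    rw [e5, conjTranspose_conjTranspose]
    have h5 := qc_four hNp (α • P₁) ((α • P₂)ᴴ) (β • Q₁) ((β • Q₂)ᴴ)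
    rw [conjTranspose_smul, conjTranspose_smul, qc_smul, qc_smul, qc_smul, qc_smul, norm_star,
      norm_star, hαn, hβn] at h5
    have e6 : ∀ M, qc N Mᴴ = (M * N * Mᴴ).trace.re := fun M => by
      rw [qc, conjTranspose_conjTranspose]
    rw [e6, e6] at h5
    have h6 : t ^ 2 * ((P₁ᴴ * N * P₁).trace.re + (P₂ * N * P₂ᴴ).trace.re) ≤
        (τ ^ 2 * ∑ j, l j ^ (1 - θ) * r j ^ θ) ^ n := by
      rw [mul_pow, ← pow_mul, mul_comm 2 n, pow_mul, ← ht]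
      exact mul_le_mul_of_nonneg_left hPc (sq_nonneg t)
    have h7 : s ^ 2 * ((Q₁ᴴ * N * Q₁).trace.re + (Q₂ * N * Q₂ᴴ).trace.re) ≤
        ((τ ^ 2)⁻¹ * ∑ k, l' k ^ (1 - θ') * r' k ^ θ') ^ n := by
      rw [mul_pow, ← inv_pow, ← pow_mul, mul_comm 2 n, pow_mul, ← hs]
      exact mul_le_mul_of_nonneg_left hQc (sq_nonneg s)
    simp only [qc] at h5
    have e7 : (starRingEnd ℂ) α • P₂ᴴ = (α • P₂)ᴴ := by
      rw [conjTranspose_smul]; rfl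
    have e8 : (starRingEnd ℂ) β • Q₂ᴴ = (β • Q₂)ᴴ := by
      rw [conjTranspose_smul]; rfl
    simp only [RCLike.star_def] at h5
    rw [e7, e8] at h5
    linarith
  · rw [← hN]
    obtain ⟨x, hx⟩ : ∃ x, x = α • Sn := ⟨_, rfl⟩
    obtain ⟨y, hy⟩ : ∃ y, y = β • Tn := ⟨_, rfl⟩
    rw [← hx, ← hy]
    have e1 : (x + xᴴ) ⊗ₖ (y + yᴴ) = (x ⊗ₖ y + (x ⊗ₖ y)ᴴ) + (x ⊗ₖ yᴴ + (x ⊗ₖ yᴴ)ᴴ) := by
      rw [conjTranspose_kronecker, conjTranspose_kronecker, conjTranspose_conjTranspose,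
        add_kronecker, kronecker_add, kronecker_add]
      abel
    have e2 : ∀ M, (N * (M + Mᴴ)).trace.re = 2 * (N * M).trace.re := by
      intro M
      rw [Matrix.mul_add, trace_add, Complex.add_re, tr_star hNp.1, RCLike.star_def,
        Complex.conj_re]
      ring
    have e3 : (N * (x ⊗ₖ y)).trace = ζ * η * u := by
      rw [hx, hy, smul_kronecker, kronecker_smul, smul_smul, Matrix.mul_smul, trace_smul, hu',
        smul_eq_mul, hα, hβ]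
      have : ((t : ℂ) * (s : ℂ)) = 1 := by exact_mod_cast hts
      calc _ = ((t : ℂ) * (s : ℂ)) * (ζ * η * u) := by ring
        _ = _ := by rw [this, one_mul]
    have e4 : (N * (x ⊗ₖ yᴴ)).trace = ζ * star η * v := by
      rw [hx, hy, conjTranspose_smul, smul_kronecker, kronecker_smul, smul_smul,
        Matrix.mul_smul, trace_smul, ← hv, smul_eq_mul, hα, hβ, star_mul']
      have h3 : star (s : ℂ) = (s : ℂ) := by rw [RCLike.star_def, Complex.conj_ofReal]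
      have : ((t : ℂ) * (s : ℂ)) = 1 := by exact_mod_cast hts
      rw [h3]
      calc _ = ((t : ℂ) * (s : ℂ)) * (ζ * star η * v) := by ring
        _ = _ := by rw [this, one_mul]
    rw [e1, Matrix.mul_add, trace_add, Complex.add_re, e2, e2, e3, e4]
    have e5 : ‖u‖ = ‖(σ * (S ⊗ₖ T)).trace‖ ^ n := by rw [hu, norm_pow]
    rw [← e5]
    linarith

/-- **The free exponent criterion**, one block. -/
theorem power_pos_one (Ψ : Matrix (A × B) E ℂ) (hΨ : (Ψ * Ψᴴ).trace = 1)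
    (X : Matrix C A ℂ) (Y : Matrix D B ℂ) {σ : Matrix (C × D) (C × D) ℂ}
    (hσ' : σ = ((X ⊗ₖ Y) * Ψ) * ((X ⊗ₖ Y) * Ψ)ᴴ) (S : Matrix C C ℂ) (T : Matrix D D ℂ)
    {U : J → Matrix (C × D) (C × D) ℂ} {V : K → Matrix (C × D) (C × D) ℂ}
    (hU : ∑ j, U j = S ⊗ₖ 1) (hV : ∑ k, V k = 1 ⊗ₖ T)
    {l r : J → ℝ} {l' r' : K → ℝ} (hl0 : ∀ j, 0 ≤ l j) (hr0 : ∀ j, 0 ≤ r j)
    (hl0' : ∀ k, 0 ≤ l' k) (hr0' : ∀ k, 0 ≤ r' k)
    (hl : (diagonal (fun j => (l j : ℂ)) - gram σ U).PosSemidef)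
    (hr : (diagonal (fun j => (r j : ℂ)) - gram σ fun j => (U j)ᴴ).PosSemidef)
    (hl' : (diagonal (fun k => (l' k : ℂ)) - gram σ V).PosSemidef)
    (hr' : (diagonal (fun k => (r' k : ℂ)) - gram σ fun k => (V k)ᴴ).PosSemidef)
    {θ θ' : ℝ} (h0 : 0 ≤ θ) (h1 : θ ≤ 1) (h0' : 0 ≤ θ') (h1' : θ' ≤ 1)
    (h : (∑ j, l j ^ (1 - θ) * r j ^ θ) * (∑ k, l' k ^ (1 - θ') * r' k ^ θ') <
      ‖(σ * (S ⊗ₖ T)).trace‖ ^ 2) : 0 < distillableKey Ψ := by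
  have hσ : σ.PosSemidef := hσ' ▸ posSemidef_self_mul_conjTranspose _
  obtain ⟨p, hp⟩ : ∃ p, p = ‖(σ * (S ⊗ₖ T)).trace‖ := ⟨_, rfl⟩
  obtain ⟨eA, heA⟩ : ∃ eA, eA = ∑ j, l j ^ (1 - θ) * r j ^ θ := ⟨_, rfl⟩
  obtain ⟨eB, heB⟩ : ∃ eB, eB = ∑ k, l' k ^ (1 - θ') * r' k ^ θ' := ⟨_, rfl⟩
  have heA0 : 0 ≤ eA := heA ▸ Finset.sum_nonneg fun j _ =>
    mul_nonneg (Real.rpow_nonneg (hl0 j) _) (Real.rpow_nonneg (hr0 j) _)
  have heB0 : 0 ≤ eB := heB ▸ Finset.sum_nonneg fun k _ =>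
    mul_nonneg (Real.rpow_nonneg (hl0' k) _) (Real.rpow_nonneg (hr0' k) _)
  rw [← heA, ← heB, ← hp] at h
  have hp0 : 0 < p := by
    rcases (hp ▸ norm_nonneg _ : 0 ≤ p).eq_or_lt with h2 | h2
    · rw [← h2] at h
      have := mul_nonneg heA0 heB0
      norm_num at h
      linarith
    · exact h2
  have hp1 : (σ * (S ⊗ₖ T)).trace ≠ 0 := norm_ne_zero_iff.mp (hp ▸ hp0.ne')
  -- positive bounds
  obtain ⟨δ, hδ, hδ1⟩ : ∃ δ : ℝ, 0 < δ ∧ (eA + δ) * (eB + δ) < p ^ 2 := by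
    have hc : Continuous fun δ : ℝ => (eA + δ) * (eB + δ) := by fun_prop
    have h2 : ∀ᶠ δ in nhds (0 : ℝ), (eA + δ) * (eB + δ) < p ^ 2 := by
      refine (hc.tendsto 0).eventually_lt_const ?_
      simpa using h
    obtain ⟨δ, h3, h4⟩ := ((h2.filter_mono nhdsWithin_le_nhds).and
      (self_mem_nhdsWithin : Set.Ioi (0 : ℝ) ∈ nhdsWithin 0 (Set.Ioi 0))).exists
    exact ⟨δ, h4, h3⟩
  obtain ⟨x, hx⟩ : ∃ x, x = eA + δ := ⟨_, rfl⟩
  obtain ⟨y, hy⟩ : ∃ y, y = eB + δ := ⟨_, rfl⟩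
  have hx0 : 0 < x := by rw [hx]; linarith
  have hy0 : 0 < y := by rw [hy]; linarith
  have hxA : eA ≤ x := by rw [hx]; linarith
  have hyB : eB ≤ y := by rw [hy]; linarith
  rw [← hx, ← hy] at hδ1
  obtain ⟨g, hg⟩ : ∃ g, g = √(x * y) := ⟨_, rfl⟩
  have hg0 : 0 < g := hg ▸ Real.sqrt_pos.mpr (mul_pos hx0 hy0)
  have hgp : g < p := by
    rw [hg]
    exact (Real.sqrt_lt' hp0).mpr hδ1
  obtain ⟨τ, hτ⟩ : ∃ τ, τ = √(√(y / x)) := ⟨_, rfl⟩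
  have hτ0 : 0 < τ := hτ ▸ Real.sqrt_pos.mpr (Real.sqrt_pos.mpr (div_pos hy0 hx0))
  have hτ2 : τ ^ 2 = √(y / x) := by rw [hτ, Real.sq_sqrt (Real.sqrt_nonneg _)]
  have h5 : τ ^ 2 * x = g := by
    rw [hτ2, hg, Real.sqrt_div hy0.le, Real.sqrt_mul hx0.le]
    have h6 : 0 < √x := Real.sqrt_pos.mpr hx0
    have h7 : √x * √x = x := Real.mul_self_sqrt hx0.le
    calc √y / √x * x = √y / √x * (√x * √x) := by rw [h7]
      _ = _ := by field_simp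
  have h6 : (τ ^ 2)⁻¹ * y = g := by
    have h7 : g * g = x * y := by rw [hg, Real.mul_self_sqrt (mul_pos hx0 hy0).le]
    have h8 : 0 < τ ^ 2 := by positivity
    rw [inv_mul_eq_div, div_eq_iff h8.ne']
    have h9 : x * (g * τ ^ 2) = x * y := by
      calc x * (g * τ ^ 2) = g * (τ ^ 2 * x) := by ring
        _ = _ := by rw [h5, h7]
    exact (mul_left_cancel₀ hx0.ne' h9).symm
  obtain ⟨n, hn⟩ := pow_unbounded_of_one_lt 8 ((one_lt_div hg0).mpr hgp)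
  have hn1 : 1 ≤ n := by
    rcases Nat.eq_zero_or_pos n with h7 | h7
    · rw [h7, pow_zero] at hn
      norm_num at hn
    · exact h7
  rw [div_pow, lt_div_iff₀ (pow_pos hg0 n)] at hn
  obtain ⟨a, b, G₁, G₂, ha, hb, hG, hc, hs⟩ := tensor_split (n := n) hσ S T hU hV hl0 hr0 hl0'
    hr0' hl hr hl' hr' h0 h1 h0' h1' hp1 hτ0
  rw [← heA, ← heB] at hc
  rw [split_iff Ψ hΨ]
  refine ⟨n, Fin n → C, Fin n → D, inferInstance, inferInstance, inferInstance, inferInstance,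
    piT (fun _ => X), piT (fun _ => Y), a, b, G₁, G₂, hn1, ha, hb, hG, ?_⟩
  have hf : filtered n (Ψ * Ψᴴ) (piT (fun _ => X)) (piT (fun _ => Y)) = tpow n σ := by
    rw [Metro.filtered_eq, ← copies_filter, copies_mul, ← hσ']
  rw [hf]
  have c1 : (τ ^ 2 * eA) ^ n ≤ g ^ n := by
    rw [← h5]
    refine pow_le_pow_left₀ (by positivity) ?_ n
    exact mul_le_mul_of_nonneg_left hxA (by positivity)
  have c2 : ((τ ^ 2)⁻¹ * eB) ^ n ≤ g ^ n := by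
    rw [← h6]
    refine pow_le_pow_left₀ (by positivity) ?_ n
    exact mul_le_mul_of_nonneg_left hyB (by positivity)
  rw [← hp] at hs
  linarith

/-- **The free exponent criterion.** -/
theorem power_pos (Ψ : Matrix (A × B) E ℂ) (hΨ : (Ψ * Ψᴴ).trace = 1) {m : ℕ} (hm : 1 ≤ m)
    (X : Matrix C (Fin m → A) ℂ) (Y : Matrix D (Fin m → B) ℂ) {σ : Matrix (C × D) (C × D) ℂ}
    (hσ' : σ = filtered m (Ψ * Ψᴴ) X Y) (S : Matrix C C ℂ) (T : Matrix D D ℂ)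
    {U : J → Matrix (C × D) (C × D) ℂ} {V : K → Matrix (C × D) (C × D) ℂ}
    (hU : ∑ j, U j = S ⊗ₖ 1) (hV : ∑ k, V k = 1 ⊗ₖ T)
    {l r : J → ℝ} {l' r' : K → ℝ} (hl0 : ∀ j, 0 ≤ l j) (hr0 : ∀ j, 0 ≤ r j)
    (hl0' : ∀ k, 0 ≤ l' k) (hr0' : ∀ k, 0 ≤ r' k)
    (hl : (diagonal (fun j => (l j : ℂ)) - gram σ U).PosSemidef)
    (hr : (diagonal (fun j => (r j : ℂ)) - gram σ fun j => (U j)ᴴ).PosSemidef)
    (hl' : (diagonal (fun k => (l' k : ℂ)) - gram σ V).PosSemidef)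
    (hr' : (diagonal (fun k => (r' k : ℂ)) - gram σ fun k => (V k)ᴴ).PosSemidef)
    {θ θ' : ℝ} (h0 : 0 ≤ θ) (h1 : θ ≤ 1) (h0' : 0 ≤ θ') (h1' : θ' ≤ 1)
    (h : (∑ j, l j ^ (1 - θ) * r j ^ θ) * (∑ k, l' k ^ (1 - θ') * r' k ^ θ') <
      ‖(σ * (S ⊗ₖ T)).trace‖ ^ 2) : 0 < distillableKey Ψ := by
  rw [Metro.filtered_eq] at hσ'
  have h2 := power_pos_one (copies m Ψ) (trace_copies m Ψ hΨ) X Y hσ' S T hU hV hl0 hr0 hl0' hr0'
    hl hr hl' hr' h0 h1 h0' h1' h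
  rw [distillableKey_eq_KD] at h2 ⊢
  exact KD_pos_of_copies hm Ψ hΨ h2

end H625

end Vale.Agent.P372
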