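import Vale.Agent.P372.H625.Zero
import Vale.Agent.P372.H625.Dist

open Matrix Kronecker
open scoped ComplexOrder MatrixOrder

set_option linter.unusedSectionVars false

namespace Vale.Agent.P372

namespace H625

variable {A B : Type} [Fintype A] [DecidableEq A] [Fintype B] [DecidableEq B]

theorem amgm {ι : Type} [Fintype ι] [Nonempty ι] {l : ι → ℝ} (hl : ∀ i, 0 < l i) {s : ℝ}
    (hs : s * Fintype.card ι = ∑ i, l i) :
    0 < s ∧ ∏ i, l i ≤ s ^ Fintype.card ι ∧
      ((∃ i, l i ≠ s) → ∏ i, l i < s ^ Fintype.card ι) := by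
  have hc : (0 : ℝ) < Fintype.card ι := by exact_mod_cast Fintype.card_pos
  have hsum : 0 < ∑ i, l i := Finset.sum_pos (fun i _ => hl i) Finset.univ_nonempty
  have hs0 : 0 < s := by
    rw [← hs] at hsum
    exact (pos_iff_pos_of_mul_pos hsum).mpr hc
  have h1 : ∑ i, (l i / s - 1) = 0 := by
    rw [Finset.sum_sub_distrib, ← Finset.sum_div, ← hs, Finset.sum_const, Finset.card_univ,
      nsmul_eq_mul, mul_one, mul_div_cancel_left₀ _ hs0.ne', sub_self]
  have h2 : ∏ i, l i = s ^ Fintype.card ι * ∏ i, (l i / s) := by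
    rw [Finset.prod_div_distrib, Finset.prod_const, Finset.card_univ]
    field_simp
  have h3 : ∏ i, (l i / s) = Real.exp (∑ i, Real.log (l i / s)) := by
    rw [Real.exp_sum]
    exact Finset.prod_congr rfl fun i _ => (Real.exp_log (div_pos (hl i) hs0)).symm
  have hsp : 0 < s ^ Fintype.card ι := pow_pos hs0 _
  refine ⟨hs0, ?_, ?_⟩
  · rw [h2, h3]
    have h4 : ∑ i, Real.log (l i / s) ≤ 0 := by
      rw [← h1]
      exact Finset.sum_le_sum fun i _ => Real.log_le_sub_one_of_pos (div_pos (hl i) hs0)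
    have h5 := Real.exp_le_one_iff.mpr h4
    nlinarith
  · rintro ⟨i, hi⟩
    rw [h2, h3]
    have h4 : ∑ i, Real.log (l i / s) < 0 := by
      rw [← h1]
      refine Finset.sum_lt_sum (fun j _ => Real.log_le_sub_one_of_pos (div_pos (hl j) hs0))
        ⟨i, Finset.mem_univ _, Real.log_lt_sub_one_of_pos (div_pos (hl i) hs0) ?_⟩
      rw [Ne, div_eq_one_iff_eq hs0.ne']
      exact hi
    have h5 : Real.exp (∑ i, Real.log (l i / s)) < 1 := by
      rw [← Real.exp_zero]
      exact Real.exp_lt_exp.mpr h4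
    nlinarith

/-- A positive matrix whose trace cannot be lowered by unimodular congruences is scalar. -/
theorem scalar_of_min [Nonempty A] {N : Matrix A A ℂ} (hN : N.PosDef)
    (h : ∀ Z : Matrix A A ℂ, ‖Z.det‖ = 1 → N.trace.re ≤ (Z * N * Zᴴ).trace.re) :
    N = ((N.trace.re / Fintype.card A : ℝ) : ℂ) • 1 := by
  have hH := hN.1
  obtain ⟨l, hl⟩ : ∃ l, l = hH.eigenvalues := ⟨_, rfl⟩
  obtain ⟨W, hW⟩ : ∃ W : Matrix A A ℂ, W = hH.eigenvectorUnitary := ⟨_, rfl⟩
  have hWW : W * Wᴴ = 1 := hW ▸ eigU_mul hH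
  have hWW' : Wᴴ * W = 1 := hW ▸ eigU_mul' hH
  have hsp : N = W * diagonal (fun i => (l i : ℂ)) * Wᴴ := by
    rw [hW, hl]
    exact spectral_eq hH
  have hlp : ∀ i, 0 < l i := fun i => hl ▸ hN.eigenvalues_pos i
  have hd : (0 : ℝ) < Fintype.card A := by exact_mod_cast Fintype.card_pos
  have htr : N.trace = ((∑ i, l i : ℝ) : ℂ) := by
    rw [hsp, trace_mul_comm, ← Matrix.mul_assoc, hWW', Matrix.one_mul, trace_diagonal]
    push_cast
    rfl
  obtain ⟨s, hs⟩ : ∃ s, s = N.trace.re / Fintype.card A := ⟨_, rfl⟩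
  have hs' : s * Fintype.card A = ∑ i, l i := by
    rw [hs, htr, Complex.ofReal_re, div_mul_cancel₀ _ hd.ne']
  obtain ⟨hs0, -, hlt⟩ := amgm hlp hs'
  rw [← hs]
  by_cases hall : ∀ i, l i = s
  · rw [hsp]
    simp only [hall]
    have : diagonal (fun _ : A => (s : ℂ)) = (s : ℂ) • (1 : Matrix A A ℂ) := by
      rw [← diagonal_one, ← diagonal_smul]
      congr 1
      ext i
      simp
    rw [this, Matrix.mul_smul, Matrix.mul_one, Matrix.smul_mul, hWW]
  · exfalso
    push Not at hall
    have hlt' := hlt hall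
    obtain ⟨g, hg⟩ : ∃ g, g = Real.exp ((∑ i, Real.log (l i)) / Fintype.card A) := ⟨_, rfl⟩
    have hg0 : 0 < g := hg ▸ Real.exp_pos _
    have hgd : g ^ Fintype.card A = ∏ i, l i := by
      rw [hg, ← Real.exp_nat_mul, mul_div_cancel₀ _ hd.ne', Real.exp_sum]
      exact Finset.prod_congr rfl fun i _ => Real.exp_log (hlp i)
    obtain ⟨r, hr⟩ : ∃ r : A → ℝ, r = fun i => √(g / l i) := ⟨_, rfl⟩
    have hr2 : ∀ i, r i * r i * l i = g := by
      intro i
      rw [hr]
      dsimp only
      rw [Real.mul_self_sqrt (div_pos hg0 (hlp i)).le, div_mul_cancel₀ _ (hlp i).ne']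
    have hr0 : ∀ i, 0 ≤ r i := fun i => hr ▸ Real.sqrt_nonneg _
    have hprod : ∏ i, r i = 1 := by
      have h1 : (∏ i, r i) ^ 2 * ∏ i, l i = g ^ Fintype.card A := by
        rw [sq, ← Finset.prod_mul_distrib, ← Finset.prod_mul_distrib]
        simp only [hr2, Finset.prod_const, Finset.card_univ]
      rw [hgd] at h1
      have h2 : 0 < ∏ i, l i := Finset.prod_pos fun i _ => hlp i
      have h3 : (∏ i, r i) ^ 2 = 1 := by
        have := mul_right_cancel₀ h2.ne' (h1.trans (one_mul _).symm)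
        exact this
      have h4 : 0 ≤ ∏ i, r i := Finset.prod_nonneg fun i _ => hr0 i
      exact (pow_eq_one_iff_of_nonneg h4 two_ne_zero).mp h3
    have hdet : ‖(diagonal (fun i => (r i : ℂ)) * Wᴴ).det‖ = 1 := by
      have hW1 : ‖(Wᴴ).det‖ = 1 := by
        have h1 : (Wᴴ).det * W.det = 1 := by rw [← det_mul, hWW', det_one]
        have h2 : (Wᴴ).det = star W.det := det_conjTranspose W
        have h3 : ‖(Wᴴ).det‖ * ‖W.det‖ = 1 := by rw [← norm_mul, h1, norm_one]
        rw [h2, norm_star] at h3 ⊢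
        nlinarith [norm_nonneg W.det]
      rw [det_mul, norm_mul, hW1, mul_one, det_diagonal, ← Complex.ofReal_prod, hprod,
        Complex.ofReal_one, norm_one]
    have h5 := h _ hdet
    have h6 : diagonal (fun i => (r i : ℂ)) * Wᴴ * N * (diagonal (fun i => (r i : ℂ)) * Wᴴ)ᴴ =
        diagonal fun _ => (g : ℂ) := by
      have h7 : (diagonal (fun i => (r i : ℂ)))ᴴ = diagonal (fun i => (r i : ℂ)) := by
        rw [diagonal_conjTranspose]
        congr 1
        ext i
        simp
      rw [conjTranspose_mul, conjTranspose_conjTranspose, h7, hsp]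
      calc _ = diagonal (fun i => (r i : ℂ)) * ((Wᴴ * W) * diagonal (fun i => (l i : ℂ)) *
            (Wᴴ * W)) * diagonal (fun i => (r i : ℂ)) := by simp only [Matrix.mul_assoc]
        _ = _ := by
          rw [hWW', Matrix.one_mul, Matrix.mul_one, diagonal_mul_diagonal, diagonal_mul_diagonal]
          congr 1
          ext i
          rw [← hr2 i]
          push_cast
          ring
    rw [h6, trace_diagonal, Finset.sum_const, Finset.card_univ, nsmul_eq_mul,
      ← Complex.ofReal_natCast, ← Complex.ofReal_mul, Complex.ofReal_re] at h5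
    have h8 : N.trace.re = s * Fintype.card A := by
      rw [hs, div_mul_cancel₀ _ hd.ne']
    rw [h8, mul_comm] at h5
    have h9 : s ≤ g := le_of_mul_le_mul_left h5 hd
    have h10 := pow_le_pow_left₀ hs0.le h9 (Fintype.card A)
    rw [hgd] at h10
    linarith

/-- A unimodular matrix has Hilbert-Schmidt norm at least one. -/
theorem one_le_tr [Nonempty A] {X : Matrix A A ℂ} (h : ‖X.det‖ = 1) :
    1 ≤ (X * Xᴴ).trace.re := by
  have hP : (X * Xᴴ).PosSemidef := posSemidef_self_mul_conjTranspose X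
  have hdet : ‖(X * Xᴴ).det‖ = 1 := by
    rw [det_mul, det_conjTranspose, norm_mul, norm_star, h, one_mul]
  have hprod : ∏ i, hP.1.eigenvalues i = 1 := by
    rw [hP.1.det_eq_prod_eigenvalues, norm_prod] at hdet
    rw [← hdet]
    refine Finset.prod_congr rfl fun i _ => ?_
    rw [RCLike.norm_ofReal, abs_of_nonneg (hP.eigenvalues_nonneg i)]
  have hpos : ∀ i, 0 < hP.1.eigenvalues i := by
    intro i
    refine lt_of_le_of_ne (hP.eigenvalues_nonneg i) fun h0 => ?_
    have : ∏ i, hP.1.eigenvalues i = 0 := Finset.prod_eq_zero (Finset.mem_univ i) h0.symm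
    rw [hprod] at this
    exact one_ne_zero this
  have hd : (0 : ℝ) < Fintype.card A := by exact_mod_cast Fintype.card_pos
  have hd1 : (1 : ℝ) ≤ Fintype.card A := by
    have : 0 < Fintype.card A := Fintype.card_pos
    exact_mod_cast this
  obtain ⟨s, hs⟩ : ∃ s, s = (∑ i, hP.1.eigenvalues i) / Fintype.card A := ⟨_, rfl⟩
  have hs' : s * Fintype.card A = ∑ i, hP.1.eigenvalues i := by
    rw [hs, div_mul_cancel₀ _ hd.ne']
  obtain ⟨hs0, hle, -⟩ := amgm hpos hs'
  rw [hprod] at hle
  have hs1 : 1 ≤ s := by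
    by_contra hc
    push Not at hc
    have := pow_lt_one₀ hs0.le hc (Fintype.card_ne_zero (α := A))
    linarith
  have htr : (X * Xᴴ).trace.re = ∑ i, hP.1.eigenvalues i := by
    rw [hP.1.trace_eq_sum_eigenvalues, ← RCLike.ofReal_sum]
    exact Complex.ofReal_re _
  rw [htr, ← hs']
  nlinarith

end H625

end Vale.Agent.P372
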