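import Vale.Agent.P372.H625.Normal

open Matrix Kronecker
open scoped ComplexOrder MatrixOrder

set_option linter.unusedSectionVars false

namespace Vale.Agent.P372

namespace H625

variable {A B : Type} [Fintype A] [DecidableEq A] [Fintype B] [DecidableEq B]

theorem exists_lo [Nonempty A] {ρ : Matrix A A ℂ} (hρ : ρ.PosDef) :
    ∃ c : ℝ, 0 < c ∧ (ρ - (c : ℂ) • 1).PosSemidef := by
  obtain ⟨i₀, hi₀⟩ := Finite.exists_min hρ.1.eigenvalues
  refine ⟨hρ.1.eigenvalues i₀, hρ.eigenvalues_pos i₀, ?_⟩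
  obtain ⟨l, hl⟩ : ∃ l, l = hρ.1.eigenvalues := ⟨_, rfl⟩
  obtain ⟨W, hW⟩ : ∃ W : Matrix A A ℂ, W = hρ.1.eigenvectorUnitary := ⟨_, rfl⟩
  have hWW : W * Wᴴ = 1 := hW ▸ eigU_mul hρ.1
  have hsp : ρ = W * diagonal (fun i => (l i : ℂ)) * Wᴴ := by
    rw [hW, hl]
    exact spectral_eq hρ.1
  rw [← hl] at hi₀ ⊢
  have h1 : ρ - (l i₀ : ℂ) • 1 = W * diagonal (fun i => ((l i - l i₀ : ℝ) : ℂ)) * Wᴴ := by
    have h2 : diagonal (fun i => ((l i - l i₀ : ℝ) : ℂ)) =
        diagonal (fun i => (l i : ℂ)) - (l i₀ : ℂ) • (1 : Matrix A A ℂ) := by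
      ext i j
      rw [Matrix.sub_apply, Matrix.smul_apply, diagonal_apply, diagonal_apply, one_apply]
      by_cases h : i = j
      · simp [h]
      · simp [h]
    rw [h2, Matrix.mul_sub, Matrix.sub_mul, ← hsp, Matrix.mul_smul, Matrix.mul_one,
      Matrix.smul_mul, hWW]
  rw [h1]
  refine PosSemidef.mul_mul_conjTranspose_same ?_ W
  rw [posSemidef_diagonal_iff]
  intro i
  have := sub_nonneg.mpr (hi₀ i)
  exact_mod_cast this

/-- the functional which the normal form minimises -/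
noncomputable def ff (ρ : Matrix (A × B) (A × B) ℂ) (x : Matrix A A ℂ × Matrix B B ℂ) : ℝ :=
  ((x.1 ⊗ₖ x.2) * ρ * (x.1 ⊗ₖ x.2)ᴴ).trace.re

theorem ff_continuous (ρ : Matrix (A × B) (A × B) ℂ) : Continuous (ff ρ) := by
  have h1 : Continuous fun x : Matrix A A ℂ × Matrix B B ℂ => x.1 ⊗ₖ x.2 := by
    refine continuous_matrix fun p q => ?_
    simp only [kroneckerMap_apply]
    exact (continuous_fst.matrix_elem _ _).mul (continuous_snd.matrix_elem _ _)
  exact Complex.continuous_re.comp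
    ((h1.matrix_mul continuous_const).matrix_mul h1.matrix_conjTranspose).matrix_trace

theorem tr_hs (X : Matrix A A ℂ) :
    (X * Xᴴ).trace = ((∑ p : A × A, ‖X p.1 p.2‖ ^ 2 : ℝ) : ℂ) := by
  rw [Fintype.sum_prod_type, trace]
  push_cast
  refine Finset.sum_congr rfl fun i _ => ?_
  rw [diag_apply, mul_apply]
  refine Finset.sum_congr rfl fun j _ => ?_
  rw [conjTranspose_apply, RCLike.star_def, Complex.mul_conj']

theorem ff_lower {ρ : Matrix (A × B) (A × B) ℂ} {c : ℝ} (hc : (ρ - (c : ℂ) • 1).PosSemidef)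
    (x : Matrix A A ℂ × Matrix B B ℂ) :
    c * ((x.1 * x.1ᴴ).trace.re * (x.2 * x.2ᴴ).trace.re) ≤ ff ρ x := by
  have h1 := (Complex.le_def.mp (hc.mul_mul_conjTranspose_same (x.1 ⊗ₖ x.2)).trace_nonneg).1
  have h2 : (x.1 ⊗ₖ x.2) * (ρ - (c : ℂ) • 1) * (x.1 ⊗ₖ x.2)ᴴ =
      (x.1 ⊗ₖ x.2) * ρ * (x.1 ⊗ₖ x.2)ᴴ - (c : ℂ) • ((x.1 * x.1ᴴ) ⊗ₖ (x.2 * x.2ᴴ)) := by
    rw [Matrix.mul_sub, Matrix.sub_mul, Matrix.mul_smul, Matrix.mul_one, Matrix.smul_mul,
      conjTranspose_kronecker, ← mul_kronecker_mul]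
  rw [h2, trace_sub, trace_smul, trace_kronecker, tr_hs, tr_hs, smul_eq_mul, ← Complex.ofReal_mul,
    ← Complex.ofReal_mul, Complex.sub_re, Complex.ofReal_re, Complex.zero_re] at h1
  rw [tr_hs, tr_hs, Complex.ofReal_re, Complex.ofReal_re, ff]
  linarith

theorem exists_minimizer [Nonempty A] [Nonempty B] {ρ : Matrix (A × B) (A × B) ℂ}
    (hρ : ρ.PosDef) : ∃ x : Matrix A A ℂ × Matrix B B ℂ, ‖x.1.det‖ = 1 ∧ ‖x.2.det‖ = 1 ∧
      ∀ y : Matrix A A ℂ × Matrix B B ℂ, ‖y.1.det‖ = 1 → ‖y.2.det‖ = 1 → ff ρ x ≤ ff ρ y := by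
  obtain ⟨c, hc0, hc⟩ := exists_lo hρ
  obtain ⟨C, hC⟩ : ∃ C, C = ff ρ (1, 1) := ⟨_, rfl⟩
  obtain ⟨S, hS⟩ : ∃ S : Set (Matrix A A ℂ × Matrix B B ℂ),
      S = {x | ‖x.1.det‖ = 1 ∧ ‖x.2.det‖ = 1 ∧ ff ρ x ≤ C} := ⟨_, rfl⟩
  have hbd : ∀ x ∈ S, (x.1 * x.1ᴴ).trace.re ≤ C / c ∧ (x.2 * x.2ᴴ).trace.re ≤ C / c := by
    intro x hx
    rw [hS] at hx
    obtain ⟨h1, h2, h3⟩ := hx
    have h4 := one_le_tr h1
    have h5 := one_le_tr h2
    have h6 := (ff_lower hc x).trans h3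
    rw [le_div_iff₀ hc0, le_div_iff₀ hc0]
    constructor
    · nlinarith [mul_le_mul_of_nonneg_left h5 (by positivity : 0 ≤ c * (x.1 * x.1ᴴ).trace.re)]
    · nlinarith [mul_le_mul_of_nonneg_left h4 (by positivity : 0 ≤ c * (x.2 * x.2ᴴ).trace.re)]
  have hcomp : IsCompact S := by
    have h1 : IsCompact ((Set.pi Set.univ fun _ : A => Set.pi Set.univ fun _ : A =>
        Metric.closedBall (0 : ℂ) √(C / c)) ×ˢ (Set.pi Set.univ fun _ : B =>
        Set.pi Set.univ fun _ : B => Metric.closedBall (0 : ℂ) √(C / c))) :=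
      (isCompact_univ_pi fun _ => isCompact_univ_pi fun _ => isCompact_closedBall _ _).prod
        (isCompact_univ_pi fun _ => isCompact_univ_pi fun _ => isCompact_closedBall _ _)
    refine h1.of_isClosed_subset ?_ ?_
    · rw [hS]
      refine (isClosed_eq continuous_fst.matrix_det.norm continuous_const).inter
        ((isClosed_eq continuous_snd.matrix_det.norm continuous_const).inter
          (isClosed_le (ff_continuous ρ) continuous_const))
    · intro x hx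
      obtain ⟨h2, h3⟩ := hbd x hx
      rw [tr_hs, Complex.ofReal_re] at h2 h3
      refine ⟨Set.mem_univ_pi.mpr fun i => Set.mem_univ_pi.mpr fun j => ?_,
        Set.mem_univ_pi.mpr fun i => Set.mem_univ_pi.mpr fun j => ?_⟩
      · rw [mem_closedBall_zero_iff]
        refine Real.le_sqrt_of_sq_le (le_trans ?_ h2)
        exact Finset.single_le_sum (f := fun p : A × A => ‖x.1 p.1 p.2‖ ^ 2)
          (fun _ _ => by positivity) (Finset.mem_univ (i, j))
      · rw [mem_closedBall_zero_iff]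
        refine Real.le_sqrt_of_sq_le (le_trans ?_ h3)
        exact Finset.single_le_sum (f := fun p : B × B => ‖x.2 p.1 p.2‖ ^ 2)
          (fun _ _ => by positivity) (Finset.mem_univ (i, j))
  have hne : S.Nonempty := by
    refine ⟨(1, 1), ?_⟩
    rw [hS, hC]
    exact ⟨by rw [det_one, norm_one], by rw [det_one, norm_one], le_rfl⟩
  obtain ⟨x, hx, hmin⟩ := hcomp.exists_isMinOn hne (ff_continuous ρ).continuousOn
  have hx' := hx
  rw [hS] at hx'
  refine ⟨x, hx'.1, hx'.2.1, fun y hy1 hy2 => ?_⟩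
  by_cases h : ff ρ y ≤ C
  · refine hmin ?_
    rw [hS]
    exact ⟨hy1, hy2, h⟩
  · exact hx'.2.2.trans (not_le.mp h).le

end H625

end Vale.Agent.P372
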