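import Vale.Agent.P372.H625.Normal2

open Matrix Kronecker
open scoped ComplexOrder MatrixOrder

set_option linter.unusedSectionVars false

namespace Vale.Agent.P372

namespace H625

variable {A B : Type} [Fintype A] [DecidableEq A] [Fintype B] [DecidableEq B]

/-- partial trace over `B` -/
def mA (σ : Matrix (A × B) (A × B) ℂ) : Matrix A A ℂ := of fun a a' => ∑ b, σ (a, b) (a', b)

/-- partial trace over `A` -/
def mB (σ : Matrix (A × B) (A × B) ℂ) : Matrix B B ℂ := of fun b b' => ∑ a, σ (a, b) (a, b')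

theorem tr_mA (σ : Matrix (A × B) (A × B) ℂ) (K : Matrix A A ℂ) :
    (σ * (K ⊗ₖ 1)).trace = (mA σ * K).trace := by
  simp only [trace, diag_apply, mul_apply, Fintype.sum_prod_type, kroneckerMap_apply, mA,
    of_apply, one_apply]
  refine Finset.sum_congr rfl fun a _ => ?_
  rw [Finset.sum_comm]
  refine Finset.sum_congr rfl fun a' _ => ?_
  rw [Finset.sum_mul]
  refine Finset.sum_congr rfl fun b _ => ?_
  rw [Finset.sum_eq_single b]
  · rw [if_pos rfl, mul_one]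
  · intro b' _ hb
    rw [if_neg hb, mul_zero, mul_zero]
  · intro h
    exact absurd (Finset.mem_univ _) h

theorem tr_mB (σ : Matrix (A × B) (A × B) ℂ) (K : Matrix B B ℂ) :
    (σ * (1 ⊗ₖ K)).trace = (mB σ * K).trace := by
  simp only [trace, diag_apply, mul_apply, Fintype.sum_prod_type, kroneckerMap_apply, mB,
    of_apply, one_apply]
  rw [Finset.sum_comm]
  refine Finset.sum_congr rfl fun b _ => ?_
  have h : ∀ a : A, ∑ a', ∑ b', σ (a, b) (a', b') * ((if a' = a then 1 else 0) * K b' b) =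
      ∑ b', σ (a, b) (a, b') * K b' b := by
    intro a
    rw [Finset.sum_eq_single a]
    · simp only [if_pos, one_mul]
    · intro a' _ ha
      refine Finset.sum_eq_zero fun b' _ => ?_
      rw [if_neg ha, zero_mul, mul_zero]
    · intro h
      exact absurd (Finset.mem_univ _) h
  simp only [h]
  rw [Finset.sum_comm]
  refine Finset.sum_congr rfl fun b' _ => ?_
  rw [Finset.sum_mul]

theorem trace_mA (σ : Matrix (A × B) (A × B) ℂ) : (mA σ).trace = σ.trace := by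
  have h := tr_mA σ 1
  rw [one_kronecker_one, Matrix.mul_one, Matrix.mul_one] at h
  exact h.symm

theorem trace_mB (σ : Matrix (A × B) (A × B) ℂ) : (mB σ).trace = σ.trace := by
  have h := tr_mB σ 1
  rw [one_kronecker_one, Matrix.mul_one, Matrix.mul_one] at h
  exact h.symm

theorem mA_posDef [Nonempty B] {σ : Matrix (A × B) (A × B) ℂ} (hσ : σ.PosDef) :
    (mA σ).PosDef := by
  obtain ⟨b₀⟩ := (inferInstance : Nonempty B)
  have h1 : mA σ = σ.submatrix (fun a => (a, b₀)) (fun a => (a, b₀)) +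
      ∑ b ∈ Finset.univ.erase b₀, σ.submatrix (fun a => (a, b)) (fun a => (a, b)) := by
    rw [Finset.add_sum_erase Finset.univ (fun b => σ.submatrix (fun a => (a, b))
      (fun a => (a, b))) (Finset.mem_univ b₀)]
    ext a a'
    rw [Matrix.sum_apply]
    rfl
  rw [h1]
  refine (hσ.submatrix fun a a' h => (Prod.mk.inj h).1).add_posSemidef ?_
  exact posSemidef_sum _ fun b _ => hσ.posSemidef.submatrix _

theorem mB_posDef [Nonempty A] {σ : Matrix (A × B) (A × B) ℂ} (hσ : σ.PosDef) :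
    (mB σ).PosDef := by
  obtain ⟨a₀⟩ := (inferInstance : Nonempty A)
  have h1 : mB σ = σ.submatrix (fun b => (a₀, b)) (fun b => (a₀, b)) +
      ∑ a ∈ Finset.univ.erase a₀, σ.submatrix (fun b => (a, b)) (fun b => (a, b)) := by
    rw [Finset.add_sum_erase Finset.univ (fun a => σ.submatrix (fun b => (a, b))
      (fun b => (a, b))) (Finset.mem_univ a₀)]
    ext b b'
    rw [Matrix.sum_apply]
    rfl
  rw [h1]
  refine (hσ.submatrix fun b b' h => (Prod.mk.inj h).2).add_posSemidef ?_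
  exact posSemidef_sum _ fun a _ => hσ.posSemidef.submatrix _

theorem kron_isUnit {X : Matrix A A ℂ} {Y : Matrix B B ℂ} (hX : IsUnit X) (hY : IsUnit Y) :
    IsUnit (X ⊗ₖ Y) := by
  rw [isUnit_iff_isUnit_det] at *
  rw [det_kronecker]
  exact (hX.pow _).mul (hY.pow _)

/-- **The normal form**: invertible filters make both marginals maximally mixed. -/
theorem exists_normal {ρ : Matrix (A × B) (A × B) ℂ} (hρ : ρ.PosDef) (h1 : ρ.trace = 1) :
    ∃ (X : Matrix A A ℂ) (Y : Matrix B B ℂ), IsUnit X ∧ IsUnit Y ∧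
      ((X ⊗ₖ Y) * ρ * (X ⊗ₖ Y)ᴴ).PosDef ∧ ((X ⊗ₖ Y) * ρ * (X ⊗ₖ Y)ᴴ).trace = 1 ∧
      MaxMixed ((X ⊗ₖ Y) * ρ * (X ⊗ₖ Y)ᴴ) := by
  have hne : Nonempty (A × B) := by
    by_contra hc
    rw [not_nonempty_iff] at hc
    rw [Matrix.trace_eq_zero_of_isEmpty] at h1
    exact zero_ne_one h1
  have : Nonempty A := hne.map Prod.fst
  have : Nonempty B := hne.map Prod.snd
  obtain ⟨⟨X, Y⟩, hX, hY, hmin⟩ := exists_minimizer hρ
  have hunit : ∀ {I : Type} [Fintype I] [DecidableEq I] {Z : Matrix I I ℂ}, ‖Z.det‖ = 1 →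
      IsUnit Z := by
    intro I _ _ Z hZ
    rw [isUnit_iff_isUnit_det, isUnit_iff_ne_zero]
    intro h0
    rw [h0, norm_zero] at hZ
    exact zero_ne_one hZ
  have hXu := hunit hX
  have hYu := hunit hY
  obtain ⟨σ, hσ⟩ : ∃ σ, σ = (X ⊗ₖ Y) * ρ * (X ⊗ₖ Y)ᴴ := ⟨_, rfl⟩
  have hσp : σ.PosDef := by
    rw [hσ]
    exact (Matrix.IsUnit.posDef_star_right_conjugate_iff (kron_isUnit hXu hYu)).mpr hρ
  have hffσ : ff ρ (X, Y) = σ.trace.re := by
    rw [hσ]
    rfl
  have hA : mA σ = (((mA σ).trace.re / Fintype.card A : ℝ) : ℂ) • 1 := by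
    refine scalar_of_min (mA_posDef hσp) fun Z hZ => ?_
    have h2 := hmin (Z * X, Y) (by
      change ‖(Z * X).det‖ = 1
      rw [det_mul, norm_mul, hZ, hX, one_mul]) hY
    have h3 : ff ρ (Z * X, Y) = (Z * mA σ * Zᴴ).trace.re := by
      have h4 : ((Z * X) ⊗ₖ Y) * ρ * ((Z * X) ⊗ₖ Y)ᴴ = (Z ⊗ₖ 1) * σ * (Z ⊗ₖ 1)ᴴ := by
        have h5 : (Z * X) ⊗ₖ Y = (Z ⊗ₖ (1 : Matrix B B ℂ)) * (X ⊗ₖ Y) := by
          rw [← mul_kronecker_mul, Matrix.one_mul]
        rw [h5, conjTranspose_mul, hσ]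
        simp only [Matrix.mul_assoc]
      rw [ff, h4, trace_mul_comm, ← Matrix.mul_assoc, conjTranspose_kronecker, conjTranspose_one,
        ← mul_kronecker_mul, Matrix.one_mul, trace_mul_comm, tr_mA, ← Matrix.mul_assoc,
        trace_mul_comm, ← Matrix.mul_assoc]
    rw [hffσ, h3] at h2
    rwa [trace_mA]
  have hB : mB σ = (((mB σ).trace.re / Fintype.card B : ℝ) : ℂ) • 1 := by
    refine scalar_of_min (mB_posDef hσp) fun Z hZ => ?_
    have h2 := hmin (X, Z * Y) hX (by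
      change ‖(Z * Y).det‖ = 1
      rw [det_mul, norm_mul, hZ, hY, one_mul])
    have h3 : ff ρ (X, Z * Y) = (Z * mB σ * Zᴴ).trace.re := by
      have h4 : (X ⊗ₖ (Z * Y)) * ρ * (X ⊗ₖ (Z * Y))ᴴ = (1 ⊗ₖ Z) * σ * (1 ⊗ₖ Z)ᴴ := by
        have h5 : X ⊗ₖ (Z * Y) = ((1 : Matrix A A ℂ) ⊗ₖ Z) * (X ⊗ₖ Y) := by
          rw [← mul_kronecker_mul, Matrix.one_mul]
        rw [h5, conjTranspose_mul, hσ]
        simp only [Matrix.mul_assoc]
      rw [ff, h4, trace_mul_comm, ← Matrix.mul_assoc, conjTranspose_kronecker, conjTranspose_one,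
        ← mul_kronecker_mul, Matrix.one_mul, trace_mul_comm, tr_mB, ← Matrix.mul_assoc,
        trace_mul_comm, ← Matrix.mul_assoc]
    rw [hffσ, h3] at h2
    rwa [trace_mB]
  rw [trace_mA] at hA
  rw [trace_mB] at hB
  -- normalisation
  obtain ⟨τ, hτ⟩ : ∃ τ : ℝ, τ = σ.trace.re := ⟨_, rfl⟩
  have htr : σ.trace = (τ : ℂ) := by
    have h2 := Complex.le_def.mp hσp.posSemidef.trace_nonneg
    refine Complex.ext ?_ ?_
    · rw [hτ, Complex.ofReal_re]
    · rw [Complex.ofReal_im]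
      exact h2.2.symm
  have hτ0 : 0 < τ := by
    have h2 := (Complex.lt_def.mp hσp.trace_pos).1
    rw [hτ]
    exact h2
  rw [← hτ] at hA hB
  obtain ⟨r, hr⟩ : ∃ r : ℝ, r = √(τ⁻¹) := ⟨_, rfl⟩
  have hr2 : r * r = τ⁻¹ := by
    rw [hr]
    exact Real.mul_self_sqrt (inv_pos.mpr hτ0).le
  have hr0 : (r : ℂ) ≠ 0 := by
    intro h0
    rw [Complex.ofReal_eq_zero] at h0
    rw [h0, mul_zero] at hr2
    exact (inv_pos.mpr hτ0).ne hr2
  have hnew : (((r : ℂ) • X) ⊗ₖ Y) * ρ * (((r : ℂ) • X) ⊗ₖ Y)ᴴ = ((τ⁻¹ : ℝ) : ℂ) • σ := by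
    rw [smul_kronecker, conjTranspose_smul, Matrix.smul_mul, Matrix.smul_mul, Matrix.mul_smul,
      smul_smul, RCLike.star_def, Complex.conj_ofReal, ← Complex.ofReal_mul, hr2, hσ]
  have hdA : (Fintype.card A : ℝ) ≠ 0 := by
    have : Fintype.card A ≠ 0 := Fintype.card_ne_zero
    exact_mod_cast this
  have hdB : (Fintype.card B : ℝ) ≠ 0 := by
    have : Fintype.card B ≠ 0 := Fintype.card_ne_zero
    exact_mod_cast this
  refine ⟨(r : ℂ) • X, Y, ?_, hYu, ?_, ?_, ?_, ?_⟩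
  · rw [isUnit_iff_isUnit_det, det_smul]
    exact ((isUnit_iff_ne_zero.mpr hr0).pow _).mul ((isUnit_iff_isUnit_det _).mp hXu)
  · rw [hnew]
    refine hσp.smul ?_
    exact_mod_cast inv_pos.mpr hτ0
  · rw [hnew, trace_smul, htr, smul_eq_mul, ← Complex.ofReal_mul, inv_mul_cancel₀ hτ0.ne',
      Complex.ofReal_one]
  · intro a a'
    rw [hnew]
    have h2 := congrFun (congrFun hA a) a'
    rw [mA, of_apply, Matrix.smul_apply, one_apply] at h2
    simp only [Matrix.smul_apply, smul_eq_mul]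
    rw [← Finset.mul_sum, h2]
    by_cases h : a = a'
    · rw [if_pos h, if_pos h, smul_eq_mul, mul_one, ← Complex.ofReal_mul]
      have : τ⁻¹ * (τ / Fintype.card A) = (Fintype.card A : ℝ)⁻¹ := by
        field_simp
      rw [this]
      push_cast
      rfl
    · rw [if_neg h, if_neg h, smul_zero, mul_zero]
  · intro b b'
    rw [hnew]
    have h2 := congrFun (congrFun hB b) b'
    rw [mB, of_apply, Matrix.smul_apply, one_apply] at h2
    simp only [Matrix.smul_apply, smul_eq_mul]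
    rw [← Finset.mul_sum, h2]
    by_cases h : b = b'
    · rw [if_pos h, if_pos h, smul_eq_mul, mul_one, ← Complex.ofReal_mul]
      have : τ⁻¹ * (τ / Fintype.card B) = (Fintype.card B : ℝ)⁻¹ := by
        field_simp
      rw [this]
      push_cast
      rfl
    · rw [if_neg h, if_neg h, smul_zero, mul_zero]

theorem filtered_comp' {A' B' C D : Type} [Fintype A'] [DecidableEq A'] [Fintype B']
    [DecidableEq B'] (N : ℕ) (ρ : Matrix (A × B) (A × B) ℂ) (X : Matrix C A' ℂ)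
    (Y : Matrix D B' ℂ) (X' : Matrix A' (Fin N → A) ℂ) (Y' : Matrix B' (Fin N → B) ℂ) :
    (X ⊗ₖ Y) * filtered N ρ X' Y' * (X ⊗ₖ Y)ᴴ = filtered N ρ (X * X') (Y * Y') := by
  rw [filtered, filtered, mul_kronecker_mul, conjTranspose_mul]
  simp only [Matrix.mul_assoc]

/-- filters cannot create key -/
theorem keyPos_filter {ρ : Matrix (A × B) (A × B) ℂ} (hρ : ρ.PosSemidef) (h1 : ρ.trace = 1)
    (X : Matrix A A ℂ) (Y : Matrix B B ℂ) (h1' : ((X ⊗ₖ Y) * ρ * (X ⊗ₖ Y)ᴴ).trace = 1)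
    (h : KeyPos ((X ⊗ₖ Y) * ρ * (X ⊗ₖ Y)ᴴ)) : KeyPos ρ := by
  refine keyPos_sepOp (K := Unit) hρ h1 h1' (fun _ => 1)
    (fun _ => X * idF A ((√(1 : ℝ) : ℝ) : ℂ)) (fun _ => Y * idF B 1) ?_ h
  rw [Fintype.sum_unique, ← filtered_comp', filtered_idF ρ zero_le_one, Complex.ofReal_one,
    one_smul]

/-- invertible filters preserve entanglement -/
theorem sep_of_filter {ρ : Matrix (A × B) (A × B) ℂ} {X : Matrix A A ℂ} {Y : Matrix B B ℂ}
    (hX : IsUnit X) (hY : IsUnit Y) (h : IsSep ((X ⊗ₖ Y) * ρ * (X ⊗ₖ Y)ᴴ)) : IsSep ρ := by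
  obtain ⟨n, M, N, hM, hN, hMN⟩ := h
  have hX' : X⁻¹ * X = 1 := nonsing_inv_mul _ ((isUnit_iff_isUnit_det _).mp hX)
  have hY' : Y⁻¹ * Y = 1 := nonsing_inv_mul _ ((isUnit_iff_isUnit_det _).mp hY)
  have h1 : (X⁻¹ ⊗ₖ Y⁻¹) * (X ⊗ₖ Y) = 1 := by
    rw [← mul_kronecker_mul, hX', hY', one_kronecker_one]
  have h2 : ρ = (X⁻¹ ⊗ₖ Y⁻¹) * ((X ⊗ₖ Y) * ρ * (X ⊗ₖ Y)ᴴ) * (X⁻¹ ⊗ₖ Y⁻¹)ᴴ := by
    calc ρ = ((X⁻¹ ⊗ₖ Y⁻¹) * (X ⊗ₖ Y)) * ρ * ((X⁻¹ ⊗ₖ Y⁻¹) * (X ⊗ₖ Y))ᴴ := by
          rw [h1, conjTranspose_one, Matrix.one_mul, Matrix.mul_one]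
      _ = _ := by
          rw [conjTranspose_mul (X⁻¹ ⊗ₖ Y⁻¹) (X ⊗ₖ Y)]
          simp only [Matrix.mul_assoc]
  refine ⟨n, fun k => X⁻¹ * M k * (X⁻¹)ᴴ, fun k => Y⁻¹ * N k * (Y⁻¹)ᴴ,
    fun k => (hM k).mul_mul_conjTranspose_same _, fun k => (hN k).mul_mul_conjTranspose_same _, ?_⟩
  rw [h2, hMN, Matrix.mul_sum, Matrix.sum_mul]
  refine Finset.sum_congr rfl fun k _ => ?_
  rw [conjTranspose_kronecker, ← mul_kronecker_mul, ← mul_kronecker_mul]

theorem ppt_filter {ρ : Matrix (A × B) (A × B) ℂ} (h : (pTrans ρ).PosSemidef)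
    (X : Matrix A A ℂ) (Y : Matrix B B ℂ) :
    (pTrans ((X ⊗ₖ Y) * ρ * (X ⊗ₖ Y)ᴴ)).PosSemidef := by
  rw [pTrans_filt]
  exact h.mul_mul_conjTranspose_same _

theorem maxMixed_mixN {ρ : Matrix (A × B) (A × B) ℂ} (h : MaxMixed ρ) (h1 : ρ.trace = 1)
    (t : ℝ) : MaxMixed (mixN ρ t) := by
  have hN := card_pos_of_trace h1
  have hne : Nonempty (A × B) := by
    by_contra hc
    rw [not_nonempty_iff] at hc
    rw [Matrix.trace_eq_zero_of_isEmpty] at h1
    exact zero_ne_one h1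
  have : Nonempty A := hne.map Prod.fst
  have : Nonempty B := hne.map Prod.snd
  have hdA : (Fintype.card A : ℂ) ≠ 0 := by
    have : Fintype.card A ≠ 0 := Fintype.card_ne_zero
    exact_mod_cast this
  have hdB : (Fintype.card B : ℂ) ≠ 0 := by
    have : Fintype.card B ≠ 0 := Fintype.card_ne_zero
    exact_mod_cast this
  constructor
  · intro a a'
    simp only [mixN, Matrix.add_apply, Matrix.smul_apply, smul_eq_mul]
    rw [Finset.sum_add_distrib, ← Finset.mul_sum, h.1 a a']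
    have h2 : ∀ b : B, (1 : Matrix (A × B) (A × B) ℂ) (a, b) (a', b) =
        if a = a' then 1 else 0 := by
      intro b
      rw [one_apply]
      by_cases h : a = a'
      · rw [h, if_pos rfl, if_pos rfl]
      · rw [if_neg h, if_neg]
        rw [Prod.mk.injEq]
        exact fun hc => h hc.1
    simp only [h2]
    rw [Finset.sum_const, Finset.card_univ, nsmul_eq_mul, Fintype.card_prod]
    by_cases h : a = a'
    · rw [if_pos h, if_pos h]
      push_cast
      field_simp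
      ring
    · rw [if_neg h, if_neg h]
      ring
  · intro b b'
    simp only [mixN, Matrix.add_apply, Matrix.smul_apply, smul_eq_mul]
    rw [Finset.sum_add_distrib, ← Finset.mul_sum, h.2 b b']
    have h2 : ∀ a : A, (1 : Matrix (A × B) (A × B) ℂ) (a, b) (a, b') =
        if b = b' then 1 else 0 := by
      intro a
      rw [one_apply]
      by_cases h : b = b'
      · rw [h, if_pos rfl, if_pos rfl]
      · rw [if_neg h, if_neg]
        rw [Prod.mk.injEq]
        exact fun hc => h hc.2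
    simp only [h2]
    rw [Finset.sum_const, Finset.card_univ, nsmul_eq_mul, Fintype.card_prod]
    by_cases h : b = b'
    · rw [if_pos h, if_pos h]
      push_cast
      field_simp
      ring
    · rw [if_neg h, if_neg h]
      ring

theorem maxMixed_trace {ρ : Matrix (A × B) (A × B) ℂ} (h : MaxMixed ρ)
    (hA : Nonempty A) : ρ.trace = 1 := by
  rw [trace, Fintype.sum_prod_type]
  have h1 : ∀ a : A, ∑ b, ρ.diag (a, b) = (Fintype.card A : ℂ)⁻¹ := by
    intro a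
    have := h.1 a a
    rwa [if_pos rfl] at this
  simp only [h1]
  rw [Finset.sum_const, Finset.card_univ, nsmul_eq_mul, mul_inv_cancel₀]
  have : Fintype.card A ≠ 0 := Fintype.card_ne_zero
  exact_mod_cast this

end H625

end Vale.Agent.P372
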