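import Vale.Agent.P372.H625.Crit

open Matrix Kronecker
open scoped ComplexOrder MatrixOrder

set_option linter.unusedSectionVars false

namespace Vale.Agent.P372

namespace H625

variable {A B C D E I F : Type} [Fintype A] [DecidableEq A] [Fintype B] [DecidableEq B]
  [Fintype C] [DecidableEq C] [Fintype D] [DecidableEq D] [Fintype E] [DecidableEq E]

theorem continuous_filtered (n : ℕ) (X : Matrix C (Fin n → A) ℂ) (Y : Matrix D (Fin n → B) ℂ) :
    Continuous fun ρ : Matrix (A × B) (A × B) ℂ => filtered n ρ X Y := by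
  have h : Continuous fun ρ : Matrix (A × B) (A × B) ℂ => tpow n ρ := by
    refine continuous_matrix fun p q => ?_
    simp only [tpow]
    exact continuous_finsetProd _ fun i _ => continuous_id.matrix_elem _ _
  exact (continuous_const.matrix_mul h).matrix_mul continuous_const

/-- Positivity of the distillable key is an open condition. -/
theorem keyPos_open {ρ : Matrix (A × B) (A × B) ℂ} (hρ : ρ.PosSemidef) (h1 : ρ.trace = 1)
    (h : KeyPos ρ) : ∃ δ : ℝ, 0 < δ ∧ ∀ ρ' : Matrix (A × B) (A × B) ℂ, ρ'.trace = 1 →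
      (∀ p q, ‖ρ' p q - ρ p q‖ < δ) → KeyPos ρ' := by
  obtain ⟨R, hR⟩ := exists_eq_conjTranspose_mul_self hρ
  have hR' : Rᴴ * Rᴴᴴ = ρ := by rw [conjTranspose_conjTranspose, ← hR]
  have h2 := h _ Rᴴ hR'
  rw [split_iff Rᴴ (by rw [hR', h1])] at h2
  obtain ⟨n, C, D, _, _, _, _, X, Y, a, b, G₁, G₂, hn, ha, hb, hG, hlt⟩ := h2
  rw [hR'] at hlt
  have hf := continuous_filtered n X Y (A := A) (B := B)
  have hc : Continuous fun ρ : Matrix (A × B) (A × B) ℂ =>
      (G₁ᴴ * filtered n ρ X Y * G₁).trace.re + (G₂ * filtered n ρ X Y * G₂ᴴ).trace.re -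
        (filtered n ρ X Y * (a ⊗ₖ b)).trace.re := by
    have c1 : Continuous fun ρ : Matrix (A × B) (A × B) ℂ =>
        (G₁ᴴ * filtered n ρ X Y * G₁).trace.re :=
      Complex.continuous_re.comp
        ((continuous_const.matrix_mul hf).matrix_mul continuous_const).matrix_trace
    have c2 : Continuous fun ρ : Matrix (A × B) (A × B) ℂ =>
        (G₂ * filtered n ρ X Y * G₂ᴴ).trace.re :=
      Complex.continuous_re.comp
        ((continuous_const.matrix_mul hf).matrix_mul continuous_const).matrix_trace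
    have c3 : Continuous fun ρ : Matrix (A × B) (A × B) ℂ =>
        (filtered n ρ X Y * (a ⊗ₖ b)).trace.re :=
      Complex.continuous_re.comp (hf.matrix_mul continuous_const).matrix_trace
    exact (c1.add c2).sub c3
  have ho : IsOpen {ρ : (A × B) → (A × B) → ℂ |
      (G₁ᴴ * filtered n ρ X Y * G₁).trace.re + (G₂ * filtered n ρ X Y * G₂ᴴ).trace.re -
        (filtered n ρ X Y * (a ⊗ₖ b)).trace.re < 0} :=
    isOpen_lt hc continuous_const
  rw [Metric.isOpen_iff] at ho
  have hmem0 : ρ ∈ {ρ : (A × B) → (A × B) → ℂ |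
      (G₁ᴴ * filtered n ρ X Y * G₁).trace.re + (G₂ * filtered n ρ X Y * G₂ᴴ).trace.re -
        (filtered n ρ X Y * (a ⊗ₖ b)).trace.re < 0} := by
    change (G₁ᴴ * filtered n ρ X Y * G₁).trace.re + (G₂ * filtered n ρ X Y * G₂ᴴ).trace.re -
        (filtered n ρ X Y * (a ⊗ₖ b)).trace.re < 0
    linarith
  obtain ⟨δ, hδ, hball⟩ := ho ρ hmem0
  refine ⟨δ, hδ, fun ρ' h1' hd => ?_⟩
  have hmem : @dist ((A × B) → (A × B) → ℂ) _ ρ' ρ < δ := by
    refine (dist_pi_lt_iff hδ).mpr fun p => (dist_pi_lt_iff hδ).mpr fun q => ?_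
    rw [dist_eq_norm]
    exact hd p q
  have h3 : (G₁ᴴ * filtered n ρ' X Y * G₁).trace.re +
      (G₂ * filtered n ρ' X Y * G₂ᴴ).trace.re -
        (filtered n ρ' X Y * (a ⊗ₖ b)).trace.re < 0 := hball hmem
  intro E _ _ Ψ hΨ
  rw [split_iff Ψ (by rw [hΨ, h1'])]
  refine ⟨n, C, D, inferInstance, inferInstance, inferInstance, inferInstance, X, Y, a, b, G₁,
    G₂, hn, ha, hb, hG, ?_⟩
  rw [hΨ]
  linarith

end H625

end Vale.Agent.P372
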