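import Vale.Agent.P372.H625.Crit

open Matrix Kronecker
open scoped ComplexOrder MatrixOrder

set_option linter.unusedSectionVars false

namespace Vale.Agent.P372

namespace H625

variable {A B C D E I F J : Type} [Fintype A] [DecidableEq A] [Fintype B] [DecidableEq B]
  [Fintype C] [DecidableEq C] [Fintype D] [DecidableEq D] [Fintype E] [DecidableEq E]
  [Fintype I] [DecidableEq I] [Fintype F] [DecidableEq F] [Fintype J] [DecidableEq J]

/-- The Gram matrix `tr (U iᴴ σ U j)`. -/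
def gram (σ : Matrix I I ℂ) (U : J → Matrix I I ℂ) : Matrix J J ℂ :=
  Matrix.of fun i j => ((U i)ᴴ * σ * U j).trace

theorem gram_quad (σ : Matrix I I ℂ) (U : J → Matrix I I ℂ) (c : J → ℂ) :
    star c ⬝ᵥ (gram σ U *ᵥ c) = ((∑ j, c j • U j)ᴴ * σ * ∑ j, c j • U j).trace := by
  rw [conjTranspose_sum, Matrix.sum_mul, Matrix.sum_mul, trace_sum, dotProduct]
  refine Finset.sum_congr rfl fun i _ => ?_
  rw [Matrix.mul_sum, trace_sum, mulVec, dotProduct, Finset.mul_sum]
  refine Finset.sum_congr rfl fun j _ => ?_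
  rw [conjTranspose_smul, Matrix.smul_mul, Matrix.smul_mul, Matrix.mul_smul, trace_smul,
    trace_smul, smul_eq_mul, smul_eq_mul, gram, of_apply, Pi.star_apply]
  ring

theorem gram_herm {σ : Matrix I I ℂ} (hσ : σ.IsHermitian) (U : J → Matrix I I ℂ) :
    (gram σ U).IsHermitian := by
  ext i j
  rw [conjTranspose_apply, gram, of_apply, of_apply, ← trace_conjTranspose, conjTranspose_mul,
    conjTranspose_mul, conjTranspose_conjTranspose, hσ.eq, Matrix.mul_assoc]

theorem gram_psd {σ : Matrix I I ℂ} (hσ : σ.PosSemidef) (U : J → Matrix I I ℂ) :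
    (gram σ U).PosSemidef := by
  refine PosSemidef.of_dotProduct_mulVec_nonneg (gram_herm hσ.1 U) fun c => ?_
  rw [gram_quad]
  exact (hσ.conjTranspose_mul_mul_same _).trace_nonneg

/-- The words: tensor products of members of the family. -/
def word (n : ℕ) (U : J → Matrix (C × D) (C × D) ℂ) (w : Fin n → J) :
    Matrix ((Fin n → C) × (Fin n → D)) ((Fin n → C) × (Fin n → D)) ℂ :=
  Half.tf fun i => U (w i)

theorem trace_tf {n : ℕ} (S : Fin n → Matrix (C × D) (C × D) ℂ) :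
    (Half.tf S).trace = ∏ i, (S i).trace := by
  rw [Half.tf, ← piT_trace]
  exact Equiv.sum_comp (Half.colI (A := C) (B := D) (Fin n)) fun x => (piT S) x x

theorem tpow_tf (n : ℕ) (σ : Matrix (C × D) (C × D) ℂ) :
    tpow n σ = Half.tf (fun _ : Fin n => σ) := rfl

theorem gram_word (n : ℕ) (σ : Matrix (C × D) (C × D) ℂ) (U : J → Matrix (C × D) (C × D) ℂ) :
    gram (tpow n σ) (word n U) = piT (fun _ : Fin n => gram σ U) := by
  ext w w'
  rw [gram, of_apply, word, word, tpow_tf, Half.tf_conjTranspose, Half.tf_mul, Half.tf_mul,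
    trace_tf, piT_apply]
  rfl

/-- The cost of a set of words. -/
theorem cost_le {n : ℕ} {σ : Matrix (C × D) (C × D) ℂ} (hσ : σ.PosSemidef)
    (U : J → Matrix (C × D) (C × D) ℂ) {l : J → ℝ}
    (hl : (diagonal (fun j => (l j : ℂ)) - gram σ U).PosSemidef) (W : Finset (Fin n → J)) :
    ((∑ w ∈ W, word n U w)ᴴ * tpow n σ * ∑ w ∈ W, word n U w).trace.re ≤
      ∑ w ∈ W, ∏ i, l (w i) := by
  have h1 := Near.piT_sub_piT_posSemidef (ι := Fin n) (C := fun _ => diagonal fun j => (l j : ℂ))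
    (D := fun _ => gram σ U) (fun _ => gram_psd hσ U) (fun _ => hl)
  rw [← gram_word] at h1
  obtain ⟨c, hc⟩ : ∃ c : (Fin n → J) → ℂ, c = fun w => if w ∈ W then 1 else 0 := ⟨_, rfl⟩
  have h2 := h1.dotProduct_mulVec_nonneg c
  rw [sub_mulVec, dotProduct_sub, gram_quad] at h2
  have h3 : ∑ w, c w • word n U w = ∑ w ∈ W, word n U w := by
    rw [hc]
    simp only [ite_smul, one_smul, zero_smul]
    rw [Finset.sum_ite_mem, Finset.univ_inter]
  have h4 : piT (fun _ : Fin n => diagonal fun j => (l j : ℂ)) =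
      diagonal fun w : Fin n → J => ((∏ i, l (w i) : ℝ) : ℂ) := by
    ext w w'
    rw [piT_apply]
    by_cases h : w = w'
    · subst h
      simp
    · rw [diagonal_apply_ne _ h]
      obtain ⟨i, hi⟩ := Function.ne_iff.mp h
      exact Finset.prod_eq_zero (Finset.mem_univ i) (diagonal_apply_ne _ hi)
  have h5 : star c ⬝ᵥ ((piT (fun _ : Fin n => diagonal fun j => (l j : ℂ))) *ᵥ c) =
      ((∑ w ∈ W, ∏ i, l (w i) : ℝ) : ℂ) := by
    rw [h4, dotProduct, Complex.ofReal_sum, ← Finset.univ_inter W, ← Finset.sum_ite_mem]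
    refine Finset.sum_congr rfl fun w _ => ?_
    rw [mulVec_diagonal, Pi.star_apply, hc]
    simp only
    split_ifs with h
    · simp
    · simp
  rw [h3, h5] at h2
  have h6 := (Complex.le_def.mp h2).1
  rw [Complex.zero_re, Complex.sub_re, Complex.ofReal_re] at h6
  linarith

theorem le_interp {x y θ : ℝ} (hx : 0 ≤ x) (hxy : x ≤ y) (h0 : 0 ≤ θ) (h1 : θ ≤ 1) :
    x ≤ x ^ (1 - θ) * y ^ θ ∧ x ≤ y ^ (1 - θ) * x ^ θ := by
  have e : x = x ^ (1 - θ) * x ^ θ := by
    rw [← Real.rpow_add_of_nonneg hx (by linarith) h0]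
    simp
  constructor
  · conv_lhs => rw [e]
    exact mul_le_mul_of_nonneg_left (Real.rpow_le_rpow hx hxy h0) (Real.rpow_nonneg hx _)
  · conv_lhs => rw [e]
    exact mul_le_mul_of_nonneg_right (Real.rpow_le_rpow hx hxy (by linarith))
      (Real.rpow_nonneg hx _)

/-- The words are cut into those which are cheap on the left and those which are cheap on the
right. -/
theorem exists_cut (n : ℕ) {l r : J → ℝ} (hl : ∀ j, 0 ≤ l j) (hr : ∀ j, 0 ≤ r j) {θ : ℝ}
    (h0 : 0 ≤ θ) (h1 : θ ≤ 1) : ∃ W : Finset (Fin n → J),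
      ∑ w ∈ W, ∏ i, l (w i) + ∑ w ∈ Wᶜ, ∏ i, r (w i) ≤
        (∑ j, l j ^ (1 - θ) * r j ^ θ) ^ n := by
  classical
  refine ⟨Finset.univ.filter fun w => ∏ i, l (w i) ≤ ∏ i, r (w i), ?_⟩
  have h2 : (∑ j, l j ^ (1 - θ) * r j ^ θ) ^ n =
      ∑ w : Fin n → J, (∏ i, l (w i)) ^ (1 - θ) * (∏ i, r (w i)) ^ θ := by
    have e1 : (∑ j, l j ^ (1 - θ) * r j ^ θ) ^ n =
        ∏ _i : Fin n, ∑ j, l j ^ (1 - θ) * r j ^ θ := by
      rw [Finset.prod_const, Finset.card_univ, Fintype.card_fin]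
    rw [e1, Finset.prod_univ_sum, Fintype.piFinset_univ]
    refine Finset.sum_congr rfl fun w _ => ?_
    rw [Finset.prod_mul_distrib, Real.finsetProd_rpow _ _ fun i _ => hl _,
      Real.finsetProd_rpow _ _ fun i _ => hr _]
  rw [h2, ← Finset.sum_add_sum_compl (Finset.univ.filter fun w : Fin n → J =>
    ∏ i, l (w i) ≤ ∏ i, r (w i)) (fun w => (∏ i, l (w i)) ^ (1 - θ) * (∏ i, r (w i)) ^ θ)]
  refine add_le_add (Finset.sum_le_sum fun w hw => ?_) (Finset.sum_le_sum fun w hw => ?_)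
  · rw [Finset.mem_filter] at hw
    exact (le_interp (Finset.prod_nonneg fun i _ => hl _) hw.2 h0 h1).1
  · rw [Finset.mem_compl, Finset.mem_filter, not_and, not_le] at hw
    exact (le_interp (Finset.prod_nonneg fun i _ => hr _) (hw (Finset.mem_univ _)).le h0 h1).2

theorem sum_word (n : ℕ) (U : J → Matrix (C × D) (C × D) ℂ) :
    ∑ w, word n U w = Half.tf (fun _ : Fin n => ∑ j, U j) := by
  ext p q
  simp only [word, Half.tf, submatrix_apply, Matrix.sum_apply, piT_apply]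
  rw [Finset.prod_univ_sum, Fintype.piFinset_univ]

theorem word_star (n : ℕ) (U : J → Matrix (C × D) (C × D) ℂ) (w : Fin n → J) :
    word n (fun j => (U j)ᴴ) w = (word n U w)ᴴ := by
  rw [word, word, Half.tf_conjTranspose]

/-- The two parts of a tensor power. -/
theorem exists_parts (n : ℕ) {σ : Matrix (C × D) (C × D) ℂ} (hσ : σ.PosSemidef)
    (U : J → Matrix (C × D) (C × D) ℂ) {l r : J → ℝ} (hl0 : ∀ j, 0 ≤ l j)
    (hr0 : ∀ j, 0 ≤ r j) (hl : (diagonal (fun j => (l j : ℂ)) - gram σ U).PosSemidef)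
    (hr : (diagonal (fun j => (r j : ℂ)) - gram σ fun j => (U j)ᴴ).PosSemidef) {θ : ℝ}
    (h0 : 0 ≤ θ) (h1 : θ ≤ 1) :
    ∃ P₁ P₂ : Matrix ((Fin n → C) × (Fin n → D)) ((Fin n → C) × (Fin n → D)) ℂ,
      P₁ + P₂ = Half.tf (fun _ : Fin n => ∑ j, U j) ∧
      (P₁ᴴ * tpow n σ * P₁).trace.re + (P₂ * tpow n σ * P₂ᴴ).trace.re ≤
        (∑ j, l j ^ (1 - θ) * r j ^ θ) ^ n := by
  obtain ⟨W, hW⟩ := exists_cut n hl0 hr0 h0 h1
  refine ⟨∑ w ∈ W, word n U w, ∑ w ∈ Wᶜ, word n U w, ?_, ?_⟩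
  · rw [Finset.sum_add_sum_compl, sum_word]
  · have h2 := cost_le (n := n) hσ U hl W
    have h3 := cost_le (n := n) hσ (fun j => (U j)ᴴ) hr Wᶜ
    have h4 : ∑ w ∈ Wᶜ, word n (fun j => (U j)ᴴ) w = (∑ w ∈ Wᶜ, word n U w)ᴴ := by
      rw [conjTranspose_sum]
      exact Finset.sum_congr rfl fun w _ => word_star n U w
    rw [h4, conjTranspose_conjTranspose] at h3
    linarith

end H625

end Vale.Agent.P372
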