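import Vale.Agent.P372.H625.Main

open Matrix Kronecker
open scoped ComplexOrder MatrixOrder

set_option linter.unusedSectionVars false

namespace Vale.Agent.P372

namespace H625

variable {A B C D E I F K : Type} [Fintype A] [DecidableEq A] [Fintype B] [DecidableEq B]
  [Fintype C] [DecidableEq C] [Fintype D] [DecidableEq D] [Fintype E] [DecidableEq E]
  [Fintype I] [DecidableEq I] [Fintype F] [DecidableEq F] [Fintype K] [DecidableEq K]

theorem tpow_sum (n : ℕ) (M : K → Matrix A A ℂ) (N : K → Matrix B B ℂ) :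
    tpow n (∑ k, M k ⊗ₖ N k) =
      ∑ w : Fin n → K, piT (fun i => M (w i)) ⊗ₖ piT (fun i => N (w i)) := by
  ext p q
  rw [tpow, Matrix.sum_apply]
  have h : ∀ i, (∑ k, M k ⊗ₖ N k) (p.1 i, p.2 i) (q.1 i, q.2 i) =
      ∑ k, M k (p.1 i) (q.1 i) * N k (p.2 i) (q.2 i) := by
    intro i
    rw [Matrix.sum_apply]
    rfl
  simp only [h]
  rw [Finset.prod_univ_sum, Fintype.piFinset_univ]
  refine Finset.sum_congr rfl fun w _ => ?_
  rw [kroneckerMap_apply, piT_apply, piT_apply, Finset.prod_mul_distrib]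

/-- Cauchy-Schwarz for the cost of one part. -/
theorem qc_ge {τ : Matrix I I ℂ} (hτ : τ.PosSemidef) (G : Matrix I I ℂ) :
    ‖(τ * G).trace‖ ^ 2 ≤ τ.trace.re * qc τ G := by
  obtain ⟨R, rfl⟩ := exists_eq_conjTranspose_mul_self hτ
  have h1 : (Rᴴ * R * G).trace = ∑ p : I × I, star (R p.1 p.2) * (R * G) p.1 p.2 := by
    rw [Matrix.mul_assoc, Fintype.sum_prod_type, Finset.sum_comm, trace]
    refine Finset.sum_congr rfl fun i _ => ?_
    rw [diag_apply, mul_apply]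
    rfl
  have h2 : (Rᴴ * R).trace.re = ∑ p : I × I, ‖R p.1 p.2‖ ^ 2 := by
    have : (Rᴴ * R).trace = ((∑ p : I × I, ‖R p.1 p.2‖ ^ 2 : ℝ) : ℂ) := by
      rw [Fintype.sum_prod_type, Finset.sum_comm, trace]
      push_cast
      refine Finset.sum_congr rfl fun i _ => ?_
      rw [diag_apply, mul_apply]
      refine Finset.sum_congr rfl fun j _ => ?_
      rw [conjTranspose_apply, RCLike.star_def, Complex.conj_mul']
    rw [this, Complex.ofReal_re]
  have h3 : qc (Rᴴ * R) G = ∑ p : I × I, ‖(R * G) p.1 p.2‖ ^ 2 := by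
    have e : Gᴴ * (Rᴴ * R) * G = (R * G)ᴴ * (R * G) := by
      rw [conjTranspose_mul]
      simp only [Matrix.mul_assoc]
    have : ((R * G)ᴴ * (R * G)).trace = ((∑ p : I × I, ‖(R * G) p.1 p.2‖ ^ 2 : ℝ) : ℂ) := by
      rw [Fintype.sum_prod_type, Finset.sum_comm, trace]
      push_cast
      refine Finset.sum_congr rfl fun i _ => ?_
      rw [diag_apply, mul_apply]
      refine Finset.sum_congr rfl fun j _ => ?_
      rw [conjTranspose_apply, RCLike.star_def, Complex.conj_mul']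
    rw [qc, e, this, Complex.ofReal_re]
  rw [h1, h2, h3]
  have h4 : ‖∑ p : I × I, star (R p.1 p.2) * (R * G) p.1 p.2‖ ≤
      ∑ p : I × I, ‖R p.1 p.2‖ * ‖(R * G) p.1 p.2‖ := by
    refine (norm_sum_le _ _).trans (Finset.sum_le_sum fun p _ => ?_)
    rw [norm_mul, norm_star]
  refine (pow_le_pow_left₀ (norm_nonneg _) h4 2).trans ?_
  exact Finset.sum_mul_sq_le_sq_mul_sq _ _ _

theorem trace_kron_left (P : Matrix C C ℂ) (Q : Matrix D D ℂ) (a : Matrix C C ℂ) :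
    ((P ⊗ₖ Q) * (a ⊗ₖ (1 : Matrix D D ℂ))).trace = (P * a).trace * Q.trace := by
  rw [← mul_kronecker_mul, Matrix.mul_one, trace_kronecker]

theorem trace_kron_right (P : Matrix C C ℂ) (Q : Matrix D D ℂ) (b : Matrix D D ℂ) :
    ((P ⊗ₖ Q) * ((1 : Matrix C C ℂ) ⊗ₖ b)).trace = P.trace * (Q * b).trace := by
  rw [← mul_kronecker_mul, Matrix.mul_one, trace_kronecker]

theorem trace_real {P a : Matrix C C ℂ} (hP : P.IsHermitian) (ha : a.IsHermitian) :
    ((P * a).trace.re : ℂ) = (P * a).trace := by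
  have h : star (P * a).trace = (P * a).trace := by
    rw [← trace_conjTranspose, conjTranspose_mul, hP.eq, ha.eq, trace_mul_comm]
  exact (Complex.conj_eq_iff_re.mp h)

/-- The cost of a product operator is at least twice the covariance. -/
theorem prod_cost {P : Matrix C C ℂ} {Q : Matrix D D ℂ} (hP : P.PosSemidef) (hQ : Q.PosSemidef)
    {a : Matrix C C ℂ} {b : Matrix D D ℂ} (ha : a.IsHermitian) (hb : b.IsHermitian)
    {G₁ G₂ : Matrix (C × D) (C × D) ℂ} (hG : G₁ + G₂ = a ⊗ₖ 1 + 1 ⊗ₖ b) :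
    2 * ((P ⊗ₖ Q) * (a ⊗ₖ b)).trace.re ≤
      (G₁ᴴ * (P ⊗ₖ Q) * G₁).trace.re + (G₂ * (P ⊗ₖ Q) * G₂ᴴ).trace.re := by
  have hτ : (P ⊗ₖ Q).PosSemidef := hP.kronecker hQ
  obtain ⟨x, hx⟩ : ∃ x, x = P.trace.re := ⟨_, rfl⟩
  obtain ⟨y, hy⟩ : ∃ y, y = Q.trace.re := ⟨_, rfl⟩
  obtain ⟨u, hu⟩ : ∃ u, u = (P * a).trace.re := ⟨_, rfl⟩
  obtain ⟨v, hv⟩ : ∃ v, v = (Q * b).trace.re := ⟨_, rfl⟩
  have hx' : P.trace = (x : ℂ) := by
    have := trace_real hP.1 (isHermitian_one (n := C) (α := ℂ))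
    rw [Matrix.mul_one] at this
    rw [hx, this]
  have hy' : Q.trace = (y : ℂ) := by
    have := trace_real hQ.1 (isHermitian_one (n := D) (α := ℂ))
    rw [Matrix.mul_one] at this
    rw [hy, this]
  have hu' : (P * a).trace = (u : ℂ) := by rw [hu, trace_real hP.1 ha]
  have hv' : (Q * b).trace = (v : ℂ) := by rw [hv, trace_real hQ.1 hb]
  have hx0 : 0 ≤ x := hx ▸ (Complex.le_def.mp hP.trace_nonneg).1
  have hy0 : 0 ≤ y := hy ▸ (Complex.le_def.mp hQ.trace_nonneg).1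
  have ht : (P ⊗ₖ Q).trace.re = x * y := by
    rw [trace_kronecker, hx', hy', ← Complex.ofReal_mul, Complex.ofReal_re]
  have hab : ((P ⊗ₖ Q) * (a ⊗ₖ b)).trace.re = u * v := by
    rw [← mul_kronecker_mul, trace_kronecker, hu', hv', ← Complex.ofReal_mul, Complex.ofReal_re]
  have hg : ((P ⊗ₖ Q) * G₁).trace + ((P ⊗ₖ Q) * G₂).trace = ((u * y + x * v : ℝ) : ℂ) := by
    rw [← trace_add, ← Matrix.mul_add, hG, Matrix.mul_add, trace_add, trace_kron_left,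
      trace_kron_right, hx', hy', hu', hv']
    push_cast
    ring
  have c1 := qc_ge hτ G₁
  have c2 := qc_ge hτ G₂ᴴ
  have e2 : qc (P ⊗ₖ Q) G₂ᴴ = (G₂ * (P ⊗ₖ Q) * G₂ᴴ).trace.re := by
    rw [qc, conjTranspose_conjTranspose]
  have e3 : ‖((P ⊗ₖ Q) * G₂ᴴ).trace‖ = ‖((P ⊗ₖ Q) * G₂).trace‖ := by
    rw [tr_star hτ.1, norm_star]
  rw [e2, e3, ht] at c2
  rw [qc, ht] at c1
  rw [hab]
  obtain ⟨k₁, hk₁⟩ : ∃ k, k = (G₁ᴴ * (P ⊗ₖ Q) * G₁).trace.re := ⟨_, rfl⟩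
  obtain ⟨k₂, hk₂⟩ : ∃ k, k = (G₂ * (P ⊗ₖ Q) * G₂ᴴ).trace.re := ⟨_, rfl⟩
  have p1 : 0 ≤ k₁ := hk₁ ▸ qc_nonneg hτ G₁
  have p2 : 0 ≤ k₂ := by
    have := qc_nonneg hτ G₂ᴴ
    rwa [e2, ← hk₂] at this
  rw [← hk₁] at c1 ⊢
  rw [← hk₂] at c2 ⊢
  have h3 : |u * y + x * v| ≤ ‖((P ⊗ₖ Q) * G₁).trace‖ + ‖((P ⊗ₖ Q) * G₂).trace‖ := by
    rw [← Real.norm_eq_abs, ← Complex.norm_real, ← hg]
    exact norm_add_le _ _
  have h4 : (u * y + x * v) ^ 2 ≤ 2 * (x * y * (k₁ + k₂)) := by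
    have h5 := pow_le_pow_left₀ (abs_nonneg _) h3 2
    rw [sq_abs] at h5
    nlinarith [sq_nonneg (‖((P ⊗ₖ Q) * G₁).trace‖ - ‖((P ⊗ₖ Q) * G₂).trace‖)]
  have h6 : 4 * (x * y) * (u * v) ≤ (u * y + x * v) ^ 2 := by
    nlinarith [sq_nonneg (u * y - x * v)]
  rcases (mul_nonneg hx0 hy0).eq_or_lt with h | h
  · -- the trace vanishes
    have h0 : P = 0 ∨ Q = 0 := by
      rcases mul_eq_zero.mp h.symm with h7 | h7
      · left
        rw [h7] at hx'
        exact hP.trace_eq_zero_iff.mp (by rw [hx']; simp)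
      · right
        rw [h7] at hy'
        exact hQ.trace_eq_zero_iff.mp (by rw [hy']; simp)
    have h8 : u * v = 0 := by
      rcases h0 with h9 | h9
      · rw [hu, h9]
        simp
      · rw [hv, h9]
        simp
    rw [h8]
    linarith
  · have h7 : (x * y) * (2 * (u * v)) ≤ (x * y) * (k₁ + k₂) := by linarith
    exact le_of_mul_le_mul_left h7 h

/-- For separable states the cost is at least twice the covariance. -/
theorem sep_cost {ρ : Matrix (A × B) (A × B) ℂ} (hρ : IsSep ρ) (n : ℕ)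
    (X : Matrix C (Fin n → A) ℂ) (Y : Matrix D (Fin n → B) ℂ)
    {a : Matrix C C ℂ} {b : Matrix D D ℂ} (ha : a.IsHermitian) (hb : b.IsHermitian)
    {G₁ G₂ : Matrix (C × D) (C × D) ℂ} (hG : G₁ + G₂ = a ⊗ₖ 1 + 1 ⊗ₖ b) :
    2 * (filtered n ρ X Y * (a ⊗ₖ b)).trace.re ≤
      (G₁ᴴ * filtered n ρ X Y * G₁).trace.re + (G₂ * filtered n ρ X Y * G₂ᴴ).trace.re := by
  obtain ⟨m, M, N, hM, hN, hMN⟩ := hρ
  have hf : filtered n ρ X Y = ∑ w : Fin n → Fin m,
      (X * piT (fun i => M (w i)) * Xᴴ) ⊗ₖ (Y * piT (fun i => N (w i)) * Yᴴ) := by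
    rw [filtered, hMN, tpow_sum, Matrix.mul_sum, Matrix.sum_mul]
    refine Finset.sum_congr rfl fun w _ => ?_
    rw [conjTranspose_kronecker, ← mul_kronecker_mul, ← mul_kronecker_mul]
  have h1 : ∀ w : Fin n → Fin m, (X * piT (fun i => M (w i)) * Xᴴ).PosSemidef := fun w =>
    (piT_posSemidef fun i => hM (w i)).mul_mul_conjTranspose_same X
  have h2 : ∀ w : Fin n → Fin m, (Y * piT (fun i => N (w i)) * Yᴴ).PosSemidef := fun w =>
    (piT_posSemidef fun i => hN (w i)).mul_mul_conjTranspose_same Y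
  rw [hf, Matrix.sum_mul, Matrix.mul_sum, Matrix.mul_sum, Matrix.sum_mul, Matrix.sum_mul,
    trace_sum, trace_sum, trace_sum, Complex.re_sum, Complex.re_sum, Complex.re_sum,
    Finset.mul_sum, ← Finset.sum_add_distrib]
  exact Finset.sum_le_sum fun w _ => prod_cost (h1 w) (h2 w) ha hb hG

theorem not_sep_of_pos (Ψ : Matrix (A × B) E ℂ) (hΨ : (Ψ * Ψᴴ).trace = 1)
    (h : 0 < distillableKey Ψ) : ¬ IsSep (Ψ * Ψᴴ) := by
  intro hs
  rw [split_iff Ψ hΨ] at h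
  obtain ⟨n, C, D, _, _, _, _, X, Y, a, b, G₁, G₂, hn, ha, hb, hG, hlt⟩ := h
  have h1 := sep_cost hs n X Y ha hb hG
  have hσ : (filtered n (Ψ * Ψᴴ) X Y).PosSemidef := by
    rw [Metro.filtered_eq]
    exact posSemidef_self_mul_conjTranspose _
  have h2 := qc_nonneg hσ G₁
  have h3 := qc_nonneg hσ G₂ᴴ
  rw [qc] at h2 h3
  rw [conjTranspose_conjTranspose] at h3
  linarith

end H625

end Vale.Agent.P372
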