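import Vale.Agent.P372.H625.Crit
import Vale.Agent.P372.H625.Sep

open Matrix Kronecker
open scoped ComplexOrder MatrixOrder

set_option linter.unusedSectionVars false

namespace Vale.Agent.P372

namespace H625

variable {A B C D A' B' K : Type} [Fintype A] [DecidableEq A] [Fintype B] [DecidableEq B]
  [Fintype C] [DecidableEq C] [Fintype D] [DecidableEq D] [Fintype A'] [DecidableEq A']
  [Fintype B'] [DecidableEq B'] [Fintype K] [DecidableEq K]

/-- entries of a filtered state -/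
theorem filtered_apply (n : ℕ) (ρ : Matrix (A × B) (A × B) ℂ) (X : Matrix C (Fin n → A) ℂ)
    (Y : Matrix D (Fin n → B) ℂ) (p q : C × D) :
    filtered n ρ X Y p q = ∑ w : ((Fin n → A) × (Fin n → B)) × ((Fin n → A) × (Fin n → B)),
      X p.1 w.1.1 * Y p.2 w.1.2 * (∏ i, ρ (w.1.1 i, w.1.2 i) (w.2.1 i, w.2.2 i)) *
        star (X q.1 w.2.1 * Y q.2 w.2.2) := by
  have h : filtered n ρ X Y p q = ∑ v : (Fin n → A) × (Fin n → B),
      ∑ u : (Fin n → A) × (Fin n → B), X p.1 u.1 * Y p.2 u.2 *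
        (∏ i, ρ (u.1 i, u.2 i) (v.1 i, v.2 i)) * star (X q.1 v.1 * Y q.2 v.2) := by
    rw [filtered, mul_apply]
    refine Finset.sum_congr rfl fun v _ => ?_
    rw [mul_apply, Finset.sum_mul]
    refine Finset.sum_congr rfl fun u _ => ?_
    rw [kroneckerMap_apply, conjTranspose_apply, kroneckerMap_apply, tpow]
  rw [h]
  exact (Fintype.sum_prod_type_right
    (fun w : ((Fin n → A) × (Fin n → B)) × ((Fin n → A) × (Fin n → B)) =>
      X p.1 w.1.1 * Y p.2 w.1.2 * (∏ i, ρ (w.1.1 i, w.1.2 i) (w.2.1 i, w.2.2 i)) *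
        star (X q.1 w.2.1 * Y q.2 w.2.2))).symm

/-- the equivalence which collects the copies used at the various sites -/
def sigEquiv (A B : Type) {n : ℕ} (m : Fin n → ℕ) :
    (∀ i, ((Fin (m i) → A) × (Fin (m i) → B)) × ((Fin (m i) → A) × (Fin (m i) → B))) ≃
      (((Σ i, Fin (m i)) → A) × ((Σ i, Fin (m i)) → B)) ×
        (((Σ i, Fin (m i)) → A) × ((Σ i, Fin (m i)) → B)) where
  toFun w := ((fun s => (w s.1).1.1 s.2, fun s => (w s.1).1.2 s.2),
    (fun s => (w s.1).2.1 s.2, fun s => (w s.1).2.2 s.2))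
  invFun u i := ((fun j => u.1.1 ⟨i, j⟩, fun j => u.1.2 ⟨i, j⟩),
    (fun j => u.2.1 ⟨i, j⟩, fun j => u.2.2 ⟨i, j⟩))
  left_inv _ := rfl
  right_inv _ := rfl

/-- reindexing the copies -/
def copEquiv (A B : Type) {S T : Type} (e : S ≃ T) :
    ((S → A) × (S → B)) × ((S → A) × (S → B)) ≃ ((T → A) × (T → B)) × ((T → A) × (T → B)) where
  toFun u := ((fun t => u.1.1 (e.symm t), fun t => u.1.2 (e.symm t)),
    (fun t => u.2.1 (e.symm t), fun t => u.2.2 (e.symm t)))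
  invFun u := ((fun s => u.1.1 (e s), fun s => u.1.2 (e s)),
    (fun s => u.2.1 (e s), fun s => u.2.2 (e s)))
  left_inv u := by simp
  right_inv u := by simp

/-- A tensor product of filtered powers of `ρ` is a filtered power of `ρ`. -/
theorem prod_filtered {n : ℕ} (ρ : Matrix (A × B) (A × B) ℂ) (m : Fin n → ℕ)
    (X : ∀ i, Matrix A' (Fin (m i) → A) ℂ) (Y : ∀ i, Matrix B' (Fin (m i) → B) ℂ) :
    ∃ (N : ℕ) (X' : Matrix (Fin n → A') (Fin N → A) ℂ) (Y' : Matrix (Fin n → B') (Fin N → B) ℂ),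
      ∀ p q, ∏ i, filtered (m i) ρ (X i) (Y i) (p.1 i, p.2 i) (q.1 i, q.2 i) =
        filtered N ρ X' Y' p q := by
  obtain ⟨e, -⟩ : ∃ e : (Σ i, Fin (m i)) ≃ Fin (Fintype.card (Σ i, Fin (m i))), True :=
    ⟨Fintype.equivFin _, trivial⟩
  refine ⟨Fintype.card (Σ i, Fin (m i)),
    of fun p u => ∏ i, X i (p i) fun j => u (e ⟨i, j⟩),
    of fun p u => ∏ i, Y i (p i) fun j => u (e ⟨i, j⟩), fun p q => ?_⟩
  rw [filtered_apply]
  simp only [filtered_apply]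
  rw [Finset.prod_univ_sum, Fintype.piFinset_univ]
  rw [← (copEquiv A B e).sum_comp, ← (sigEquiv A B m).sum_comp]
  refine Finset.sum_congr rfl fun w _ => ?_
  obtain ⟨u, hu⟩ : ∃ u, u = (copEquiv A B e) ((sigEquiv A B m) w) := ⟨_, rfl⟩
  rw [← hu]
  have h1 : ∀ i j, u.1.1 (e ⟨i, j⟩) = (w i).1.1 j := by
    intro i j
    rw [hu]
    exact congrArg (fun s : Σ i, Fin (m i) => (w s.1).1.1 s.2) (e.symm_apply_apply ⟨i, j⟩)
  have h2 : ∀ i j, u.1.2 (e ⟨i, j⟩) = (w i).1.2 j := by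
    intro i j
    rw [hu]
    exact congrArg (fun s : Σ i, Fin (m i) => (w s.1).1.2 s.2) (e.symm_apply_apply ⟨i, j⟩)
  have h3 : ∀ i j, u.2.1 (e ⟨i, j⟩) = (w i).2.1 j := by
    intro i j
    rw [hu]
    exact congrArg (fun s : Σ i, Fin (m i) => (w s.1).2.1 s.2) (e.symm_apply_apply ⟨i, j⟩)
  have h4 : ∀ i j, u.2.2 (e ⟨i, j⟩) = (w i).2.2 j := by
    intro i j
    rw [hu]
    exact congrArg (fun s : Σ i, Fin (m i) => (w s.1).2.2 s.2) (e.symm_apply_apply ⟨i, j⟩)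
  have h5 : ∏ t, ρ (u.1.1 t, u.1.2 t) (u.2.1 t, u.2.2 t) =
      ∏ i, ∏ j, ρ ((w i).1.1 j, (w i).1.2 j) ((w i).2.1 j, (w i).2.2 j) := by
    rw [← e.prod_comp, Fintype.prod_sigma]
    simp only [h1, h2, h3, h4]
  rw [h5]
  simp only [of_apply, h1, h2, h3, h4]
  rw [star_mul', star_prod, star_prod, ← Finset.prod_mul_distrib, ← Finset.prod_mul_distrib,
    ← Finset.prod_mul_distrib, ← Finset.prod_mul_distrib]
  refine Finset.prod_congr rfl fun i _ => ?_
  rw [star_mul']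

theorem tpow_sum' (n : ℕ) (τ : K → Matrix (A × B) (A × B) ℂ) (p q : (Fin n → A) × (Fin n → B)) :
    tpow n (∑ k, τ k) p q = ∑ w : Fin n → K, ∏ i, τ (w i) (p.1 i, p.2 i) (q.1 i, q.2 i) := by
  rw [tpow]
  simp only [Matrix.sum_apply]
  rw [Finset.prod_univ_sum, Fintype.piFinset_univ]

theorem filtered_comp (n N : ℕ) (ρ : Matrix (A × B) (A × B) ℂ) (X : Matrix C (Fin n → A') ℂ)
    (Y : Matrix D (Fin n → B') ℂ) (X' : Matrix (Fin n → A') (Fin N → A) ℂ)
    (Y' : Matrix (Fin n → B') (Fin N → B) ℂ) :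
    (X ⊗ₖ Y) * filtered N ρ X' Y' * (X ⊗ₖ Y)ᴴ = filtered N ρ (X * X') (Y * Y') := by
  rw [filtered, filtered, mul_kronecker_mul, conjTranspose_mul]
  simp only [Matrix.mul_assoc]

theorem filtered_psd {ρ : Matrix (A × B) (A × B) ℂ} (hρ : ρ.PosSemidef) (n : ℕ)
    (X : Matrix C (Fin n → A) ℂ) (Y : Matrix D (Fin n → B) ℂ) : (filtered n ρ X Y).PosSemidef := by
  obtain ⟨R, hR⟩ := exists_eq_conjTranspose_mul_self hρ
  have hR' : ρ = Rᴴ * Rᴴᴴ := by rw [conjTranspose_conjTranspose, ← hR]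
  rw [hR', Metro.filtered_eq]
  exact posSemidef_self_mul_conjTranspose _

/-- the difference of the two sides of the splitting criterion -/
noncomputable def gap (a : Matrix C C ℂ) (b : Matrix D D ℂ) (G₁ G₂ σ : Matrix (C × D) (C × D) ℂ) :
    ℝ :=
  (G₁ᴴ * σ * G₁).trace.re + (G₂ * σ * G₂ᴴ).trace.re - (σ * (a ⊗ₖ b)).trace.re

theorem gap_sum {L : Type} (s : Finset L) (a : Matrix C C ℂ) (b : Matrix D D ℂ)
    (G₁ G₂ : Matrix (C × D) (C × D) ℂ) (σ : L → Matrix (C × D) (C × D) ℂ) :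
    gap a b G₁ G₂ (∑ x ∈ s, σ x) = ∑ x ∈ s, gap a b G₁ G₂ (σ x) := by
  simp only [gap]
  rw [Matrix.mul_sum, Matrix.sum_mul, Matrix.mul_sum, Matrix.sum_mul, Matrix.sum_mul, trace_sum,
    trace_sum, trace_sum, Complex.re_sum, Complex.re_sum, Complex.re_sum,
    Finset.sum_sub_distrib, Finset.sum_add_distrib]

theorem tpow_zero' (ρ : Matrix (A × B) (A × B) ℂ) : tpow 0 ρ = 1 := by
  ext p q
  have : p = q := Subsingleton.elim _ _
  rw [tpow, this, one_apply_eq]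
  simp

/-- no gap for zero copies -/
theorem gap_zero (ρ : Matrix (A × B) (A × B) ℂ) (X : Matrix C (Fin 0 → A) ℂ)
    (Y : Matrix D (Fin 0 → B) ℂ) {a : Matrix C C ℂ} {b : Matrix D D ℂ} (ha : a.IsHermitian)
    (hb : b.IsHermitian) {G₁ G₂ : Matrix (C × D) (C × D) ℂ} (hG : G₁ + G₂ = a ⊗ₖ 1 + 1 ⊗ₖ b) :
    0 ≤ gap a b G₁ G₂ (filtered 0 ρ X Y) := by
  have h0 : filtered 0 ρ X Y = (X * Xᴴ) ⊗ₖ (Y * Yᴴ) := by
    rw [filtered, tpow_zero', Matrix.mul_one, conjTranspose_kronecker, mul_kronecker_mul]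
  have h1 := prod_cost (posSemidef_self_mul_conjTranspose X) (posSemidef_self_mul_conjTranspose Y)
    ha hb hG
  rw [← h0] at h1
  have hp : (filtered 0 ρ X Y).PosSemidef := by
    rw [h0]
    exact (posSemidef_self_mul_conjTranspose X).kronecker (posSemidef_self_mul_conjTranspose Y)
  have h2 := qc_nonneg hp G₁
  have h3 := qc_nonneg hp G₂ᴴ
  rw [qc] at h2 h3
  rw [conjTranspose_conjTranspose] at h3
  rw [gap]
  linarith

/-- **Positivity of the rate is monotone under separable operations on several copies.** -/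
theorem keyPos_sepOp {ρ : Matrix (A × B) (A × B) ℂ} (hρ : ρ.PosSemidef) (h1 : ρ.trace = 1)
    {ρ' : Matrix (A' × B') (A' × B') ℂ} (h1' : ρ'.trace = 1) (m : K → ℕ)
    (X : ∀ k, Matrix A' (Fin (m k) → A) ℂ) (Y : ∀ k, Matrix B' (Fin (m k) → B) ℂ)
    (hsum : ρ' = ∑ k, filtered (m k) ρ (X k) (Y k)) (h : KeyPos ρ') : KeyPos ρ := by
  have hρ' : ρ'.PosSemidef := by
    rw [hsum]
    exact posSemidef_sum _ fun k _ => filtered_psd hρ _ _ _
  obtain ⟨R, hR⟩ := exists_eq_conjTranspose_mul_self hρ'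
  have hR' : Rᴴ * Rᴴᴴ = ρ' := by rw [conjTranspose_conjTranspose, ← hR]
  have h2 := h _ Rᴴ hR'
  rw [split_iff Rᴴ (by rw [hR', h1']), hR'] at h2
  obtain ⟨n, C, D, _, _, _, _, X₀, Y₀, a, b, G₁, G₂, hn, ha, hb, hG, hlt⟩ := h2
  have key : ∀ w : Fin n → K, ∃ (N : ℕ) (X' : Matrix (Fin n → A') (Fin N → A) ℂ)
      (Y' : Matrix (Fin n → B') (Fin N → B) ℂ),
      ∀ p q, ∏ i, filtered (m (w i)) ρ (X (w i)) (Y (w i)) (p.1 i, p.2 i) (q.1 i, q.2 i) =
        filtered N ρ X' Y' p q := fun w =>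
    prod_filtered ρ (fun i => m (w i)) (fun i => X (w i)) (fun i => Y (w i))
  choose N X' Y' hN using key
  have hf : filtered n ρ' X₀ Y₀ = ∑ w, filtered (N w) ρ (X₀ * X' w) (Y₀ * Y' w) := by
    have ht : tpow n ρ' = ∑ w, filtered (N w) ρ (X' w) (Y' w) := by
      ext p q
      rw [hsum, tpow_sum', Matrix.sum_apply]
      exact Finset.sum_congr rfl fun w _ => hN w p q
    rw [filtered, ht, Matrix.mul_sum, Matrix.sum_mul]
    exact Finset.sum_congr rfl fun w _ => filtered_comp _ _ _ _ _ _ _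
  have hneg : gap a b G₁ G₂ (filtered n ρ' X₀ Y₀) < 0 := by
    rw [gap]
    linarith
  rw [hf, gap_sum] at hneg
  obtain ⟨w, -, hw⟩ := Finset.exists_lt_of_sum_lt (s := Finset.univ)
    (g := fun _ : Fin n → K => (0 : ℝ)) (by simpa using hneg)
  intro E _ _ Ψ hΨ
  rw [split_iff Ψ (by rw [hΨ, h1]), hΨ]
  have hN0 : N w ≠ 0 := by
    intro h0
    have : ∀ (M : ℕ) (P : Matrix C (Fin M → A) ℂ) (Q : Matrix D (Fin M → B) ℂ), M = 0 →
        0 ≤ gap a b G₁ G₂ (filtered M ρ P Q) := by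
      intro M P Q hM
      subst hM
      exact gap_zero ρ P Q ha hb hG
    have h3 := this (N w) (X₀ * X' w) (Y₀ * Y' w) h0
    linarith
  refine ⟨N w, C, D, inferInstance, inferInstance, inferInstance, inferInstance, X₀ * X' w,
    Y₀ * Y' w, a, b, G₁, G₂, Nat.one_le_iff_ne_zero.mpr hN0, ha, hb, hG, ?_⟩
  rw [gap] at hw
  linarith

end H625

end Vale.Agent.P372
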