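import Vale.Agent.P372.H625.Boundary

open Matrix Kronecker Filter Topology
open scoped ComplexOrder MatrixOrder

set_option linter.unusedSectionVars false

namespace Vale.Agent.P372

namespace H625

variable {A B : Type} [Fintype A] [DecidableEq A] [Fintype B] [DecidableEq B]

/-- **If `σ` is a limit of states with key, then so does every state have key which lies behind `σ`
as seen from some interior point of the separable states.** -/
theorem keyPos_shadow {ω σ : Matrix (A × B) (A × B) ℂ} (hω : ω.PosSemidef) (h1 : ω.trace = 1)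
    (hσ : σ ∈ closure {ρ | ρ.PosSemidef ∧ ρ.trace = 1 ∧ KeyPos ρ}) {η δ : ℝ} (hη : 0 < η)
    (hδ : 0 < δ) (H : ∀ τ : Matrix (A × B) (A × B) ℂ, τ.IsHermitian → τ.trace = 1 →
      (∀ p q, ‖τ p q - (((1 + η : ℝ) : ℂ) • σ - (η : ℂ) • ω) p q‖ < δ) → IsSep τ) :
    KeyPos ω := by
  have hη1 : 0 < 1 + η := by linarith
  obtain ⟨ρ, hd, hρ, h1', hk⟩ := mem_closure_iff_nhds.mp hσ _ (near_nhds σ (div_pos hδ hη1))
  obtain ⟨τ, hτ⟩ : ∃ τ : Matrix (A × B) (A × B) ℂ, τ = ((1 + η : ℝ) : ℂ) • ρ - (η : ℂ) • ω :=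
    ⟨_, rfl⟩
  have hsep : IsSep τ := by
    refine H τ ?_ ?_ fun p q => ?_
    · rw [hτ, IsHermitian, conjTranspose_sub, conjTranspose_smul, conjTranspose_smul,
        RCLike.star_def, Complex.conj_ofReal, Complex.conj_ofReal, hρ.1.eq,
        hω.1.eq]
    · rw [hτ, trace_sub, trace_smul, trace_smul, h1, h1']
      push_cast
      simp
    · have e : τ p q - (((1 + η : ℝ) : ℂ) • σ - (η : ℂ) • ω) p q =
          ((1 + η : ℝ) : ℂ) * (ρ p q - σ p q) := by
        rw [hτ]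
        simp only [Matrix.sub_apply, Matrix.smul_apply, smul_eq_mul]
        ring
      rw [e, norm_mul, Complex.norm_real, Real.norm_of_nonneg hη1.le]
      have h2 : ‖ρ p q - σ p q‖ < δ / (1 + η) := hd p q
      rwa [lt_div_iff₀ hη1, mul_comm] at h2
  have hη0 : ((1 + η : ℝ) : ℂ) ≠ 0 := by exact_mod_cast hη1.ne'
  have hρe : ρ = ((η / (1 + η) : ℝ) : ℂ) • ω + (((1 + η)⁻¹ : ℝ) : ℂ) • τ := by
    rw [hτ, smul_sub, smul_smul, smul_smul]
    have e1 : (((1 + η)⁻¹ : ℝ) : ℂ) * ((1 + η : ℝ) : ℂ) = 1 := by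
      rw [← Complex.ofReal_mul, inv_mul_cancel₀ hη1.ne', Complex.ofReal_one]
    have e2 : (((1 + η)⁻¹ : ℝ) : ℂ) * (η : ℂ) = ((η / (1 + η) : ℝ) : ℂ) := by
      rw [← Complex.ofReal_mul, inv_mul_eq_div]
    rw [e1, e2, one_smul]
    abel
  refine keyPos_mix (s := η / (1 + η)) hω h1 (by positivity)
    (sep_smul hsep (inv_pos.mpr hη1).le) ?_ ?_
  · rw [← hρe, h1']
  · rw [← hρe]
    exact hk

end H625

end Vale.Agent.P372
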