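import Vale.Agent.P372.TestDefs

open Matrix Kronecker
open scoped ComplexOrder

namespace Vale.Agent.P372

namespace H625

/-- `W` is Hermitian, nonnegative on the separable operators, and vanishes at `σ`. -/
def Supports {A B : Type} [Fintype A] [Fintype B] (W σ : Matrix (A × B) (A × B) ℂ) : Prop :=
  W.IsHermitian ∧ (∀ τ : Matrix (A × B) (A × B) ℂ, IsSep τ → 0 ≤ (W * τ).trace.re) ∧
    (W * σ).trace.re = 0

/-- `W` is the only witness at `σ`, up to nonnegative factors. -/
def OnlyWitness {A B : Type} [Fintype A] [Fintype B] (W σ : Matrix (A × B) (A × B) ℂ) : Prop :=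
  W ≠ 0 ∧ Supports W σ ∧ ∀ W' : Matrix (A × B) (A × B) ℂ, Supports W' σ →
    ∃ c : ℝ, 0 ≤ c ∧ W' = (c : ℂ) • W

end H625

end Vale.Agent.P372
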