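import Vale.Agent.P372.H625.Touch
import Vale.Agent.P372.H625.WitDefs

open Matrix Kronecker Filter Topology
open scoped ComplexOrder MatrixOrder

set_option linter.unusedSectionVars false

namespace Vale.Agent.P372

namespace H625

variable {A B : Type} [Fintype A] [DecidableEq A] [Fintype B] [DecidableEq B]

theorem trace_herm {X : Matrix (A × B) (A × B) ℂ} (hX : X.IsHermitian) :
    X.trace = (X.trace.re : ℂ) := by
  apply Complex.ext
  · rw [Complex.ofReal_re]
  · have h : star X.trace = X.trace := by rw [← trace_conjTranspose, hX.eq]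
    have h2 := congrArg Complex.im h
    rw [RCLike.star_def, Complex.conj_im] at h2
    rw [Complex.ofReal_im]
    linarith

/-- An operator which is nonnegative on the ball and vanishes at the touching point vanishes in the
tangent directions. -/
theorem tangent {W' c v₀ v : Matrix (A × B) (A × B) ℂ}
    (hc : c.IsHermitian) (hc1 : c.trace = 1) (hv₀ : v₀.IsHermitian) (hv₀t : v₀.trace = 0)
    (hv : v.IsHermitian) (hvt : v.trace = 0) (hr : 0 < ipr v₀ v₀) (hvv : ipr v₀ v = 0)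
    (hpos : ∀ τ : Matrix (A × B) (A × B) ℂ, τ.IsHermitian → τ.trace = 1 →
      ipr (τ - c) (τ - c) < ipr v₀ v₀ → 0 ≤ ipr W' τ)
    (h0 : ipr W' c + ipr W' v₀ = 0) : 0 ≤ ipr W' v := by
  by_contra hneg
  rw [not_le] at hneg
  obtain ⟨R, hR⟩ : ∃ R, R = ipr v₀ v₀ := ⟨_, rfl⟩
  obtain ⟨Q, hQ⟩ : ∃ Q, Q = ipr v v := ⟨_, rfl⟩
  obtain ⟨K, hK⟩ : ∃ K : ℝ, K = Q / R + 1 := ⟨_, rfl⟩
  have hR0 : 0 < R := hR ▸ hr
  have hQ0 : 0 ≤ Q := hQ ▸ ipr_nonneg v
  have hK1 : 1 ≤ K := by
    rw [hK]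
    have : 0 ≤ Q / R := by positivity
    linarith
  have hKR : K * R = Q + R := by
    rw [hK]
    field_simp
  have hc0 : 0 ≤ ipr W' c := hpos c hc hc1 (by
    rw [sub_self, ← hR, ipr, Matrix.mul_zero, trace_zero, Complex.zero_re]
    exact hR0)
  obtain ⟨g, hg⟩ : ∃ g, g = ipr W' c := ⟨_, rfl⟩
  obtain ⟨m, hm⟩ : ∃ m, m = - ipr W' v := ⟨_, rfl⟩
  have hm0 : 0 < m := by linarith
  have hg0 : 0 ≤ g := hg ▸ hc0
  obtain ⟨ε, hε⟩ : ∃ ε : ℝ, ε = min (1 / K) (m / (K * g + 1)) := ⟨_, rfl⟩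
  have hKg : 0 < K * g + 1 := by positivity
  have hε0 : 0 < ε := by
    rw [hε]
    exact lt_min (by positivity) (div_pos hm0 hKg)
  have hε1 : K * ε ≤ 1 := by
    have : ε ≤ 1 / K := hε ▸ min_le_left _ _
    rw [le_div_iff₀ (by linarith)] at this
    linarith
  have hεm : ε * (K * g + 1) ≤ m := by
    have : ε ≤ m / (K * g + 1) := hε ▸ min_le_right _ _
    rwa [le_div_iff₀ hKg] at this
  have hε2 : ε ≤ 1 := by
    have : ε * 1 ≤ ε * K := mul_le_mul_of_nonneg_left hK1 hε0.le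
    linarith
  obtain ⟨s, hs⟩ : ∃ s : ℝ, s = 1 - K * ε ^ 2 := ⟨_, rfl⟩
  obtain ⟨y, hy⟩ : ∃ y : Matrix (A × B) (A × B) ℂ,
      y = c + ((s : ℂ) • v₀ + (ε : ℂ) • v) := ⟨_, rfl⟩
  have hyc : ipr (y - c) (y - c) = s ^ 2 * R + ε ^ 2 * Q := by
    have e1 : y - c = (s : ℂ) • v₀ + (ε : ℂ) • v := by
      rw [hy]
      abel
    have e2 : ipr ((s : ℂ) • v₀) ((s : ℂ) • v₀) = s ^ 2 * R := by
      rw [ipr_smul, ipr_comm, ipr_smul, hR]
      ring
    have e3 : ipr ((s : ℂ) • v₀) v = 0 := by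
      rw [ipr_comm, ipr_smul, ipr_comm, hvv, mul_zero]
    rw [e1, ipr_expand, e2, e3, ← hQ]
    ring
  have hlt : ipr (y - c) (y - c) < ipr v₀ v₀ := by
    rw [hyc, ← hR, hs]
    have h1 : (1 - K * ε ^ 2) ^ 2 * R + ε ^ 2 * Q - R =
        ε ^ 2 * (- (2 * (K * R)) + K * ε ^ 2 * (K * R) + Q) := by ring
    have h2 : K * ε ^ 2 ≤ 1 := by
      calc K * ε ^ 2 = (K * ε) * ε := by ring
        _ ≤ 1 * 1 := mul_le_mul hε1 hε2 hε0.le zero_le_one
        _ = 1 := one_mul 1
    have h3 : K * ε ^ 2 * (K * R) ≤ K * R := by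
      have : 0 ≤ K * R := by rw [hKR]; positivity
      calc K * ε ^ 2 * (K * R) ≤ 1 * (K * R) := mul_le_mul_of_nonneg_right h2 this
        _ = K * R := one_mul _
    have h4 : - (2 * (K * R)) + K * ε ^ 2 * (K * R) + Q < 0 := by linarith
    have h5 : ε ^ 2 * (- (2 * (K * R)) + K * ε ^ 2 * (K * R) + Q) < 0 :=
      mul_neg_of_pos_of_neg (by positivity) h4
    linarith
  have hyH : y.IsHermitian := by
    rw [hy, IsHermitian, conjTranspose_add, conjTranspose_add, conjTranspose_smul,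
      conjTranspose_smul, hc.eq, hv₀.eq, hv.eq, RCLike.star_def, Complex.conj_ofReal,
      Complex.conj_ofReal]
  have hyt : y.trace = 1 := by
    rw [hy, trace_add, trace_add, trace_smul, trace_smul, hc1, hv₀t, hvt, smul_zero, smul_zero,
      add_zero, add_zero]
  have hfin := hpos y hyH hyt hlt
  rw [hy, ipr_add, ipr_add, ipr_smul, ipr_smul] at hfin
  have h6 : ipr W' v₀ = - g := by linarith
  have h7 : ipr W' v = - m := by linarith
  rw [h6, h7, ← hg, hs] at hfin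
  have h8 : 0 ≤ ε * (K * ε * g - m) := by
    linarith only [hfin, (by ring : ε * (K * ε * g - m) =
      g + ((1 - K * ε ^ 2) * -g + ε * -m))]
  have h9 : 0 ≤ K * ε * g - m := nonneg_of_mul_nonneg_right h8 hε0
  have h10 : ε * (K * g + 1) = K * ε * g + ε := by ring
  linarith

/-- **A boundary point at which a ball inside the separable states touches has only one witness.** -/
theorem touch_only {c p : Matrix (A × B) (A × B) ℂ} (hc : c.IsHermitian) (hc1 : c.trace = 1)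
    (hp : p ∈ closure (NS A B)) (hr : 0 < ipr (p - c) (p - c))
    (hball : ∀ τ : Matrix (A × B) (A × B) ℂ, τ.IsHermitian → τ.trace = 1 →
      ipr (τ - c) (τ - c) < ipr (p - c) (p - c) → IsSep τ) :
    ∃ W : Matrix (A × B) (A × B) ℂ, OnlyWitness W p := by
  obtain ⟨hpH, hpt⟩ := closure_ns hp
  obtain ⟨v₀, hv₀⟩ : ∃ v₀ : Matrix (A × B) (A × B) ℂ, v₀ = p - c := ⟨_, rfl⟩
  rw [← hv₀] at hr hball
  have hv₀H : v₀.IsHermitian := by
    rw [hv₀]
    exact hpH.sub hc
  have hv₀t : v₀.trace = 0 := by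
    rw [hv₀, trace_sub, hpt, hc1, sub_self]
  obtain ⟨a, ha⟩ : ∃ a : ℝ, a = ipr v₀ p := ⟨_, rfl⟩
  obtain ⟨W, hW⟩ : ∃ W : Matrix (A × B) (A × B) ℂ, W = (a : ℂ) • 1 - v₀ := ⟨_, rfl⟩
  have hWH : W.IsHermitian := by
    rw [hW, IsHermitian, conjTranspose_sub, conjTranspose_smul, conjTranspose_one, hv₀H.eq,
      RCLike.star_def, Complex.conj_ofReal]
  have hWX : ∀ X : Matrix (A × B) (A × B) ℂ, (W * X).trace.re = a * X.trace.re - ipr v₀ X := by
    intro X
    rw [hW, Matrix.sub_mul, Matrix.smul_mul, Matrix.one_mul, trace_sub, trace_smul, smul_eq_mul,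
      Complex.sub_re, Complex.re_ofReal_mul, ipr_herm hv₀H]
  have hcs : IsSep c := hball c hc hc1 (by
    rw [sub_self, ipr, Matrix.mul_zero, trace_zero, Complex.zero_re]
    exact hr)
  have hv₀c : ipr v₀ p = ipr v₀ v₀ + ipr v₀ c := by
    rw [← ipr_add]
    congr 1
    rw [hv₀]
    abel
  -- nonnegative on the separable states
  have hW1 : ∀ τ : Matrix (A × B) (A × B) ℂ, IsSep τ → τ.trace = 1 → 0 ≤ (W * τ).trace.re := by
    intro τ hτ hτ1
    rw [hWX, hτ1, Complex.one_re, mul_one]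
    by_contra hneg
    rw [not_le] at hneg
    have hτH := (sep_psd hτ).1
    obtain ⟨u, hu⟩ : ∃ u : Matrix (A × B) (A × B) ℂ, u = τ - p := ⟨_, rfl⟩
    have hb : 0 < ipr v₀ u := by
      rw [hu, ipr_sub, ← ha]
      linarith
    obtain ⟨b, hb'⟩ : ∃ b, b = ipr v₀ u := ⟨_, rfl⟩
    rw [← hb'] at hb
    obtain ⟨Q, hQ⟩ : ∃ Q, Q = ipr u u := ⟨_, rfl⟩
    have hQ0 : 0 ≤ Q := hQ ▸ ipr_nonneg u
    obtain ⟨s, hs⟩ : ∃ s : ℝ, s = b / (Q + 1) := ⟨_, rfl⟩
    have hs0 : 0 < s := by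
      rw [hs]
      positivity
    have hsQ : s * Q < b := by
      have : s * (Q + 1) = b := by
        rw [hs]
        field_simp
      linarith
    have hcont : Continuous fun y : Matrix (A × B) (A × B) ℂ =>
        ipr ((((1 + s : ℝ) : ℂ) • y - (s : ℂ) • τ) - c)
          ((((1 + s : ℝ) : ℂ) • y - (s : ℂ) • τ) - c) := by
      have hsm : Continuous fun y : Matrix (A × B) (A × B) ℂ =>
          ((1 + s : ℝ) : ℂ) • y - (s : ℂ) • τ :=
        (continuous_const_smul _).sub continuous_const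
      exact (continuous_ipr c).comp hsm
    have hval : ipr ((((1 + s : ℝ) : ℂ) • p - (s : ℂ) • τ) - c)
        ((((1 + s : ℝ) : ℂ) • p - (s : ℂ) • τ) - c) < ipr v₀ v₀ := by
      have e1 : (((1 + s : ℝ) : ℂ) • p - (s : ℂ) • τ) - c = v₀ + ((-s : ℝ) : ℂ) • u := by
        rw [hv₀, hu]
        push_cast
        rw [add_smul, one_smul, smul_sub, neg_smul, neg_smul]
        abel
      rw [e1, ipr_expand, ← hb', ← hQ]
      have h1 : s * (s * Q) < s * b := mul_lt_mul_of_pos_left hsQ hs0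
      have h2 : 0 < s * b := mul_pos hs0 hb
      linarith only [h1, h2, (by ring : 2 * -s * b + (-s) ^ 2 * Q = - (2 * (s * b)) + s * (s * Q))]
    have hev := hcont.continuousAt.eventually_lt_const hval
    obtain ⟨y, hy1, hyH, hyt, hys⟩ := mem_closure_iff_nhds.mp hp _ hev
    apply hys
    have hz : IsSep (((1 + s : ℝ) : ℂ) • y - (s : ℂ) • τ) := by
      refine hball _ ?_ ?_ hy1
      · rw [IsHermitian, conjTranspose_sub, conjTranspose_smul, conjTranspose_smul, hyH.eq,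
          hτH.eq, RCLike.star_def, Complex.conj_ofReal, Complex.conj_ofReal]
      · rw [trace_sub, trace_smul, trace_smul, hyt, hτ1, smul_eq_mul, smul_eq_mul, mul_one,
          mul_one]
        push_cast
        ring
    have hs1 : 0 < 1 + s := by linarith
    have e2 : y = (((1 + s)⁻¹ : ℝ) : ℂ) • ((((1 + s : ℝ) : ℂ) • y - (s : ℂ) • τ) +
        (s : ℂ) • τ) := by
      rw [sub_add_cancel, smul_smul, ← Complex.ofReal_mul, inv_mul_cancel₀ hs1.ne',
        Complex.ofReal_one, one_smul]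
    rw [e2]
    exact sep_smul (Lim.IsSep.add hz (sep_smul hτ hs0.le)) (inv_pos.mpr hs1).le
  have hW2 : ∀ τ : Matrix (A × B) (A × B) ℂ, IsSep τ → 0 ≤ (W * τ).trace.re := by
    intro τ hτ
    have hpsd := sep_psd hτ
    have ht := trace_herm hpsd.1
    have ht0 : 0 ≤ τ.trace.re := (Complex.le_def.mp hpsd.trace_nonneg).1
    rcases ht0.eq_or_lt with h | h
    · have h2 : τ.trace = 0 := by rw [ht, ← h, Complex.ofReal_zero]
      have h3 : τ = 0 := hpsd.trace_eq_zero_iff.mp h2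
      rw [h3, Matrix.mul_zero, trace_zero, Complex.zero_re]
    · have h2 := hW1 ((((τ.trace.re)⁻¹ : ℝ) : ℂ) • τ) (sep_smul hτ (inv_pos.mpr h).le) (by
        rw [trace_smul, ht, smul_eq_mul, Complex.ofReal_re, ← Complex.ofReal_mul,
          inv_mul_cancel₀ h.ne', Complex.ofReal_one])
      rw [Matrix.mul_smul, trace_smul, smul_eq_mul, Complex.re_ofReal_mul] at h2
      exact nonneg_of_mul_nonneg_right h2 (inv_pos.mpr h)
  have hWp : (W * p).trace.re = 0 := by
    rw [hWX, hpt, Complex.one_re, mul_one, ha, sub_self]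
  have hWc : (W * c).trace.re = ipr v₀ v₀ := by
    rw [hWX, hc1, Complex.one_re, mul_one, ha, hv₀c]
    ring
  refine ⟨W, ?_, ⟨hWH, hW2, hWp⟩, ?_⟩
  · intro h
    rw [h, Matrix.zero_mul, trace_zero, Complex.zero_re] at hWc
    exact hr.ne hWc
  · rintro W' ⟨hW'H, hW'pos, hW'p⟩
    have hpos' : ∀ τ : Matrix (A × B) (A × B) ℂ, τ.IsHermitian → τ.trace = 1 →
        ipr (τ - c) (τ - c) < ipr v₀ v₀ → 0 ≤ ipr W' τ := by
      intro τ hτ hτ1 hlt
      rw [ipr_herm hW'H]
      exact hW'pos τ (hball τ hτ hτ1 hlt)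
    have hsum : ipr W' c + ipr W' v₀ = 0 := by
      rw [← ipr_add, hv₀, add_sub_cancel, ipr_herm hW'H]
      exact hW'p
    obtain ⟨k, hk⟩ : ∃ k : ℝ, k = ipr W' c / ipr v₀ v₀ := ⟨_, rfl⟩
    have hc0 : 0 ≤ ipr W' c := by
      rw [ipr_herm hW'H]
      exact hW'pos c hcs
    have hk0 : 0 ≤ k := hk ▸ div_nonneg hc0 hr.le
    refine ⟨k, hk0, ?_⟩
    have hf : ∀ X : Matrix (A × B) (A × B) ℂ, X.IsHermitian →
        ipr W' X = k * (W * X).trace.re := by
      intro X hX
      obtain ⟨x, hx⟩ : ∃ x : ℝ, x = X.trace.re := ⟨_, rfl⟩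
      obtain ⟨α, hα⟩ : ∃ α : ℝ, α = ipr v₀ (X - (x : ℂ) • p) / ipr v₀ v₀ := ⟨_, rfl⟩
      obtain ⟨v, hv⟩ : ∃ v : Matrix (A × B) (A × B) ℂ,
          v = X - (x : ℂ) • p - (α : ℂ) • v₀ := ⟨_, rfl⟩
      have hvH : v.IsHermitian := by
        rw [hv, IsHermitian, conjTranspose_sub, conjTranspose_sub, conjTranspose_smul,
          conjTranspose_smul, hX.eq, hpH.eq, hv₀H.eq, RCLike.star_def, Complex.conj_ofReal,
          Complex.conj_ofReal]
      have hvt : v.trace = 0 := by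
        rw [hv, trace_sub, trace_sub, trace_smul, trace_smul, hpt, hv₀t, trace_herm hX, ← hx,
          smul_eq_mul, mul_one, sub_self, smul_zero, sub_zero]
      have hvv : ipr v₀ v = 0 := by
        rw [hv, ipr_sub, ipr_smul, hα, div_mul_cancel₀ _ hr.ne', sub_self]
      have h1 := tangent hc hc1 hv₀H hv₀t hvH hvt hr hvv hpos' hsum
      have h2 := tangent (v := -v) hc hc1 hv₀H hv₀t hvH.neg (by rw [trace_neg, hvt, neg_zero]) hr
        (by rw [ipr, Matrix.mul_neg, trace_neg, Complex.neg_re, ← ipr, hvv, neg_zero]) hpos' hsum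
      have h3 : ipr W' (-v) = - ipr W' v := by
        rw [ipr, Matrix.mul_neg, trace_neg, Complex.neg_re, ← ipr]
      have h4 : ipr W' v = 0 := by linarith
      have h5 : X = (x : ℂ) • p + ((α : ℂ) • v₀ + v) := by
        rw [hv]
        abel
      have h6 : ipr W' p = 0 := by
        rw [ipr_herm hW'H]
        exact hW'p
      have h7 : ipr W' X = α * ipr W' v₀ := by
        conv_lhs => rw [h5]
        rw [ipr_add, ipr_add, ipr_smul, ipr_smul, h4, h6]
        ring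
      have h8 : (W * X).trace.re = - (α * ipr v₀ v₀) := by
        rw [hWX, hα, div_mul_cancel₀ _ hr.ne', ipr_sub, ipr_smul, ← hx, ← ha]
        ring
      rw [h7, h8, hk]
      have h9 : ipr W' v₀ = - ipr W' c := by linarith
      rw [h9]
      field_simp
    have hZH : (W' - (k : ℂ) • W).IsHermitian := by
      rw [IsHermitian, conjTranspose_sub, conjTranspose_smul, hW'H.eq, hWH.eq, RCLike.star_def,
        Complex.conj_ofReal]
    have hZ : ipr (W' - (k : ℂ) • W) (W' - (k : ℂ) • W) = 0 := by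
      have h1 := hf _ hZH
      rw [← ipr_herm hWH] at h1
      rw [ipr_sub, ipr_smul, ipr_comm _ W', ipr_comm _ W, h1]
      ring
    exact sub_eq_zero.mp (eq_zero_of_ipr hZ)

end H625

end Vale.Agent.P372
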