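import Vale.Agent.P372.H625.Smooth

open Matrix Kronecker Filter Topology
open scoped ComplexOrder MatrixOrder

set_option linter.unusedSectionVars false

namespace Vale.Agent.P372

namespace H625

variable {A B : Type} [Fintype A] [DecidableEq A] [Fintype B] [DecidableEq B]

/-- **A zero-key entangled state gives a smooth boundary point of the separable states near which
no state has key.** -/
theorem exists_smooth {ρ : Matrix (A × B) (A × B) ℂ} (hρ : ρ.PosSemidef) (h1 : ρ.trace = 1)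
    (hs : ¬ IsSep ρ) (hk : ¬ KeyPos ρ) :
    ∃ σ W : Matrix (A × B) (A × B) ℂ, IsSep σ ∧ σ.trace = 1 ∧ σ.PosDef ∧
      ((pTrans ρ).PosSemidef → (pTrans σ).PosDef) ∧ OnlyWitness W σ ∧
      ∀ᶠ ρ' in 𝓝 σ, ρ'.PosSemidef → ρ'.trace = 1 → ¬ KeyPos ρ' := by
  obtain ⟨t, ht0, ht1, hsep, hns, -, -, -⟩ := exists_crossing hρ h1 hs hk
  obtain ⟨δ, hδ, H⟩ := mixN_ball hρ h1 hk ht0 ht1
  obtain ⟨σ, hσ⟩ : ∃ σ, σ = mixN ρ t := ⟨_, rfl⟩
  rw [← hσ] at hsep H
  have hσ1 : σ.trace = 1 := hσ ▸ mixN_trace h1 t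
  have hσH : σ.IsHermitian := (sep_psd hsep).1
  obtain ⟨D, hD⟩ : ∃ D : Matrix (A × B) (A × B) ℂ,
      D = σ - (((Fintype.card (A × B) : ℝ)⁻¹ : ℝ) : ℂ) • 1 := ⟨_, rfl⟩
  obtain ⟨M, hM⟩ : ∃ M : ℝ, M = √(ipr D D) + 1 := ⟨_, rfl⟩
  have hM0 : 0 < M := by
    rw [hM]
    positivity
  have hMD : ipr D D ≤ M ^ 2 := by
    have h2 : √(ipr D D) ^ 2 = ipr D D := Real.sq_sqrt (ipr_nonneg D)
    have h3 : 0 ≤ √(ipr D D) := Real.sqrt_nonneg _
    rw [hM]
    nlinarith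
  obtain ⟨β, hβ⟩ : ∃ β : ℝ, β = min 1 (δ / (8 * M)) := ⟨_, rfl⟩
  have hβ0 : 0 < β := by
    rw [hβ]
    exact lt_min one_pos (by positivity)
  have hβ1 : β ≤ 1 := hβ ▸ min_le_left _ _
  have hβM : β * M ≤ δ / 8 := by
    have h2 : β ≤ δ / (8 * M) := hβ ▸ min_le_right _ _
    calc β * M ≤ δ / (8 * M) * M := mul_le_mul_of_nonneg_right h2 hM0.le
      _ = δ / 8 := by field_simp
  obtain ⟨c, hc⟩ : ∃ c, c = mixN σ β := ⟨_, rfl⟩
  have hcσ : σ - c = (β : ℂ) • D := by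
    rw [hc, hD, mixN, smul_sub, smul_smul, ← Complex.ofReal_mul, div_eq_mul_inv]
    push_cast
    rw [sub_smul, one_smul]
    abel
  have hcH : c.IsHermitian := hc ▸ (mixN_psd (sep_psd hsep) hβ0.le hβ1).1
  have hc1 : c.trace = 1 := hc ▸ mixN_trace hσ1 β
  have hq : ipr (σ - c) (σ - c) ≤ (β * M) ^ 2 := by
    rw [hcσ, ipr_smul, ipr_comm, ipr_smul]
    calc β * (β * ipr D D) = β ^ 2 * ipr D D := by ring
      _ ≤ β ^ 2 * M ^ 2 := mul_le_mul_of_nonneg_left hMD (by positivity)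
      _ = (β * M) ^ 2 := by ring
  obtain ⟨δ', hδ', H'⟩ := sep_ball hsep hσ1 hβ0 hβ1
  rw [← hc] at H'
  have hσcl : σ ∈ closure (NS A B) := by
    rw [hσ]
    exact crossing_closure (P := fun ρ' => ρ'.IsHermitian ∧ ρ'.trace = 1 ∧ ¬ IsSep ρ') ht0
      fun s hs0 hst => ⟨(mixN_psd hρ hs0 (hst.le.trans ht1)).1, mixN_trace h1 s, hns s hs0 hst⟩
  obtain ⟨p, hp, hps, hr, hle, hball⟩ := exists_touch hcH hc1 hδ' H' hσcl
  obtain ⟨hpH, hpt⟩ := closure_ns hp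
  obtain ⟨W, hW⟩ := touch_only hcH hc1 hp hr hball
  have hβM0 : 0 ≤ β * M := by positivity
  have hpσ : ∀ i j, ‖p i j - σ i j‖ < δ / 2 := by
    intro i j
    have h2 : ‖(p - c) i j‖ ≤ β * M :=
      abs_le_of_sq_le_sq' ((entry_le (p - c) i j).trans (hle.trans hq)) hβM0 |>.2
    have h3 : ‖(σ - c) i j‖ ≤ β * M :=
      abs_le_of_sq_le_sq' ((entry_le (σ - c) i j).trans hq) hβM0 |>.2
    calc ‖p i j - σ i j‖ = ‖(p - c) i j - (σ - c) i j‖ := by
          rw [Matrix.sub_apply, Matrix.sub_apply]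
          congr 1
          ring
      _ ≤ ‖(p - c) i j‖ + ‖(σ - c) i j‖ := norm_sub_le _ _
      _ < δ / 2 := by linarith
  obtain ⟨h2, -, h3⟩ := H p hpH hpt fun i j => (hpσ i j).trans (by linarith)
  refine ⟨p, W, hps, hpt, h2, h3, hW, ?_⟩
  filter_upwards [near_nhds p (half_pos hδ)] with ρ' hρ' hpsd htr
  refine (H ρ' hpsd.1 htr fun i j => ?_).2.1
  calc ‖ρ' i j - σ i j‖ ≤ ‖ρ' i j - p i j‖ + ‖p i j - σ i j‖ :=
        norm_sub_le_norm_sub_add_norm_sub _ _ _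
    _ < δ := by linarith [hρ' i j, hpσ i j]

/-- Near a state of full rank at which `W` vanishes there are entangled states. -/
theorem mem_closure_ent {σ W : Matrix (A × B) (A × B) ℂ} (hσ : σ.PosDef) (h1 : σ.trace = 1)
    (hW : OnlyWitness W σ) {P : Matrix (A × B) (A × B) ℂ → Prop}
    (hP : ∀ᶠ ρ in 𝓝 σ, ρ.IsHermitian → P ρ) :
    σ ∈ closure {ρ | ρ.PosSemidef ∧ ρ.trace = 1 ∧ P ρ ∧ ¬ IsSep ρ} := by
  obtain ⟨hW0, ⟨hWH, hWpos, hWσ⟩, -⟩ := hW
  have hN := card_pos_of_trace h1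
  have hne : Nonempty (A × B) := Fintype.card_pos_iff.mp (by exact_mod_cast hN)
  have hA : Nonempty A := ⟨hne.some.1⟩
  have hB : Nonempty B := ⟨hne.some.2⟩
  obtain ⟨c, hc0, hc⟩ := exists_lo hσ
  obtain ⟨Z, hZ⟩ : ∃ Z : Matrix (A × B) (A × B) ℂ, Z = (W.trace.re : ℂ) • σ - W := ⟨_, rfl⟩
  have hZH : Z.IsHermitian := by
    rw [hZ, IsHermitian, conjTranspose_sub, conjTranspose_smul, hσ.1.eq, hWH.eq, RCLike.star_def,
      Complex.conj_ofReal]
  have hZt : Z.trace = 0 := by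
    rw [hZ, trace_sub, trace_smul, h1, smul_eq_mul, mul_one, ← trace_herm hWH, sub_self]
  have hWZ : (W * Z).trace.re < 0 := by
    rw [hZ, Matrix.mul_sub, Matrix.mul_smul, trace_sub, trace_smul, smul_eq_mul, Complex.sub_re,
      Complex.re_ofReal_mul, hWσ, mul_zero, zero_sub, neg_lt_zero, ← ipr_herm hWH]
    refine lt_of_le_of_ne (ipr_nonneg W) fun h => hW0 (eq_zero_of_ipr h.symm)
  have hmap : Continuous fun s : ℝ => σ + (s : ℂ) • Z := by
    refine continuous_matrix fun p q => ?_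
    simp only [Matrix.add_apply, Matrix.smul_apply, smul_eq_mul]
    exact continuous_const.add (Complex.continuous_ofReal.mul continuous_const)
  have hz0 : σ + ((0 : ℝ) : ℂ) • Z = σ := by
    rw [Complex.ofReal_zero, zero_smul, add_zero]
  -- positivity for small `s`
  obtain ⟨S, hS⟩ : ∃ S : ℝ, S = ∑ x : (A × B) × (A × B), ‖Z x.1 x.2‖ + 1 := ⟨_, rfl⟩
  have hS0 : 0 < S := by
    rw [hS]
    have : 0 ≤ ∑ x : (A × B) × (A × B), ‖Z x.1 x.2‖ := Finset.sum_nonneg fun _ _ => norm_nonneg _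
    linarith
  have hpsd : ∀ s : ℝ, 0 < s → s < c / (2 * S) → (σ + (s : ℂ) • Z).PosSemidef := by
    intro s hs0 hs1
    have hsS : s * S ≤ c / 2 := by
      calc s * S ≤ c / (2 * S) * S := mul_le_mul_of_nonneg_right hs1.le hS0.le
        _ = c / 2 := by field_simp
    have h2 : IsSep (1 + (((c⁻¹ * s : ℝ) : ℂ) • Z)) := by
      refine near_one_sep ?_ ?_
      · rw [IsHermitian, conjTranspose_smul, hZH.eq, RCLike.star_def, Complex.conj_ofReal]
      · have h3 : ∀ x : (A × B) × (A × B), ‖((((c⁻¹ * s : ℝ) : ℂ) • Z) x.1 x.2)‖ =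
            (c⁻¹ * s) * ‖Z x.1 x.2‖ := by
          intro x
          rw [Matrix.smul_apply, smul_eq_mul, norm_mul, Complex.norm_real, Real.norm_eq_abs,
            abs_of_pos (by positivity)]
        simp only [h3]
        rw [← Finset.mul_sum]
        have h4 : ∑ x : (A × B) × (A × B), ‖Z x.1 x.2‖ ≤ S := by linarith
        calc c⁻¹ * s * ∑ x : (A × B) × (A × B), ‖Z x.1 x.2‖ ≤ c⁻¹ * s * S :=
              mul_le_mul_of_nonneg_left h4 (by positivity)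
          _ = c⁻¹ * (s * S) := by ring
          _ ≤ c⁻¹ * (c / 2) := mul_le_mul_of_nonneg_left hsS (by positivity)
          _ = 1 / 2 := by field_simp
    have e : σ + (s : ℂ) • Z = (σ - (c : ℂ) • 1) + (c : ℂ) • (1 + (((c⁻¹ * s : ℝ) : ℂ) • Z)) := by
      rw [smul_add, smul_smul, ← Complex.ofReal_mul, ← mul_assoc, mul_inv_cancel₀ hc0.ne', one_mul]
      abel
    rw [e]
    exact hc.add ((sep_psd h2).smul (Complex.zero_le_real.mpr hc0.le))
  have hev : ∀ᶠ s : ℝ in 𝓝 0, (σ + (s : ℂ) • Z).IsHermitian → P (σ + (s : ℂ) • Z) := by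
    have h2 : Tendsto (fun s : ℝ => σ + (s : ℂ) • Z) (𝓝 0) (𝓝 (σ + ((0 : ℝ) : ℂ) • Z)) :=
      hmap.tendsto (0 : ℝ)
    rw [hz0] at h2
    exact h2.eventually hP
  have hmem : (0 : ℝ) ∈ closure (Set.Ioo 0 (c / (2 * S)) ∩
      {s : ℝ | (σ + (s : ℂ) • Z).IsHermitian → P (σ + (s : ℂ) • Z)}) := by
    rw [mem_closure_iff_nhds]
    intro U hU
    obtain ⟨r, hr0, hr⟩ := Metric.mem_nhds_iff.mp (Filter.inter_mem hU hev)
    obtain ⟨s, hs⟩ : ∃ s : ℝ, s = min (r / 2) (c / (2 * S) / 2) := ⟨_, rfl⟩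
    have hcS : 0 < c / (2 * S) := by positivity
    have hs0 : 0 < s := by
      rw [hs]
      exact lt_min (by positivity) (by positivity)
    have hs1 : s ≤ r / 2 := hs ▸ min_le_left _ _
    have hs2 : s ≤ c / (2 * S) / 2 := hs ▸ min_le_right _ _
    have hsb : s ∈ Metric.ball (0 : ℝ) r := by
      rw [Metric.mem_ball, dist_zero_right, Real.norm_of_nonneg hs0.le]
      linarith
    obtain ⟨h3, h4⟩ := hr hsb
    exact ⟨s, h3, ⟨hs0, by linarith⟩, h4⟩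
  have hfin := map_mem_closure hmap hmem
    (t := {ρ | ρ.PosSemidef ∧ ρ.trace = 1 ∧ P ρ ∧ ¬ IsSep ρ}) ?_
  · beta_reduce at hfin
    rwa [hz0] at hfin
  · rintro s ⟨⟨hs0, hs1⟩, hs2⟩
    have h3 := hpsd s hs0 hs1
    refine ⟨h3, ?_, hs2 h3.1, fun hsep => ?_⟩
    · rw [trace_add, trace_smul, hZt, smul_zero, add_zero, h1]
    · have h4 := hWpos _ hsep
      rw [Matrix.mul_add, Matrix.mul_smul, trace_add, trace_smul, smul_eq_mul, Complex.add_re,
        Complex.re_ofReal_mul, hWσ, zero_add] at h4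
      exact absurd h4 (not_le.mpr (mul_neg_of_pos_of_neg hs0 hWZ))

end H625

end Vale.Agent.P372
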