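import Vale.Agent.P372.H625.Hb

open Matrix Kronecker Filter Topology
open scoped ComplexOrder MatrixOrder

set_option linter.unusedSectionVars false

namespace Vale.Agent.P372

namespace H625

variable {A B : Type} [Fintype A] [DecidableEq A] [Fintype B] [DecidableEq B]

theorem posDef_eventually [Nonempty (A × B)] {M : Matrix (A × B) (A × B) ℂ} (hM : M.PosDef) :
    ∀ᶠ N in 𝓝 M, N.IsHermitian → N.PosSemidef := by
  obtain ⟨c, hc0, hc⟩ := exists_lo hM
  obtain ⟨K, hK⟩ : ∃ K : ℝ, K = Fintype.card ((A × B) × (A × B)) := ⟨_, rfl⟩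
  have hK0 : 0 < K := by
    rw [hK]
    exact_mod_cast Fintype.card_pos
  filter_upwards [near_nhds M (by positivity : 0 < c / (2 * K))] with N hN hNH
  obtain ⟨H, hH⟩ : ∃ H : Matrix (A × B) (A × B) ℂ, H = ((c⁻¹ : ℝ) : ℂ) • (N - M) := ⟨_, rfl⟩
  have h1 : IsSep (1 + H) := by
    refine near_one_sep ?_ ?_
    · rw [hH, IsHermitian, conjTranspose_smul, conjTranspose_sub, hNH.eq, hM.1.eq,
        RCLike.star_def, Complex.conj_ofReal]
    · calc ∑ x : (A × B) × (A × B), ‖H x.1 x.2‖ ≤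
            ∑ _x : (A × B) × (A × B), c⁻¹ * (c / (2 * K)) := by
            refine Finset.sum_le_sum fun x _ => ?_
            rw [hH, Matrix.smul_apply, smul_eq_mul, norm_mul, Complex.norm_real, Real.norm_eq_abs,
              abs_of_pos (inv_pos.mpr hc0), Matrix.sub_apply]
            exact mul_le_mul_of_nonneg_left (hN _ _).le (inv_pos.mpr hc0).le
        _ = 1 / 2 := by
            rw [Finset.sum_const, Finset.card_univ, nsmul_eq_mul, ← hK]
            field_simp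
  have e : N = (M - (c : ℂ) • 1) + (c : ℂ) • (1 + H) := by
    have h2 : (c : ℂ) • H = N - M := by
      rw [hH, smul_smul, ← Complex.ofReal_mul, mul_inv_cancel₀ hc0.ne', Complex.ofReal_one,
        one_smul]
    rw [smul_add, h2]
    abel
  rw [e]
  exact hc.add ((sep_psd h1).smul (Complex.zero_le_real.mpr hc0.le))

theorem continuous_pTrans : Continuous (pTrans : Matrix (A × B) (A × B) ℂ → _) := by
  refine continuous_matrix fun p q => ?_
  exact continuous_id.matrix_elem _ _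

theorem pTrans_herm {ρ : Matrix (A × B) (A × B) ℂ} (h : ρ.IsHermitian) :
    (pTrans ρ).IsHermitian := by
  ext ⟨a, b⟩ ⟨a', b'⟩
  exact congrFun (congrFun h.eq (a, b')) (a', b)

theorem ppt_eventually [Nonempty (A × B)] {σ : Matrix (A × B) (A × B) ℂ}
    (h : (pTrans σ).PosDef) : ∀ᶠ ρ in 𝓝 σ, ρ.IsHermitian → (pTrans ρ).PosSemidef := by
  have h1 := (continuous_pTrans.tendsto σ).eventually (posDef_eventually h)
  filter_upwards [h1] with ρ hρ hH
  exact hρ (pTrans_herm hH)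

/-- **`Q1` is a question about the smooth boundary points of the separable states.** -/
theorem smooth_iff :
    ((∀ σ W : Matrix (A × B) (A × B) ℂ, IsSep σ → σ.trace = 1 → σ.PosDef → OnlyWitness W σ →
        σ ∈ closure {ρ | ρ.PosSemidef ∧ ρ.trace = 1 ∧ KeyPos ρ}) ↔
      ∀ ρ : Matrix (A × B) (A × B) ℂ, ρ.PosSemidef → ρ.trace = 1 → ¬ IsSep ρ → KeyPos ρ) ∧
    ((∀ σ W : Matrix (A × B) (A × B) ℂ, IsSep σ → σ.trace = 1 → σ.PosDef →
        (pTrans σ).PosDef → OnlyWitness W σ →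
        σ ∈ closure {ρ | ρ.PosSemidef ∧ ρ.trace = 1 ∧ KeyPos ρ}) ↔
      ∀ ρ : Matrix (A × B) (A × B) ℂ, ρ.PosSemidef → (pTrans ρ).PosSemidef → ρ.trace = 1 →
        ¬ IsSep ρ → KeyPos ρ) := by
  refine ⟨⟨fun H ρ hρ h1 hs => ?_, fun H σ W hσ h1 hpd hW => ?_⟩,
    ⟨fun H ρ hρ hp h1 hs => ?_, fun H σ W hσ h1 hpd hpp hW => ?_⟩⟩
  · by_contra hk
    obtain ⟨σ, W, h2, h3, h4, -, h5, h6⟩ := exists_smooth hρ h1 hs hk
    obtain ⟨ρ', h7, h8, h9, h10⟩ := mem_closure_iff_nhds.mp (H σ W h2 h3 h4 h5) _ h6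
    exact h7 h8 h9 h10
  · refine closure_mono ?_ (mem_closure_ent hpd h1 hW (P := fun _ => True)
      (Filter.Eventually.of_forall fun _ _ => trivial))
    rintro ρ ⟨h2, h3, -, h4⟩
    exact ⟨h2, h3, H ρ h2 h3 h4⟩
  · by_contra hk
    obtain ⟨σ, W, h2, h3, h4, h11, h5, h6⟩ := exists_smooth hρ h1 hs hk
    obtain ⟨ρ', h7, h8, h9, h10⟩ := mem_closure_iff_nhds.mp (H σ W h2 h3 h4 (h11 hp) h5) _ h6
    exact h7 h8 h9 h10
  · have hN := card_pos_of_trace h1
    have hne : Nonempty (A × B) := Fintype.card_pos_iff.mp (by exact_mod_cast hN)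
    refine closure_mono ?_ (mem_closure_ent hpd h1 hW (ppt_eventually hpp))
    rintro ρ ⟨h2, h3, h5, h4⟩
    exact ⟨h2, h3, H ρ h2 h5 h3 h4⟩

end H625

end Vale.Agent.P372
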