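import Vale.Agent.P372.H625.Smooth3

open Matrix Kronecker Filter Topology
open scoped ComplexOrder MatrixOrder

set_option linter.unusedSectionVars false

namespace Vale.Agent.P372

namespace H625

variable {A B : Type} [Fintype A] [DecidableEq A] [Fintype B] [DecidableEq B]

theorem sep_filt {τ : Matrix (A × B) (A × B) ℂ} (h : IsSep τ) (X : Matrix A A ℂ)
    (Y : Matrix B B ℂ) : IsSep ((X ⊗ₖ Y) * τ * (X ⊗ₖ Y)ᴴ) := by
  obtain ⟨n, M, N, hM, hN, hMN⟩ := h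
  refine ⟨n, fun k => X * M k * Xᴴ, fun k => Y * N k * Yᴴ,
    fun k => (hM k).mul_mul_conjTranspose_same _, fun k => (hN k).mul_mul_conjTranspose_same _, ?_⟩
  rw [hMN, Matrix.mul_sum, Matrix.sum_mul]
  refine Finset.sum_congr rfl fun k _ => ?_
  rw [conjTranspose_kronecker, ← mul_kronecker_mul, ← mul_kronecker_mul]

theorem trace_filt (W Z τ : Matrix (A × B) (A × B) ℂ) :
    (Zᴴ * W * Z * τ).trace = (W * (Z * τ * Zᴴ)).trace := by
  rw [Matrix.mul_assoc, Matrix.mul_assoc, trace_mul_comm Zᴴ]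
  simp only [Matrix.mul_assoc]

theorem supports_filt {W σ : Matrix (A × B) (A × B) ℂ} {X : Matrix A A ℂ} {Y : Matrix B B ℂ}
    (h : Supports W ((X ⊗ₖ Y) * σ * (X ⊗ₖ Y)ᴴ)) :
    Supports ((X ⊗ₖ Y)ᴴ * W * (X ⊗ₖ Y)) σ := by
  obtain ⟨h1, h2, h3⟩ := h
  refine ⟨?_, fun τ hτ => ?_, ?_⟩
  · rw [IsHermitian, conjTranspose_mul, conjTranspose_mul, conjTranspose_conjTranspose, h1.eq,
      Matrix.mul_assoc]
  · rw [trace_filt]
    exact h2 _ (sep_filt hτ X Y)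
  · rw [trace_filt]
    exact h3

/-- Invertible filters preserve smoothness. -/
theorem only_filt {W σ : Matrix (A × B) (A × B) ℂ} {X : Matrix A A ℂ} {Y : Matrix B B ℂ}
    (hX : IsUnit X) (hY : IsUnit Y) (h : OnlyWitness W σ) :
    OnlyWitness ((X⁻¹ ⊗ₖ Y⁻¹)ᴴ * W * (X⁻¹ ⊗ₖ Y⁻¹)) ((X ⊗ₖ Y) * σ * (X ⊗ₖ Y)ᴴ) := by
  have hX' : X⁻¹ * X = 1 := nonsing_inv_mul _ ((isUnit_iff_isUnit_det _).mp hX)
  have hY' : Y⁻¹ * Y = 1 := nonsing_inv_mul _ ((isUnit_iff_isUnit_det _).mp hY)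
  have hX'' : X * X⁻¹ = 1 := mul_nonsing_inv _ ((isUnit_iff_isUnit_det _).mp hX)
  have hY'' : Y * Y⁻¹ = 1 := mul_nonsing_inv _ ((isUnit_iff_isUnit_det _).mp hY)
  obtain ⟨Z, hZ⟩ : ∃ Z, Z = X ⊗ₖ Y := ⟨_, rfl⟩
  obtain ⟨V, hV⟩ : ∃ V, V = X⁻¹ ⊗ₖ Y⁻¹ := ⟨_, rfl⟩
  have hVZ : V * Z = 1 := by rw [hV, hZ, ← mul_kronecker_mul, hX', hY', one_kronecker_one]
  have hZV : Z * V = 1 := by rw [hV, hZ, ← mul_kronecker_mul, hX'', hY'', one_kronecker_one]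
  have hZV' : Zᴴ * Vᴴ = 1 := by rw [← conjTranspose_mul, hVZ, conjTranspose_one]
  have hVZ' : Vᴴ * Zᴴ = 1 := by rw [← conjTranspose_mul, hZV, conjTranspose_one]
  have hback : V * (Z * σ * Zᴴ) * Vᴴ = σ := by
    calc V * (Z * σ * Zᴴ) * Vᴴ = (V * Z) * σ * (Zᴴ * Vᴴ) := by simp only [Matrix.mul_assoc]
      _ = σ := by rw [hVZ, hZV', Matrix.one_mul, Matrix.mul_one]
  obtain ⟨h0, hs, h2⟩ := h
  rw [← hZ, ← hV]
  refine ⟨fun hc => h0 ?_, ?_, fun W' hW' => ?_⟩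
  · calc W = (Zᴴ * Vᴴ) * W * (V * Z) := by rw [hZV', hVZ, Matrix.one_mul, Matrix.mul_one]
      _ = Zᴴ * (Vᴴ * W * V) * Z := by simp only [Matrix.mul_assoc]
      _ = 0 := by rw [hc, Matrix.mul_zero, Matrix.zero_mul]
  · rw [hV]
    refine supports_filt ?_
    rw [← hV, hback]
    exact hs
  · have h3 : Supports (Zᴴ * W' * Z) σ := by
      rw [hZ]
      refine supports_filt ?_
      rw [← hZ]
      exact hW'
    obtain ⟨c, hc0, hc⟩ := h2 _ h3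
    refine ⟨c, hc0, ?_⟩
    calc W' = (Vᴴ * Zᴴ) * W' * (Z * V) := by rw [hVZ', hZV, Matrix.one_mul, Matrix.mul_one]
      _ = Vᴴ * (Zᴴ * W' * Z) * V := by simp only [Matrix.mul_assoc]
      _ = (c : ℂ) • (Vᴴ * W * V) := by rw [hc, Matrix.mul_smul, Matrix.smul_mul]

/-- **... with maximally mixed marginals.** -/
theorem exists_smooth_mm {ρ : Matrix (A × B) (A × B) ℂ} (hρ : ρ.PosSemidef) (h1 : ρ.trace = 1)
    (hs : ¬ IsSep ρ) (hk : ¬ KeyPos ρ) :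
    ∃ σ W : Matrix (A × B) (A × B) ℂ, IsSep σ ∧ σ.trace = 1 ∧ σ.PosDef ∧ MaxMixed σ ∧
      ((pTrans ρ).PosSemidef → (pTrans σ).PosDef) ∧ OnlyWitness W σ ∧
      ∀ᶠ ρ' in 𝓝 σ, ρ'.PosSemidef → ρ'.trace = 1 → ¬ KeyPos ρ' := by
  obtain ⟨σ, W, h2, h3, h4, h5, h6, h7⟩ := exists_smooth hρ h1 hs hk
  obtain ⟨X, Y, hX, hY, h8, h9, h10⟩ := exists_normal h4 h3
  have hX' : X⁻¹ * X = 1 := nonsing_inv_mul _ ((isUnit_iff_isUnit_det _).mp hX)
  have hY' : Y⁻¹ * Y = 1 := nonsing_inv_mul _ ((isUnit_iff_isUnit_det _).mp hY)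
  have hX'' : X * X⁻¹ = 1 := mul_nonsing_inv _ ((isUnit_iff_isUnit_det _).mp hX)
  have hY'' : Y * Y⁻¹ = 1 := mul_nonsing_inv _ ((isUnit_iff_isUnit_det _).mp hY)
  refine ⟨_, _, sep_filt h2 X Y, h9, h8, h10, fun hp => ?_, only_filt hX hY h6, ?_⟩
  · rw [pTrans_filt]
    have hu : IsUnit (X ⊗ₖ Y.map star) := by
      refine kron_isUnit hX ?_
      have h11 : Y.map star * (Y⁻¹).map star = 1 := by
        ext i j
        have h12 := congrFun (congrFun hY'' i) j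
        rw [mul_apply] at h12 ⊢
        simp only [map_apply]
        have h13 := congrArg star h12
        rw [star_sum] at h13
        simp only [star_mul'] at h13
        rw [h13, one_apply]
        split_ifs <;> simp
      exact IsUnit.of_mul_eq_one _ h11
    exact (IsUnit.posDef_star_right_conjugate_iff hu).mpr (h5 hp)
  · obtain ⟨Z, hZ⟩ : ∃ Z, Z = X ⊗ₖ Y := ⟨_, rfl⟩
    obtain ⟨V, hV⟩ : ∃ V, V = X⁻¹ ⊗ₖ Y⁻¹ := ⟨_, rfl⟩
    have hVZ : V * Z = 1 := by rw [hV, hZ, ← mul_kronecker_mul, hX', hY', one_kronecker_one]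
    have hZV : Z * V = 1 := by rw [hV, hZ, ← mul_kronecker_mul, hX'', hY'', one_kronecker_one]
    have hZV' : Zᴴ * Vᴴ = 1 := by rw [← conjTranspose_mul, hVZ, conjTranspose_one]
    have hVZ' : Vᴴ * Zᴴ = 1 := by rw [← conjTranspose_mul, hZV, conjTranspose_one]
    have hback : V * (Z * σ * Zᴴ) * Vᴴ = σ := by
      calc V * (Z * σ * Zᴴ) * Vᴴ = (V * Z) * σ * (Zᴴ * Vᴴ) := by simp only [Matrix.mul_assoc]
        _ = σ := by rw [hVZ, hZV', Matrix.one_mul, Matrix.mul_one]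
    have hcont : Continuous fun ρ' : Matrix (A × B) (A × B) ℂ => V * ρ' * Vᴴ :=
      (continuous_const.matrix_mul continuous_id).matrix_mul continuous_const
    have hct : Continuous fun ρ' : Matrix (A × B) (A × B) ℂ => (V * ρ' * Vᴴ).trace.re :=
      Complex.continuous_re.comp hcont.matrix_trace
    have hr0 : ∀ᶠ ρ' in 𝓝 (Z * σ * Zᴴ), 0 < (V * ρ' * Vᴴ).trace.re := by
      refine hct.continuousAt.eventually_const_lt ?_
      beta_reduce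
      rw [hback, h3, Complex.one_re]
      exact one_pos
    have htend : Tendsto (fun ρ' : Matrix (A × B) (A × B) ℂ =>
        (((V * ρ' * Vᴴ).trace.re⁻¹ : ℝ) : ℂ) • (V * ρ' * Vᴴ)) (𝓝 (Z * σ * Zᴴ)) (𝓝 σ) := by
      have e1 : Tendsto (fun ρ' : Matrix (A × B) (A × B) ℂ => (V * ρ' * Vᴴ).trace.re⁻¹)
          (𝓝 (Z * σ * Zᴴ)) (𝓝 1) := by
        have h11 := hct.tendsto (Z * σ * Zᴴ)
        beta_reduce at h11
        rw [hback, h3, Complex.one_re] at h11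
        have h12 := h11.inv₀ one_ne_zero
        rwa [inv_one] at h12
      have e2 : Tendsto (fun ρ' : Matrix (A × B) (A × B) ℂ =>
          (((V * ρ' * Vᴴ).trace.re⁻¹ : ℝ) : ℂ)) (𝓝 (Z * σ * Zᴴ)) (𝓝 ((1 : ℝ) : ℂ)) :=
        (Complex.continuous_ofReal.tendsto 1).comp e1
      have e3 := hcont.tendsto (Z * σ * Zᴴ)
      beta_reduce at e3
      rw [hback] at e3
      have e4 := e2.smul e3
      rwa [Complex.ofReal_one, one_smul] at e4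
    rw [← hZ]
    filter_upwards [hr0, htend.eventually h7] with ρ' hr hev hpsd htr hkey
    obtain ⟨r, hrr⟩ : ∃ r, r = (V * ρ' * Vᴴ).trace.re := ⟨_, rfl⟩
    rw [← hrr] at hr hev
    have hVp : (V * ρ' * Vᴴ).PosSemidef := hpsd.mul_mul_conjTranspose_same _
    have hp : (((r⁻¹ : ℝ) : ℂ) • (V * ρ' * Vᴴ)).PosSemidef :=
      hVp.smul (Complex.zero_le_real.mpr (inv_pos.mpr hr).le)
    have ht : (((r⁻¹ : ℝ) : ℂ) • (V * ρ' * Vᴴ)).trace = 1 := by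
      rw [trace_smul, trace_herm hVp.1, ← hrr, smul_eq_mul, ← Complex.ofReal_mul,
        inv_mul_cancel₀ hr.ne', Complex.ofReal_one]
    refine hev hp ht ?_
    have hfil : ρ' = ((((√r : ℝ) : ℂ) • X) ⊗ₖ Y) * (((r⁻¹ : ℝ) : ℂ) • (V * ρ' * Vᴴ)) *
        ((((√r : ℝ) : ℂ) • X) ⊗ₖ Y)ᴴ := by
      rw [smul_kronecker, ← hZ, conjTranspose_smul, RCLike.star_def, Complex.conj_ofReal]
      simp only [Matrix.smul_mul, Matrix.mul_smul, smul_smul]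
      have e5 : ((√r : ℝ) : ℂ) * (((r⁻¹ : ℝ) : ℂ) * ((√r : ℝ) : ℂ)) = 1 := by
        rw [← Complex.ofReal_mul, ← Complex.ofReal_mul, mul_comm (r⁻¹), ← mul_assoc,
          Real.mul_self_sqrt hr.le, mul_inv_cancel₀ hr.ne', Complex.ofReal_one]
      have e6 : Z * (V * ρ' * Vᴴ) * Zᴴ = ρ' := by
        calc Z * (V * ρ' * Vᴴ) * Zᴴ = (Z * V) * ρ' * (Vᴴ * Zᴴ) := by simp only [Matrix.mul_assoc]
          _ = ρ' := by rw [hZV, hVZ', Matrix.one_mul, Matrix.mul_one]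
      rw [e6]
      rw [e5, one_smul]
    refine keyPos_filter hp ht (((√r : ℝ) : ℂ) • X) Y ?_ ?_
    · rw [← hfil, htr]
    · rw [← hfil]
      exact hkey

/-- **`Q1` is a question about the smooth boundary points of the separable states with maximally
mixed marginals.** -/
theorem smooth_mm_iff :
    ((∀ σ W : Matrix (A × B) (A × B) ℂ, IsSep σ → σ.trace = 1 → σ.PosDef → MaxMixed σ →
        OnlyWitness W σ → σ ∈ closure {ρ | ρ.PosSemidef ∧ ρ.trace = 1 ∧ KeyPos ρ}) ↔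
      ∀ ρ : Matrix (A × B) (A × B) ℂ, ρ.PosSemidef → ρ.trace = 1 → ¬ IsSep ρ → KeyPos ρ) ∧
    ((∀ σ W : Matrix (A × B) (A × B) ℂ, IsSep σ → σ.trace = 1 → σ.PosDef →
        (pTrans σ).PosDef → MaxMixed σ → OnlyWitness W σ →
        σ ∈ closure {ρ | ρ.PosSemidef ∧ ρ.trace = 1 ∧ KeyPos ρ}) ↔
      ∀ ρ : Matrix (A × B) (A × B) ℂ, ρ.PosSemidef → (pTrans ρ).PosSemidef → ρ.trace = 1 →
        ¬ IsSep ρ → KeyPos ρ) := by
  refine ⟨⟨fun H ρ hρ h1 hs => ?_, fun H σ W hσ h1 hpd _ hW =>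
      smooth_iff.1.mpr H σ W hσ h1 hpd hW⟩,
    ⟨fun H ρ hρ hp h1 hs => ?_, fun H σ W hσ h1 hpd hpp _ hW =>
      smooth_iff.2.mpr H σ W hσ h1 hpd hpp hW⟩⟩
  · by_contra hk
    obtain ⟨σ, W, h2, h3, h4, hm, -, h5, h6⟩ := exists_smooth_mm hρ h1 hs hk
    obtain ⟨ρ', h7, h8, h9, h10⟩ := mem_closure_iff_nhds.mp (H σ W h2 h3 h4 hm h5) _ h6
    exact h7 h8 h9 h10
  · by_contra hk
    obtain ⟨σ, W, h2, h3, h4, hm, h11, h5, h6⟩ := exists_smooth_mm hρ h1 hs hk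
    obtain ⟨ρ', h7, h8, h9, h10⟩ := mem_closure_iff_nhds.mp (H σ W h2 h3 h4 (h11 hp) hm h5) _ h6
    exact h7 h8 h9 h10

end H625

end Vale.Agent.P372
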