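import Vale.Agent.P372.H625.Main
import Vale.Agent.P372.H625.Defs

open Matrix Kronecker
open scoped ComplexOrder MatrixOrder

set_option linter.unusedSectionVars false

namespace Vale.Agent.P372

namespace H625

variable {A B C D E I F : Type} [Fintype A] [DecidableEq A] [Fintype B] [DecidableEq B]
  [Fintype C] [DecidableEq C] [Fintype D] [DecidableEq D] [Fintype E] [DecidableEq E]
  [Fintype I] [DecidableEq I] [Fintype F] [DecidableEq F]

/-! ### Sufficiency -/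

/-- the pieces of an operator in the eigenbasis -/
noncomputable def piece (W Z : Matrix I I ℂ) (p : I × I) : Matrix I I ℂ :=
  W * Matrix.single p.1 p.2 ((Wᴴ * Z * W) p.1 p.2) * Wᴴ

theorem sum_piece {W : Matrix I I ℂ} (hW : W * Wᴴ = 1) (Z : Matrix I I ℂ) :
    ∑ p, piece W Z p = Z := by
  have h1 : ∑ p : I × I, Matrix.single p.1 p.2 ((Wᴴ * Z * W) p.1 p.2) = Wᴴ * Z * W := by
    rw [Fintype.sum_prod_type]
    exact (matrix_eq_sum_single (Wᴴ * Z * W)).symm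
  simp only [piece]
  rw [← Matrix.sum_mul, ← Matrix.mul_sum, h1]
  calc _ = (W * Wᴴ) * Z * (W * Wᴴ) := by simp only [Matrix.mul_assoc]
    _ = _ := by rw [hW, Matrix.one_mul, Matrix.mul_one]

theorem gram_piece {W : Matrix I I ℂ} (hW' : Wᴴ * W = 1) (l : I → ℝ) (Z : Matrix I I ℂ) :
    gram (W * diagonal (fun i => (l i : ℂ)) * Wᴴ) (piece W Z) =
      diagonal fun p : I × I => ((l p.1 * ‖(Wᴴ * Z * W) p.1 p.2‖ ^ 2 : ℝ) : ℂ) := by
  ext p q
  obtain ⟨i, j⟩ := p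
  obtain ⟨i', j'⟩ := q
  obtain ⟨z, hz⟩ : ∃ z, z = Wᴴ * Z * W := ⟨_, rfl⟩
  rw [gram, of_apply, piece, piece, ← hz]
  simp only
  have e1 : (W * Matrix.single i j (z i j) * Wᴴ)ᴴ * (W * diagonal (fun i => (l i : ℂ)) * Wᴴ) *
      (W * Matrix.single i' j' (z i' j') * Wᴴ) =
      W * (Matrix.single j i (star (z i j)) * diagonal (fun i => (l i : ℂ)) *
        Matrix.single i' j' (z i' j')) * Wᴴ := by
    rw [conjTranspose_mul, conjTranspose_mul, conjTranspose_conjTranspose, conjTranspose_single]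
    calc _ = W * (Matrix.single j i (star (z i j)) * ((Wᴴ * W) *
          (diagonal (fun i => (l i : ℂ)) * ((Wᴴ * W) * Matrix.single i' j' (z i' j')))) * Wᴴ) := by
          simp only [Matrix.mul_assoc]
      _ = _ := by
          rw [hW', Matrix.one_mul, Matrix.one_mul]
          simp only [Matrix.mul_assoc]
  rw [e1, trace_mul_comm, ← Matrix.mul_assoc, hW', Matrix.one_mul]
  by_cases h : (i, j) = (i', j')
  · rw [Prod.mk.injEq] at h
    obtain ⟨h1, h2⟩ := h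
    subst h1 h2
    rw [diagonal_apply_eq, trace]
    simp only [diag_apply]
    rw [Finset.sum_eq_single j]
    · rw [Matrix.mul_assoc, mul_apply, Finset.sum_eq_single i]
      · rw [single_apply_same, diagonal_mul, single_apply_same]
        have : star (z i j) * z i j = ((‖z i j‖ ^ 2 : ℝ) : ℂ) := by
          rw [RCLike.star_def, Complex.conj_mul']
          push_cast
          rfl
        calc _ = (l i : ℂ) * (star (z i j) * z i j) := by ring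
          _ = _ := by
            rw [this]
            push_cast
            rfl
      · intro x _ hx
        rw [single_apply_of_ne _ _ _ _ _ (fun h => hx h.2.symm), zero_mul]
      · intro h; exact absurd (Finset.mem_univ _) h
    · intro x _ hx
      rw [Matrix.mul_assoc, mul_apply]
      refine Finset.sum_eq_zero fun y _ => ?_
      rw [single_apply_of_ne _ _ _ _ _ (fun h => hx h.1.symm), zero_mul]
    · intro h; exact absurd (Finset.mem_univ _) h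
  · rw [diagonal_apply_ne _ h, trace]
    refine Finset.sum_eq_zero fun x _ => ?_
    rw [diag_apply, Matrix.mul_assoc, mul_apply]
    refine Finset.sum_eq_zero fun y _ => ?_
    rw [diagonal_mul]
    by_cases hx : j = x
    · by_cases hy : i = y
      · by_cases hy' : i' = y
        · by_cases hx' : j' = x
          · exfalso
            apply h
            rw [Prod.mk.injEq]
            exact ⟨hy.trans hy'.symm, hx.trans hx'.symm⟩
          · rw [single_apply_of_ne i' j' _ _ _ (fun h => hx' h.2), mul_zero, mul_zero]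
        · rw [single_apply_of_ne i' j' _ _ _ (fun h => hy' h.1), mul_zero, mul_zero]
      · rw [single_apply_of_ne j i _ _ _ (fun h => hy h.2), zero_mul]
    · rw [single_apply_of_ne j i _ _ _ (fun h => hx h.1), zero_mul]

theorem conj_star (W Z : Matrix I I ℂ) (i j : I) :
    (Wᴴ * Zᴴ * W) j i = star ((Wᴴ * Z * W) i j) := by
  have h : Wᴴ * Zᴴ * W = (Wᴴ * Z * W)ᴴ := by
    rw [conjTranspose_mul, conjTranspose_mul, conjTranspose_conjTranspose, Matrix.mul_assoc]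
  rw [h, conjTranspose_apply]

theorem piece_star {W : Matrix I I ℂ} (Z : Matrix I I ℂ) (i j : I) :
    (piece W Z (i, j))ᴴ = piece W Zᴴ (j, i) := by
  rw [piece, piece, conj_star W Z i j, conjTranspose_mul, conjTranspose_mul,
    conjTranspose_conjTranspose, conjTranspose_single, Matrix.mul_assoc W]

theorem gram_piece' {W : Matrix I I ℂ} (hW' : Wᴴ * W = 1) (l : I → ℝ) (Z : Matrix I I ℂ) :
    gram (W * diagonal (fun i => (l i : ℂ)) * Wᴴ) (fun p => (piece W Z p)ᴴ) =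
      diagonal fun p : I × I => ((l p.2 * ‖(Wᴴ * Z * W) p.1 p.2‖ ^ 2 : ℝ) : ℂ) := by
  have h := gram_piece hW' l Zᴴ
  ext ⟨i, j⟩ ⟨i', j'⟩
  have h2 := congrFun (congrFun h (j, i)) (j', i')
  have e1 : gram (W * diagonal (fun i => (l i : ℂ)) * Wᴴ) (fun p => (piece W Z p)ᴴ) (i, j)
      (i', j') = gram (W * diagonal (fun i => (l i : ℂ)) * Wᴴ) (piece W Zᴴ) (j, i) (j', i') := by
    rw [gram, gram, of_apply, of_apply, piece_star Z i j, piece_star Z i' j']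
  rw [e1, h2]
  by_cases hpq : (i, j) = (i', j')
  · rw [Prod.mk.injEq] at hpq
    obtain ⟨h3, h4⟩ := hpq
    subst h3 h4
    rw [diagonal_apply_eq, diagonal_apply_eq, conj_star W Z i j, norm_star]
  · rw [diagonal_apply_ne _ hpq, diagonal_apply_ne]
    intro hc
    rw [Prod.mk.injEq] at hc
    exact hpq (Prod.ext hc.2 hc.1)

theorem rpow_mix {x y z θ : ℝ} (hx : 0 ≤ x) (hy : 0 ≤ y) (hz : 0 ≤ z) (h0 : 0 ≤ θ)
    (h1 : θ ≤ 1) : (x * z) ^ (1 - θ) * (y * z) ^ θ = x ^ (1 - θ) * y ^ θ * z := by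
  rw [Real.mul_rpow hx hz, Real.mul_rpow hy hz]
  have e : z ^ (1 - θ) * z ^ θ = z := by
    rw [← Real.rpow_add_of_nonneg hz (by linarith) h0]
    simp
  calc _ = x ^ (1 - θ) * y ^ θ * (z ^ (1 - θ) * z ^ θ) := by ring
    _ = _ := by rw [e]

theorem sum_cost {l : I → ℝ} (hl : ∀ i, 0 ≤ l i) (W Z : Matrix I I ℂ) {θ : ℝ} (h0 : 0 ≤ θ)
    (h1 : θ ≤ 1) :
    ∑ p : I × I, (l p.1 * ‖(Wᴴ * Z * W) p.1 p.2‖ ^ 2) ^ (1 - θ) *
      (l p.2 * ‖(Wᴴ * Z * W) p.1 p.2‖ ^ 2) ^ θ = expCost l W θ Z := by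
  rw [expCost, Fintype.sum_prod_type]
  refine Finset.sum_congr rfl fun i _ => Finset.sum_congr rfl fun j _ => ?_
  exact rpow_mix (hl i) (hl j) (sq_nonneg _) h0 h1

/-- The test with any exponents implies a positive rate. -/
theorem test_pos (Ψ : Matrix (A × B) E ℂ) (hΨ : (Ψ * Ψᴴ).trace = 1) {θ θ' : ℝ} (h0 : 0 ≤ θ)
    (h1 : θ ≤ 1) (h0' : 0 ≤ θ') (h1' : θ' ≤ 1) (h : ExpTest (Ψ * Ψᴴ) θ θ') :
    0 < distillableKey Ψ := by
  obtain ⟨n, C, D, _, _, _, _, X, Y, S, T, l, W, hn, hW, hl, hσ, h⟩ := h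
  have hW' : W * Wᴴ = 1 := mul_eq_one_comm.mp hW
  have hz : (0 : Matrix ((C × D) × (C × D)) ((C × D) × (C × D)) ℂ).PosSemidef := PosSemidef.zero
  obtain ⟨P, hP⟩ : ∃ P : Matrix (C × D) (C × D) ℂ, P = S ⊗ₖ 1 := ⟨_, rfl⟩
  obtain ⟨Q, hQ⟩ : ∃ Q : Matrix (C × D) (C × D) ℂ, Q = 1 ⊗ₖ T := ⟨_, rfl⟩
  rw [← hP, ← hQ] at h
  refine power_pos Ψ hΨ hn X Y rfl S T ((sum_piece hW' P).trans hP) ((sum_piece hW' Q).trans hQ)
    (l := fun p => l p.1 * ‖(Wᴴ * P * W) p.1 p.2‖ ^ 2)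
    (r := fun p => l p.2 * ‖(Wᴴ * P * W) p.1 p.2‖ ^ 2)
    (l' := fun p => l p.1 * ‖(Wᴴ * Q * W) p.1 p.2‖ ^ 2)
    (r' := fun p => l p.2 * ‖(Wᴴ * Q * W) p.1 p.2‖ ^ 2)
    (fun p => mul_nonneg (hl p.1) (sq_nonneg _)) (fun p => mul_nonneg (hl p.2) (sq_nonneg _))
    (fun p => mul_nonneg (hl p.1) (sq_nonneg _)) (fun p => mul_nonneg (hl p.2) (sq_nonneg _))
    ?_ ?_ ?_ ?_ h0 h1 h0' h1' ?_
  · rw [hσ, gram_piece hW l, sub_self]
    exact hz
  · rw [hσ, gram_piece' hW l, sub_self]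
    exact hz
  · rw [hσ, gram_piece hW l, sub_self]
    exact hz
  · rw [hσ, gram_piece' hW l, sub_self]
    exact hz
  · rw [sum_cost hl W _ h0 h1, sum_cost hl W _ h0' h1']
    exact h

/-! ### Necessity -/

/-- the part of the second moment which no splitting removes -/
noncomputable def ev (l : I → ℝ) (Z : Matrix I I ℂ) : ℝ :=
  ∑ i, ∑ j, 2 * (l i * l j) / (l i + l j) * ‖Z i j‖ ^ 2

/-- the second moment -/
noncomputable def sv (l : I → ℝ) (Z : Matrix I I ℂ) : ℝ := ∑ i, ∑ j, l i * ‖Z i j‖ ^ 2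

theorem sv_eq (l : I → ℝ) {Z : Matrix I I ℂ} (hZ : Z.IsHermitian) :
    (diagonal (fun i => (l i : ℂ)) * (Z * Z)).trace.re = sv l Z := by
  rw [sv, ← trace_left]
  have : (Zᴴ * diagonal (fun i => (l i : ℂ)) * Z).trace =
      (diagonal (fun i => (l i : ℂ)) * (Z * Z)).trace := by
    rw [hZ.eq, Matrix.mul_assoc, trace_mul_comm, Matrix.mul_assoc]
  rw [this]

theorem sv_symm (l : I → ℝ) {Z : Matrix I I ℂ} (hZ : Z.IsHermitian) :
    ∑ i, ∑ j, (l i + l j) * ‖Z i j‖ ^ 2 = 2 * sv l Z :=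
  (sum_symm l (fun i j => ‖Z i j‖ ^ 2) (fun i j => by rw [norm_swap hZ i j])).symm

theorem ev_eq {l : I → ℝ} (hl : ∀ i, 0 ≤ l i) {Z : Matrix I I ℂ} (hZ : Z.IsHermitian) :
    4 * ev l Z = 4 * sv l Z - qd l Z := by
  have h1 : 4 * sv l Z = 2 * ∑ i, ∑ j, (l i + l j) * ‖Z i j‖ ^ 2 := by
    rw [sv_symm l hZ]
    ring
  rw [h1, ev, qd, Finset.mul_sum, Finset.mul_sum, ← Finset.sum_sub_distrib]
  refine Finset.sum_congr rfl fun i _ => ?_
  rw [Finset.mul_sum, Finset.mul_sum, ← Finset.sum_sub_distrib]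
  refine Finset.sum_congr rfl fun j _ => ?_
  have h0 : 0 ≤ l i + l j := add_nonneg (hl i) (hl j)
  rcases h0.eq_or_lt with h | h
  · have hi : l i = 0 := by linarith [hl i, hl j]
    have hj : l j = 0 := by linarith [hl i, hl j]
    rw [hi, hj]
    simp
  · field_simp
    ring

theorem ev_nonneg {l : I → ℝ} (hl : ∀ i, 0 ≤ l i) (Z : Matrix I I ℂ) : 0 ≤ ev l Z :=
  Finset.sum_nonneg fun i _ => Finset.sum_nonneg fun j _ =>
    mul_nonneg (div_nonneg (mul_nonneg zero_le_two (mul_nonneg (hl i) (hl j)))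
      (add_nonneg (hl i) (hl j))) (sq_nonneg _)

theorem qd_nonneg {l : I → ℝ} (hl : ∀ i, 0 ≤ l i) (Z : Matrix I I ℂ) : 0 ≤ qd l Z :=
  Finset.sum_nonneg fun i _ => Finset.sum_nonneg fun j _ =>
    mul_nonneg (div_nonneg (mul_nonneg zero_le_two (sq_nonneg _))
      (add_nonneg (hl i) (hl j))) (sq_nonneg _)

theorem ev_par {l : I → ℝ} (hl : ∀ i, 0 ≤ l i) {Z M N : Matrix I I ℂ} (h : Z + Z = M + N) :
    4 * ev l Z ≤ 2 * ev l M + 2 * ev l N := by
  rw [ev, ev, ev, Finset.mul_sum, Finset.mul_sum, Finset.mul_sum, ← Finset.sum_add_distrib]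
  refine Finset.sum_le_sum fun i _ => ?_
  rw [Finset.mul_sum, Finset.mul_sum, Finset.mul_sum, ← Finset.sum_add_distrib]
  refine Finset.sum_le_sum fun j _ => ?_
  have h1 : Z i j + Z i j = M i j + N i j := by
    rw [← Matrix.add_apply, ← Matrix.add_apply, h]
  have h2 : 2 * ‖Z i j‖ = ‖M i j + N i j‖ := by
    rw [← h1, ← two_mul, norm_mul]
    norm_num
  have h3 := norm_add_le (M i j) (N i j)
  rw [← h2] at h3
  have h4 : 4 * ‖Z i j‖ ^ 2 ≤ 2 * ‖M i j‖ ^ 2 + 2 * ‖N i j‖ ^ 2 := by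
    have h5 := pow_le_pow_left₀ (by positivity) h3 2
    nlinarith [sq_nonneg (‖M i j‖ - ‖N i j‖)]
  have h6 : 0 ≤ 2 * (l i * l j) / (l i + l j) :=
    div_nonneg (mul_nonneg zero_le_two (mul_nonneg (hl i) (hl j))) (add_nonneg (hl i) (hl j))
  nlinarith [mul_le_mul_of_nonneg_left h4 h6]

theorem young {α η : ℝ} (h0 : 0 < α) (h1 : α < 1) (hη : 0 < η) :
    ∃ c : ℝ, 0 ≤ c ∧ ∀ x y : ℝ, 0 ≤ x → 0 ≤ y → x ^ α * y ^ (1 - α) ≤ c * x + η * y := by
  obtain ⟨c, hc⟩ : ∃ c : ℝ, c = η ^ (-(1 - α) / α) := ⟨_, rfl⟩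
  have hc0 : 0 < c := hc ▸ Real.rpow_pos_of_pos hη _
  refine ⟨c, hc0.le, fun x y hx hy => ?_⟩
  have h2 := Real.geom_mean_le_arith_mean2_weighted h0.le (by linarith : 0 ≤ 1 - α)
    (mul_nonneg hc0.le hx) (mul_nonneg hη.le hy) (by ring)
  rw [Real.mul_rpow hc0.le hx, Real.mul_rpow hη.le hy] at h2
  have h3 : c ^ α = η ^ (-(1 - α)) := by
    rw [hc, ← Real.rpow_mul hη.le]
    congr 1
    field_simp
  have h4 : c ^ α * η ^ (1 - α) = 1 := by
    rw [h3, ← Real.rpow_add hη]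
    simp
  have h5 : c ^ α * x ^ α * (η ^ (1 - α) * y ^ (1 - α)) = x ^ α * y ^ (1 - α) := by
    calc _ = (c ^ α * η ^ (1 - α)) * (x ^ α * y ^ (1 - α)) := by ring
      _ = _ := by rw [h4, one_mul]
  rw [h5] at h2
  refine h2.trans (add_le_add ?_ ?_)
  · calc α * (c * x) ≤ 1 * (c * x) := mul_le_mul_of_nonneg_right h1.le (mul_nonneg hc0.le hx)
      _ = _ := one_mul _
  · calc (1 - α) * (η * y) ≤ 1 * (η * y) :=
          mul_le_mul_of_nonneg_right (by linarith) (mul_nonneg hη.le hy)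
      _ = _ := one_mul _

theorem harm_ge {x y : ℝ} (hx : 0 ≤ x) (hxy : x ≤ y) : x ≤ 2 * (x * y) / (x + y) := by
  rcases hx.eq_or_lt with h | h
  · rw [← h]
    simp
  · rw [le_div_iff₀ (by linarith)]
    nlinarith

theorem exp_pt {θ η : ℝ} (h0 : 0 < θ) (h1 : θ < 1) (hη : 0 < η) :
    ∃ c : ℝ, 0 ≤ c ∧ ∀ x y : ℝ, 0 ≤ x → 0 ≤ y →
      x ^ (1 - θ) * y ^ θ ≤ c * (2 * (x * y) / (x + y)) + η * (x + y) := by
  obtain ⟨c₁, hc₁, H₁⟩ := young (α := 1 - θ) (by linarith) (by linarith) hη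
  obtain ⟨c₂, hc₂, H₂⟩ := young h0 h1 hη
  refine ⟨c₁ + c₂, add_nonneg hc₁ hc₂, fun x y hx hy => ?_⟩
  have hh : 0 ≤ 2 * (x * y) / (x + y) :=
    div_nonneg (mul_nonneg zero_le_two (mul_nonneg hx hy)) (add_nonneg hx hy)
  rcases le_total x y with h | h
  · have h2 := H₁ x y hx hy
    rw [sub_sub_cancel] at h2
    have h3 := mul_le_mul_of_nonneg_left (harm_ge hx h) hc₁
    have h4 := mul_nonneg hc₂ hh
    have h5 := mul_nonneg hη.le hx
    linarith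
  · have h2 := H₂ y x hy hx
    have h3 := mul_le_mul_of_nonneg_left (harm_ge hy h) hc₂
    rw [mul_comm y x, add_comm y x] at h3
    have h4 := mul_nonneg hc₁ hh
    have h5 := mul_nonneg hη.le hy
    rw [mul_comm (x ^ (1 - θ))]
    linarith

theorem expCost_le {θ η : ℝ} (h0 : 0 < θ) (h1 : θ < 1) (hη : 0 < η) :
    ∃ c : ℝ, 0 ≤ c ∧ ∀ {I : Type} [Fintype I] [DecidableEq I] (l : I → ℝ) (W Z : Matrix I I ℂ),
      (∀ i, 0 ≤ l i) → Z.IsHermitian →
      expCost l W θ Z ≤ c * ev l (Wᴴ * Z * W) + 2 * η * sv l (Wᴴ * Z * W) := by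
  obtain ⟨c, hc, H⟩ := exp_pt h0 h1 hη
  refine ⟨c, hc, ?_⟩
  intro I _ _ l W Z hl hZ
  obtain ⟨M, hM⟩ : ∃ M, M = Wᴴ * Z * W := ⟨_, rfl⟩
  have hMh : M.IsHermitian := hM ▸ isHermitian_conjTranspose_mul_mul _ hZ
  have h2 : 2 * η * sv l M = η * ∑ i, ∑ j, (l i + l j) * ‖M i j‖ ^ 2 := by
    rw [sv_symm l hMh]
    ring
  rw [expCost, ← hM, h2, ev, Finset.mul_sum, Finset.mul_sum, ← Finset.sum_add_distrib]
  refine Finset.sum_le_sum fun i _ => ?_
  rw [Finset.mul_sum, Finset.mul_sum, ← Finset.sum_add_distrib]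
  refine Finset.sum_le_sum fun j _ => ?_
  have h3 := mul_le_mul_of_nonneg_right (H (l i) (l j) (hl i) (hl j)) (sq_nonneg ‖M i j‖)
  refine h3.trans (le_of_eq ?_)
  ring

theorem sum_moments (σ P Q : Matrix I I ℂ) :
    (σ * ((P + Q) * (P + Q))).trace.re + (σ * ((P - Q) * (P - Q))).trace.re =
      2 * (σ * (P * P)).trace.re + 2 * (σ * (Q * Q)).trace.re := by
  rw [← Complex.add_re, ← trace_add, ← Matrix.mul_add]
  have : (P + Q) * (P + Q) + (P - Q) * (P - Q) = (P * P + P * P) + (Q * Q + Q * Q) := by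
    noncomm_ring
  rw [this, Matrix.mul_add, Matrix.mul_add, Matrix.mul_add, trace_add, trace_add, trace_add,
    Complex.add_re, Complex.add_re, Complex.add_re]
  ring

theorem sub_moments (σ P Q R : Matrix I I ℂ) (h : P * Q = R) (h' : Q * P = R) :
    (σ * ((P + Q) * (P + Q))).trace.re - (σ * ((P - Q) * (P - Q))).trace.re =
      4 * (σ * R).trace.re := by
  rw [← Complex.sub_re, ← trace_sub, ← Matrix.mul_sub]
  have : (P + Q) * (P + Q) - (P - Q) * (P - Q) = (P * Q + P * Q) + (Q * P + Q * P) := by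
    noncomm_ring
  rw [this, h, h', Matrix.mul_add, Matrix.mul_add, trace_add, trace_add, Complex.add_re,
    Complex.add_re]
  ring

theorem sq_moment {σ : Matrix I I ℂ} (hσ : σ.PosSemidef) {H : Matrix I I ℂ}
    (hH : H.IsHermitian) : 0 ≤ (σ * (H * H)).trace.re := by
  have h5 := (hσ.mul_mul_conjTranspose_same H).trace_nonneg
  rw [hH.eq, Matrix.mul_assoc, trace_mul_comm, Matrix.mul_assoc] at h5
  exact (Complex.le_def.mp h5).1

theorem sv_conj {σ : Matrix I I ℂ} (hσ : σ.PosSemidef) {M : Matrix I I ℂ} (hM : M.IsHermitian) :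
    sv hσ.1.eigenvalues ((hσ.1.eigenvectorUnitary : Matrix I I ℂ)ᴴ * M *
      (hσ.1.eigenvectorUnitary : Matrix I I ℂ)) = (σ * (M * M)).trace.re := by
  rw [tr_conj hσ, conj_mul hσ, sv_eq _ (conj_herm hσ hM)]

theorem lt_qd {σ : Matrix I I ℂ} (hσ : σ.PosSemidef) (G : Matrix I I ℂ) {v : ℝ} (hv : 0 ≤ v)
    (h : 4 * v < qfi σ G) :
    4 * v < qd hσ.1.eigenvalues ((hσ.1.eigenvectorUnitary : Matrix I I ℂ)ᴴ * G *
      (hσ.1.eigenvectorUnitary : Matrix I I ℂ)) := by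
  obtain ⟨K, hK, hlt⟩ := Metro.exists_of_lt_qfi hv (fun H hH => sq_moment hσ hH) h
  have h2 := comm_le (l := hσ.1.eigenvalues) (G := (hσ.1.eigenvectorUnitary : Matrix I I ℂ)ᴴ * G *
      (hσ.1.eigenvectorUnitary : Matrix I I ℂ)) (fun i => hσ.eigenvalues_nonneg i)
    (conj_herm hσ hK)
  rw [← conj_mul hσ, ← conj_mul hσ, ← Matrix.sub_mul, ← Matrix.mul_sub, ← tr_conj hσ,
    ← conj_mul hσ, ← tr_conj hσ] at h2
  have h3 := sq_moment hσ hK
  by_contra hcon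
  rw [not_lt] at hcon
  have h6 := mul_le_mul_of_nonneg_right hcon h3
  linarith

/-- A large Fisher information makes the two unremovable parts small. -/
theorem ev_small {σ : Matrix I I ℂ} (hσ : σ.PosSemidef) {P Q : Matrix I I ℂ}
    (hP : P.IsHermitian) (hQ : Q.IsHermitian) {p δ : ℝ} (hp : 0 ≤ p) (hδ : δ ≤ 1 / 4)
    (ta : (σ * (P * P)).trace.re ≤ p) (tb : (σ * (Q * Q)).trace.re ≤ p)
    (hq : (16 - 4 * δ) * p < qfi σ (P + Q)) :
    0 < p ∧ (σ * ((P - Q) * (P - Q))).trace.re ≤ δ * p ∧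
    (4 - δ) * p ≤ (σ * ((P + Q) * (P + Q))).trace.re ∧
    ev hσ.1.eigenvalues ((hσ.1.eigenvectorUnitary : Matrix I I ℂ)ᴴ * P *
      (hσ.1.eigenvectorUnitary : Matrix I I ℂ)) ≤ δ * p ∧
    ev hσ.1.eigenvalues ((hσ.1.eigenvectorUnitary : Matrix I I ℂ)ᴴ * Q *
      (hσ.1.eigenvectorUnitary : Matrix I I ℂ)) ≤ δ * p := by
  obtain ⟨W, hW⟩ : ∃ W, W = (hσ.1.eigenvectorUnitary : Matrix I I ℂ) := ⟨_, rfl⟩
  obtain ⟨l, hl⟩ : ∃ l, l = hσ.1.eigenvalues := ⟨_, rfl⟩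
  have hl0 : ∀ i, 0 ≤ l i := fun i => hl ▸ hσ.eigenvalues_nonneg i
  have hconj : ∀ {M : Matrix I I ℂ}, M.IsHermitian → (Wᴴ * M * W).IsHermitian :=
    fun hM => isHermitian_conjTranspose_mul_mul _ hM
  have hsv : ∀ {M : Matrix I I ℂ}, M.IsHermitian →
      sv l (Wᴴ * M * W) = (σ * (M * M)).trace.re := by
    intro M hM
    rw [hW, hl]
    exact sv_conj hσ hM
  have hqd : (16 - 4 * δ) * p < qd l (Wᴴ * (P + Q) * W) := by
    have h2 := lt_qd hσ (P + Q) (v := (4 - δ) * p) (mul_nonneg (by linarith) hp) (by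
      refine lt_of_eq_of_lt ?_ hq
      ring)
    rw [← hW, ← hl] at h2
    refine lt_of_eq_of_lt ?_ h2
    ring
  rw [← hW, ← hl]
  have hsum := sum_moments σ P Q
  have g1 := ev_eq hl0 (hconj (hP.add hQ))
  have g2 := ev_nonneg hl0 (Wᴴ * (P + Q) * W)
  have g3 := ev_eq hl0 (hconj (hP.sub hQ))
  have g4 := qd_nonneg hl0 (Wᴴ * (P - Q) * W)
  rw [hsv (hP.add hQ)] at g1
  rw [hsv (hP.sub hQ)] at g3
  have k0 := sq_moment hσ (hP.sub hQ)
  have k1 : ev l (Wᴴ * (P + Q) * W) ≤ δ * p := by linarith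
  have k2 : ev l (Wᴴ * (P - Q) * W) ≤ δ * p := by linarith
  refine ⟨?_, ?_, ?_, ?_, ?_⟩
  · rcases hp.eq_or_lt with h2 | h2
    · exfalso
      rw [← h2] at ta tb hqd
      linarith
    · exact h2
  · linarith
  · linarith
  · have h2 : Wᴴ * P * W + Wᴴ * P * W = Wᴴ * (P + Q) * W + Wᴴ * (P - Q) * W := by
      noncomm_ring
    have := ev_par hl0 h2
    linarith
  · have h2 : Wᴴ * Q * W + Wᴴ * Q * W = Wᴴ * (P + Q) * W + -(Wᴴ * (P - Q) * W) := by
      noncomm_ring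
    have h3 := ev_par hl0 h2
    have h4 : ev l (-(Wᴴ * (P - Q) * W)) = ev l (Wᴴ * (P - Q) * W) := by
      simp only [ev, Matrix.neg_apply, norm_neg]
    rw [h4] at h3
    linarith

theorem expCost_nonneg {l : I → ℝ} (hl : ∀ i, 0 ≤ l i) (W Z : Matrix I I ℂ) (θ : ℝ) :
    0 ≤ expCost l W θ Z :=
  Finset.sum_nonneg fun i _ => Finset.sum_nonneg fun j _ => mul_nonneg (mul_nonneg
    (Real.rpow_nonneg (hl i) _) (Real.rpow_nonneg (hl j) _)) (sq_nonneg _)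

theorem expCost_le_sv {l : I → ℝ} (hl : ∀ i, 0 ≤ l i) (W : Matrix I I ℂ) {Z : Matrix I I ℂ}
    (hZ : Z.IsHermitian) {θ : ℝ} (h0 : 0 ≤ θ) (h1 : θ ≤ 1) :
    expCost l W θ Z ≤ sv l (Wᴴ * Z * W) := by
  obtain ⟨M, hM⟩ : ∃ M, M = Wᴴ * Z * W := ⟨_, rfl⟩
  have hMh : M.IsHermitian := hM ▸ isHermitian_conjTranspose_mul_mul _ hZ
  have h2 := Finset.sum_comm (s := Finset.univ) (t := Finset.univ)
    (f := fun i j => l j * ‖M i j‖ ^ 2)
  have h3 : ∑ i, ∑ j, l j * ‖M i j‖ ^ 2 = sv l M := by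
    rw [h2, sv]
    refine Finset.sum_congr rfl fun i _ => Finset.sum_congr rfl fun j _ => ?_
    rw [norm_swap hMh]
  have h4 : sv l M = ∑ i, ∑ j, ((1 - θ) * l i + θ * l j) * ‖M i j‖ ^ 2 := by
    have e : ∀ i, ∑ j, ((1 - θ) * l i + θ * l j) * ‖M i j‖ ^ 2 =
        (1 - θ) * ∑ j, l i * ‖M i j‖ ^ 2 + θ * ∑ j, l j * ‖M i j‖ ^ 2 := by
      intro i
      rw [Finset.mul_sum, Finset.mul_sum, ← Finset.sum_add_distrib]
      refine Finset.sum_congr rfl fun j _ => ?_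
      ring
    simp only [e]
    rw [Finset.sum_add_distrib, ← Finset.mul_sum, ← Finset.mul_sum, h3, sv]
    ring
  rw [expCost, ← hM, h4]
  refine Finset.sum_le_sum fun i _ => Finset.sum_le_sum fun j _ => ?_
  refine mul_le_mul_of_nonneg_right ?_ (sq_nonneg _)
  exact Real.geom_mean_le_arith_mean2_weighted (by linarith) h0 (hl i) (hl j) (by ring)

/-- the common part of the two tests -/
theorem qfi_data {δ : ℝ} (hδ : δ ≤ 1 / 4) {σ : Matrix (C × D) (C × D) ℂ} (hσ : σ.PosSemidef)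
    {a : Matrix C C ℂ} {b : Matrix D D ℂ} (ha1 : (1 - a).PosSemidef)
    (ha2 : (1 + a).PosSemidef) (hb1 : (1 - b).PosSemidef) (hb2 : (1 + b).PosSemidef)
    (hq : (16 - 4 * δ) * σ.trace.re < qfi σ (a ⊗ₖ 1 + 1 ⊗ₖ b)) :
    0 < σ.trace.re ∧ (a ⊗ₖ (1 : Matrix D D ℂ)).IsHermitian ∧
    ((1 : Matrix C C ℂ) ⊗ₖ b).IsHermitian ∧
    sv hσ.1.eigenvalues ((hσ.1.eigenvectorUnitary : Matrix (C × D) (C × D) ℂ)ᴴ * (a ⊗ₖ 1) *
      (hσ.1.eigenvectorUnitary : Matrix (C × D) (C × D) ℂ)) ≤ σ.trace.re ∧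
    sv hσ.1.eigenvalues ((hσ.1.eigenvectorUnitary : Matrix (C × D) (C × D) ℂ)ᴴ * (1 ⊗ₖ b) *
      (hσ.1.eigenvectorUnitary : Matrix (C × D) (C × D) ℂ)) ≤ σ.trace.re ∧
    ev hσ.1.eigenvalues ((hσ.1.eigenvectorUnitary : Matrix (C × D) (C × D) ℂ)ᴴ * (a ⊗ₖ 1) *
      (hσ.1.eigenvectorUnitary : Matrix (C × D) (C × D) ℂ)) ≤ δ * σ.trace.re ∧
    ev hσ.1.eigenvalues ((hσ.1.eigenvectorUnitary : Matrix (C × D) (C × D) ℂ)ᴴ * (1 ⊗ₖ b) *
      (hσ.1.eigenvectorUnitary : Matrix (C × D) (C × D) ℂ)) ≤ δ * σ.trace.re ∧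
    (7 / 8 * σ.trace.re) ^ 2 ≤ ‖(σ * (a ⊗ₖ b)).trace‖ ^ 2 := by
  have ha := Metro.psd_herm ha1
  have hb := Metro.psd_herm hb1
  have hpos : ∀ M : Matrix (C × D) (C × D) ℂ, M.PosSemidef → 0 ≤ (σ * M).trace.re := by
    intro M hM
    exact re_trace_mul_nonneg hσ hM
  obtain ⟨p, hp⟩ : ∃ p, p = σ.trace.re := ⟨_, rfl⟩
  rw [← hp] at hq ⊢
  have t0 : 0 ≤ p := by
    have := hpos 1 PosSemidef.one
    rwa [Matrix.mul_one, ← hp] at this
  have ta : (σ * ((a ⊗ₖ 1) * (a ⊗ₖ 1))).trace.re ≤ p := by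
    have := hpos _ ((Metro.psd_one_sub_sq ha1 ha2).kronecker (PosSemidef.one (n := D)))
    rw [Metro.sub_kron, one_kronecker_one, Matrix.mul_sub, trace_sub, Complex.sub_re,
      Matrix.mul_one, ← hp] at this
    rw [← mul_kronecker_mul, Matrix.one_mul]
    linarith
  have tb : (σ * ((1 ⊗ₖ b) * (1 ⊗ₖ b))).trace.re ≤ p := by
    have := hpos _ ((PosSemidef.one (n := C)).kronecker (Metro.psd_one_sub_sq hb1 hb2))
    rw [Metro.kron_sub, one_kronecker_one, Matrix.mul_sub, trace_sub, Complex.sub_re,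
      Matrix.mul_one, ← hp] at this
    rw [← mul_kronecker_mul, Matrix.one_mul]
    linarith
  have hP : (a ⊗ₖ (1 : Matrix D D ℂ)).IsHermitian := by
    rw [IsHermitian, conjTranspose_kronecker, ha.eq, conjTranspose_one]
  have hQ : ((1 : Matrix C C ℂ) ⊗ₖ b).IsHermitian := by
    rw [IsHermitian, conjTranspose_kronecker, hb.eq, conjTranspose_one]
  obtain ⟨h1, h2, h3, h4, h5⟩ := ev_small hσ hP hQ t0 hδ ta tb hq
  have hd := sub_moments σ (a ⊗ₖ (1 : Matrix D D ℂ)) ((1 : Matrix C C ℂ) ⊗ₖ b) (a ⊗ₖ b)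
    (by rw [← mul_kronecker_mul, Matrix.mul_one, Matrix.one_mul])
    (by rw [← mul_kronecker_mul, Matrix.mul_one, Matrix.one_mul])
  have m9 := mul_le_mul_of_nonneg_right hδ t0
  have m1 : 7 / 8 * p ≤ (σ * (a ⊗ₖ b)).trace.re := by linarith
  have m2 : 7 / 8 * p ≤ ‖(σ * (a ⊗ₖ b)).trace‖ := m1.trans (Complex.re_le_norm _)
  exact ⟨h1, hP, hQ, (sv_conj hσ hP).le.trans ta, (sv_conj hσ hQ).le.trans tb, h4, h5,
    pow_le_pow_left₀ (by positivity) m2 2⟩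

theorem exists_delta {θ : ℝ} (h0 : 0 < θ) (h1 : θ < 1) :
    ∃ δ : ℝ, 0 < δ ∧ δ ≤ 1 / 4 ∧ ∀ {I : Type} [Fintype I] [DecidableEq I] (l : I → ℝ)
      (W Z : Matrix I I ℂ) (p : ℝ), (∀ i, 0 ≤ l i) → Z.IsHermitian → 0 ≤ p →
      sv l (Wᴴ * Z * W) ≤ p → ev l (Wᴴ * Z * W) ≤ δ * p → expCost l W θ Z ≤ p / 2 := by
  obtain ⟨c, hc, H⟩ := expCost_le h0 h1 (by norm_num : (0 : ℝ) < 1 / 16)
  have hcc : 0 < 4 * (c + 1) := by linarith
  refine ⟨1 / (4 * (c + 1)), div_pos one_pos hcc,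
    div_le_div_of_nonneg_left zero_le_one (by norm_num) (by linarith), ?_⟩
  intro I _ _ l W Z p hl hZ hp h2 h3
  have h4 := H l W Z hl hZ
  have h5 := mul_le_mul_of_nonneg_left h3 hc
  have h6 : (c + 1) * (1 / (4 * (c + 1))) = 1 / 4 := by field_simp
  have h7 : c * (1 / (4 * (c + 1))) ≤ 1 / 4 := by
    have : 0 < 1 / (4 * (c + 1)) := div_pos one_pos hcc
    nlinarith
  have h8 := mul_le_mul_of_nonneg_right h7 hp
  linarith

theorem half_lt {p : ℝ} (hp : 0 < p) : p * (p / 2) < (7 / 8 * p) ^ 2 := by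
  nlinarith [mul_pos hp hp]

/-- A positive rate implies the test for all exponents, if one of them is strictly between `0` and
`1`. -/
theorem pos_test (Ψ : Matrix (A × B) E ℂ) (hΨ : (Ψ * Ψᴴ).trace = 1) {θ θ' : ℝ} (h0 : 0 ≤ θ)
    (h1 : θ ≤ 1) (h0' : 0 ≤ θ') (h1' : θ' ≤ 1) (hi : (0 < θ ∧ θ < 1) ∨ (0 < θ' ∧ θ' < 1))
    (h : 0 < distillableKey Ψ) : ExpTest (Ψ * Ψᴴ) θ θ' := by
  rcases hi with hi | hi
  · obtain ⟨δ, hδ0, hδ1, H⟩ := exists_delta hi.1 hi.2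
    obtain ⟨n, C, D, _, _, _, _, X, Y, a, b, hn, ha1, ha2, hb1, hb2, hq⟩ :=
      (Metro.useful_iff Ψ hΨ (r := 16 - 4 * δ) (by linarith) (by linarith)).mp h
    have hσ : (filtered n (Ψ * Ψᴴ) X Y).PosSemidef := by
      rw [Metro.filtered_eq]
      exact posSemidef_self_mul_conjTranspose _
    obtain ⟨t0, hP, hQ, s1, s2, e1, e2, hs⟩ := qfi_data hδ1 hσ ha1 ha2 hb1 hb2 hq
    have k1 := H hσ.1.eigenvalues (hσ.1.eigenvectorUnitary : Matrix (C × D) (C × D) ℂ) _ _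
      (fun i => hσ.eigenvalues_nonneg i) hP t0.le s1 e1
    have k2 := (expCost_le_sv (fun i => hσ.eigenvalues_nonneg i)
      (hσ.1.eigenvectorUnitary : Matrix (C × D) (C × D) ℂ) hQ h0' h1').trans s2
    have k3 := expCost_nonneg (fun i => hσ.eigenvalues_nonneg i)
      (hσ.1.eigenvectorUnitary : Matrix (C × D) (C × D) ℂ) ((1 : Matrix C C ℂ) ⊗ₖ b) θ'
    refine ⟨n, C, D, inferInstance, inferInstance, inferInstance, inferInstance, X, Y, a, b,
      hσ.1.eigenvalues, (hσ.1.eigenvectorUnitary : Matrix (C × D) (C × D) ℂ), hn,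
      eigU_mul' hσ.1, fun i => hσ.eigenvalues_nonneg i, spectral_eq hσ.1, ?_⟩
    refine lt_of_le_of_lt (mul_le_mul k1 k2 k3 (by linarith)) (lt_of_lt_of_le ?_ hs)
    rw [mul_comm]
    exact half_lt t0
  · obtain ⟨δ, hδ0, hδ1, H⟩ := exists_delta hi.1 hi.2
    obtain ⟨n, C, D, _, _, _, _, X, Y, a, b, hn, ha1, ha2, hb1, hb2, hq⟩ :=
      (Metro.useful_iff Ψ hΨ (r := 16 - 4 * δ) (by linarith) (by linarith)).mp h
    have hσ : (filtered n (Ψ * Ψᴴ) X Y).PosSemidef := by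
      rw [Metro.filtered_eq]
      exact posSemidef_self_mul_conjTranspose _
    obtain ⟨t0, hP, hQ, s1, s2, e1, e2, hs⟩ := qfi_data hδ1 hσ ha1 ha2 hb1 hb2 hq
    have k1 := (expCost_le_sv (fun i => hσ.eigenvalues_nonneg i)
      (hσ.1.eigenvectorUnitary : Matrix (C × D) (C × D) ℂ) hP h0 h1).trans s1
    have k2 := H hσ.1.eigenvalues (hσ.1.eigenvectorUnitary : Matrix (C × D) (C × D) ℂ) _ _
      (fun i => hσ.eigenvalues_nonneg i) hQ t0.le s2 e2
    have k3 := expCost_nonneg (fun i => hσ.eigenvalues_nonneg i)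
      (hσ.1.eigenvectorUnitary : Matrix (C × D) (C × D) ℂ) ((1 : Matrix C C ℂ) ⊗ₖ b) θ'
    refine ⟨n, C, D, inferInstance, inferInstance, inferInstance, inferInstance, X, Y, a, b,
      hσ.1.eigenvalues, (hσ.1.eigenvectorUnitary : Matrix (C × D) (C × D) ℂ), hn,
      eigU_mul' hσ.1, fun i => hσ.eigenvalues_nonneg i, spectral_eq hσ.1, ?_⟩
    refine lt_of_le_of_lt (mul_le_mul k1 k2 k3 t0.le) (lt_of_lt_of_le ?_ hs)
    exact half_lt t0

end H625

end Vale.Agent.P372
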