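import Vale.Agent.P372.Metro.Equiv2

open Matrix Kronecker
open scoped ComplexOrder MatrixOrder

set_option linter.unusedSectionVars false

namespace Vale.Agent.P372

namespace H625

variable {A B C D E I F : Type} [Fintype A] [DecidableEq A] [Fintype B] [DecidableEq B]
  [Fintype C] [DecidableEq C] [Fintype D] [DecidableEq D] [Fintype E] [DecidableEq E]
  [Fintype I] [DecidableEq I] [Fintype F] [DecidableEq F]

/-- The optimal observable for the generator `G`, in the eigenbasis of the state. -/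
noncomputable def hopt (l : I → ℝ) (G : Matrix I I ℂ) : Matrix I I ℂ :=
  fun i j => (2 * Complex.I) * (((l i - l j) / (l i + l j) : ℝ) : ℂ) * G i j

/-- The Fisher information, in the eigenbasis of the state. -/
noncomputable def qd (l : I → ℝ) (G : Matrix I I ℂ) : ℝ :=
  ∑ i, ∑ j, 2 * (l i - l j) ^ 2 / (l i + l j) * ‖G i j‖ ^ 2

theorem sum_symm (l : I → ℝ) (S : I → I → ℝ) (hS : ∀ i j, S i j = S j i) :
    2 * ∑ i, ∑ j, l i * S i j = ∑ i, ∑ j, (l i + l j) * S i j := by
  have h1 : ∑ i, ∑ j, l i * S i j = ∑ i, ∑ j, l j * S i j := by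
    rw [Finset.sum_comm]
    refine Finset.sum_congr rfl fun i _ => Finset.sum_congr rfl fun j _ => ?_
    rw [hS]
  rw [two_mul]
  nth_rewrite 2 [h1]
  rw [← Finset.sum_add_distrib]
  refine Finset.sum_congr rfl fun i _ => ?_
  rw [← Finset.sum_add_distrib]
  refine Finset.sum_congr rfl fun j _ => ?_
  ring

theorem herm_apply {G : Matrix I I ℂ} (hG : G.IsHermitian) (i j : I) : G j i = star (G i j) := by
  have := congrFun (congrFun hG j) i
  rw [conjTranspose_apply] at this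
  exact this.symm

theorem mul_swap {G : Matrix I I ℂ} (hG : G.IsHermitian) (i j : I) :
    G i j * G j i = ((‖G i j‖ ^ 2 : ℝ) : ℂ) := by
  rw [herm_apply hG i j, RCLike.star_def, Complex.mul_conj']
  push_cast
  rfl

theorem norm_swap {G : Matrix I I ℂ} (hG : G.IsHermitian) (i j : I) : ‖G i j‖ = ‖G j i‖ := by
  rw [herm_apply hG i j, norm_star]

theorem hopt_herm (l : I → ℝ) {G : Matrix I I ℂ} (hG : G.IsHermitian) :
    (hopt l G).IsHermitian := by
  ext i j
  rw [conjTranspose_apply, hopt, hopt, herm_apply hG i j]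
  simp only [star_mul', RCLike.star_def, Complex.conj_I, Complex.conj_ofReal]
  have h2 : (starRingEnd ℂ) (2 : ℂ) = 2 := by
    have : (2 : ℂ) = ((2 : ℝ) : ℂ) := by push_cast; rfl
    rw [this, Complex.conj_ofReal]
  rw [h2]
  have h3 : (((l j - l i) / (l j + l i) : ℝ) : ℂ) = -(((l i - l j) / (l i + l j) : ℝ) : ℂ) := by
    rw [← Complex.ofReal_neg]
    congr 1
    rw [add_comm (l j) (l i), ← neg_div]
    congr 1
    ring
  rw [h3]
  simp only [Complex.conj_conj]
  ring

theorem trace_diag_mul (l : I → ℝ) (M : Matrix I I ℂ) :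
    (diagonal (fun i => (l i : ℂ)) * M).trace = ∑ i, (l i : ℂ) * M i i := by
  rw [trace]
  refine Finset.sum_congr rfl fun i _ => ?_
  rw [diag_apply, diagonal_mul]

theorem hopt_mul {l : I → ℝ} {G : Matrix I I ℂ} (hG : G.IsHermitian) (i j : I) :
    hopt l G i j * hopt l G j i =
      ((4 * ((l i - l j) / (l i + l j)) ^ 2 * ‖G i j‖ ^ 2 : ℝ) : ℂ) := by
  have h3 : (((l j - l i) / (l j + l i) : ℝ) : ℂ) = -(((l i - l j) / (l i + l j) : ℝ) : ℂ) := by
    rw [← Complex.ofReal_neg]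
    congr 1
    rw [add_comm (l j) (l i), ← neg_div]
    congr 1
    ring
  rw [hopt, hopt, h3]
  have h4 := mul_swap hG i j
  calc _ = -(4 * (Complex.I * Complex.I)) * (((l i - l j) / (l i + l j) : ℝ) : ℂ) ^ 2 *
      (G i j * G j i) := by ring
    _ = _ := by
      rw [h4, Complex.I_mul_I]
      push_cast
      ring

theorem trace_hopt_sq (l : I → ℝ) {G : Matrix I I ℂ} (hG : G.IsHermitian) :
    (diagonal (fun i => (l i : ℂ)) * (hopt l G * hopt l G)).trace.re = qd l G := by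
  have h1 : (diagonal (fun i => (l i : ℂ)) * (hopt l G * hopt l G)).trace =
      ((∑ i, ∑ j, l i * (4 * ((l i - l j) / (l i + l j)) ^ 2 * ‖G i j‖ ^ 2) : ℝ) : ℂ) := by
    rw [trace_diag_mul]
    push_cast
    refine Finset.sum_congr rfl fun i _ => ?_
    rw [mul_apply, Finset.mul_sum]
    refine Finset.sum_congr rfl fun j _ => ?_
    rw [hopt_mul hG]
    push_cast
    ring
  rw [h1, Complex.ofReal_re]
  have h2 := sum_symm l (fun i j => 4 * ((l i - l j) / (l i + l j)) ^ 2 * ‖G i j‖ ^ 2)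
    (fun i j => by
      rw [norm_swap hG i j, add_comm (l j) (l i), ← neg_sub (l i) (l j), neg_div, neg_sq])
  have h3 : ∑ i, ∑ j, (l i + l j) * (4 * ((l i - l j) / (l i + l j)) ^ 2 * ‖G i j‖ ^ 2) =
      2 * qd l G := by
    rw [qd, Finset.mul_sum]
    refine Finset.sum_congr rfl fun i _ => ?_
    rw [Finset.mul_sum]
    refine Finset.sum_congr rfl fun j _ => ?_
    rcases eq_or_ne (l i + l j) 0 with h | h
    · rw [h, div_zero, zero_mul, div_zero]
      ring
    · field_simp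
      ring
  linarith

theorem trace_hopt_comm (l : I → ℝ) {G : Matrix I I ℂ} (hG : G.IsHermitian) :
    (diagonal (fun i => (l i : ℂ)) * (G * hopt l G - hopt l G * G)).trace =
      -(Complex.I * (qd l G : ℂ)) := by
  have h1 : (diagonal (fun i => (l i : ℂ)) * (G * hopt l G - hopt l G * G)).trace =
      -(Complex.I * ((∑ i, ∑ j, l i * (4 * ((l i - l j) / (l i + l j)) * ‖G i j‖ ^ 2) : ℝ) :
        ℂ)) := by
    rw [trace_diag_mul]
    push_cast
    rw [Finset.mul_sum, ← Finset.sum_neg_distrib]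
    refine Finset.sum_congr rfl fun i _ => ?_
    rw [Matrix.sub_apply, mul_apply, mul_apply, ← Finset.sum_sub_distrib, Finset.mul_sum,
      Finset.mul_sum, ← Finset.sum_neg_distrib]
    refine Finset.sum_congr rfl fun j _ => ?_
    have h3 : (((l j - l i) / (l j + l i) : ℝ) : ℂ) =
        -(((l i - l j) / (l i + l j) : ℝ) : ℂ) := by
      rw [← Complex.ofReal_neg]
      congr 1
      rw [add_comm (l j) (l i), ← neg_div]
      congr 1
      ring
    have h4 := mul_swap hG i j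
    rw [hopt, hopt, h3]
    calc _ = -(Complex.I * ((l i : ℂ) * (4 * (((l i - l j) / (l i + l j) : ℝ) : ℂ) *
          (G i j * G j i)))) := by ring
      _ = _ := by
        rw [h4]
        push_cast
        ring
  rw [h1]
  congr 3
  -- antisymmetrise
  have h2 : ∑ i, ∑ j, l i * (4 * ((l i - l j) / (l i + l j)) * ‖G i j‖ ^ 2) =
      ∑ i, ∑ j, (-l j) * (4 * ((l i - l j) / (l i + l j)) * ‖G i j‖ ^ 2) := by
    rw [Finset.sum_comm]
    refine Finset.sum_congr rfl fun i _ => Finset.sum_congr rfl fun j _ => ?_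
    rw [norm_swap hG i j, add_comm (l i) (l j), ← neg_sub (l j) (l i), neg_div]
    ring
  have h5 : 2 * ∑ i, ∑ j, l i * (4 * ((l i - l j) / (l i + l j)) * ‖G i j‖ ^ 2) =
      2 * qd l G := by
    rw [two_mul]
    nth_rewrite 2 [h2]
    rw [← Finset.sum_add_distrib, qd, Finset.mul_sum]
    refine Finset.sum_congr rfl fun i _ => ?_
    rw [← Finset.sum_add_distrib, Finset.mul_sum]
    refine Finset.sum_congr rfl fun j _ => ?_
    ring
  linarith

/-- The parallel sum inequality. -/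
theorem par_le {x y : ℝ} (hx : 0 ≤ x) (hy : 0 ≤ y) (u v : ℂ) :
    2 * (x + y) * ‖u + v‖ ^ 2 - 8 * (x * ‖u‖ ^ 2 + y * ‖v‖ ^ 2) ≤
      2 * (x - y) ^ 2 / (x + y) * ‖u + v‖ ^ 2 := by
  rcases eq_or_ne (x + y) 0 with h | h
  · have hx0 : x = 0 := by linarith
    have hy0 : y = 0 := by linarith
    rw [hx0, hy0]
    simp
  · have hxy : 0 < x + y := lt_of_le_of_ne (add_nonneg hx hy) (Ne.symm h)
    have h1 : x * y * ‖u + v‖ ^ 2 ≤ (x + y) * (x * ‖u‖ ^ 2 + y * ‖v‖ ^ 2) := by
      have h2 : ‖u + v‖ ^ 2 ≤ (‖u‖ + ‖v‖) ^ 2 := pow_le_pow_left₀ (norm_nonneg _)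
        (norm_add_le u v) 2
      have h3 : (x + y) * (x * ‖u‖ ^ 2 + y * ‖v‖ ^ 2) - x * y * (‖u‖ + ‖v‖) ^ 2 =
          (x * ‖u‖ - y * ‖v‖) ^ 2 := by ring
      have h4 := mul_le_mul_of_nonneg_left h2 (mul_nonneg hx hy)
      nlinarith [sq_nonneg (x * ‖u‖ - y * ‖v‖)]
    have h5 : 2 * (x - y) ^ 2 / (x + y) * ‖u + v‖ ^ 2 =
        2 * (x + y) * ‖u + v‖ ^ 2 - 8 * (x * y * ‖u + v‖ ^ 2) / (x + y) := by
      field_simp
      ring
    rw [h5]
    have h6 : 8 * (x * y * ‖u + v‖ ^ 2) / (x + y) ≤ 8 * (x * ‖u‖ ^ 2 + y * ‖v‖ ^ 2) := by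
      rw [div_le_iff₀ hxy]
      linarith
    linarith

theorem trace_left (l : I → ℝ) (M : Matrix I I ℂ) :
    (Mᴴ * diagonal (fun i => (l i : ℂ)) * M).trace.re = ∑ i, ∑ j, l i * ‖M i j‖ ^ 2 := by
  have h : (Mᴴ * diagonal (fun i => (l i : ℂ)) * M).trace =
      ((∑ i, ∑ j, l i * ‖M i j‖ ^ 2 : ℝ) : ℂ) := by
    rw [Matrix.mul_assoc, trace_mul_comm, Matrix.mul_assoc, trace_diag_mul]
    push_cast
    refine Finset.sum_congr rfl fun i _ => ?_
    rw [mul_apply, Finset.mul_sum]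
    refine Finset.sum_congr rfl fun j _ => ?_
    rw [conjTranspose_apply, RCLike.star_def, Complex.mul_conj']
  rw [h, Complex.ofReal_re]

theorem trace_right (l : I → ℝ) (M : Matrix I I ℂ) :
    (M * diagonal (fun i => (l i : ℂ)) * Mᴴ).trace.re = ∑ i, ∑ j, l j * ‖M i j‖ ^ 2 := by
  have h := trace_left l Mᴴ
  rw [conjTranspose_conjTranspose] at h
  rw [h, Finset.sum_comm]
  refine Finset.sum_congr rfl fun i _ => Finset.sum_congr rfl fun j _ => ?_
  rw [conjTranspose_apply, norm_star]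

theorem split_diag {l : I → ℝ} (hl : ∀ i, 0 ≤ l i) {G : Matrix I I ℂ} (hG : G.IsHermitian)
    (G₁ G₂ : Matrix I I ℂ) (h : G₁ + G₂ = G) :
    4 * (diagonal (fun i => (l i : ℂ)) * (G * G)).trace.re -
      8 * ((G₁ᴴ * diagonal (fun i => (l i : ℂ)) * G₁).trace.re +
        (G₂ * diagonal (fun i => (l i : ℂ)) * G₂ᴴ).trace.re) ≤ qd l G := by
  have h1 : (diagonal (fun i => (l i : ℂ)) * (G * G)).trace.re =
      ∑ i, ∑ j, l i * ‖G i j‖ ^ 2 := by
    rw [← trace_left]
    have : (Gᴴ * diagonal (fun i => (l i : ℂ)) * G).trace =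
        (diagonal (fun i => (l i : ℂ)) * (G * G)).trace := by
      rw [hG.eq, Matrix.mul_assoc, trace_mul_comm, Matrix.mul_assoc]
    rw [this]
  have h2 := sum_symm l (fun i j => ‖G i j‖ ^ 2) (fun i j => by rw [norm_swap hG i j])
  rw [h1, trace_left, trace_right]
  have h3 : 4 * ∑ i, ∑ j, l i * ‖G i j‖ ^ 2 = 2 * ∑ i, ∑ j, (l i + l j) * ‖G i j‖ ^ 2 := by
    linarith
  rw [h3, qd, Finset.mul_sum, ← Finset.sum_add_distrib, Finset.mul_sum, ← Finset.sum_sub_distrib]
  refine Finset.sum_le_sum fun i _ => ?_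
  rw [Finset.mul_sum, ← Finset.sum_add_distrib, Finset.mul_sum, ← Finset.sum_sub_distrib]
  refine Finset.sum_le_sum fun j _ => ?_
  have h4 := par_le (hl i) (hl j) (G₁ i j) (G₂ i j)
  have h5 : G i j = G₁ i j + G₂ i j := by rw [← h, Matrix.add_apply]
  rw [h5]
  linarith

/-- the optimal splitting, in the eigenbasis of the state -/
theorem split_opt {l : I → ℝ} (hl : ∀ i, 0 ≤ l i) {G : Matrix I I ℂ} (hG : G.IsHermitian) :
    ∃ G₁ G₂ : Matrix I I ℂ, G₁ + G₂ = G ∧
      qd l G = 4 * (diagonal (fun i => (l i : ℂ)) * (G * G)).trace.re -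
      8 * ((G₁ᴴ * diagonal (fun i => (l i : ℂ)) * G₁).trace.re +
        (G₂ * diagonal (fun i => (l i : ℂ)) * G₂ᴴ).trace.re) := by
  refine ⟨Matrix.of fun i j => if l i + l j = 0 then G i j else
    ((l j / (l i + l j) : ℝ) : ℂ) * G i j,
    Matrix.of fun i j => if l i + l j = 0 then 0 else ((l i / (l i + l j) : ℝ) : ℂ) * G i j,
    ?_, ?_⟩
  · ext i j
    rw [Matrix.add_apply, Matrix.of_apply, Matrix.of_apply]
    split_ifs with h
    · rw [add_zero]
    · rw [← add_mul, ← Complex.ofReal_add, ← add_div, add_comm (l j) (l i), div_self h,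
        Complex.ofReal_one, one_mul]
  · have h1 : (diagonal (fun i => (l i : ℂ)) * (G * G)).trace.re =
        ∑ i, ∑ j, l i * ‖G i j‖ ^ 2 := by
      rw [← trace_left]
      have : (Gᴴ * diagonal (fun i => (l i : ℂ)) * G).trace =
          (diagonal (fun i => (l i : ℂ)) * (G * G)).trace := by
        rw [hG.eq, Matrix.mul_assoc, trace_mul_comm, Matrix.mul_assoc]
      rw [this]
    have h2 := sum_symm l (fun i j => ‖G i j‖ ^ 2)
      (fun i j => by rw [norm_swap hG i j])
    rw [h1, trace_left, trace_right]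
    have h3 : 4 * ∑ i, ∑ j, l i * ‖G i j‖ ^ 2 = 2 * ∑ i, ∑ j, (l i + l j) * ‖G i j‖ ^ 2 := by
      linarith
    rw [h3, qd, Finset.mul_sum, ← Finset.sum_add_distrib, Finset.mul_sum,
      ← Finset.sum_sub_distrib]
    refine Finset.sum_congr rfl fun i _ => ?_
    rw [Finset.mul_sum, ← Finset.sum_add_distrib, Finset.mul_sum, ← Finset.sum_sub_distrib]
    refine Finset.sum_congr rfl fun j _ => ?_
    have h0 : 0 ≤ l i + l j := add_nonneg (hl i) (hl j)
    rw [Matrix.of_apply, Matrix.of_apply]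
    split_ifs with h
    · have hi : l i = 0 := by linarith [hl i, hl j]
      have hj : l j = 0 := by linarith [hl i, hl j]
      rw [hi, hj]
      simp
    · rw [norm_mul, norm_mul, Complex.norm_real, Complex.norm_real, Real.norm_eq_abs,
        Real.norm_eq_abs, abs_of_nonneg (div_nonneg (hl j) h0), abs_of_nonneg (div_nonneg (hl i) h0)]
      field_simp
      ring

end H625

end Vale.Agent.P372
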