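import Vale.Agent.P372.H625.Frob

open Matrix Kronecker Filter Topology
open scoped ComplexOrder MatrixOrder

set_option linter.unusedSectionVars false

namespace Vale.Agent.P372

namespace H625

variable {A B : Type} [Fintype A] [DecidableEq A] [Fintype B] [DecidableEq B]

/-- the entangled directions: Hermitian operators of trace one which are not separable -/
def NS (A B : Type) [Fintype A] [Fintype B] : Set (Matrix (A × B) (A × B) ℂ) :=
  {y | y.IsHermitian ∧ y.trace = 1 ∧ ¬ IsSep y}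

/-- **Points of the form `(1 - β) σ + β / d` are interior points of the separable states.** -/
theorem sep_ball {σ : Matrix (A × B) (A × B) ℂ} (hσ : IsSep σ) (h1 : σ.trace = 1) {β : ℝ}
    (hβ0 : 0 < β) (hβ1 : β ≤ 1) : ∃ δ : ℝ, 0 < δ ∧ ∀ τ : Matrix (A × B) (A × B) ℂ,
      τ.IsHermitian → (∀ p q, ‖τ p q - mixN σ β p q‖ < δ) → IsSep τ := by
  have hN := card_pos_of_trace h1
  obtain ⟨c, hc⟩ : ∃ c : ℝ, c = β / Fintype.card (A × B) := ⟨_, rfl⟩
  have hc0 : 0 < c := hc ▸ div_pos hβ0 hN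
  obtain ⟨K, hK⟩ : ∃ K : ℝ, K = Fintype.card ((A × B) × (A × B)) := ⟨_, rfl⟩
  have hK0 : 0 < K := by
    rw [hK, Fintype.card_prod (A × B) (A × B), Nat.cast_mul]
    exact mul_pos hN hN
  refine ⟨c / (2 * K), by positivity, fun ρ' hH' hd => ?_⟩
  obtain ⟨H, hH⟩ : ∃ H : Matrix (A × B) (A × B) ℂ, H = ((c⁻¹ : ℝ) : ℂ) • (ρ' - mixN σ β) :=
    ⟨_, rfl⟩
  have hHh : H.IsHermitian := by
    have h2 : (mixN σ β).IsHermitian := (mixN_psd (sep_psd hσ) hβ0.le hβ1).1
    rw [hH, IsHermitian, conjTranspose_smul, conjTranspose_sub, hH'.eq, h2.eq, RCLike.star_def,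
      Complex.conj_ofReal]
  have hHs : ∑ x : (A × B) × (A × B), ‖H x.1 x.2‖ ≤ 1 / 2 := by
    calc ∑ x : (A × B) × (A × B), ‖H x.1 x.2‖ ≤ ∑ _x : (A × B) × (A × B), c⁻¹ * (c / (2 * K)) := by
          refine Finset.sum_le_sum fun x _ => ?_
          rw [hH, Matrix.smul_apply, smul_eq_mul, norm_mul, Complex.norm_real, Real.norm_eq_abs,
            abs_of_pos (inv_pos.mpr hc0), Matrix.sub_apply]
          exact mul_le_mul_of_nonneg_left (hd _ _).le (inv_pos.mpr hc0).le
      _ = 1 / 2 := by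
          rw [Finset.sum_const, Finset.card_univ, nsmul_eq_mul, ← hK]
          field_simp
  have e1 : ρ' = ((1 - β : ℝ) : ℂ) • σ + (c : ℂ) • (1 + H) := by
    have h2 : (c : ℂ) • H = ρ' - mixN σ β := by
      rw [hH, smul_smul, ← Complex.ofReal_mul, mul_inv_cancel₀ hc0.ne', Complex.ofReal_one,
        one_smul]
    rw [smul_add, h2, mixN, ← hc]
    abel
  rw [e1]
  exact Lim.IsSep.add (sep_smul hσ (by linarith)) (sep_smul (near_one_sep hHh hHs) hc0.le)

theorem closure_ns {y : Matrix (A × B) (A × B) ℂ} (hy : y ∈ closure (NS A B)) :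
    y.IsHermitian ∧ y.trace = 1 := by
  have hc1 : IsClosed {y : Matrix (A × B) (A × B) ℂ | y.IsHermitian} :=
    isClosed_eq continuous_id.matrix_conjTranspose continuous_id
  have hc2 : IsClosed {y : Matrix (A × B) (A × B) ℂ | y.trace = 1} :=
    isClosed_eq continuous_id.matrix_trace continuous_const
  have h1 : NS A B ⊆ {y | y.IsHermitian} ∩ {y | y.trace = 1} := fun y hy => ⟨hy.1, hy.2.1⟩
  exact closure_minimal h1 (hc1.inter hc2) hy

theorem ball_compact (c : Matrix (A × B) (A × B) ℂ) (R : ℝ) :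
    IsCompact {y : Matrix (A × B) (A × B) ℂ | ipr (y - c) (y - c) ≤ R} := by
  have h1 : IsCompact (Set.pi Set.univ fun i : A × B => Set.pi Set.univ fun j : A × B =>
      Metric.closedBall (c i j) (√R)) :=
    isCompact_univ_pi fun _ => isCompact_univ_pi fun _ => isCompact_closedBall _ _
  refine h1.of_isClosed_subset ?_ ?_
  · exact isClosed_le (continuous_ipr c) continuous_const
  · rintro (y : Matrix (A × B) (A × B) ℂ) hy
    refine Set.mem_univ_pi.mpr fun i => Set.mem_univ_pi.mpr fun j => ?_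
    rw [Metric.mem_closedBall, dist_eq_norm]
    have h2 := entry_le (y - c) i j
    have h3 : ‖(y - c) i j‖ ^ 2 ≤ R := h2.trans hy
    exact Real.le_sqrt_of_sq_le h3

/-- **The nearest boundary point.** -/
theorem exists_touch {c y₀ : Matrix (A × B) (A × B) ℂ} (hc : c.IsHermitian) (hc1 : c.trace = 1)
    {δ : ℝ} (hδ : 0 < δ) (hball : ∀ τ : Matrix (A × B) (A × B) ℂ, τ.IsHermitian →
      (∀ p q, ‖τ p q - c p q‖ < δ) → IsSep τ) (hy₀ : y₀ ∈ closure (NS A B)) :
    ∃ p ∈ closure (NS A B), IsSep p ∧ 0 < ipr (p - c) (p - c) ∧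
      ipr (p - c) (p - c) ≤ ipr (y₀ - c) (y₀ - c) ∧
      ∀ τ : Matrix (A × B) (A × B) ℂ, τ.IsHermitian → τ.trace = 1 →
        ipr (τ - c) (τ - c) < ipr (p - c) (p - c) → IsSep τ := by
  have hK : IsCompact ({y : Matrix (A × B) (A × B) ℂ |
      ipr (y - c) (y - c) ≤ ipr (y₀ - c) (y₀ - c)} ∩ closure (NS A B)) :=
    (ball_compact c _).inter_right isClosed_closure
  have h0 : ipr (y₀ - c) (y₀ - c) ≤ ipr (y₀ - c) (y₀ - c) := le_refl _
  obtain ⟨p, ⟨hp1, hp2⟩, hmin⟩ := hK.exists_isMinOn ⟨y₀, h0, hy₀⟩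
    (continuous_ipr c).continuousOn
  obtain ⟨hpH, hpt⟩ := closure_ns hp2
  have hmin' : ∀ y ∈ closure (NS A B), ipr (p - c) (p - c) ≤ ipr (y - c) (y - c) := by
    intro y hy
    by_cases h : ipr (y - c) (y - c) ≤ ipr (y₀ - c) (y₀ - c)
    · exact hmin ⟨h, hy⟩
    · exact hp1.trans (not_le.mp h).le
  have hpos : 0 < ipr (p - c) (p - c) := by
    refine lt_of_le_of_ne (ipr_nonneg _) fun h => ?_
    have h2 : p = c := sub_eq_zero.mp (eq_zero_of_ipr h.symm)
    obtain ⟨y, hy1, hy2, -, hy3⟩ := mem_closure_iff_nhds.mp hp2 _ (near_nhds p hδ)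
    exact hy3 (hball y hy2 (by rw [← h2]; exact hy1))
  refine ⟨p, hp2, ?_, hpos, hp1, fun τ hτ hτ1 hlt => ?_⟩
  · by_contra hs
    obtain ⟨δ', hδ', H⟩ := not_sep_open hs
    -- move towards `c`
    obtain ⟨K, hK⟩ : ∃ K : ℝ, K = √(ipr (p - c) (p - c)) + 1 := ⟨_, rfl⟩
    have hK0 : 0 < K := by
      rw [hK]
      positivity
    obtain ⟨s, hs'⟩ : ∃ s : ℝ, s = min (1 / 2) (δ' / (2 * K)) := ⟨_, rfl⟩
    have hs0 : 0 < s := by
      rw [hs']
      exact lt_min (by norm_num) (by positivity)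
    have hs1 : s ≤ 1 / 2 := hs' ▸ min_le_left _ _
    have hsK : s * K < δ' := by
      have h2 : s ≤ δ' / (2 * K) := hs' ▸ min_le_right _ _
      calc s * K ≤ δ' / (2 * K) * K := mul_le_mul_of_nonneg_right h2 hK0.le
        _ = δ' / 2 := by field_simp
        _ < δ' := by linarith
    obtain ⟨y, hy⟩ : ∃ y : Matrix (A × B) (A × B) ℂ, y = p + ((-s : ℝ) : ℂ) • (p - c) := ⟨_, rfl⟩
    have hyH : y.IsHermitian := by
      rw [hy, IsHermitian, conjTranspose_add, conjTranspose_smul, conjTranspose_sub, hpH.eq, hc.eq,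
        RCLike.star_def, Complex.conj_ofReal]
    have hy1 : y.trace = 1 := by
      rw [hy, trace_add, trace_smul, trace_sub, hpt, hc1, sub_self, smul_zero, add_zero]
    have hys : ¬ IsSep y := by
      refine H y hy1 fun a b => ?_
      have h3 : y a b - p a b = ((-s : ℝ) : ℂ) * (p - c) a b := by
        rw [hy, Matrix.add_apply, Matrix.smul_apply, smul_eq_mul]
        ring
      rw [h3, norm_mul, Complex.norm_real, Real.norm_eq_abs, abs_neg, abs_of_pos hs0]
      have h4 : ‖(p - c) a b‖ ≤ K := by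
        have h5 := Real.le_sqrt_of_sq_le (entry_le (p - c) a b)
        rw [hK]
        linarith
      calc s * ‖(p - c) a b‖ ≤ s * K := mul_le_mul_of_nonneg_left h4 hs0.le
        _ < δ' := hsK
    have h6 := hmin' y (subset_closure ⟨hyH, hy1, hys⟩)
    have h7 : y - c = (p - c) + ((-s : ℝ) : ℂ) • (p - c) := by
      rw [hy]
      abel
    rw [h7, ipr_expand] at h6
    have h8 : 0 < s * (2 - s) * ipr (p - c) (p - c) :=
      mul_pos (mul_pos hs0 (by linarith)) hpos
    linarith only [h6, h8, (by ring : s * (2 - s) * ipr (p - c) (p - c) =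
      2 * s * ipr (p - c) (p - c) - s ^ 2 * ipr (p - c) (p - c)),
      (by ring : 2 * -s * ipr (p - c) (p - c) + (-s) ^ 2 * ipr (p - c) (p - c) =
        - (2 * s * ipr (p - c) (p - c)) + s ^ 2 * ipr (p - c) (p - c))]
  · by_contra hs
    exact absurd (hmin' τ (subset_closure ⟨hτ, hτ1, hs⟩)) (not_le.mpr hlt)

end H625

end Vale.Agent.P372
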