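import Vale.Agent.P372.H625.Werner

open Matrix Kronecker Filter Topology
open scoped ComplexOrder MatrixOrder

set_option linter.unusedSectionVars false

namespace Vale.Agent.P372

namespace H625

variable {D : Type} [Fintype D] [DecidableEq D]

theorem psd_closed {I : Type} [Fintype I] [DecidableEq I] :
    IsClosed {M : Matrix I I ℂ | M.PosSemidef} := by
  have h : {M : Matrix I I ℂ | M.PosSemidef} = {M | Mᴴ = M} ∩
      ⋂ x : I → ℂ, {M | 0 ≤ star x ⬝ᵥ (M *ᵥ x)} := by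
    ext M
    simp only [Set.mem_inter_iff, Set.mem_iInter]
    exact posSemidef_iff_dotProduct_mulVec
  rw [h]
  refine IsClosed.inter ?_ ?_
  · exact isClosed_eq continuous_id.matrix_conjTranspose continuous_id
  · refine isClosed_iInter fun x => ?_
    refine isClosed_le continuous_const ?_
    exact Continuous.dotProduct continuous_const (continuous_id.matrix_mulVec continuous_const)

/-- the orbit of `σ` under `V ⊗ V` -/
def orb (σ : Matrix (D × D) (D × D) ℂ) : Set (Matrix (D × D) (D × D) ℂ) :=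
  {y | ∃ V : Matrix D D ℂ, Vᴴ * V = 1 ∧ y = cj V σ}

theorem cj_add (V : Matrix D D ℂ) (x y : Matrix (D × D) (D × D) ℂ) :
    cj V (x + y) = cj V x + cj V y := by
  rw [cj, Matrix.mul_add, Matrix.add_mul]
  rfl

theorem cj_smul (V : Matrix D D ℂ) (a : ℝ) (x : Matrix (D × D) (D × D) ℂ) :
    cj V (a • x) = a • cj V x := by
  rw [cj, Matrix.mul_smul, Matrix.smul_mul]
  rfl

theorem cj_cj (V U : Matrix D D ℂ) (x : Matrix (D × D) (D × D) ℂ) :
    cj V (cj U x) = cj (V * U) x := by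
  rw [cj, cj, cj, mul_kronecker_mul, conjTranspose_mul (V ⊗ₖ V)]
  simp only [Matrix.mul_assoc]

theorem cj_one (x : Matrix (D × D) (D × D) ℂ) : cj 1 x = x := by
  rw [cj, one_kronecker_one, conjTranspose_one, Matrix.one_mul, Matrix.mul_one]

theorem ipr_cj {V : Matrix D D ℂ} (hV : Vᴴ * V = 1) (x : Matrix (D × D) (D × D) ℂ) :
    ipr (cj V x) (cj V x) = ipr x x := by
  have h := kron_unit hV
  rw [ipr, ipr, cj, conjTranspose_mul, conjTranspose_mul, conjTranspose_conjTranspose]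
  have e : (V ⊗ₖ V) * (xᴴ * (V ⊗ₖ V)ᴴ) * ((V ⊗ₖ V) * x * (V ⊗ₖ V)ᴴ) =
      (V ⊗ₖ V) * ((xᴴ * ((V ⊗ₖ V)ᴴ * (V ⊗ₖ V)) * x) * (V ⊗ₖ V)ᴴ) := by
    simp only [Matrix.mul_assoc]
  rw [e, trace_mul_comm, Matrix.mul_assoc, h, Matrix.mul_one, Matrix.mul_one]

theorem continuous_cj (V : Matrix D D ℂ) : Continuous (cj V) :=
  (continuous_const.matrix_mul continuous_id).matrix_mul continuous_const

theorem cj_hull {V : Matrix D D ℂ} (hV : Vᴴ * V = 1) {σ y : Matrix (D × D) (D × D) ℂ}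
    (hy : y ∈ convexHull ℝ (orb σ)) : cj V y ∈ convexHull ℝ (orb σ) := by
  have h : convexHull ℝ (orb σ) ⊆ {y | cj V y ∈ convexHull ℝ (orb σ)} := by
    refine convexHull_min ?_ ?_
    · rintro y ⟨U, hU, rfl⟩
      refine subset_convexHull ℝ _ ⟨V * U, ?_, cj_cj V U σ⟩
      rw [conjTranspose_mul, Matrix.mul_assoc, ← Matrix.mul_assoc Vᴴ, hV, Matrix.one_mul, hU]
    · rintro x hx y hy a b ha hb hab
      change cj V (a • x + b • y) ∈ convexHull ℝ (orb σ)
      rw [cj_add, cj_smul, cj_smul]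
      exact (convex_convexHull ℝ _) hx hy ha hb hab
  exact h hy

/-- **The twirl**: the closed convex hull of the orbit contains an invariant operator. -/
theorem exists_inv (σ : Matrix (D × D) (D × D) ℂ) :
    ∃ z ∈ closure (convexHull ℝ (orb σ)), ∀ V : Matrix D D ℂ, Vᴴ * V = 1 → cj V z = z := by
  have hK : IsCompact ({y : Matrix (D × D) (D × D) ℂ |
      ipr (y - 0) (y - 0) ≤ ipr (σ - 0) (σ - 0)} ∩ closure (convexHull ℝ (orb σ))) :=
    (ball_compact 0 _).inter_right isClosed_closure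
  have h0 : ipr (σ - 0) (σ - 0) ≤ ipr (σ - 0) (σ - 0) := le_refl _
  have hσ : σ ∈ convexHull ℝ (orb σ) :=
    subset_convexHull ℝ _ ⟨1, by rw [conjTranspose_one, Matrix.mul_one], (cj_one σ).symm⟩
  obtain ⟨z, ⟨hz1, hz2⟩, hmin⟩ := hK.exists_isMinOn ⟨σ, h0, subset_closure hσ⟩
    (continuous_ipr 0).continuousOn
  have hmin' : ∀ y ∈ closure (convexHull ℝ (orb σ)), ipr z z ≤ ipr y y := by
    intro y hy
    by_cases h : ipr (y - 0) (y - 0) ≤ ipr (σ - 0) (σ - 0)
    · have h2 := hmin ⟨h, hy⟩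
      simp only [sub_zero] at h2
      exact h2
    · have h2 : ipr (z - 0) (z - 0) ≤ ipr (σ - 0) (σ - 0) := hz1
      have h3 := h2.trans (not_le.mp h).le
      simp only [sub_zero] at h3
      exact h3
  refine ⟨z, hz2, fun V hV => ?_⟩
  obtain ⟨w, hw⟩ : ∃ w, w = cj V z := ⟨_, rfl⟩
  have hw2 : w ∈ closure (convexHull ℝ (orb σ)) := by
    rw [hw]
    exact map_mem_closure (continuous_cj V) hz2 fun y hy => cj_hull hV hy
  have hmid : (1 / 2 : ℝ) • z + (1 / 2 : ℝ) • w ∈ closure (convexHull ℝ (orb σ)) :=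
    (convex_convexHull ℝ _).closure hz2 hw2 (by norm_num) (by norm_num) (by norm_num)
  have h1 := hmin' _ hmid
  have hww : ipr w w = ipr z z := by rw [hw, ipr_cj hV]
  have e1 : (1 / 2 : ℝ) • z + (1 / 2 : ℝ) • w = ((1 / 2 : ℝ) : ℂ) • (z + ((1 : ℝ) : ℂ) • w) := by
    rw [Complex.ofReal_one, one_smul, smul_add]
    rfl
  have e2 : ∀ u : Matrix (D × D) (D × D) ℂ,
      ipr (((1 / 2 : ℝ) : ℂ) • u) (((1 / 2 : ℝ) : ℂ) • u) = 1 / 4 * ipr u u := by
    intro u
    rw [ipr_smul, ipr_comm, ipr_smul]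
    ring
  rw [e1, e2, ipr_expand, hww] at h1
  have h2 : ipr z w ≥ ipr z z := by linarith
  have h3 : ipr (z + ((-1 : ℝ) : ℂ) • w) (z + ((-1 : ℝ) : ℂ) • w) ≤ 0 := by
    rw [ipr_expand, hww]
    linarith
  have h4 : ipr (z + ((-1 : ℝ) : ℂ) • w) (z + ((-1 : ℝ) : ℂ) • w) = 0 :=
    le_antisymm h3 (ipr_nonneg _)
  have h5 := eq_zero_of_ipr h4
  have h6 : z - w = 0 := by
    rw [← h5]
    push_cast
    rw [neg_smul, one_smul, sub_eq_add_neg]
  rw [← hw]
  exact (sub_eq_zero.mp h6).symm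

theorem flip_cj {V : Matrix D D ℂ} (hV : Vᴴ * V = 1) (x : Matrix (D × D) (D × D) ℂ) :
    (flipOp D * cj V x).trace = (flipOp D * x).trace := by
  have hc : flipOp D * (V ⊗ₖ V) = (V ⊗ₖ V) * flipOp D := by
    ext ⟨i, j⟩ ⟨k, l⟩
    rw [mul_apply, mul_apply, Finset.sum_eq_single (j, i), Finset.sum_eq_single (l, k)]
    · simp only [flipOp, kroneckerMap_apply, and_self, if_true, one_mul, mul_one]
      ring
    · rintro ⟨x, y⟩ - hxy
      rw [flipOp, if_neg, mul_zero]
      rintro ⟨h1, h2⟩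
      exact hxy (Prod.ext h1 h2)
    · intro hcc
      exact absurd (Finset.mem_univ _) hcc
    · rintro ⟨x, y⟩ - hxy
      rw [flipOp, if_neg, zero_mul]
      rintro ⟨h1, h2⟩
      exact hxy (Prod.ext h2.symm h1.symm)
    · intro hcc
      exact absurd (Finset.mem_univ _) hcc
  have e : flipOp D * cj V x = (V ⊗ₖ V) * (flipOp D * x * (V ⊗ₖ V)ᴴ) := by
    rw [cj, ← Matrix.mul_assoc, ← Matrix.mul_assoc, hc]
    simp only [Matrix.mul_assoc]
  rw [e, trace_mul_comm, Matrix.mul_assoc, kron_unit hV, Matrix.mul_one]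

theorem trace_cj {V : Matrix D D ℂ} (hV : Vᴴ * V = 1) (x : Matrix (D × D) (D × D) ℂ) :
    (cj V x).trace = x.trace := by
  rw [cj, Matrix.mul_assoc, trace_mul_comm, Matrix.mul_assoc, kron_unit hV, Matrix.mul_one]

/-- the conserved quantities -/
theorem hull_props {σ y : Matrix (D × D) (D × D) ℂ} (hσ : σ.PosSemidef)
    (hy : y ∈ closure (convexHull ℝ (orb σ))) :
    y.PosSemidef ∧ y.trace = σ.trace ∧ (flipOp D * y).trace = (flipOp D * σ).trace := by
  have hcl : IsClosed {y : Matrix (D × D) (D × D) ℂ | y.PosSemidef ∧ y.trace = σ.trace ∧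
      (flipOp D * y).trace = (flipOp D * σ).trace} := by
    refine IsClosed.inter psd_closed (IsClosed.inter ?_ ?_)
    · exact isClosed_eq continuous_id.matrix_trace continuous_const
    · exact isClosed_eq (continuous_const.matrix_mul continuous_id).matrix_trace continuous_const
  refine closure_minimal ?_ hcl hy
  refine convexHull_min ?_ ?_
  · rintro y ⟨V, hV, rfl⟩
    exact ⟨hσ.mul_mul_conjTranspose_same _, trace_cj hV σ, flip_cj hV σ⟩
  · rintro x ⟨hx1, hx2, hx3⟩ y ⟨hy1, hy2, hy3⟩ a b ha hb hab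
    refine ⟨?_, ?_, ?_⟩
    · have h1 : (((a : ℝ) : ℂ) • x).PosSemidef := hx1.smul (Complex.zero_le_real.mpr ha)
      have h2 : (((b : ℝ) : ℂ) • y).PosSemidef := hy1.smul (Complex.zero_le_real.mpr hb)
      exact h1.add h2
    · rw [trace_add, trace_smul, trace_smul, hx2, hy2, ← add_smul, hab, one_smul]
    · rw [Matrix.mul_add, Matrix.mul_smul, Matrix.mul_smul, trace_add, trace_smul, trace_smul,
        hx3, hy3, ← add_smul, hab, one_smul]

/-- convex combinations of the orbit -/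
def comb (σ : Matrix (D × D) (D × D) ℂ) : Set (Matrix (D × D) (D × D) ℂ) :=
  {y | ∃ (ι : Type) (_ : Fintype ι) (p : ι → ℝ) (V : ι → Matrix D D ℂ), (∀ i, 0 ≤ p i) ∧
    y = ∑ i, (p i : ℂ) • cj (V i) σ}

theorem hull_comb (σ : Matrix (D × D) (D × D) ℂ) : convexHull ℝ (orb σ) ⊆ comb σ := by
  refine convexHull_min ?_ ?_
  · rintro y ⟨V, -, rfl⟩
    refine ⟨Unit, inferInstance, fun _ => 1, fun _ => V, fun _ => zero_le_one, ?_⟩
    rw [Fintype.sum_unique, Complex.ofReal_one, one_smul]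
  · rintro x ⟨ι, _, p, V, hp, rfl⟩ y ⟨κ, _, q, U, hq, rfl⟩ a b ha hb hab
    refine ⟨ι ⊕ κ, inferInstance, Sum.elim (fun i => a * p i) (fun i => b * q i),
      Sum.elim V U, ?_, ?_⟩
    · rintro (i | i)
      · exact mul_nonneg ha (hp i)
      · exact mul_nonneg hb (hq i)
    · rw [Fintype.sum_sum_type]
      simp only [Sum.elim_inl, Sum.elim_inr]
      congr 1
      · rw [Finset.smul_sum]
        refine Finset.sum_congr rfl fun i _ => ?_
        rw [Complex.ofReal_mul, mul_smul]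
        rfl
      · rw [Finset.smul_sum]
        refine Finset.sum_congr rfl fun i _ => ?_
        rw [Complex.ofReal_mul, mul_smul]
        rfl

/-- **Twirling cannot create key.** -/
theorem keyPos_comb {σ y : Matrix (D × D) (D × D) ℂ} (hσ : σ.PosSemidef) (h1 : σ.trace = 1)
    (hy : y ∈ comb σ) (hy1 : y.trace = 1) (hk : KeyPos y) : KeyPos σ := by
  classical
  obtain ⟨ι, _, p, V, hp, hsum⟩ := hy
  refine keyPos_sepOp (K := ι) hσ h1 hy1 (fun _ => 1)
    (fun i => ((((√(p i) : ℝ) : ℂ) • V i) * idF D ((√(1 : ℝ) : ℝ) : ℂ)))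
    (fun i => V i * idF D 1) ?_ hk
  rw [hsum]
  refine Finset.sum_congr rfl fun i _ => ?_
  rw [← filtered_comp', filtered_idF σ zero_le_one, Complex.ofReal_one, one_smul, cj,
    smul_kronecker, conjTranspose_smul, RCLike.star_def, Complex.conj_ofReal]
  simp only [Matrix.smul_mul, Matrix.mul_smul, smul_smul]
  rw [← Complex.ofReal_mul, Real.mul_self_sqrt (hp i)]

end H625

end Vale.Agent.P372
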