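import Vale.Agent.P372.TestDefs

open Matrix Kronecker
open scoped ComplexOrder

namespace Vale.Agent.P372

namespace H625

/-- The flip operator `F(x ⊗ y) = y ⊗ x`. -/
def flipOp (D : Type) [DecidableEq D] : Matrix (D × D) (D × D) ℂ :=
  fun p q => if p.1 = q.2 ∧ p.2 = q.1 then 1 else 0

/-- The Werner state `(1 - F / d) / (d ^ 2 - 1)` with `tr F ρ = 0`. -/
noncomputable def wernerPt (D : Type) [Fintype D] [DecidableEq D] : Matrix (D × D) (D × D) ℂ :=
  ((((Fintype.card D : ℝ) ^ 2 - 1)⁻¹ : ℝ) : ℂ) •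
    (1 - (((Fintype.card D : ℝ)⁻¹ : ℝ) : ℂ) • flipOp D)

end H625

end Vale.Agent.P372
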