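import Vale.Agent.P372.H625.Smooth4
import Vale.Agent.P372.H625.WernerDefs
import Vale.Agent.P372.H625.Open

open Matrix Kronecker Filter Topology
open scoped ComplexOrder MatrixOrder

set_option linter.unusedSectionVars false

namespace Vale.Agent.P372

namespace H625

variable {D : Type} [Fintype D] [DecidableEq D]

/-- conjugation by `V ⊗ V` -/
def cj (V : Matrix D D ℂ) (z : Matrix (D × D) (D × D) ℂ) : Matrix (D × D) (D × D) ℂ :=
  (V ⊗ₖ V) * z * (V ⊗ₖ V)ᴴ

theorem kron_unit {V : Matrix D D ℂ} (h : Vᴴ * V = 1) : (V ⊗ₖ V)ᴴ * (V ⊗ₖ V) = 1 := by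
  rw [conjTranspose_kronecker, ← mul_kronecker_mul, h, one_kronecker_one]

theorem comm_of_inv {V : Matrix D D ℂ} (hV : Vᴴ * V = 1) {z : Matrix (D × D) (D × D) ℂ}
    (h : cj V z = z) : (V ⊗ₖ V) * z = z * (V ⊗ₖ V) := by
  calc (V ⊗ₖ V) * z = (V ⊗ₖ V) * z * ((V ⊗ₖ V)ᴴ * (V ⊗ₖ V)) := by
        rw [kron_unit hV, Matrix.mul_one]
    _ = cj V z * (V ⊗ₖ V) := by
        rw [cj]
        simp only [Matrix.mul_assoc]
    _ = _ := by rw [h]

/-- **The invariant operators.** -/
theorem werner_form {z : Matrix (D × D) (D × D) ℂ}
    (h : ∀ V : Matrix D D ℂ, Vᴴ * V = 1 → cj V z = z) :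
    ∃ α β : ℂ, z = α • 1 + β • flipOp D := by
  have hcomm : ∀ V : Matrix D D ℂ, Vᴴ * V = 1 → ∀ i j k l,
      ∑ x : D × D, V i x.1 * V j x.2 * z x (k, l) = ∑ x : D × D, z (i, j) x * (V x.1 k * V x.2 l) := by
    intro V hV i j k l
    have h1 := congrFun (congrFun (comm_of_inv hV (h V hV)) (i, j)) (k, l)
    rw [mul_apply, mul_apply] at h1
    exact h1
  -- phases
  have hph : ∀ m i j k l, (if i = m then Complex.I else 1) * (if j = m then Complex.I else 1) *
      z (i, j) (k, l) = z (i, j) (k, l) *
        ((if k = m then Complex.I else 1) * (if l = m then Complex.I else 1)) := by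
    intro m i j k l
    have hV : (diagonal fun x : D => if x = m then Complex.I else 1)ᴴ *
        (diagonal fun x : D => if x = m then Complex.I else 1) = 1 := by
      rw [diagonal_conjTranspose, diagonal_mul_diagonal, ← diagonal_one]
      congr 1
      funext x
      simp only [Pi.star_apply]
      split_ifs
      · rw [RCLike.star_def, Complex.conj_I, neg_mul, Complex.I_mul_I, neg_neg]
      · simp
    have h1 := hcomm _ hV i j k l
    rw [Finset.sum_eq_single (i, j), Finset.sum_eq_single (k, l)] at h1
    · simpa only [diagonal_apply_eq] using h1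
    · rintro ⟨x, y⟩ - hxy
      by_cases hx : x = k
      · have hy : y ≠ l := fun hy => hxy (by rw [hx, hy])
        simp only [diagonal_apply_ne _ hy, mul_zero]
      · simp only [diagonal_apply_ne _ hx, zero_mul, mul_zero]
    · intro hc
      exact absurd (Finset.mem_univ _) hc
    · rintro ⟨x, y⟩ - hxy
      by_cases hx : x = i
      · have hy : y ≠ j := fun hy => hxy (by rw [hx, hy])
        simp only [diagonal_apply_ne _ hy.symm, mul_zero, zero_mul]
      · simp only [diagonal_apply_ne _ (Ne.symm hx), zero_mul]
    · intro hc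
      exact absurd (Finset.mem_univ _) hc
  have hI2 : Complex.I * Complex.I = -1 := Complex.I_mul_I
  have hI1 : Complex.I ≠ 1 := by
    intro hc
    have := congrArg Complex.re hc
    simp at this
  have hz0 : ∀ i j k l, ¬ ((k = i ∧ l = j) ∨ (k = j ∧ l = i)) → z (i, j) (k, l) = 0 := by
    intro i j k l hne
    by_contra hz
    have key : ∀ m, (if i = m then Complex.I else 1) * (if j = m then Complex.I else 1) =
        (if k = m then Complex.I else 1) * (if l = m then Complex.I else 1) := by
      intro m
      have h1 := hph m i j k l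
      rw [mul_comm (z (i, j) (k, l))] at h1
      exact mul_right_cancel₀ hz h1
    have hne1 : (-1 : ℂ) ≠ 1 := by norm_num
    have hne2 : Complex.I ≠ -1 := by
      intro hc
      have := congrArg Complex.re hc
      simp at this
    apply hne
    have k1 := key i
    have k2 := key j
    rw [if_pos rfl] at k1
    by_cases hij : j = i
    · subst hij
      rw [if_pos rfl, hI2] at k1
      by_cases hk : k = j
      · by_cases hl : l = j
        · exact Or.inl ⟨hk, hl⟩
        · rw [if_pos hk, if_neg hl, mul_one] at k1
          exact absurd k1.symm hne2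
      · by_cases hl : l = j
        · rw [if_neg hk, if_pos hl, one_mul] at k1
          exact absurd k1.symm hne2
        · rw [if_neg hk, if_neg hl, mul_one] at k1
          exact absurd k1 hne1
    · rw [if_neg hij, mul_one] at k1
      rw [if_pos rfl, if_neg (Ne.symm hij), one_mul] at k2
      by_cases hk : k = i
      · by_cases hl : l = j
        · exact Or.inl ⟨hk, hl⟩
        · rw [if_neg (fun hc => hij (hc.symm.trans hk)), if_neg hl, mul_one] at k2
          exact absurd k2 hI1
      · by_cases hl : l = i
        · by_cases hk' : k = j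
          · exact Or.inr ⟨hk', hl⟩
          · rw [if_neg hk', if_neg (fun hc => hij (hc.symm.trans hl)), mul_one] at k2
            exact absurd k2 hI1
        · rw [if_neg hk, if_neg hl, mul_one] at k1
          exact absurd k1 hI1
  -- permutations
  have hperm : ∀ (π : Equiv.Perm D) i j k l, z (π i, π j) (π k, π l) = z (i, j) (k, l) := by
    intro π i j k l
    have hV : (of fun x y : D => if x = π y then (1 : ℂ) else 0)ᴴ *
        (of fun x y : D => if x = π y then (1 : ℂ) else 0) = 1 := by
      ext x y
      rw [mul_apply, Finset.sum_eq_single (π x)]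
      · simp only [conjTranspose_apply, of_apply, if_true, star_one, one_mul, one_apply]
        simp only [EmbeddingLike.apply_eq_iff_eq]
      · intro w _ hw
        simp only [conjTranspose_apply, of_apply, if_neg hw, star_zero, zero_mul]
      · intro hc
        exact absurd (Finset.mem_univ _) hc
    have h1 := hcomm _ hV (π i) (π j) k l
    rw [Finset.sum_eq_single (i, j), Finset.sum_eq_single (π k, π l)] at h1
    · simpa only [of_apply, if_true, one_mul, mul_one] using h1.symm
    · rintro ⟨x, y⟩ - hxy
      by_cases hx : x = π k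
      · have hy : y ≠ π l := fun hy => hxy (by rw [hx, hy])
        simp only [of_apply, if_neg hy, mul_zero]
      · simp only [of_apply, if_neg hx, zero_mul, mul_zero]
    · intro hc
      exact absurd (Finset.mem_univ _) hc
    · rintro ⟨x, y⟩ - hxy
      by_cases hx : π i = π x
      · have hy : ¬ π j = π y := fun hy => hxy (by rw [π.injective hx, π.injective hy])
        simp only [of_apply, if_neg hy, mul_zero, zero_mul]
      · simp only [of_apply, if_neg hx, zero_mul]
    · intro hc
      exact absurd (Finset.mem_univ _) hc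
  have htrans : ∀ i j i' j' : D, i ≠ j → i' ≠ j' → ∃ π : Equiv.Perm D, π i = i' ∧ π j = j' := by
    intro i j i' j' hij hij'
    obtain ⟨j₁, hj₁⟩ : ∃ j₁, j₁ = Equiv.swap i i' j := ⟨_, rfl⟩
    have hne : i' ≠ j₁ := by
      rw [hj₁]
      intro hc
      have h2 : Equiv.swap i i' i = Equiv.swap i i' j := by rw [Equiv.swap_apply_left]; exact hc
      exact hij ((Equiv.swap i i').injective h2)
    refine ⟨(Equiv.swap i i').trans (Equiv.swap j₁ j'), ?_, ?_⟩
    · rw [Equiv.trans_apply, Equiv.swap_apply_left, Equiv.swap_apply_of_ne_of_ne hne hij']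
    · rw [Equiv.trans_apply, ← hj₁, Equiv.swap_apply_left]
  -- the rotation
  have hrot : ∀ a b : D, a ≠ b → z (a, a) (a, a) = z (a, b) (a, b) + z (a, b) (b, a) := by
    intro a b hab
    obtain ⟨v, hv⟩ : ∃ v : D → ℂ, v = fun x => if x = a then 1 else if x = b then -2 else 0 :=
      ⟨_, rfl⟩
    have hva : v a = 1 := by rw [hv]; exact if_pos rfl
    have hvb : v b = -2 := by
      rw [hv]
      beta_reduce
      rw [if_neg hab.symm, if_pos rfl]
    have hv0 : ∀ x, x ≠ a → x ≠ b → v x = 0 := by
      intro x h1 h2
      rw [hv]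
      beta_reduce
      rw [if_neg h1, if_neg h2]
    have hvr : ∀ x, star (v x) = v x := by
      intro x
      rw [hv]
      beta_reduce
      split_ifs <;> simp
    have hsum : ∑ x, v x * v x = 5 := by
      rw [Finset.sum_eq_add a b hab]
      · rw [hva, hvb]
        norm_num
      · rintro x - ⟨h1, h2⟩
        rw [hv0 x h1 h2, zero_mul]
      · intro hc
        exact absurd (Finset.mem_univ _) hc
      · intro hc
        exact absurd (Finset.mem_univ _) hc
    obtain ⟨V, hV⟩ : ∃ V : Matrix D D ℂ, V = of fun x y =>
        (if x = y then 1 else 0) - (2 / 5 : ℂ) * (v x * v y) := ⟨_, rfl⟩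
    have hVV : Vᴴ * V = 1 := by
      ext x y
      rw [mul_apply, hV]
      simp only [conjTranspose_apply, of_apply]
      have e : ∀ w, star ((if w = x then (1 : ℂ) else 0) - (2 / 5 : ℂ) * (v w * v x)) *
          ((if w = y then 1 else 0) - (2 / 5 : ℂ) * (v w * v y)) =
          (if w = x then (if w = y then 1 else 0) else 0) -
            (if w = x then (2 / 5 : ℂ) * (v w * v y) else 0) -
            (if w = y then (2 / 5 : ℂ) * (v w * v x) else 0) +
            (4 / 25 : ℂ) * (v x * v y) * (v w * v w) := by
        intro w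
        have h25 : star (2 / 5 : ℂ) = 2 / 5 := by
          have h26 : (2 / 5 : ℂ) = ((2 / 5 : ℝ) : ℂ) := by
            push_cast
            rfl
          rw [h26, RCLike.star_def, Complex.conj_ofReal]
        rw [star_sub, star_mul', star_mul', hvr, hvr, h25]
        have h3 : star (if w = x then (1 : ℂ) else 0) = if w = x then 1 else 0 := by
          split_ifs <;> simp
        rw [h3]
        split_ifs <;> ring
      simp only [e]
      rw [Finset.sum_add_distrib, Finset.sum_sub_distrib, Finset.sum_sub_distrib,
        ← Finset.mul_sum, hsum, Finset.sum_ite_eq', Finset.sum_ite_eq', Finset.sum_ite_eq',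
        if_pos (Finset.mem_univ _), if_pos (Finset.mem_univ _), if_pos (Finset.mem_univ _),
        one_apply]
      ring
    have hVaa : V a a = 3 / 5 := by
      rw [hV, of_apply, if_pos rfl, hva]
      norm_num
    have hVba : V b a = 4 / 5 := by
      rw [hV, of_apply, if_neg hab.symm, hva, hvb]
      norm_num
    have h1 := hcomm V hVV a b a a
    rw [Finset.sum_eq_single (a, a)] at h1
    · rw [Finset.sum_eq_add (a, b) (b, a) (by
        intro hc
        exact hab (Prod.mk.inj hc).1)] at h1
      · rw [hVaa, hVba] at h1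
        have h2 : (12 / 25 : ℂ) * z (a, a) (a, a) =
            (12 / 25 : ℂ) * (z (a, b) (a, b) + z (a, b) (b, a)) := by
          linear_combination h1
        exact mul_left_cancel₀ (by norm_num) h2
      · rintro ⟨x, y⟩ - ⟨h2, h3⟩
        rw [hz0 a b x y, zero_mul]
        rintro (⟨rfl, rfl⟩ | ⟨rfl, rfl⟩)
        · exact h2 rfl
        · exact h3 rfl
      · intro hc
        exact absurd (Finset.mem_univ _) hc
      · intro hc
        exact absurd (Finset.mem_univ _) hc
    · rintro ⟨x, y⟩ - hxy
      rw [hz0 x y a a, mul_zero]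
      rintro (⟨rfl, rfl⟩ | ⟨rfl, rfl⟩) <;> exact hxy rfl
    · intro hc
      exact absurd (Finset.mem_univ _) hc
  -- conclusion
  by_cases hex : ∃ a b : D, a ≠ b
  · obtain ⟨a, b, hab⟩ := hex
    refine ⟨z (a, b) (a, b), z (a, b) (b, a), ?_⟩
    ext ⟨i, j⟩ ⟨k, l⟩
    rw [Matrix.add_apply, Matrix.smul_apply, Matrix.smul_apply, smul_eq_mul, smul_eq_mul,
      one_apply, flipOp]
    by_cases h1 : k = i ∧ l = j
    · obtain ⟨rfl, rfl⟩ := h1
      rw [if_pos rfl, mul_one]
      by_cases hkl : k = l
      · subst hkl
        rw [if_pos ⟨rfl, rfl⟩, mul_one, ← hrot a b hab]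
        have := hperm (Equiv.swap a k) a a a a
        rwa [Equiv.swap_apply_left] at this
      · rw [if_neg (fun hc => hkl hc.1), mul_zero, add_zero]
        obtain ⟨π, h2, h3⟩ := htrans a b k l hab hkl
        have := hperm π a b a b
        rwa [h2, h3] at this
    · by_cases h2 : k = j ∧ l = i
      · obtain ⟨rfl, rfl⟩ := h2
        have hne : l ≠ k := fun hc => h1 ⟨hc.symm, hc⟩
        rw [if_neg (fun hc => hne (Prod.mk.inj hc).1), if_pos ⟨rfl, rfl⟩, mul_zero, zero_add,
          mul_one]
        obtain ⟨π, h3, h4⟩ := htrans a b l k hab hne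
        have := hperm π a b b a
        rwa [h3, h4] at this
      · rw [hz0 i j k l (by tauto), if_neg, if_neg, mul_zero, mul_zero, add_zero]
        · exact fun hc => h2 ⟨hc.2.symm, hc.1.symm⟩
        · intro hc
          obtain ⟨rfl, rfl⟩ := Prod.mk.inj hc
          exact h1 ⟨rfl, rfl⟩
  · push Not at hex
    by_cases hne : Nonempty D
    · obtain ⟨a⟩ := hne
      refine ⟨z (a, a) (a, a), 0, ?_⟩
      ext ⟨i, j⟩ ⟨k, l⟩
      rw [hex i a, hex j a, hex k a, hex l a, zero_smul, add_zero, Matrix.smul_apply,
        one_apply_eq, smul_eq_mul, mul_one]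
    · refine ⟨0, 0, ?_⟩
      ext ⟨i, j⟩ ⟨k, l⟩
      exact absurd ⟨i⟩ hne

end H625

end Vale.Agent.P372
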