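import Vale.Agent.P372.H625.Twirl

open Matrix Kronecker Filter Topology
open scoped ComplexOrder MatrixOrder

set_option linter.unusedSectionVars false

namespace Vale.Agent.P372

namespace H625

variable {D : Type} [Fintype D] [DecidableEq D]

theorem flip_sq : flipOp D * flipOp D = 1 := by
  ext ⟨i, j⟩ ⟨k, l⟩
  rw [mul_apply, Finset.sum_eq_single (j, i)]
  · rw [flipOp, if_pos ⟨rfl, rfl⟩, one_mul, flipOp, one_apply]
    by_cases h : j = l ∧ i = k
    · rw [if_pos h, if_pos (Prod.ext h.2 h.1)]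
    · rw [if_neg h, if_neg (fun hc => h ⟨(Prod.mk.inj hc).2, (Prod.mk.inj hc).1⟩)]
  · rintro ⟨x, y⟩ - hxy
    rw [flipOp, if_neg, zero_mul]
    rintro ⟨h1, h2⟩
    exact hxy (Prod.ext h2.symm h1.symm)
  · intro hcc
    exact absurd (Finset.mem_univ _) hcc

theorem flip_herm : (flipOp D)ᴴ = flipOp D := by
  ext ⟨i, j⟩ ⟨k, l⟩
  rw [conjTranspose_apply, flipOp, flipOp]
  by_cases h : k = j ∧ l = i
  · rw [if_pos h, if_pos ⟨h.2.symm, h.1.symm⟩, star_one]
  · rw [if_neg h, if_neg (fun hc => h ⟨hc.2.symm, hc.1.symm⟩), star_zero]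

theorem flip_trace : (flipOp D).trace = (Fintype.card D : ℂ) := by
  rw [trace, Fintype.sum_prod_type]
  have h : ∀ i : D, ∑ j : D, diag (flipOp D) (i, j) = 1 := by
    intro i
    rw [Finset.sum_eq_single i]
    · rw [diag_apply, flipOp, if_pos ⟨rfl, rfl⟩]
    · intro j _ hj
      rw [diag_apply, flipOp, if_neg (fun hc => hj hc.2)]
    · intro hcc
      exact absurd (Finset.mem_univ _) hcc
  simp only [h]
  rw [Finset.sum_const, Finset.card_univ, nsmul_eq_mul, mul_one]

/-- the Werner state with `tr F ρ = φ` -/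
noncomputable def wer (D : Type) [Fintype D] [DecidableEq D] (φ : ℝ) :
    Matrix (D × D) (D × D) ℂ :=
  (((1 - φ / Fintype.card D) / ((Fintype.card D : ℝ) ^ 2 - 1) : ℝ) : ℂ) • 1 +
    (((φ - 1 / Fintype.card D) / ((Fintype.card D : ℝ) ^ 2 - 1) : ℝ) : ℂ) • flipOp D

theorem wer_zero : wer D 0 = wernerPt D := by
  have e1 : (1 - 0 / (Fintype.card D : ℝ)) / ((Fintype.card D : ℝ) ^ 2 - 1) =
      ((Fintype.card D : ℝ) ^ 2 - 1)⁻¹ := by
    rw [zero_div, sub_zero, one_div]
  have e2 : (0 - 1 / (Fintype.card D : ℝ)) / ((Fintype.card D : ℝ) ^ 2 - 1) =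
      -(((Fintype.card D : ℝ) ^ 2 - 1)⁻¹ * (Fintype.card D : ℝ)⁻¹) := by
    rw [zero_sub, one_div, neg_div, div_eq_mul_inv, mul_comm]
  rw [wer, e1, e2, wernerPt]
  ext p q
  simp only [Matrix.add_apply, Matrix.sub_apply, Matrix.smul_apply, smul_eq_mul]
  push_cast
  ring

theorem wer_of {z : Matrix (D × D) (D × D) ℂ} (hd : 2 ≤ Fintype.card D) {α β : ℂ}
    (hz : z = α • 1 + β • flipOp D) (h1 : z.trace = 1) {φ : ℝ}
    (hφ : (flipOp D * z).trace = (φ : ℂ)) : z = wer D φ := by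
  have hd' : (2 : ℝ) ≤ Fintype.card D := by exact_mod_cast hd
  have hd0 : (Fintype.card D : ℂ) ≠ 0 := by
    have : (Fintype.card D : ℝ) ≠ 0 := by linarith
    exact_mod_cast this
  have hd1 : (Fintype.card D : ℂ) ^ 2 - 1 ≠ 0 := by
    have : (Fintype.card D : ℝ) ^ 2 - 1 ≠ 0 := by nlinarith
    exact_mod_cast this
  rw [hz, trace_add, trace_smul, trace_smul, flip_trace, trace_one, Fintype.card_prod] at h1
  rw [hz, Matrix.mul_add, Matrix.mul_smul, Matrix.mul_smul, Matrix.mul_one, flip_sq, trace_add,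
    trace_smul, trace_smul, flip_trace, trace_one, Fintype.card_prod] at hφ
  push_cast [smul_eq_mul] at h1 hφ
  have hα : α = ((1 - φ / Fintype.card D) / ((Fintype.card D : ℝ) ^ 2 - 1) : ℝ) := by
    push_cast
    rw [eq_div_iff hd1]
    field_simp
    linear_combination (Fintype.card D : ℂ) * h1 - hφ
  have hβ : β = ((φ - 1 / Fintype.card D) / ((Fintype.card D : ℝ) ^ 2 - 1) : ℝ) := by
    push_cast
    rw [eq_div_iff hd1]
    field_simp
    linear_combination (Fintype.card D : ℂ) * hφ - h1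
  rw [hz, hα, hβ, wer]

theorem wer_trace (hd : 2 ≤ Fintype.card D) (φ : ℝ) : (wer D φ).trace = 1 := by
  have hd' : (2 : ℝ) ≤ Fintype.card D := by exact_mod_cast hd
  have hd0 : (Fintype.card D : ℝ) ≠ 0 := by linarith
  have hd1 : (Fintype.card D : ℝ) ^ 2 - 1 ≠ 0 := by nlinarith
  rw [wer, trace_add, trace_smul, trace_smul, flip_trace, trace_one, Fintype.card_prod,
    smul_eq_mul, smul_eq_mul, Nat.cast_mul]
  have : (1 - φ / Fintype.card D) / ((Fintype.card D : ℝ) ^ 2 - 1) *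
      ((Fintype.card D : ℝ) * Fintype.card D) +
      (φ - 1 / Fintype.card D) / ((Fintype.card D : ℝ) ^ 2 - 1) * Fintype.card D = 1 := by
    field_simp
    ring
  exact_mod_cast this

theorem wer_flip (hd : 2 ≤ Fintype.card D) (φ : ℝ) : (flipOp D * wer D φ).trace = φ := by
  have hd' : (2 : ℝ) ≤ Fintype.card D := by exact_mod_cast hd
  have hd0 : (Fintype.card D : ℝ) ≠ 0 := by linarith
  have hd1 : (Fintype.card D : ℝ) ^ 2 - 1 ≠ 0 := by nlinarith
  rw [wer, Matrix.mul_add, Matrix.mul_smul, Matrix.mul_smul, Matrix.mul_one, flip_sq, trace_add,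
    trace_smul, trace_smul, flip_trace, trace_one, Fintype.card_prod,
    smul_eq_mul, smul_eq_mul, Nat.cast_mul]
  have : (1 - φ / Fintype.card D) / ((Fintype.card D : ℝ) ^ 2 - 1) * Fintype.card D +
      (φ - 1 / Fintype.card D) / ((Fintype.card D : ℝ) ^ 2 - 1) *
      ((Fintype.card D : ℝ) * Fintype.card D) = φ := by
    field_simp
    ring
  exact_mod_cast this

theorem one_sub_flip_psd : (1 - flipOp D).PosSemidef := by
  have h : 1 - flipOp D = ((1 / 2 : ℝ) : ℂ) • ((1 - flipOp D)ᴴ * (1 - flipOp D)) := by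
    rw [conjTranspose_sub, conjTranspose_one, flip_herm, Matrix.sub_mul, Matrix.mul_sub,
      Matrix.mul_sub, flip_sq, Matrix.one_mul, Matrix.one_mul, Matrix.mul_one]
    ext p q
    simp only [Matrix.sub_apply, Matrix.smul_apply, smul_eq_mul]
    push_cast
    ring
  rw [h]
  exact (posSemidef_conjTranspose_mul_self _).smul (Complex.zero_le_real.mpr (by norm_num))

theorem wer_psd (hd : 2 ≤ Fintype.card D) {φ : ℝ} (h1 : -1 ≤ φ) (h2 : φ ≤ 0) :
    (wer D φ).PosSemidef := by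
  have hd' : (2 : ℝ) ≤ Fintype.card D := by exact_mod_cast hd
  have hd0 : 0 < (Fintype.card D : ℝ) := by linarith
  have hd1 : 0 < (Fintype.card D : ℝ) ^ 2 - 1 := by nlinarith
  obtain ⟨a, ha⟩ : ∃ a : ℝ, a = (1 - φ / Fintype.card D) / ((Fintype.card D : ℝ) ^ 2 - 1) :=
    ⟨_, rfl⟩
  obtain ⟨b, hb⟩ : ∃ b : ℝ, b = (φ - 1 / Fintype.card D) / ((Fintype.card D : ℝ) ^ 2 - 1) :=
    ⟨_, rfl⟩
  have hb0 : 0 ≤ -b := by
    rw [hb, ← neg_div]
    refine div_nonneg ?_ hd1.le
    have : 0 < 1 / (Fintype.card D : ℝ) := by positivity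
    linarith
  have hab : 0 ≤ a + b := by
    rw [ha, hb, ← add_div]
    refine div_nonneg ?_ hd1.le
    have h3 : 1 / (Fintype.card D : ℝ) ≤ 1 := by
      rw [div_le_one hd0]
      linarith
    have h4 : φ / (Fintype.card D : ℝ) = φ * (1 / Fintype.card D) := by ring
    rw [h4]
    nlinarith
  have e : wer D φ = ((a + b : ℝ) : ℂ) • 1 + ((-b : ℝ) : ℂ) • (1 - flipOp D) := by
    rw [wer, ← ha, ← hb]
    ext p q
    simp only [Matrix.add_apply, Matrix.sub_apply, Matrix.smul_apply, smul_eq_mul]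
    push_cast
    ring
  rw [e]
  exact (PosSemidef.one.smul (Complex.zero_le_real.mpr hab)).add
    (one_sub_flip_psd.smul (Complex.zero_le_real.mpr hb0))

/-- the maximally entangled vector, not normalised -/
def omv (D : Type) [DecidableEq D] : D × D → ℂ := fun p => if p.1 = p.2 then 1 else 0

theorem flip_tr (z : Matrix (D × D) (D × D) ℂ) :
    (flipOp D * z).trace = ∑ i, ∑ j, z (j, i) (i, j) := by
  rw [trace, Fintype.sum_prod_type]
  refine Finset.sum_congr rfl fun i _ => Finset.sum_congr rfl fun j _ => ?_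
  rw [diag_apply, mul_apply, Finset.sum_eq_single (j, i)]
  · rw [flipOp, if_pos ⟨rfl, rfl⟩, one_mul]
  · rintro ⟨x, y⟩ - hxy
    rw [flipOp, if_neg, zero_mul]
    rintro ⟨h1, h2⟩
    exact hxy (Prod.ext h2.symm h1.symm)
  · intro hcc
    exact absurd (Finset.mem_univ _) hcc

theorem flip_omv (z : Matrix (D × D) (D × D) ℂ) :
    (flipOp D * z).trace = star (omv D) ⬝ᵥ (pTrans z *ᵥ omv D) := by
  have h2 : ∀ (f : D × D → ℂ), ∑ p : D × D, f p * omv D p = ∑ i, f (i, i) := by
    intro f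
    rw [Fintype.sum_prod_type]
    refine Finset.sum_congr rfl fun i _ => ?_
    rw [Finset.sum_eq_single i]
    · rw [omv, if_pos rfl, mul_one]
    · intro j _ hj
      rw [omv, if_neg (Ne.symm hj), mul_zero]
    · intro hcc
      exact absurd (Finset.mem_univ _) hcc
  have h3 : star (omv D) = omv D := by
    funext p
    rw [Pi.star_apply, omv]
    split_ifs <;> simp
  rw [flip_tr, h3, dotProduct_comm, dotProduct, h2]
  rw [Finset.sum_comm]
  refine Finset.sum_congr rfl fun i _ => ?_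
  rw [mulVec, dotProduct, h2]
  rfl

theorem wer_npt (hd : 2 ≤ Fintype.card D) {φ : ℝ} (h : φ < 0) :
    ¬ (pTrans (wer D φ)).PosSemidef := by
  intro hc
  have h1 := hc.dotProduct_mulVec_nonneg (omv D)
  rw [← flip_omv, wer_flip hd, Complex.zero_le_real] at h1
  linarith

/-- Werner states with `tr F ρ < 0` and the point `wernerPt`. -/
theorem wer_line (hd : 2 ≤ Fintype.card D) (φ : ℝ) {η : ℝ} :
    ((1 + η : ℝ) : ℂ) • wernerPt D - (η : ℂ) • wer D φ =
      mixN (wernerPt D) (η * (-φ * Fintype.card D)) := by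
  have hd' : (2 : ℝ) ≤ Fintype.card D := by exact_mod_cast hd
  have hd0 : (Fintype.card D : ℂ) ≠ 0 := by
    have : (Fintype.card D : ℝ) ≠ 0 := by linarith
    exact_mod_cast this
  have hd1 : (Fintype.card D : ℂ) ^ 2 - 1 ≠ 0 := by
    have : (Fintype.card D : ℝ) ^ 2 - 1 ≠ 0 := by nlinarith
    exact_mod_cast this
  rw [wernerPt, wer, mixN, Fintype.card_prod]
  ext p q
  simp only [Matrix.add_apply, Matrix.sub_apply, Matrix.smul_apply, smul_eq_mul]
  push_cast
  field_simp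
  ring

end H625

end Vale.Agent.P372
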