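import Vale.Agent.P372.H625.WernerSt

open Matrix Kronecker Filter Topology
open scoped ComplexOrder MatrixOrder

set_option linter.unusedSectionVars false

namespace Vale.Agent.P372

namespace H625

variable {D : Type} [Fintype D] [DecidableEq D]

theorem single_psd (x : D) : (Matrix.single x x (1 : ℂ)).PosSemidef := by
  have h : Matrix.single x x (1 : ℂ) = (Matrix.single x x (1 : ℂ))ᴴ * Matrix.single x x 1 := by
    rw [conjTranspose_single, star_one, single_mul_single_same, mul_one]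
  rw [h]
  exact posSemidef_conjTranspose_mul_self _

/-- The state `wernerPt` is separable. -/
theorem werner_sep (hd : 2 ≤ Fintype.card D) : IsSep (wernerPt D) := by
  obtain ⟨a, b, hab⟩ := Fintype.one_lt_card_iff.mp (show 1 < Fintype.card D by omega)
  obtain ⟨σ, hσ⟩ : ∃ σ : Matrix (D × D) (D × D) ℂ,
      σ = Matrix.single a a (1 : ℂ) ⊗ₖ Matrix.single b b (1 : ℂ) := ⟨_, rfl⟩
  have hsep : IsSep σ := ⟨1, fun _ => Matrix.single a a 1, fun _ => Matrix.single b b 1,
    fun _ => single_psd a, fun _ => single_psd b, by rw [Fintype.sum_unique, hσ]⟩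
  have htr : σ.trace = 1 := by
    rw [hσ, trace_kronecker, trace_single_eq_same, trace_single_eq_same, mul_one]
  have hfl : (flipOp D * σ).trace = ((0 : ℝ) : ℂ) := by
    rw [flip_tr, Complex.ofReal_zero]
    refine Finset.sum_eq_zero fun i _ => Finset.sum_eq_zero fun j _ => ?_
    rw [hσ, kroneckerMap_apply]
    change Matrix.single a a (1 : ℂ) j i * Matrix.single b b (1 : ℂ) i j = 0
    by_cases hi : a = i
    · rw [single_apply_of_row_ne (i := b) (i' := i) (fun h => hab (hi.trans h.symm)), mul_zero]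
    · rw [single_apply_of_col_ne (j := a) (j' := i) _ _ hi, zero_mul]
  obtain ⟨z, hz, hinv⟩ := exists_inv σ
  obtain ⟨α, β, hz'⟩ := werner_form hinv
  obtain ⟨hzp, hzt, hzf⟩ := hull_props (sep_psd hsep) hz
  have hw : z = wer D 0 := wer_of hd hz' (hzt.trans htr) (hzf.trans hfl)
  rw [← wer_zero, ← hw]
  refine mixSet_sep (closure_minimal ?_ (mixSet_closed (mixNum D D)) hz)
  have h2 : convexHull ℝ (orb σ) ⊆ {y | IsSep y ∧ y.trace = 1} := by
    refine convexHull_min ?_ ?_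
    · rintro y ⟨V, hV, rfl⟩
      exact ⟨sep_filt hsep V V, (trace_cj hV σ).trans htr⟩
    · rintro x ⟨hx1, hx2⟩ y ⟨hy1, hy2⟩ p q hp hq hpq
      refine ⟨Lim.IsSep.add (sep_smul hx1 hp) (sep_smul hy1 hq), ?_⟩
      rw [trace_add, trace_smul, trace_smul, hx2, hy2, ← add_smul, hpq, one_smul]
  exact fun y hy => sep_mem_mixSet (h2 hy).1 (h2 hy).2

/-- **If the state `wernerPt` is a limit of states with key, then so do all states with
`tr F σ < 0`.** -/
theorem werner_key (hd : 2 ≤ Fintype.card D)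
    (hlim : wernerPt D ∈ closure {ρ | ρ.PosSemidef ∧ ρ.trace = 1 ∧ KeyPos ρ})
    {σ : Matrix (D × D) (D × D) ℂ} (hσ : σ.PosSemidef) (h1 : σ.trace = 1)
    (hneg : (flipOp D * σ).trace.re < 0) : KeyPos σ := by
  obtain ⟨z, hz, hinv⟩ := exists_inv σ
  obtain ⟨α, β, hz'⟩ := werner_form hinv
  obtain ⟨hzp, hzt, hzf⟩ := hull_props hσ hz
  obtain ⟨φ, hφ⟩ : ∃ φ : ℝ, φ = (flipOp D * σ).trace.re := ⟨_, rfl⟩
  have hreal : (flipOp D * σ).trace = (φ : ℂ) := by
    have h2 : star (flipOp D * σ).trace = (flipOp D * σ).trace := by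
      rw [← trace_conjTranspose, conjTranspose_mul, flip_herm, hσ.1.eq, trace_mul_comm]
    rw [RCLike.star_def, Complex.conj_eq_iff_real] at h2
    obtain ⟨r, hr⟩ := h2
    rw [hφ, hr, Complex.ofReal_re]
  have hw : z = wer D φ := wer_of hd hz' (hzt.trans h1) (hzf.trans hreal)
  have hφ0 : φ < 0 := by rw [hφ]; exact hneg
  have hd' : (2 : ℝ) ≤ Fintype.card D := by exact_mod_cast hd
  obtain ⟨t, ht⟩ : ∃ t : ℝ, t = -φ * Fintype.card D := ⟨_, rfl⟩
  have ht0 : 0 < t := by
    rw [ht]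
    exact mul_pos (by linarith) (by linarith)
  have hwt : (wernerPt D).trace = 1 := by rw [← wer_zero, wer_trace hd]
  obtain ⟨δ, hδ, H⟩ := sep_ball (werner_sep hd) hwt (β := 1 / 2) (by norm_num) (by norm_num)
  have hkz : KeyPos z := by
    refine keyPos_shadow hzp (hzt.trans h1) hlim (η := 1 / (2 * t)) (by positivity) hδ
      fun τ hτ _ hd'' => H τ hτ ?_
    rw [hw, wer_line hd, ← ht] at hd''
    have e : 1 / (2 * t) * t = 1 / 2 := by field_simp
    rwa [e] at hd''
  obtain ⟨δ', hδ', H'⟩ := keyPos_open hzp (hzt.trans h1) hkz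
  obtain ⟨y, hy1, hy2⟩ := mem_closure_iff_nhds.mp hz _ (near_nhds z hδ')
  obtain ⟨hyp, hyt, hyf⟩ := hull_props hσ (subset_closure hy2)
  exact keyPos_comb hσ h1 (hull_comb σ hy2) (hyt.trans h1) (H' y (hyt.trans h1) hy1)

variable {A B : Type} [Fintype A] [DecidableEq A] [Fintype B] [DecidableEq B]

/-- NPT states can be filtered to states with `tr F σ < 0`. -/
theorem npt_filter (hcard : Fintype.card A ≤ Fintype.card D ∨ Fintype.card B ≤ Fintype.card D)
    {ρ : Matrix (A × B) (A × B) ℂ} (hρ : ρ.IsHermitian) (h : ¬ (pTrans ρ).PosSemidef) :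
    ∃ (X : Matrix D A ℂ) (Y : Matrix D B ℂ),
      (flipOp D * ((X ⊗ₖ Y) * ρ * (X ⊗ₖ Y)ᴴ)).trace.re < 0 := by
  rw [posSemidef_iff_dotProduct_mulVec] at h
  have h1 : ¬ ∀ x : A × B → ℂ, 0 ≤ star x ⬝ᵥ (pTrans ρ *ᵥ x) := fun hc => h ⟨pTrans_herm hρ, hc⟩
  push Not at h1
  obtain ⟨ψ, hψ⟩ := h1
  have hψr : (star ψ ⬝ᵥ (pTrans ρ *ᵥ ψ)).re < 0 := by
    by_contra hc
    rw [not_lt] at hc
    apply hψ
    have h2 : star (star ψ ⬝ᵥ (pTrans ρ *ᵥ ψ)) = star ψ ⬝ᵥ (pTrans ρ *ᵥ ψ) := by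
      rw [← star_dotProduct_star, star_star, star_mulVec, (pTrans_herm hρ).eq,
        ← dotProduct_mulVec]
    rw [RCLike.star_def, Complex.conj_eq_iff_real] at h2
    obtain ⟨r, hr⟩ := h2
    rw [hr, Complex.ofReal_re] at hc
    rw [hr]
    exact Complex.zero_le_real.mpr hc
  have key : ∀ (X : Matrix D A ℂ) (Y : Matrix D B ℂ),
      (∀ a b, ∑ i, star (X i a) * Y i b = ψ (a, b)) →
      (flipOp D * ((X ⊗ₖ Y) * ρ * (X ⊗ₖ Y)ᴴ)).trace.re < 0 := by
    intro X Y hXY
    have h3 : (X ⊗ₖ Y.map star)ᴴ *ᵥ omv D = ψ := by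
      funext p
      obtain ⟨a, b⟩ := p
      rw [← hXY a b, mulVec, dotProduct, Fintype.sum_prod_type]
      refine Finset.sum_congr rfl fun i _ => ?_
      rw [Finset.sum_eq_single i]
      · rw [omv, if_pos rfl, mul_one, conjTranspose_apply, kroneckerMap_apply, star_mul', map_apply,
          star_star]
      · intro j _ hj
        rw [omv, if_neg (Ne.symm hj), mul_zero]
      · intro hcc
        exact absurd (Finset.mem_univ _) hcc
    rw [flip_omv, pTrans_filt]
    have h4 : star (omv D) ⬝ᵥ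
        (((X ⊗ₖ Y.map star) * pTrans ρ * (X ⊗ₖ Y.map star)ᴴ) *ᵥ omv D) =
        star ψ ⬝ᵥ (pTrans ρ *ᵥ ψ) := by
      rw [← mulVec_mulVec, h3, ← mulVec_mulVec, dotProduct_mulVec, ← h3, star_mulVec,
        conjTranspose_conjTranspose]
    rw [h4]
    exact hψr
  rcases hcard with hcard | hcard
  · obtain ⟨e⟩ := Function.Embedding.nonempty_of_card_le hcard
    refine ⟨of fun i a => if i = e a then 1 else 0,
      of fun i b => ∑ a, if i = e a then ψ (a, b) else 0, key _ _ fun a b => ?_⟩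
    rw [Finset.sum_eq_single (e a)]
    · rw [of_apply, of_apply, if_pos rfl, star_one, one_mul, Finset.sum_eq_single a, if_pos rfl]
      · intro a' _ ha'
        rw [if_neg (fun hc => ha' (e.injective hc).symm)]
      · intro hcc
        exact absurd (Finset.mem_univ _) hcc
    · intro i _ hi
      rw [of_apply, if_neg hi, star_zero, zero_mul]
    · intro hcc
      exact absurd (Finset.mem_univ _) hcc
  · obtain ⟨e⟩ := Function.Embedding.nonempty_of_card_le hcard
    refine ⟨of fun i a => ∑ b, if i = e b then star (ψ (a, b)) else 0,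
      of fun i b => if i = e b then 1 else 0, key _ _ fun a b => ?_⟩
    rw [Finset.sum_eq_single (e b)]
    · rw [of_apply, of_apply, if_pos rfl, mul_one, Finset.sum_eq_single b, if_pos rfl, star_star]
      · intro b' _ hb'
        rw [if_neg (fun hc => hb' (e.injective hc).symm)]
      · intro hcc
        exact absurd (Finset.mem_univ _) hcc
    · intro i _ hi
      rw [of_apply (f := fun i b => if i = e b then 1 else 0), if_neg hi, mul_zero]
    · intro hcc
      exact absurd (Finset.mem_univ _) hcc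

theorem trace_zero_psd {I : Type} [Fintype I] [DecidableEq I] {M : Matrix I I ℂ}
    (h : M.PosSemidef) (h0 : M.trace.re = 0) : M = 0 := by
  have h1 : M.trace = 0 := by
    have h2 : star M.trace = M.trace := by rw [← trace_conjTranspose, h.1.eq]
    rw [RCLike.star_def, Complex.conj_eq_iff_real] at h2
    obtain ⟨r, hr⟩ := h2
    rw [hr, Complex.ofReal_re] at h0
    rw [hr, h0, Complex.ofReal_zero]
  exact h.trace_eq_zero_iff.mp h1

/-- rectangular filters cannot create key -/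
theorem keyPos_filterR {ρ : Matrix (A × B) (A × B) ℂ} (hρ : ρ.PosSemidef) (h1 : ρ.trace = 1)
    (X : Matrix D A ℂ) (Y : Matrix D B ℂ) {c : ℝ} (hc : 0 ≤ c)
    (h1' : ((c : ℂ) • ((X ⊗ₖ Y) * ρ * (X ⊗ₖ Y)ᴴ)).trace = 1)
    (h : KeyPos ((c : ℂ) • ((X ⊗ₖ Y) * ρ * (X ⊗ₖ Y)ᴴ))) : KeyPos ρ := by
  refine keyPos_sepOp (K := Unit) hρ h1 h1' (fun _ => 1)
    (fun _ => (((√c : ℝ) : ℂ) • X) * idF A ((√(1 : ℝ) : ℝ) : ℂ)) (fun _ => Y * idF B 1) ?_ h
  rw [Fintype.sum_unique, ← filtered_comp', filtered_idF ρ zero_le_one, Complex.ofReal_one,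
    one_smul, smul_kronecker, conjTranspose_smul, RCLike.star_def, Complex.conj_ofReal]
  simp only [Matrix.smul_mul, Matrix.mul_smul, smul_smul]
  rw [← Complex.ofReal_mul, Real.mul_self_sqrt hc]

/-- **The NPT half of `Q1` is a question about one state.** -/
theorem werner_iff (hd : 2 ≤ Fintype.card D) :
    wernerPt D ∈ closure {ρ | ρ.PosSemidef ∧ ρ.trace = 1 ∧ KeyPos ρ} ↔
      ∀ (A B : Type) [Fintype A] [DecidableEq A] [Fintype B] [DecidableEq B],
        Fintype.card A ≤ Fintype.card D ∨ Fintype.card B ≤ Fintype.card D →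
        ∀ ρ : Matrix (A × B) (A × B) ℂ, ρ.PosSemidef → ρ.trace = 1 →
          ¬ (pTrans ρ).PosSemidef → KeyPos ρ := by
  constructor
  · intro hlim A B _ _ _ _ hcard ρ hρ h1 hnpt
    obtain ⟨X, Y, hXY⟩ := npt_filter hcard hρ.1 hnpt
    obtain ⟨σ, hσ⟩ : ∃ σ, σ = (X ⊗ₖ Y) * ρ * (X ⊗ₖ Y)ᴴ := ⟨_, rfl⟩
    have hσp : σ.PosSemidef := by rw [hσ]; exact hρ.mul_mul_conjTranspose_same _
    obtain ⟨c, hc⟩ : ∃ c : ℝ, c = σ.trace.re := ⟨_, rfl⟩
    have hc1 : σ.trace = (c : ℂ) := by
      have h2 : star σ.trace = σ.trace := by rw [← trace_conjTranspose, hσp.1.eq]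
      rw [RCLike.star_def, Complex.conj_eq_iff_real] at h2
      obtain ⟨r, hr⟩ := h2
      rw [hc, hr, Complex.ofReal_re]
    have hc0 : 0 ≤ c := by
      have h2 := hσp.trace_nonneg
      rw [hc1, Complex.zero_le_real] at h2
      exact h2
    have hcne : c ≠ 0 := by
      intro h0
      have h2 := trace_zero_psd hσp (hc ▸ h0)
      rw [← hσ, h2, Matrix.mul_zero, trace_zero, Complex.zero_re] at hXY
      exact lt_irrefl _ hXY
    have hcpos : 0 < c := lt_of_le_of_ne hc0 (Ne.symm hcne)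
    have htr : (((c⁻¹ : ℝ) : ℂ) • σ).trace = 1 := by
      rw [trace_smul, hc1, smul_eq_mul, ← Complex.ofReal_mul, inv_mul_cancel₀ hcne,
        Complex.ofReal_one]
    have hpsd : (((c⁻¹ : ℝ) : ℂ) • σ).PosSemidef :=
      hσp.smul (Complex.zero_le_real.mpr (inv_nonneg.mpr hc0))
    have hk : KeyPos (((c⁻¹ : ℝ) : ℂ) • σ) := by
      refine werner_key hd hlim hpsd htr ?_
      rw [Matrix.mul_smul, trace_smul, smul_eq_mul, Complex.re_ofReal_mul]
      rw [← hσ] at hXY
      exact mul_neg_of_pos_of_neg (inv_pos.mpr hcpos) hXY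
    rw [hσ] at htr hk
    exact keyPos_filterR hρ h1 X Y (inv_nonneg.mpr hc0) htr hk
  · intro H
    have hcont : Continuous (wer D) := by
      unfold wer
      fun_prop
    have h1 : Tendsto (wer D) (𝓝[<] 0) (𝓝 (wernerPt D)) := by
      rw [← wer_zero]
      exact (hcont.tendsto 0).mono_left nhdsWithin_le_nhds
    refine mem_closure_of_tendsto h1 ?_
    filter_upwards [Ioo_mem_nhdsLT (show (-1 : ℝ) < 0 by norm_num)] with φ hφ
    exact ⟨wer_psd hd hφ.1.le hφ.2.le, wer_trace hd φ,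
      H D D (Or.inl (le_refl _)) _ (wer_psd hd hφ.1.le hφ.2.le) (wer_trace hd φ)
        (wer_npt hd hφ.2)⟩

end H625

end Vale.Agent.P372
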