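import Vale.Agent.P372.H625.Ball
import Vale.Agent.P372.H625.Defs

open Matrix Kronecker
open scoped ComplexOrder MatrixOrder

set_option linter.unusedSectionVars false

namespace Vale.Agent.P372

namespace H625

variable {A B : Type} [Fintype A] [DecidableEq A] [Fintype B] [DecidableEq B]

/-- one copy, as a power -/
def oneEquiv (A B : Type) : ((Fin 1 → A) × (Fin 1 → B)) ≃ A × B :=
  (Equiv.funUnique (Fin 1) A).prodCongr (Equiv.funUnique (Fin 1) B)

theorem tpow_one' (ρ : Matrix (A × B) (A × B) ℂ) :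
    tpow 1 ρ = ρ.submatrix (oneEquiv A B) (oneEquiv A B) := by
  ext p q
  rw [tpow, Fin.prod_univ_one]
  rfl

/-- the trivial filter, with a weight -/
noncomputable def idF (A : Type) [DecidableEq A] (c : ℂ) : Matrix A (Fin 1 → A) ℂ :=
  c • (1 : Matrix A A ℂ).submatrix id (Equiv.funUnique (Fin 1) A)

theorem filtered_idF (ρ : Matrix (A × B) (A × B) ℂ) {s : ℝ} (hs : 0 ≤ s) :
    filtered 1 ρ (idF A ((√s : ℝ) : ℂ)) (idF B 1) = (s : ℂ) • ρ := by
  have h1 : idF A ((√s : ℝ) : ℂ) ⊗ₖ idF B 1 =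
      ((√s : ℝ) : ℂ) • (1 : Matrix (A × B) (A × B) ℂ).submatrix (Equiv.refl _) (oneEquiv A B) := by
    rw [idF, idF, one_smul, smul_kronecker, ← one_kronecker_one]
    rfl
  rw [filtered, h1, tpow_one', conjTranspose_smul, conjTranspose_submatrix, conjTranspose_one,
    Matrix.smul_mul, Matrix.smul_mul, Matrix.mul_smul, smul_smul, submatrix_mul_equiv,
    submatrix_mul_equiv, Matrix.one_mul, Matrix.mul_one, RCLike.star_def, Complex.conj_ofReal,
    ← Complex.ofReal_mul, Real.mul_self_sqrt hs]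
  rfl

/-- **Mixing with a separable operator cannot create key.** -/
theorem keyPos_mix {ρ : Matrix (A × B) (A × B) ℂ} (hρ : ρ.PosSemidef) (h1 : ρ.trace = 1)
    {s : ℝ} (hs : 0 ≤ s) {σ : Matrix (A × B) (A × B) ℂ} (hσ : IsSep σ)
    (ht : ((s : ℂ) • ρ + σ).trace = 1) (h : KeyPos ((s : ℂ) • ρ + σ)) : KeyPos ρ := by
  obtain ⟨n, M, N, hM, hN, hσ'⟩ := hσ
  choose R hR using fun k => exists_eq_conjTranspose_mul_self (hM k)
  choose S hS using fun k => exists_eq_conjTranspose_mul_self (hN k)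
  obtain ⟨F, hF⟩ : ∃ F : Option (Fin n × A × B) →
      Σ m : ℕ, Matrix A (Fin m → A) ℂ × Matrix B (Fin m → B) ℂ,
      F = fun o => match o with
        | none => ⟨1, idF A ((√s : ℝ) : ℂ), idF B 1⟩
        | some x => ⟨0, of fun a _ => star (R x.1 x.2.1 a), of fun b _ => star (S x.1 x.2.2 b)⟩ :=
    ⟨_, rfl⟩
  refine keyPos_sepOp hρ h1 ht (fun k => (F k).1) (fun k => (F k).2.1) (fun k => (F k).2.2) ?_ h
  rw [Fintype.sum_option, hF]
  dsimp only
  rw [filtered_idF ρ hs, hσ', Fintype.sum_prod_type]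
  congr 1
  refine Finset.sum_congr rfl fun k _ => ?_
  rw [Fintype.sum_prod_type]
  ext ⟨a, b⟩ ⟨a', b'⟩
  rw [Matrix.sum_apply, kroneckerMap_apply, hR k, hS k, mul_apply, mul_apply, Finset.sum_mul_sum]
  refine Finset.sum_congr rfl fun i _ => ?_
  rw [Matrix.sum_apply]
  refine Finset.sum_congr rfl fun j _ => ?_
  rw [filtered, tpow_zero', Matrix.mul_one, conjTranspose_kronecker, ← mul_kronecker_mul,
    kroneckerMap_apply, mul_apply, mul_apply]
  simp

theorem sep_psd {ρ : Matrix (A × B) (A × B) ℂ} (h : IsSep ρ) : ρ.PosSemidef := by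
  obtain ⟨n, M, N, hM, hN, rfl⟩ := h
  exact posSemidef_sum _ fun k _ => (hM k).kronecker (hN k)

theorem sep_ppt {ρ : Matrix (A × B) (A × B) ℂ} (h : IsSep ρ) : (pTrans ρ).PosSemidef := by
  obtain ⟨n, M, N, hM, hN, rfl⟩ := h
  have h1 : pTrans (∑ k, M k ⊗ₖ N k) = ∑ k, M k ⊗ₖ (N k)ᵀ := by
    ext p q
    rw [pTrans, Matrix.sum_apply, Matrix.sum_apply]
    rfl
  rw [h1]
  exact posSemidef_sum _ fun k _ => (hM k).kronecker (hN k).transpose

/-- `(1 - t) ρ + t 1 / d` -/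
noncomputable def mixN (ρ : Matrix (A × B) (A × B) ℂ) (t : ℝ) : Matrix (A × B) (A × B) ℂ :=
  ((1 - t : ℝ) : ℂ) • ρ + ((t / Fintype.card (A × B) : ℝ) : ℂ) • 1

theorem card_pos_of_trace {ρ : Matrix (A × B) (A × B) ℂ} (h1 : ρ.trace = 1) :
    0 < (Fintype.card (A × B) : ℝ) := by
  have h : Nonempty (A × B) := by
    by_contra hc
    rw [not_nonempty_iff] at hc
    rw [Matrix.trace_eq_zero_of_isEmpty] at h1
    exact zero_ne_one h1
  exact_mod_cast Fintype.card_pos_iff.mpr h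

theorem mixN_trace {ρ : Matrix (A × B) (A × B) ℂ} (h1 : ρ.trace = 1) (t : ℝ) :
    (mixN ρ t).trace = 1 := by
  have hN := card_pos_of_trace h1
  rw [mixN, trace_add, trace_smul, trace_smul, h1, trace_one, smul_eq_mul, smul_eq_mul, mul_one,
    ← Complex.ofReal_natCast, ← Complex.ofReal_mul, div_mul_cancel₀ _ hN.ne', ← Complex.ofReal_add]
  simp

theorem mixN_psd {ρ : Matrix (A × B) (A × B) ℂ} (hρ : ρ.PosSemidef) {t : ℝ} (h0 : 0 ≤ t)
    (h1 : t ≤ 1) : (mixN ρ t).PosSemidef := by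
  refine (hρ.smul ?_).add (PosSemidef.one.smul ?_)
  · have : 0 ≤ 1 - t := by linarith
    exact_mod_cast this
  · have : 0 ≤ t / (Fintype.card (A × B) : ℝ) := by positivity
    exact_mod_cast this

theorem mixN_zero (ρ : Matrix (A × B) (A × B) ℂ) : mixN ρ 0 = ρ := by
  rw [mixN, zero_div, sub_zero, Complex.ofReal_one, Complex.ofReal_zero, one_smul, zero_smul,
    add_zero]

theorem mixN_one (ρ : Matrix (A × B) (A × B) ℂ) : IsSep (mixN ρ 1) := by
  rw [mixN, sub_self, Complex.ofReal_zero, zero_smul, zero_add]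
  exact sep_smul one_sep (by positivity)

theorem mixN_key {ρ : Matrix (A × B) (A × B) ℂ} (hρ : ρ.PosSemidef) (h1 : ρ.trace = 1) {t : ℝ}
    (ht0 : 0 ≤ t) (ht1 : t ≤ 1) (h : KeyPos (mixN ρ t)) : KeyPos ρ :=
  keyPos_mix hρ h1 (by linarith) (sep_smul one_sep (by positivity)) (mixN_trace h1 t) h

/-- a Lipschitz constant -/
noncomputable def lip (ρ : Matrix (A × B) (A × B) ℂ) : ℝ :=
  ∑ x : (A × B) × (A × B), ‖ρ x.1 x.2‖ + 1

theorem lip_pos (ρ : Matrix (A × B) (A × B) ℂ) : 0 < lip ρ := by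
  have : 0 ≤ ∑ x : (A × B) × (A × B), ‖ρ x.1 x.2‖ := Finset.sum_nonneg fun _ _ => norm_nonneg _
  rw [lip]
  linarith

theorem mixN_dist {ρ : Matrix (A × B) (A × B) ℂ} (h1 : ρ.trace = 1) (t t' : ℝ) (p q : A × B) :
    ‖mixN ρ t p q - mixN ρ t' p q‖ ≤ |t - t'| * lip ρ := by
  have hN := card_pos_of_trace h1
  have hN1 : 1 ≤ (Fintype.card (A × B) : ℝ) := by
    have : 0 < Fintype.card (A × B) := by exact_mod_cast hN
    exact_mod_cast this
  have e : mixN ρ t p q - mixN ρ t' p q = ((t - t' : ℝ) : ℂ) *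
      (((Fintype.card (A × B) : ℝ)⁻¹ : ℝ) * (1 : Matrix (A × B) (A × B) ℂ) p q - ρ p q) := by
    simp only [mixN, Matrix.add_apply, Matrix.smul_apply, smul_eq_mul]
    push_cast
    ring
  rw [e, norm_mul, Complex.norm_real, Real.norm_eq_abs]
  refine mul_le_mul_of_nonneg_left ?_ (abs_nonneg _)
  have h2 : ‖ρ p q‖ ≤ ∑ x : (A × B) × (A × B), ‖ρ x.1 x.2‖ :=
    Finset.single_le_sum (f := fun x : (A × B) × (A × B) => ‖ρ x.1 x.2‖)
      (fun _ _ => norm_nonneg _) (Finset.mem_univ (p, q))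
  have h3 : ‖((((Fintype.card (A × B) : ℝ)⁻¹ : ℝ) : ℂ) *
      (1 : Matrix (A × B) (A × B) ℂ) p q)‖ ≤ 1 := by
    rw [norm_mul, Complex.norm_real, Real.norm_eq_abs, abs_of_pos (inv_pos.mpr hN)]
    have h4 : ‖(1 : Matrix (A × B) (A × B) ℂ) p q‖ ≤ 1 := by
      rw [one_apply]
      split_ifs <;> simp
    calc _ ≤ (1 : ℝ) * 1 := mul_le_mul (inv_le_one_of_one_le₀ hN1) h4 (norm_nonneg _) zero_le_one
      _ = 1 := one_mul _
  calc _ ≤ _ := norm_sub_le _ _
    _ ≤ 1 + ∑ x : (A × B) × (A × B), ‖ρ x.1 x.2‖ := add_le_add h3 h2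
    _ = _ := by rw [lip, add_comm]

theorem pTrans_add (ρ σ : Matrix (A × B) (A × B) ℂ) : pTrans (ρ + σ) = pTrans ρ + pTrans σ := rfl

theorem pTrans_smul (c : ℂ) (ρ : Matrix (A × B) (A × B) ℂ) : pTrans (c • ρ) = c • pTrans ρ := rfl

theorem pTrans_one : pTrans (1 : Matrix (A × B) (A × B) ℂ) = 1 := by
  ext ⟨a, b⟩ ⟨a', b'⟩
  rw [pTrans, one_apply, one_apply]
  by_cases h : a = a' ∧ b = b'
  · rw [if_pos, if_pos]
    · rw [h.1, h.2]
    · rw [h.1, h.2]
  · rw [if_neg, if_neg]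
    · rw [Prod.mk.injEq]
      exact h
    · rw [Prod.mk.injEq]
      exact fun hc => h ⟨hc.1, hc.2.symm⟩

/-- **All states near a mixture of a zero-key state with noise have zero key.** -/
theorem mixN_ball {ρ : Matrix (A × B) (A × B) ℂ} (hρ : ρ.PosSemidef) (h1 : ρ.trace = 1)
    (hk : ¬ KeyPos ρ) {t : ℝ} (ht0 : 0 < t) (ht1 : t ≤ 1) :
    ∃ δ : ℝ, 0 < δ ∧ ∀ ρ' : Matrix (A × B) (A × B) ℂ, ρ'.IsHermitian → ρ'.trace = 1 →
      (∀ p q, ‖ρ' p q - mixN ρ t p q‖ < δ) →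
      ρ'.PosDef ∧ ¬ KeyPos ρ' ∧ ((pTrans ρ).PosSemidef → (pTrans ρ').PosDef) := by
  have hN := card_pos_of_trace h1
  obtain ⟨c, hc⟩ : ∃ c : ℝ, c = t / Fintype.card (A × B) := ⟨_, rfl⟩
  have hc0 : 0 < c := hc ▸ div_pos ht0 hN
  obtain ⟨K, hK⟩ : ∃ K : ℝ, K = Fintype.card ((A × B) × (A × B)) := ⟨_, rfl⟩
  have hK0 : 0 < K := by
    rw [hK, Fintype.card_prod (A × B) (A × B), Nat.cast_mul]
    exact mul_pos hN hN
  refine ⟨c / (4 * K), by positivity, fun ρ' hH' h1' hd => ?_⟩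
  obtain ⟨H, hH⟩ : ∃ H : Matrix (A × B) (A × B) ℂ, H = ((c⁻¹ : ℝ) : ℂ) • (ρ' - mixN ρ t) :=
    ⟨_, rfl⟩
  have hHh : H.IsHermitian := by
    have h2 : (mixN ρ t).IsHermitian := (mixN_psd hρ ht0.le ht1).1
    rw [hH, IsHermitian, conjTranspose_smul, conjTranspose_sub, hH'.eq, h2.eq, RCLike.star_def,
      Complex.conj_ofReal]
  have hHs : ∑ x : (A × B) × (A × B), ‖H x.1 x.2‖ ≤ 1 / 4 := by
    calc ∑ x : (A × B) × (A × B), ‖H x.1 x.2‖ ≤ ∑ _x : (A × B) × (A × B), c⁻¹ * (c / (4 * K)) := by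
          refine Finset.sum_le_sum fun x _ => ?_
          rw [hH, Matrix.smul_apply, smul_eq_mul, norm_mul, Complex.norm_real, Real.norm_eq_abs,
            abs_of_pos (inv_pos.mpr hc0), Matrix.sub_apply]
          exact mul_le_mul_of_nonneg_left (hd _ _).le (inv_pos.mpr hc0).le
      _ = 1 / 4 := by
          rw [Finset.sum_const, Finset.card_univ, nsmul_eq_mul, ← hK]
          field_simp
  have hS1 : IsSep (1 + H) := near_one_sep hHh (by linarith)
  have hS2 : IsSep (1 + (H + H)) := by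
    refine near_one_sep (hHh.add hHh) ?_
    calc ∑ x : (A × B) × (A × B), ‖(H + H) x.1 x.2‖ ≤
          ∑ x : (A × B) × (A × B), (‖H x.1 x.2‖ + ‖H x.1 x.2‖) :=
          Finset.sum_le_sum fun x _ => norm_add_le _ _
      _ ≤ 1 / 2 := by
          rw [Finset.sum_add_distrib]
          linarith
  have e1 : ρ' = ((1 - t : ℝ) : ℂ) • ρ + (c : ℂ) • (1 + H) := by
    have h2 : (c : ℂ) • H = ρ' - mixN ρ t := by
      rw [hH, smul_smul, ← Complex.ofReal_mul, mul_inv_cancel₀ hc0.ne', Complex.ofReal_one,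
        one_smul]
    rw [smul_add, h2, mixN, ← hc]
    abel
  have e2 : ρ' = ((1 - t : ℝ) : ℂ) • ρ + (((c / 2 : ℝ) : ℂ) • 1 +
      ((c / 2 : ℝ) : ℂ) • (1 + (H + H))) := by
    rw [e1]
    congr 1
    ext p q
    simp only [Matrix.smul_apply, Matrix.add_apply, smul_eq_mul]
    push_cast
    ring
  have ht' : (0 : ℂ) ≤ ((1 - t : ℝ) : ℂ) := by
    have : 0 ≤ 1 - t := by linarith
    exact_mod_cast this
  have hc' : (0 : ℂ) ≤ ((c / 2 : ℝ) : ℂ) := by
    have : 0 ≤ c / 2 := by positivity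
    exact_mod_cast this
  have hc'' : (0 : ℂ) < ((c / 2 : ℝ) : ℂ) := by
    have : 0 < c / 2 := by positivity
    exact_mod_cast this
  refine ⟨?_, ?_, ?_⟩
  · rw [e2]
    exact PosDef.posSemidef_add (hρ.smul ht')
      ((PosDef.one.smul hc'').add_posSemidef ((sep_psd hS2).smul hc'))
  · intro h
    rw [e1] at h h1'
    exact hk (keyPos_mix hρ h1 (by linarith) (sep_smul hS1 hc0.le) h1' h)
  · intro hp
    rw [e2, pTrans_add, pTrans_add, pTrans_smul, pTrans_smul, pTrans_smul, pTrans_one]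
    exact PosDef.posSemidef_add (hp.smul ht')
      ((PosDef.one.smul hc'').add_posSemidef ((sep_ppt hS2).smul hc'))

end H625

end Vale.Agent.P372
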